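import Vale.Agent.P190.Spec

/-! P190, module E: the symmetric group on five letters acts on the graded ring. -/

namespace Vale.Agent.P190

open MvPolynomial

namespace Au

variable {k K : Type} [Field k] [Field K] [Algebra k K] {v w : Fin 10 → K}

theorem algb (D : Type) [CommRing D] [IsDomain D] [Algebra k D] [Algebra D K] [IsScalarTower k D K]
    (h : ∀ e, ∃ l : D, algebraMap D K l = v e ^ 101)
    (top : IntermediateField.adjoin k (Set.range v) = ⊤) : Algebra.IsAlgebraic D K := ⟨fun x => by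
  have hx : x ∈ IntermediateField.adjoin k (Set.range v) := top ▸ trivial
  induction hx using IntermediateField.adjoin_induction with
  | mem x hx =>
    obtain ⟨e, rfl⟩ := hx
    obtain ⟨l, hl⟩ := h e
    exact IsAlgebraic.of_pow (n := 101) (by norm_num) (hl ▸ isAlgebraic_algebraMap l)
  | algebraMap c => rw [IsScalarTower.algebraMap_apply k D K]; exact isAlgebraic_algebraMap _
  | add x y _ _ a b => exact a.add b
  | inv x _ a => exact a.inv
  | mul x y _ _ a b => exact a.mul b⟩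

noncomputable def lq (k : Type) [Field k] : Fin 10 → MvPolynomial (Fin 2) k :=
  ![1, X 0, X 1, 1, X 0 - 1, X 1 - 1, 1, X 1 - X 0, 1, 1]

theorem lpoly (h : KD k v) (e : Fin 10) : aeval ![v 1 ^ 101, v 2 ^ 101] (lq k e) = v e ^ 101 := by
  fin_cases e <;> simp [lq, h.g0, h.g3, h.g6, h.g8, h.g9, h.r4, h.r5, h.r7]

theorem v_ne (h : KD k v) (e : Fin 10) : v e ≠ 0 := fun h0 => by
  have := lpoly h e
  rw [h0, zero_pow (by norm_num)] at this
  have a := congrArg (eval ![0, 1]) (h.ai.eq_zero_of_aeval_eq_zero _ this)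
  have b := congrArg (eval ![1, 0]) (h.ai.eq_zero_of_aeval_eq_zero _ this)
  fin_cases e <;> simp [lq] at a b

theorem iso (h : KD k v) (h' : KD k w) {Ω : Type} [Field Ω] [Algebra k Ω] [IsAlgClosed Ω]
    (ι : K →ₐ[k] Ω) : ∃ σ : K ≃ₐ[k] K, ∀ e, ∃ s : k, s ≠ 0 ∧ σ (v e) = s • w e := by
  have := h.ac
  let := (aeval (R := k) ![v 1 ^ 101, v 2 ^ 101]).toAlgebra
  let := (ι.comp (aeval (R := k) ![w 1 ^ 101, w 2 ^ 101])).toAlgebra
  have : IsScalarTower k (MvPolynomial (Fin 2) k) K := .of_algHom _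
  have : IsScalarTower k (MvPolynomial (Fin 2) k) Ω := .of_algHom _
  have := algb (MvPolynomial (Fin 2) k) (fun e => ⟨_, lpoly h e⟩) h.top
  have : FaithfulSMul (MvPolynomial (Fin 2) k) K :=
    (faithfulSMul_iff_algebraMap_injective _ _).2 h.ai
  have : FaithfulSMul (MvPolynomial (Fin 2) k) Ω :=
    (faithfulSMul_iff_algebraMap_injective _ _).2 (ι.injective.comp h'.ai)
  let τ₀ : K →ₐ[MvPolynomial (Fin 2) k] Ω := IsAlgClosed.lift
  let τ := τ₀.restrictScalars k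
  have key : ∀ e, ∃ s : k, s ≠ 0 ∧ τ (v e) = ι (s • w e) := fun e => by
    have n : ι (w e) ≠ 0 := (map_ne_zero _).2 (v_ne h' e)
    have a : (τ (v e) / ι (w e)) ^ 101 = 1 := by
      rw [div_pow, ← map_pow, ← map_pow, ← lpoly h, ← lpoly h', div_eq_one_iff_eq
        (by rw [lpoly h', map_pow]; exact pow_ne_zero _ n)]
      exact τ₀.commutes _
    obtain ⟨s, hs⟩ := minpoly.mem_range_of_degree_eq_one k (τ (v e) / ι (w e))
      (IsAlgClosed.degree_eq_one_of_irreducible k (minpoly.irreducible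
        (IsIntegral.of_pow (by norm_num : 0 < 101) (a ▸ isIntegral_one))))
    refine ⟨s, ?_, by rw [map_smul, Algebra.smul_def, hs, div_mul_cancel₀ _ n]⟩
    rintro rfl
    rw [← hs] at a; simp at a
  choose s s0 hs using key
  have e : τ.fieldRange = ι.fieldRange := by
    rw [τ.fieldRange_eq_map, ι.fieldRange_eq_map]
    nth_rewrite 1 [← h.top]
    rw [← h'.top, IntermediateField.adjoin_map, IntermediateField.adjoin_map]
    refine le_antisymm (IntermediateField.adjoin_le_iff.2 ?_) (IntermediateField.adjoin_le_iff.2 ?_)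
    · rintro _ ⟨_, ⟨e, rfl⟩, rfl⟩
      rw [hs, map_smul]
      exact IntermediateField.smul_mem _ (IntermediateField.subset_adjoin _ _
        (Set.mem_image_of_mem _ (Set.mem_range_self e)))
    · rintro _ ⟨_, ⟨e, rfl⟩, rfl⟩
      rw [show ι (w e) = (s e)⁻¹ • τ (v e) by rw [hs, map_smul, inv_smul_smul₀ (s0 e)]]
      exact IntermediateField.smul_mem _ (IntermediateField.subset_adjoin _ _
        (Set.mem_image_of_mem _ (Set.mem_range_self e)))
  refine ⟨(AlgEquiv.ofInjectiveField τ).trans ((Subalgebra.equivOfEq τ.range ι.range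
    (congrArg IntermediateField.toSubalgebra e)).trans (AlgEquiv.ofInjectiveField ι).symm),
    fun e => ⟨s e, s0 e, ?_⟩⟩
  rw [AlgEquiv.trans_apply, AlgEquiv.trans_apply, AlgEquiv.symm_apply_eq]
  exact Subtype.ext (hs e)

def ed : Fin 5 → Fin 5 → Fin 10 :=
  ![![0, 0, 1, 2, 3], ![0, 0, 4, 5, 6], ![1, 4, 0, 7, 8], ![2, 5, 7, 0, 9], ![3, 6, 8, 9, 0]]

def em (ρ : Equiv.Perm (Fin 5)) (x : Fin 10) : Fin 10 := ed (ρ (en x).1) (ρ (en x).2)

theorem en_ed : ∀ i j, i ≠ j → en (ed i j) = (i, j) ∨ en (ed i j) = (j, i) := by decide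
theorem ed_en : ∀ x, ed (en x).1 (en x).2 = x ∧ ed (en x).2 (en x).1 = x ∧ (en x).1 ≠ (en x).2 := by
  decide

theorem em_em (ρ : Equiv.Perm (Fin 5)) (x : Fin 10) : em ρ.symm (em ρ x) = x := by
  rcases en_ed _ _ (ρ.injective.ne (ed_en x).2.2) with h | h <;>
    simp [em, h, (ed_en x).1, (ed_en x).2.1]

def pe (ρ : Equiv.Perm (Fin 5)) : Equiv.Perm (Fin 10) := ⟨em ρ, em ρ.symm, em_em ρ, em_em ρ.symm⟩

theorem ray_iff (m : ℤ) (c : Fin 10 → ℕ) : Ray m c ↔
    ∀ i, ((∑ x, if i = (en x).1 ∨ i = (en x).2 then c x else 0 : ℕ) : ℤ) = 2 * m := by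
  simp [Ray, Fin.forall_fin_succ, Fin.sum_univ_succ, en, add_assoc]

theorem ray_pe (ρ : Equiv.Perm (Fin 5)) (m : ℤ) (c : Fin 10 → ℕ) :
    Ray m c ↔ Ray m (c ∘ pe ρ) := by
  rw [ray_iff, ray_iff, ← ρ.forall_congr_right]
  refine forall_congr' fun i => ?_
  rw [← Equiv.sum_comp (pe ρ)]
  refine Eq.congr_left (congrArg _ (Finset.sum_congr rfl fun x _ => if_congr ?_ rfl rfl))
  rcases en_ed _ _ (ρ.injective.ne (ed_en x).2.2) with h | h <;> simp [pe, em, h, or_comm]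

theorem ex_perm (e f : Fin 10) (h : dj e f) : ∃ ρ, pe ρ 1 = e ∧ pe ρ 5 = f := by
  have : ∀ e f : Fin 10, dj e f → Function.Injective
      ![(en e).1, (en f).1, (en e).2, (en f).2, -((en e).1 + (en e).2 + (en f).1 + (en f).2)] := by
    unfold dj; decide
  exact ⟨Equiv.ofBijective _ (Finite.injective_iff_bijective.1 (this e f h)), (ed_en e).1,
    (ed_en f).1⟩

/-- normalisation of the gauge -/
def nv (W : Fin 10 → K) : Fin 10 → K :=
  ![1, W 1 * W 6 / (W 8 * W 0), W 2 * W 6 / (W 9 * W 0), 1, W 4 * W 3 / (W 8 * W 0),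
    W 5 * W 3 / (W 9 * W 0), 1, W 7 * W 3 * W 6 / (W 8 * W 9 * W 0), 1, 1]

theorem mon_nv {W : Fin 10 → K} (h : ∀ e, W e ≠ 0) {m : ℤ} {c : Fin 10 → ℕ} (hc : Ray m c) :
    mon (nv W) c = (W 3 * W 6 / (W 0 ^ 3 * W 8 ^ 2 * W 9 ^ 2)) ^ m * mon W c := by
  obtain ⟨a, b, d, e, f⟩ := hc
  obtain ⟨n, rfl⟩ := Int.eq_ofNat_of_zero_le (a := m) (by omega)
  have a0 : (W 0 ^ 3) ^ n = W 0 ^ (c 0 + c 1 + c 2 + c 4 + c 5 + c 7) := by
    rw [← pow_mul]; congr 1; omega
  have a8 : (W 8 ^ 2) ^ n = W 8 ^ (c 8 + c 1 + c 4 + c 7) := by rw [← pow_mul]; congr 1; omega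
  have a9 : (W 9 ^ 2) ^ n = W 9 ^ (c 9 + c 2 + c 5 + c 7) := by rw [← pow_mul]; congr 1; omega
  have a3 : W 3 ^ n = W 3 ^ (c 4 + c 5 + c 7) / W 3 ^ c 3 := by
    rw [eq_div_iff (pow_ne_zero _ (h 3)), ← pow_add]; congr 1; omega
  have a6 : W 6 ^ n = W 6 ^ (c 1 + c 2 + c 7) / W 6 ^ c 6 := by
    rw [eq_div_iff (pow_ne_zero _ (h 6)), ← pow_add]; congr 1; omega
  have := h 0
  have := h 3
  have := h 6
  have := h 8
  have := h 9
  rw [zpow_natCast, div_pow, mul_pow, mul_pow, mul_pow, a0, a8, a9, a3, a6]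
  simp [mon, nv, Fin.prod_univ_succ, div_pow, mul_pow, pow_add]
  field_simp

def br (v : Fin 10 → K) (i j : Fin 5) : K :=
  ![1, 1, 1, 1, 0] i * ![0, 1, v 1 ^ 101, v 2 ^ 101, 1] j -
    ![1, 1, 1, 1, 0] j * ![0, 1, v 1 ^ 101, v 2 ^ 101, 1] i

theorem vb (h : KD k v) (i j : Fin 5) (hij : i ≠ j) :
    ((if i < j then 1 else -1 : k) • v (ed i j)) ^ 101 = br v i j := by
  have o : ∀ x : K, (-x) ^ 101 = -x ^ 101 := fun x => Odd.neg_pow (by decide) x
  fin_cases i <;> fin_cases j <;>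
    simp [ed, br, o, h.g0, h.g3, h.g6, h.g8, h.g9, h.r4, h.r5, h.r7] at hij ⊢

end Au

open Au

theorem aut (hR : GrStmt) : AutStmt := by
  intro k K _ _ _ v h e f hd
  obtain ⟨ρ, h1, h2⟩ := ex_perm e f hd
  obtain ⟨ε, hε⟩ : ∃ ε : Fin 10 → k,
    ε = fun x => if ρ.symm (en x).1 < ρ.symm (en x).2 then 1 else -1 := ⟨_, rfl⟩
  have ε0 : ∀ x, ε x ≠ 0 := fun x => by rw [hε]; dsimp only; split_ifs <;> simp
  obtain ⟨W, hW⟩ : ∃ W : Fin 10 → K, W = fun x => ε x • v ((pe ρ).symm x) := ⟨_, rfl⟩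
  have W0 : ∀ x, W x ≠ 0 := fun x => hW ▸ smul_ne_zero (ε0 x) (v_ne h _)
  have W1 : ∀ x, W x ^ 101 = br v (ρ.symm (en x).1) (ρ.symm (en x).2) := fun x => by
    rw [hW, hε]; exact vb h _ _ (ρ.symm.injective.ne (ed_en x).2.2)
  obtain ⟨u, hu⟩ : ∃ u, u = W 3 * W 6 / (W 0 ^ 3 * W 8 ^ 2 * W 9 ^ 2) := ⟨_, rfl⟩
  have u0 : u ≠ 0 := by simp [hu, W0]
  have sm : ∀ (s : Fin 10 → k) (w : Fin 10 → K) c,
      mon (fun x => s x • w x) c = (∏ x, s x ^ c x) • mon w c := fun s w c => by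
    simp [mon, smul_pow, Finset.prod_smul]
  have n0 : ∀ {s : Fin 10 → k}, (∀ x, s x ≠ 0) → ∀ c : Fin 10 → ℕ, ∏ x, s x ^ c x ≠ 0 :=
    fun hs c => Finset.prod_ne_zero_iff.2 fun x _ => pow_ne_zero _ (hs x)
  have key : ∀ m c, Ray m c →
      mon (nv W) c = (∏ x, ε x ^ c x) • (u ^ m * mon v (c ∘ pe ρ)) := fun m c hc => by
    rw [mon_nv W0 hc, ← hu, hW, sm, mul_smul_comm, mon, mon, ← Equiv.prod_comp (pe ρ) fun x => v ((pe ρ).symm x) ^ c x]
    simp
  have top : IntermediateField.adjoin k (Set.range (nv W)) = ⊤ := by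
    have : ∀ m, ∀ a ∈ RR k v m, u ^ m * a ∈ IntermediateField.adjoin k (Set.range (nv W)) :=
      fun m a ha => by
        induction ha using Submodule.span_induction with
        | mem x hx =>
          obtain ⟨c, hc, rfl⟩ := hx
          obtain ⟨c, rfl⟩ : ∃ d, c = d ∘ pe ρ := ⟨c ∘ (pe ρ).symm, by ext; simp⟩
          rw [← inv_smul_smul₀ (n0 ε0 c) (_ * _), ← key m c ((ray_pe ρ m c).2 hc)]
          exact IntermediateField.smul_mem _ (prod_mem fun x _ =>
            pow_mem (IntermediateField.subset_adjoin _ _ (Set.mem_range_self x)) _)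
        | zero => simp
        | add x y _ _ a b => rw [mul_add]; exact add_mem a b
        | smul c x _ a => rw [mul_smul_comm]; exact IntermediateField.smul_mem _ a
    refine eq_top_iff.2 fun g _ => ?_
    obtain ⟨i, a, b, ha, hb, b0, hg⟩ := (hR k K v h).1.frac g 0
    rw [add_zero] at ha
    have e := div_mem (this i a ha) (this i b hb)
    rwa [mul_div_mul_left _ _ (zpow_ne_zero _ u0), ← hg, mul_div_cancel_right₀ _ b0] at e
  have p0 := W0 0
  have p8 := W0 8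
  have p9 := W0 9
  have r4 : nv W 4 ^ 101 = nv W 1 ^ 101 - 1 := by
    simp only [nv, Matrix.cons_val, div_pow, mul_pow]
    field_simp
    simp only [W1, en, Matrix.cons_val, br]; ring
  have r5 : nv W 5 ^ 101 = nv W 2 ^ 101 - 1 := by
    simp only [nv, Matrix.cons_val, div_pow, mul_pow]
    field_simp
    simp only [W1, en, Matrix.cons_val, br]; ring
  have r7 : nv W 7 ^ 101 = nv W 2 ^ 101 - nv W 1 ^ 101 := by
    simp only [nv, Matrix.cons_val, div_pow, mul_pow]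
    field_simp
    simp only [W1, en, Matrix.cons_val, br]; ring
  have := algb (v := nv W) (Algebra.adjoin k (Set.range ![nv W 1 ^ 101, nv W 2 ^ 101])) (fun e => by
    refine ⟨⟨aeval ![nv W 1 ^ 101, nv W 2 ^ 101] (lq k e), by
      rw [Algebra.adjoin_range_eq_range_aeval]; exact ⟨_, rfl⟩⟩, ?_⟩
    fin_cases e <;> simp [lq, r4, r5, r7] <;> simp [nv]) top
  obtain ⟨σ, hσ⟩ := iso h ⟨h.ac, h.ch, rfl, rfl, rfl, rfl, rfl, r4, r5, r7,
    (Algebra.IsAlgebraic.isTranscendenceBasis_of_le_trdeg_of_finite k _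
      h.ai.cardinalMk_le_trdeg).1, top⟩ (IsScalarTower.toAlgHom k K (AlgebraicClosure K))
  choose s s0 hs using hσ
  refine ⟨pe ρ, σ, u, h1, h2, u0, ray_pe ρ, fun m c hc => ⟨_, mul_ne_zero (n0 s0 c) (n0 ε0 c), ?_⟩⟩
  rw [mul_smul, ← key m c hc, ← sm]
  simp [mon, hs]

end Vale.Agent.P190
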