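import Vale.Agent.P190.Base2

namespace Vale.Agent.P190

open Module

section gen
variable {k C V W : Type} [Field k] [CommRing C] [Algebra k C] [AddCommGroup V] [Module k V]
  [Module C V] [IsScalarTower k C V] [AddCommGroup W] [Module k W]

theorem hp_shift {x : Fin 3 → C} {G : Fam k V} (hG : FG x G) (c : ℤ) :
    rk (fun m => G (m + c)) = rk G ∧ dg (fun m => G (m + c)) = dg G + rk G * c ∧
      cs (fun m => G (m + c)) = HP G c := by
  obtain ⟨m0, h⟩ := hG.isHP
  refine hp_eq (m0 := m0 - c) fun m hm => ?_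
  rw [hf_def, ← hf_def, h _ (by omega), HP, HP]; push_cast; ring

omit [Algebra k C] [Module C V] [IsScalarTower k C V] in
/-- families with eventually equal Hilbert functions -/
theorem hp_congr {G : Fam k V} {U : Fam k W} {m0 : ℤ} (h : ∀ m ≥ m0, hf G m = hf U m) :
    rk G = rk U ∧ dg G = dg U ∧ cs G = cs U := by
  have : IsHP (hf G) = IsHP (hf U) := by
    funext t
    exact propext ⟨fun ⟨n, hn⟩ => ⟨max n m0, fun m hm => by
      rw [← h m (by omega), hn m (by omega)]⟩, fun ⟨n, hn⟩ => ⟨max n m0, fun m hm => by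
      rw [h m (by omega), hn m (by omega)]⟩⟩
  simp [rk, dg, cs, hp, this]

end gen

section ring
variable {k K V : Type} [Field k] [Field K] [Algebra k K] [AddCommGroup V] [Module k V]
  [Module K V] [IsScalarTower k K V] {R : Fam k K} {x : Fin 3 → K} {j0 : ℕ}

lemma dR_smul {b : K} (hb : b ≠ 0) (A : Submodule k V) [FiniteDimensional k A] :
    dR (A.map (ml k b)) = dR A := dR_map _ _ fun v _ h => by simpa [hb] using h

theorem rk_le_of_smul {G U : Fam k V} (hG : FG x G) (hU : FG x U) {b : K} (hb : b ≠ 0) {j : ℤ}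
    (h : ∀ m, ∀ v ∈ G m, b • v ∈ U (j + m)) :
    rk G ≤ rk U ∧ (rk G = rk U → dg G ≤ dg U + rk U * j) := by
  obtain ⟨m0, h0⟩ := hG.isHP
  obtain ⟨m1, h1⟩ := hU.isHP
  obtain ⟨a, b, -⟩ := poly_le (a := rk G) (b := dg G) (c := cs G) (a' := rk U)
    (b' := dg U + rk U * j) (c' := HP U j) (m0 := max m0 (m1 - j)) fun m hm => by
      have := hG.fin m
      have := hU.fin (j + m)
      have := dR_mono (A := (G m).map (ml k b)) (B := U (j + m))
        (by rintro _ ⟨v, hv, rfl⟩; exact h m v hv)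
      rw [dR_smul hb, ← hf_def, ← hf_def, h0 _ (by omega), h1 _ (by omega), HP, HP] at this
      rw [HP]; push_cast at this; linarith
  exact ⟨a, b⟩

/-- Submodules of free modules. -/
theorem free_bound {τ : Type} [Fintype τ] (h : Ind k x) (c : τ → ℤ) {U : Fam k (τ → K)}
    (hU : St x U) (hle : ∀ m, U m ≤ Fr k x c m) :
    ∃ S : Finset τ, rk U = S.card ∧ dg U ≤ ∑ l ∈ S, ((c l : ℝ) + 3 / 2) := by
  classical
  have key : ∀ s : Finset τ, ∀ U : Fam k (τ → K), St x U → (∀ m, U m ≤ Fr k x c m) →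
      (∀ m, ∀ v ∈ U m, ∀ l ∉ s, v l = 0) →
      ∃ S ⊆ s, rk U = S.card ∧ dg U ≤ ∑ l ∈ S, ((c l : ℝ) + 3 / 2) := by
    intro s
    induction s using Finset.induction_on with
    | empty =>
      intro U _ _ h0
      have : U = fun _ => ⊥ := funext fun m => eq_bot_iff.2 fun v hv =>
        funext fun l => h0 m v hv l (by simp)
      exact ⟨∅, le_rfl, by simp [this, hp_bot.1], by simp [this, hp_bot.2.1]⟩
    | insert a s ha ih =>
      intro U hU hle h0
      let L : (τ → K) →ₗ[K] K := LinearMap.proj a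
      let U' : Fam k (τ → K) := fun m => U m ⊓ LinearMap.ker (L.restrictScalars k)
      let I : Fam k K := fun m => (U m).map (L.restrictScalars k)
      have fU := (fg_Fr x c).sub hU hle
      have fI : FG x I := fU.map L
      have sU' : St x U' := fun i m v hv => ⟨hU i m v hv.1, by
        have : v a = 0 := hv.2
        simp [L, this]⟩
      obtain ⟨S, hS, h1, h2⟩ := ih U' sU' (fun m => inf_le_left.trans (hle m)) fun m v hv l hl => by
        by_cases e : l = a
        · exact e ▸ hv.2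
        · exact h0 m v hv.1 l (by simp [e, hl])
      obtain ⟨m1, e1⟩ := fI.isHP
      obtain ⟨m2, e2⟩ := (fU.sub sU' fun m => inf_le_left).isHP
      obtain ⟨r1, r2, -⟩ := hp_eq (G := U) (a := rk I + rk U') (b := dg I + dg U')
        (c := cs I + cs U') (m0 := max m1 m2) fun m hm => by
          have := fU.fin m
          rw [hf_def, ← dR_rn (L.restrictScalars k), ← hf_def I, ← hf_def U', e1 _ (by omega),
            e2 _ (by omega), HP, HP]; ring
      by_cases hI : I = fun _ => ⊥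
      · exact ⟨S, hS.trans (Finset.subset_insert _ _), by rw [r1, hI, hp_bot.1, h1, zero_add],
          by rw [r2, hI, hp_bot.2.1, zero_add]; exact h2⟩
      obtain ⟨b, hb⟩ := Function.ne_iff.1 hI
      obtain ⟨f, hf, hf0⟩ := Submodule.exists_mem_ne_zero_of_ne_bot hb
      have fA := (fg_Ax (k := k) x).shift (c a)
      obtain ⟨a1, a2, -⟩ := hp_shift (fg_Ax (k := k) x) (c a)
      obtain ⟨b1, b2, -⟩ := hp_Ax h
      obtain ⟨c1, c2, -⟩ := hp_mono fA fI.st (by
        rintro m _ ⟨v, hv, rfl⟩; exact mem_Fr.1 (hle m hv) a)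
      have c3 := (rk_le_of_smul (fg_Ax (k := k) x) fI hf0 (j := b) fun m v hv => by
        simpa [add_comm, mul_comm] using fI.st.ax hv hf).1
      have c4 : rk I = 1 := by linarith
      have haS : a ∉ S := fun e => ha (hS e)
      refine ⟨insert a S, Finset.insert_subset_insert _ hS, ?_, ?_⟩
      · rw [r1, c4, h1, Finset.card_insert_of_notMem haS]; push_cast; ring
      · have := c2 (by linarith)
        rw [r2, Finset.sum_insert haS]; rw [a2, b1, b2] at this; linarith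
  obtain ⟨S, -, hS⟩ := key Finset.univ U hU hle (by simp)
  exact ⟨S, hS⟩

theorem RSt.st {ι : Type} {y : ι → K} (hy : ∀ i, y i ∈ R 1) {G : Fam k V} (hG : RSt R G) :
    St y G := fun i m v hv => by simpa [add_comm] using hG 1 m _ v (hy i) hv

theorem Gr.rst (hR : Gr R) : RSt R R := fun j m a v ha hv => hR.mul j m a v ha hv

theorem Gr.one (hR : Gr R) : (1 : K) ∈ R 0 := hR.zero ▸ Submodule.mem_span_singleton_self _

theorem Gr.pow (hR : Gr R) {i : ℤ} {a : K} (ha : a ∈ R i) (n : ℕ) : a ^ n ∈ R (i * n) := by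
  induction n with
  | zero => simpa using hR.one
  | succ n ih => simpa [pow_succ, mul_add] using hR.mul _ _ _ _ ih ha

theorem Hsop.fg (hR : Gr R) (hx : Hsop R x j0) : FG x R :=
  ⟨hR.rst.st hx.1, hR.fin, ⟨0, hR.neg⟩, ⟨j0, hx.2⟩⟩

theorem Hsop.ax_le (hR : Gr R) (hx : Hsop R x j0) (m : ℤ) : Ax k x m ≤ R m := fun a ha => by
  simpa using (hx.fg hR).st.ax ha hR.one

/-- `R` is generated over the polynomial ring in degrees `0 ≤ g ≤ j0`. -/
theorem Hsop.gens (hR : Gr R) (hx : Hsop R x j0) :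
    ∃ (t : ℕ) (v : Fin t → K) (g : Fin t → ℤ), (∀ l, v l ∈ R (g l) ∧ 0 ≤ g l ∧ g l ≤ j0) ∧
      ∀ m, ∀ u ∈ R m, ∃ a : Fin t → K, (∀ l, a l ∈ Ax k x (m - g l)) ∧ u = ∑ l, a l * v l := by
  obtain ⟨t, v, g, h, h'⟩ := gens_aux (x := x) hR.fin hR.neg hx.2
  exact ⟨t, v, g, fun l => ⟨(h l).1, (h l).2.1, (h l).2.2.trans (by simp)⟩, h'⟩

/-- The `R`-module generated by `v l` in degree `g l`. -/
noncomputable def gen {τ : Type} (R : Fam k K) (v : τ → V) (g : τ → ℤ) : Fam k V := fun m =>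
  ⨆ l, (R (m - g l)).map ((LinearMap.toSpanSingleton K V (v l)).restrictScalars k)

lemma gen_eq {τ : Type} [Fintype τ] (v : τ → V) (g : τ → ℤ) (m : ℤ) : gen R v g m =
    (Submodule.pi Set.univ fun l => R (m - g l)).map
      ((Fintype.linearCombination K v).restrictScalars k) := by
  classical
  rw [← Submodule.iSup_map_single, Submodule.map_iSup, gen]
  congr; funext l
  rw [← Submodule.map_comp]
  congr 1; ext a; simp

theorem mem_gen {τ : Type} [Fintype τ] {v : τ → V} {g : τ → ℤ} {m : ℤ} {u : V} :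
    u ∈ gen R v g m ↔ ∃ a : τ → K, (∀ l, a l ∈ R (m - g l)) ∧ u = ∑ l, a l • v l := by
  simp [gen_eq, Submodule.mem_pi, Fintype.linearCombination_apply, eq_comm]

theorem smul_mem_gen {τ : Type} {v : τ → V} {g : τ → ℤ} {m : ℤ} (l : τ) {a : K}
    (ha : a ∈ R (m - g l)) : a • v l ∈ gen R v g m :=
  Submodule.mem_iSup_of_mem l ⟨a, ha, rfl⟩

theorem gen_le {τ : Type} {v : τ → V} {g : τ → ℤ} {U : Fam k V} (hU : RSt R U)
    (hv : ∀ l, v l ∈ U (g l)) (m : ℤ) : gen R v g m ≤ U m := iSup_le fun l => by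
  rintro _ ⟨a, ha, rfl⟩
  simpa using hU _ _ a _ ha (hv l)

theorem fg_gen {τ : Type} [Fintype τ] (hR : FG x R) (v : τ → V) (g : τ → ℤ) :
    FG x (gen R v g) := by
  have := FG.iSup fun l => (hR.shift (-g l)).map (LinearMap.toSpanSingleton K V (v l))
  simp only [← sub_eq_add_neg] at this
  exact this

lemma rst_gen' {τ : Type} (hR : RSt R R) (v : τ → V) (g : τ → ℤ) : RSt R (gen R v g) := by
  intro j m a u ha hu
  refine Submodule.iSup_induction _ (motive := fun u => a • u ∈ gen R v g (j + m)) hu ?_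
    (by simp) fun a b ha hb => by rw [smul_add]; exact add_mem ha hb
  rintro l _ ⟨b, hb, rfl⟩
  have := hR _ _ a b ha hb
  rw [← add_sub_assoc] at this
  simpa [mul_smul] using smul_mem_gen l this

theorem rst_gen {τ : Type} (hR : Gr R) (v : τ → V) (g : τ → ℤ) : RSt R (gen R v g) :=
  rst_gen' hR.rst v g

lemma hf_gen {τ : Type} [Fintype τ] (hR : ∀ m, FiniteDimensional k (R m)) (v : τ → V) (g : τ → ℤ)
    (m : ℤ) : hf (gen R v g) m ≤ ∑ l, hf R (m - g l) ∧
      ((∀ a : τ → K, (∀ l, a l ∈ R (m - g l)) → ∑ l, a l • v l = 0 → a = 0) →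
        hf (gen R v g) m = ∑ l, hf R (m - g l)) := by
  classical
  have e : dR (Submodule.pi Set.univ fun l => R (m - g l)) = ∑ l, hf R (m - g l) := by
    rw [dR, finrank_pi_sub]; push_cast; rfl
  have : FiniteDimensional k (Submodule.pi Set.univ fun l => R (m - g l)) := by
    rw [← Submodule.iSup_map_single]; infer_instance
  rw [hf_def, gen_eq, ← e]
  refine ⟨?_, fun h => dR_map _ _ fun a ha h0 => h a (fun l => ha l trivial) ?_⟩
  · rw [← dR_rn ((Fintype.linearCombination K v).restrictScalars k)]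
    exact le_add_of_nonneg_right (dR_nonneg _)
  · simpa [Fintype.linearCombination_apply] using h0

lemma hp_sum {τ : Type} [Fintype τ] (hR : FG x R) {G : Fam k V} {g : τ → ℤ}
    (h : ∀ m, hf G m = ∑ l, hf R (m - g l)) : rk G = Fintype.card τ * rk R ∧
      dg G = Fintype.card τ * dg R - rk R * ∑ l, (g l : ℝ) ∧
      ∀ y : ℝ, HP G y = ∑ l, HP R (y - g l) := by
  obtain ⟨m0, h0⟩ := hR.isHP
  have e : ∀ y : ℝ, ∑ l, HP R (y - g l) = Fintype.card τ * rk R * y ^ 2 / 2 +
      (Fintype.card τ * dg R - rk R * ∑ l, (g l : ℝ)) * y + ∑ l, HP R (-g l) := fun y => by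
    have : ∀ l, HP R (y - g l) = rk R * y ^ 2 / 2 + (dg R - rk R * g l) * y + HP R (-g l) :=
      fun l => by simp only [HP]; ring
    simp only [this, Finset.sum_add_distrib, ← Finset.sum_mul, Finset.sum_sub_distrib,
      ← Finset.mul_sum, Finset.sum_const, Finset.card_univ, nsmul_eq_mul]
    ring
  obtain ⟨a, b, c⟩ := hp_eq (G := G) (m0 := m0 + ∑ l, |g l|) fun m hm => by
    rw [h, ← e]
    refine Finset.sum_congr rfl fun l _ => ?_
    have := Finset.single_le_sum (f := fun l => |g l|) (fun l _ => abs_nonneg _) (Finset.mem_univ l)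
    have := le_abs_self (g l)
    rw [h0 _ (by omega)]; push_cast; rfl
  exact ⟨a, b, fun y => by rw [e, HP, a, b, c]⟩

theorem hp_gen {τ : Type} [Fintype τ] (hR : FG x R) {v : τ → V} (hv : LinearIndependent K v)
    (g : τ → ℤ) : rk (gen R v g) = Fintype.card τ * rk R ∧
      dg (gen R v g) = Fintype.card τ * dg R - rk R * ∑ l, (g l : ℝ) ∧
      ∀ y : ℝ, HP (gen R v g) y = ∑ l, HP R (y - g l) :=
  hp_sum hR fun m => (hf_gen hR.fin v g m).2 fun a _ h =>
    funext (Fintype.linearIndependent_iff.1 hv a h)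

theorem Hsop.ind (hR : Gr R) (hx : Hsop R x j0) (hd : 0 < rk R) : Ind k x := by
  intro n f hf h0
  by_contra hne
  have hX : Ind k (MvPolynomial.X : Fin 3 → MvPolynomial (Fin 3) k) := fun n f _ h => by
    simpa using h
  obtain ⟨m0, e0⟩ := (fg_Ax (k := k) x).isHP
  have r0 : rk (Ax k x) ≤ 0 := by
    refine (poly_le (b := dg (Ax k x)) (c := cs (Ax k x)) (b' := n) (c' := (3 * n - n ^ 2) / 2)
      (m0 := max m0 n) fun m hm => ?_).1
    have fA := fg_Ax (k := k) (MvPolynomial.X : Fin 3 → MvPolynomial (Fin 3) k)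
    have := fA.fin m
    have := fA.fin (m - n)
    let L := (MvPolynomial.aeval (R := k) x).toLinearMap
    have h1 := dR_rn L (Ax k MvPolynomial.X m)
    have h2 : (Ax k MvPolynomial.X m).map L = Ax k x m := by
      simp only [Ax]; split_ifs <;> simp [L, ← Submodule.map_comp]
    have h3 := dR_mono (A := (Ax k MvPolynomial.X (m - n)).map (ml k f))
      (B := Ax k MvPolynomial.X m ⊓ LinearMap.ker L) (by
        rintro _ ⟨g, hg, rfl⟩
        exact ⟨by simpa using Ax_mul (mem_Ax.2 ⟨f, hf, by simp⟩) hg, by simp [L, h0]⟩)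
    rw [dR_map _ _ fun v _ h => by simpa [hne] using h, ← hf_def, hf_Ax hX (by omega)] at h3
    rw [h2, ← hf_def, ← hf_def, hf_Ax hX (by omega), e0 _ (by omega), HP] at h1
    push_cast at h3
    nlinarith
  obtain ⟨t, v, g, -, hg⟩ := hx.gens hR
  obtain ⟨m1, e1⟩ := (hx.fg hR).isHP
  let G : Fam k (Fin t → K) := Fr k x (-g)
  have h4 := (hp_sum (fg_Ax (k := k) x) (G := G) (g := g) fun m => by
    simp [G, hf_Fr, sub_eq_add_neg]).1
  obtain ⟨m2, e2⟩ := (fg_Fr (k := k) x (-g)).isHP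
  have h5 := (poly_le (a := rk R) (a' := rk G) (m0 := max m1 m2) fun m hm => by
    have := (fg_gen (fg_Ax (k := k) x) v g).fin m
    have h6 := hf_le (U := R) (G := gen (Ax k x) v g) (m := m) (n := m) fun u hu =>
      mem_gen.2 (hg m u hu)
    have h7 := (hf_gen (fg_Ax (k := k) x).fin v g m).1
    have h8 := hf_Fr (k := k) x (-g) m
    simp only [Pi.neg_apply, ← sub_eq_add_neg] at h8
    rw [← h8, e2 _ (by omega)] at h7
    rw [e1 _ (by omega)] at h6
    exact h6.trans h7).1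
  nlinarith [(Nat.cast_nonneg (Fintype.card (Fin t)) : (0 : ℝ) ≤ _)]

theorem Ind.ne (h : Ind k x) (i : Fin 3) : x i ≠ 0 := fun e =>
  MvPolynomial.X_ne_zero i (h 1 _ (MvPolynomial.isHomogeneous_X k i) (by simpa using e))

/-- every nonzero homogeneous element divides a nonzero element of the polynomial ring -/
theorem Hsop.nrm (hR : Gr R) (hx : Hsop R x j0) (hd : 0 < rk R) {j : ℤ} {b : K} (hb : b ∈ R j)
    (hb0 : b ≠ 0) : ∃ i b', b' ∈ R i ∧ b' ≠ 0 ∧ b * b' ∈ Ax k x (j + i) := by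
  by_contra hc
  push Not at hc
  obtain ⟨m0, e⟩ := (hx.fg hR).isHP
  have := (poly_le (a := rk R + 1) (a' := rk R) (b := dg R + j + 3 / 2) (b' := dg R + rk R * j)
    (c := cs R + (j + 1) * (j + 2) / 2) (c' := HP R j) (m0 := max m0 (max (m0 - j) (-j)))
    fun m hm => by
      have := hR.fin m
      have := hR.fin (j + m)
      have := (fg_Ax (k := k) x).fin (j + m)
      have h1 := dR_adj (ml k b) (R m) (Ax k x (j + m))
      have h2 := dR_mono (A := Ax k x (j + m) ⊔ (R m).map (ml k b)) (B := R (j + m))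
        (sup_le (hx.ax_le hR _) (by rintro _ ⟨v, hv, rfl⟩; exact hR.mul _ _ _ _ hb hv))
      rw [show R m ⊓ (Ax k x (j + m)).comap (ml k b) = ⊥ from eq_bot_iff.2 fun v hv => by
        by_contra h; exact hc m v hv.1 h hv.2, dR_bot, ← hf_def, ← hf_def,
        hf_Ax (hx.ind hR hd) (by omega), e _ (by omega)] at h1
      rw [← hf_def R, e _ (by omega)] at h2
      simp only [HP] at *
      push_cast at *
      nlinarith).1
  linarith

theorem clr (hR : Gr R) {U : Fam k V} (hU : RSt R U) {v : V} (hv : v ∈ spK K U) (g : ℤ) :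
    ∃ j b, b ∈ R j ∧ b ≠ 0 ∧ b • v ∈ U (j + g) := by
  induction hv using Submodule.span_induction with
  | mem v h =>
    obtain ⟨m, h⟩ := h
    obtain ⟨i, a, b, ha, hb, h0, e⟩ := hR.frac 1 (g - m)
    rw [one_mul] at e
    have := hU _ _ _ _ ha h
    exact ⟨i, b, hb, h0, by rwa [← e, show i + (g - m) + m = i + g by ring] at this⟩
  | zero => exact ⟨0, 1, hR.one, one_ne_zero, by simp⟩
  | add u w _ _ hu hw =>
    obtain ⟨i, a, ha, ha0, h1⟩ := hu
    obtain ⟨j, b, hb, hb0, h2⟩ := hw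
    refine ⟨i + j, a * b, hR.mul _ _ _ _ ha hb, mul_ne_zero ha0 hb0, ?_⟩
    rw [smul_add]
    refine add_mem ?_ ?_
    · have := hU _ _ _ _ hb h1
      rwa [smul_smul, mul_comm, show j + (i + g) = i + j + g by ring] at this
    · have := hU _ _ _ _ ha h2
      rwa [smul_smul, ← add_assoc] at this
  | smul f u _ hu =>
    obtain ⟨j, b, hb, hb0, h2⟩ := hu
    obtain ⟨i, a, b', ha, hb', h0, e⟩ := hR.frac f 0
    refine ⟨i + j, b' * b, hR.mul _ _ _ _ hb' hb, mul_ne_zero h0 hb0, ?_⟩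
    have := hU _ _ _ _ ha h2
    rwa [add_zero, ← add_assoc, ← e, smul_smul, show f * b' * b = b' * b * f by ring,
      mul_smul] at this

lemma common {τ : Type} [Fintype τ] (h1 : (1 : K) ∈ R 0) (hR : RSt R R) {U : Fam k V}
    (hU : RSt R U) {v : τ → V} {g : τ → ℤ}
    (h : ∀ l, ∃ j b, b ∈ R j ∧ b ≠ 0 ∧ b • v l ∈ U (j + g l)) :
    ∃ j b, b ∈ R j ∧ b ≠ 0 ∧ ∀ l, b • v l ∈ U (j + g l) := by
  classical
  have : ∀ s : Finset τ, ∃ j b, b ∈ R j ∧ b ≠ 0 ∧ ∀ l ∈ s, b • v l ∈ U (j + g l) := fun s => by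
    induction s using Finset.induction_on with
    | empty => exact ⟨0, 1, h1, one_ne_zero, by simp⟩
    | insert l s _ ih =>
      obtain ⟨i, a, ha, ha0, h1⟩ := h l
      obtain ⟨j, b, hb, hb0, h2⟩ := ih
      refine ⟨i + j, a * b, hR _ _ _ _ ha hb, mul_ne_zero ha0 hb0, fun l' hl => ?_⟩
      rcases Finset.mem_insert.1 hl with rfl | hl
      · have := hU _ _ _ _ hb h1
        rwa [smul_smul, mul_comm, show j + (i + g l') = i + j + g l' by ring] at this
      · have := hU _ _ _ _ ha (h2 l' hl)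
        rwa [smul_smul, ← add_assoc] at this
  obtain ⟨j, b, h⟩ := this Finset.univ
  exact ⟨j, b, by simpa using h⟩

/-- uniform version for a finitely generated family -/
theorem clr_fg (hR : Gr R) (hx : ∀ i, x i ∈ R 1) {G U : Fam k V} (hG : FG x G) (hU : RSt R U)
    (h : spK K G ≤ spK K U) : ∃ j b, b ∈ R j ∧ b ≠ 0 ∧ ∀ m, ∀ v ∈ G m, b • v ∈ U (j + m) := by
  obtain ⟨t, v, g, hv, hg⟩ := hG.gens
  obtain ⟨j, b, hb, hb0, h1⟩ := common hR.one hR.rst hU fun l =>
    clr hR hU (h (Submodule.subset_span ⟨_, hv l⟩)) (g l)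
  refine ⟨j, b, hb, hb0, fun m u hu => ?_⟩
  obtain ⟨a, ha, rfl⟩ := hg m u hu
  rw [Finset.smul_sum]
  refine Submodule.sum_mem _ fun l _ => ?_
  have := (hU.st hx).ax (ha l) (h1 l)
  rwa [smul_comm, show m - g l + (j + g l) = j + m by ring] at this

theorem cap_rst {G : Fam k V} (hG : RSt R G) (Y : Submodule K V) : RSt R (cap G Y) :=
  fun j m a v ha hv => ⟨hG j m a v ha hv.1, Y.smul_mem a hv.2⟩

theorem spK_cap (hR : Gr R) {G : Fam k V} (hG : RSt R G) (Y : Submodule K V) :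
    spK K (cap G Y) = spK K G ⊓ Y := by
  refine le_antisymm (Submodule.span_le.2 ?_) fun v hv => ?_
  · rintro v ⟨m, hv⟩
    exact ⟨Submodule.subset_span ⟨m, hv.1⟩, hv.2⟩
  · obtain ⟨j, b, -, h0, h⟩ := clr hR hG hv.1 0
    rw [← inv_smul_smul₀ h0 v]
    exact Submodule.smul_mem _ _ (Submodule.subset_span ⟨_, h, Y.smul_mem b hv.2⟩)

/-- a homogeneous `K`-basis of the span -/
theorem exists_basis {U : Fam k V} (hU : FG x U) : FiniteDimensional K (spK K U) ∧
    ∃ (v : Fin (finrank K (spK K U)) → V) (g : Fin (finrank K (spK K U)) → ℤ),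
      (∀ l, v l ∈ U (g l)) ∧ LinearIndependent K v ∧ Submodule.span K (Set.range v) = spK K U := by
  obtain ⟨t, v, g, hv, hg⟩ := hU.gens
  have hfin : FiniteDimensional K (spK K U) := by
    have := FiniteDimensional.span_of_finite K (Set.finite_range v)
    refine Submodule.finiteDimensional_of_le (S₂ := Submodule.span K (Set.range v))
      (Submodule.span_le.2 ?_)
    rintro u ⟨m, hu⟩
    obtain ⟨a, -, rfl⟩ := hg m u hu
    exact Submodule.sum_mem _ fun l _ => Submodule.smul_mem _ _ (Submodule.subset_span ⟨l, rfl⟩)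
  have : Module.Finite K (Submodule.span K {v | ∃ m, v ∈ U m}) := hfin
  obtain ⟨w, h1, h2, h3⟩ := Submodule.exists_fun_fin_finrank_span_eq K {v | ∃ m, v ∈ U m}
  choose g hg using h1
  exact ⟨hfin, w, g, hg, h3, h2⟩

theorem rk_eq (hR : Gr R) (hx : ∀ i, x i ∈ R 1) (hf : FG x R) {U : Fam k V} (hU : FG x U)
    (hs : RSt R U) : FiniteDimensional K (spK K U) ∧ rk U = rk R * finrank K (spK K U) := by
  obtain ⟨hfin, v, g, hv, hi, hsp⟩ := exists_basis hU
  refine ⟨hfin, ?_⟩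
  have h1 := (hp_gen hf hi g).1
  have h2 := (hp_mono hU (fg_gen hf v g).st (gen_le hs hv)).1
  obtain ⟨j, b, -, hb0, hb⟩ := clr_fg hR hx hU (rst_gen hR v g) (by
    refine hsp.ge.trans (Submodule.span_mono ?_)
    rintro _ ⟨l, rfl⟩
    have := smul_mem_gen (R := R) (v := v) (g := g) (m := g l) l (a := 1) (by simpa using hR.one)
    exact ⟨g l, by simpa using this⟩)
  have h3 := (rk_le_of_smul hU (fg_gen hf v g) hb0 hb).1
  rw [Fintype.card_fin] at h1
  linarith

/-- `A`-independent homogeneous elements. -/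
def AInd (k : Type) [Field k] [Algebra k K] {τ : Type} [Fintype τ] (x : Fin 3 → K) (v : τ → V)
    (g : τ → ℤ) : Prop :=
  ∀ (m : ℤ) (a : τ → K), (∀ l, a l ∈ Ax k x (m - g l)) → ∑ l, a l • v l = 0 → a = 0

theorem hp_free {τ : Type} [Fintype τ] (h : Ind k x) {v : τ → V} {g : τ → ℤ}
    (hv : AInd k x v g) : (∀ m, hf (gen (Ax k x) v g) m = ∑ l, hf (Ax k x) (m - g l)) ∧
      rk (gen (Ax k x) v g) = Fintype.card τ ∧
      dg (gen (Ax k x) v g) = ∑ l, (3 / 2 - (g l : ℝ)) := by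
  have h1 := fun m => (hf_gen (fg_Ax (k := k) x).fin v g m).2 (hv m)
  obtain ⟨a, b, -⟩ := hp_sum (fg_Ax (k := k) x) h1
  obtain ⟨c, d, -⟩ := hp_Ax h
  exact ⟨h1, by rw [a, c, mul_one], by rw [b, c, d]; simp [Finset.sum_sub_distrib]⟩

theorem rst_Ax (x : Fin 3 → K) : RSt (Ax k x) (Ax k x) := fun _ _ _ _ ha hb => Ax_mul ha hb

/-- a maximal independent subfamily -/
theorem exists_free {τ : Type} [Fintype τ] (h : Ind k x) (v : τ → V) (g : τ → ℤ) :
    ∃ S : Finset τ, AInd k x (fun l : S => v l) (fun l => g l) ∧ ∃ (j : ℤ) (γ : K), γ ∈ Ax k x j ∧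
      γ ≠ 0 ∧ ∀ m, ∀ u ∈ gen (Ax k x) v g m,
        γ • u ∈ gen (Ax k x) (fun l : S => v l) (fun l => g l) (j + m) := by
  classical
  let Q : Finset τ → Prop := fun S => ∀ (m : ℤ) (a : τ → K), (∀ l, a l ∈ Ax k x (m - g l)) →
    (∀ l ∉ S, a l = 0) → ∑ l, a l • v l = 0 → a = 0
  obtain ⟨S, hS, hmax⟩ := Finset.exists_max_image (Finset.univ.filter Q) Finset.card
    ⟨∅, by simpa [Q] using! fun m a _ h _ => funext h⟩
  rw [Finset.mem_filter] at hS
  have sumS : ∀ a : τ → K, (∀ l ∉ S, a l = 0) → ∑ l, a l • v l = ∑ l : S, a l • v l :=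
    fun a ha => by
      rw [Finset.sum_coe_sort S fun l => a l • v l]
      exact (Finset.sum_subset (Finset.subset_univ S) fun l _ hl => by simp [ha l hl]).symm
  refine ⟨S, fun m a ha h0 => ?_, ?_⟩
  · let a' : τ → K := fun l => if h : l ∈ S then a ⟨l, h⟩ else 0
    have := hS.2 m a' (fun l => by
      simp only [a']; split_ifs with h
      exacts [ha ⟨l, h⟩, zero_mem _]) (fun l hl => by simp [a', hl])
      (by rw [sumS _ fun l hl => by simp [a', hl]]; simpa [a'] using h0)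
    funext l
    simpa [a'] using congrFun this l
  have hs := rst_gen' (rst_Ax (k := k) x) (fun l : S => v l) (fun l => g l)
  obtain ⟨j, γ, h1, h2, h3⟩ := common (one_mem_Ax x) (rst_Ax x) hs (v := v) (g := g) fun l => by
    by_cases hl : l ∈ S
    · exact ⟨0, 1, one_mem_Ax x, one_ne_zero,
        smul_mem_gen (v := fun l : S => v l) ⟨l, hl⟩ (by simpa using one_mem_Ax x)⟩
    have : ¬ Q (insert l S) := fun hQ => by
      have := hmax _ (by simpa using hQ)
      rw [Finset.card_insert_of_notMem hl] at this; omega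
    simp only [Q] at this
    push Not at this
    obtain ⟨m, a, ha, h0, h1, h2⟩ := this
    have h0' : ∀ l' ∉ S, Function.update a l 0 l' = 0 := fun l' hl' => by
      by_cases e : l' = l
      · simp [e]
      · simp [e, h0 l' (by simp [e, hl'])]
    refine ⟨m - g l, a l, ha l, fun e => h2 (hS.2 m a ha (fun l' hl' => ?_) h1), ?_⟩
    · simpa [← e] using h0' l' hl'
    · have e : a l • v l = - ∑ l', Function.update a l 0 l' • v l' := by
        rw [eq_neg_iff_add_eq_zero, ← h1, ← Finset.add_sum_erase _ _ (Finset.mem_univ l),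
          ← Finset.add_sum_erase _ _ (Finset.mem_univ l)]
        simp only [Function.update_self, zero_smul, zero_add, add_right_inj]
        exact Finset.sum_congr rfl fun l' hl' => by simp [Finset.ne_of_mem_erase hl']
      rw [e, sumS _ h0', sub_add_cancel]
      refine neg_mem (mem_gen.2 ⟨_, fun l' => ?_, rfl⟩)
      rw [Function.update_of_ne (fun e : (l' : τ) = l => hl (e ▸ l'.2))]
      exact ha _
  refine ⟨j, γ, h1, h2, fun m u hu => ?_⟩
  obtain ⟨a, ha, rfl⟩ := mem_gen.1 hu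
  rw [Finset.smul_sum]
  refine Submodule.sum_mem _ fun l _ => ?_
  have := hs _ _ _ _ (ha l) (h3 l)
  rwa [smul_comm, show m - g l + (j + g l) = j + m by ring] at this

/-- `free_bound` inside an abstract free module -/
theorem free_bound' {τ : Type} [Fintype τ] (h : Ind k x) {v : τ → V} {g : τ → ℤ}
    (hv : AInd k x v g) {U : Fam k V} (hU : St x U) (hle : ∀ m, U m ≤ gen (Ax k x) v g m) :
    ∃ S : Finset τ, rk U = S.card ∧ dg U ≤ ∑ l ∈ S, (3 / 2 - (g l : ℝ)) := by
  let L := (Fintype.linearCombination K v).restrictScalars k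
  let U' : Fam k (τ → K) := fun m => Fr k x (-g) m ⊓ (U m).comap L
  obtain ⟨S, h1, h2⟩ := free_bound h (-g) (U := U') (fun i m a ha =>
    ⟨(fg_Fr x _).st i m a ha.1, by simpa [L] using hU i m _ ha.2⟩) fun m => inf_le_left
  obtain ⟨a, b, -⟩ := hp_congr (G := U) (U := U') (m0 := 0) fun m _ => by
    have := (fg_Fr (k := k) x (-g)).fin m
    rw [hf_def, hf_def, ← dR_map L (U' m) fun a ha h0 => hv m a
      (fun l => by simpa [sub_eq_add_neg] using mem_Fr.1 ha.1 l)
      (by simpa [L, Fintype.linearCombination_apply] using h0)]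
    congr 1
    refine le_antisymm (fun u hu => ?_) (by rintro _ ⟨a, ha, rfl⟩; exact ha.2)
    obtain ⟨a, ha, rfl⟩ := mem_gen.1 (hle m hu)
    exact ⟨a, ⟨mem_Fr.2 fun l => by simpa [sub_eq_add_neg] using ha l, hu⟩, rfl⟩
  exact ⟨S, a ▸ h1, by rw [b]; simpa [sub_eq_neg_add] using h2⟩

theorem dg_bdd (h : Ind k x) {G : Fam k V} (hG : FG x G) :
    ∃ c : ℝ, ∀ U : Fam k V, St x U → (∀ m, U m ≤ G m) → dg U ≤ c := by
  obtain ⟨t, v, g, -, hg⟩ := hG.gens
  obtain ⟨S, hS, j, γ, -, h0, hγ⟩ := exists_free h v g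
  refine ⟨∑ l : S, |3 / 2 - ((g l - j : ℤ) : ℝ)|, fun U hU hle => ?_⟩
  let U' : Fam k V := fun m => (U m).map (ml k γ)
  obtain ⟨T, -, h2⟩ := free_bound' h (v := fun l : S => v l) (g := fun l => g l - j) (U := U')
    (fun m a ha => hS (j + m) a fun l => by
      have := ha l; rwa [show m - (g l - j) = j + m - g l by ring] at this)
    (by rintro i m _ ⟨u, hu, rfl⟩; exact ⟨_, hU i m u hu, by simp [smul_comm γ]⟩)
    (by
      rintro m _ ⟨u, hu, rfl⟩
      obtain ⟨a, ha, e⟩ := mem_gen.1 (hγ m u (mem_gen.2 (hg m u (hle m hu))))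
      exact mem_gen.2 ⟨a, fun l => by
        rw [show m - (g l - j) = j + m - g l by ring]; exact ha l, e⟩)
  rw [(hp_congr (G := U) (U := U') (m0 := 0) fun m _ => by
    have := (hG.sub hU hle).fin m
    rw [hf_def, hf_def, dR_smul h0]).2.1]
  exact h2.trans ((Finset.sum_le_sum fun l _ => le_abs_self _).trans
    (Finset.sum_le_univ_sum_of_nonneg fun l => abs_nonneg _))

theorem mem_col {N : Fam k V} {v : V} {b m : ℤ} {a : K} :
    a ∈ col R N v b m ↔ a ∈ R m ∧ a • v ∈ N (m + b) := Iff.rfl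

theorem mem_adj {N : Fam k V} {v u : V} {b m : ℤ} :
    u ∈ adj R N v b m ↔ ∃ w ∈ N m, ∃ a ∈ R (m - b), u = w + a • v := by
  simp only [adj, Submodule.mem_sup, Submodule.mem_map]
  exact ⟨fun ⟨w, hw, _, ⟨a, ha, rfl⟩, e⟩ => ⟨w, hw, a, ha, e.symm⟩,
    fun ⟨w, hw, a, ha, e⟩ => ⟨w, hw, _, ⟨a, ha, rfl⟩, e.symm⟩⟩

theorem col_rst (hR : Gr R) {N : Fam k V} (hN : RSt R N) (v : V) (b : ℤ) :
    RSt R (col R N v b) := fun j m a c ha hc => mem_col.2 ⟨hR.mul _ _ _ _ ha hc.1, by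
  rw [smul_assoc, add_assoc]; exact hN _ _ _ _ ha hc.2⟩

theorem adj_rst (hR : Gr R) {N : Fam k V} (hN : RSt R N) (v : V) (b : ℤ) :
    RSt R (adj R N v b) := fun j m a u ha hu => by
  obtain ⟨w, hw, c, hc, rfl⟩ := mem_adj.1 hu
  exact mem_adj.2 ⟨_, hN _ _ _ _ ha hw, a * c, by
    simpa [add_sub_assoc] using hR.mul _ _ _ _ ha hc, by simp [mul_smul]⟩

theorem hf_adj (hR : Gr R) {N : Fam k V} (v : V) (b m : ℤ) [FiniteDimensional k (N m)] :
    hf (adj R N v b) m = hf N m + hf R (m - b) - hf (col R N v b) (m - b) := by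
  have := hR.fin (m - b)
  have := dR_adj ((LinearMap.toSpanSingleton K V v).restrictScalars k) (R (m - b)) (N m)
  simp only [hf_def, adj, col, sub_add_cancel]
  linarith

theorem adj_le {N G : Fam k V} (hs : RSt R G) (hle : ∀ m, N m ≤ G m) {v : V} {b : ℤ}
    (hv : v ∈ G b) (m : ℤ) : adj R N v b m ≤ G m := fun u hu => by
  obtain ⟨w, hw, c, hc, rfl⟩ := mem_adj.1 hu
  exact add_mem (hle m hw) (by simpa using hs _ _ _ _ hc hv)

/-- prime filtrations, as a downward induction principle -/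
theorem pf {ι : Type} [Fintype ι] (hR : Gr R) {y : ι → K} (hy : ∀ i, y i ∈ R 1) (hRy : FG y R)
    {G : Fam k V} (hG : FG y G) (hs : RSt R G) (Q : Fam k V → Prop) (top : Q G)
    (step : ∀ N v b, RSt R N → (∀ m, N m ≤ G m) → v ∈ G b → PrimeF R (col R N v b) →
      Q (adj R N v b) → Q N) :
    ∀ N, RSt R N → (∀ m, N m ≤ G m) → Q N := by
  by_contra hc
  push Not at hc
  obtain ⟨N, ⟨hN, hle, hQ⟩, hmax⟩ := hG.exists_max {N | RSt R N ∧ (∀ m, N m ≤ G m) ∧ ¬ Q N}
    (fun U hU => ⟨hU.1.st hy, hU.2.1⟩) hc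
  obtain ⟨b0, hb0⟩ := Function.ne_iff.1 (fun e : N = G => hQ (e ▸ top))
  obtain ⟨v0, h1, h2⟩ := SetLike.exists_of_lt (lt_of_le_of_ne (hle b0) hb0)
  obtain ⟨_, ⟨v, b, hv, hvN, rfl⟩, hm⟩ := hRy.exists_max
    {P | ∃ v b, v ∈ G b ∧ v ∉ N b ∧ P = col R N v b}
    (by rintro _ ⟨v, b, -, -, rfl⟩; exact ⟨(col_rst hR hN v b).st hy, fun m => inf_le_left⟩)
    ⟨_, v0, b0, h1, h2, rfl⟩
  refine hQ (step N v b hN hle hv ⟨fun m => inf_le_left, col_rst hR hN v b,
    fun h => hvN (by simpa using (mem_col.1 h).2), fun i j a a' ha ha' h => ?_⟩ ?_)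
  · by_cases h' : a' ∈ col R N v b j
    · exact Or.inr h'
    left
    rw [← hm (col R N (a' • v) (j + b)) ⟨_, _, hs _ _ _ _ ha' hv, fun e => h' ⟨ha', e⟩, rfl⟩
      fun m c hc => mem_col.2 ⟨hc.1, by
        have := hN _ _ _ _ ha' (mem_col.1 hc).2
        rwa [smul_comm, show j + (m + b) = m + (j + b) by ring] at this⟩]
    exact mem_col.2 ⟨ha, by rw [← mul_smul, ← add_assoc]; exact (mem_col.1 h).2⟩
  · by_contra hq
    have := hmax _ ⟨adj_rst hR hN v b, adj_le hs hle hv, hq⟩ fun m => le_sup_left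
    exact hvN (this ▸ mem_adj.2 ⟨0, zero_mem _, 1, by simpa using hR.one, by simp⟩)

theorem PrimeF.pow (hR : Gr R) {P : Fam k K} (hP : PrimeF R P) {e : ℤ} {a : K} (ha : a ∈ R e)
    {j : ℕ} (h : a ^ j ∈ P (e * j)) : a ∈ P e := by
  induction j with
  | zero => exact absurd (by simpa using h) hP.one
  | succ j ih =>
    rw [pow_succ, Nat.cast_succ, mul_add, mul_one] at h
    exact (hP.pr _ _ _ _ (hR.pow ha j) ha h).elim ih id

theorem PrimeF.eq_of_one (hR : Gr R) {P : Fam k K} (hP : PrimeF R P) (h : R 1 ≤ P 1) {m : ℤ}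
    (hm : 1 ≤ m) : R m ≤ P m := by
  obtain ⟨n, rfl⟩ : ∃ n, m = n + 1 := ⟨m - 1, by ring⟩
  refine (hR.gen n (by omega)).trans (Submodule.mul_le.2 fun a ha b hb => ?_)
  simpa [mul_comm] using hP.st _ _ _ _ hb (h ha)

/-- if every prime containing `S` contains `R 1`, a quotient killed by powers of `S` is finite -/
theorem ev_eq (hR : Gr R) (hx : Hsop R x j0) (S : Finset K) (e : ℤ) (hS : ∀ ν ∈ S, ν ∈ R e)
    (hc : ∀ P, PrimeF R P → (∀ ν ∈ S, ν ∈ P e) → R 1 ≤ P 1) {G N : Fam k V} (hG : FG x G)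
    (hs : RSt R G) (hN : RSt R N) (hle : ∀ m, N m ≤ G m)
    (h : ∀ ν ∈ S, ∀ m, ∀ v ∈ G m, ∃ j : ℕ, ν ^ j • v ∈ N (e * j + m)) :
    ∃ m0, ∀ m ≥ m0, N m = G m := by
  refine pf hR hx.1 (hx.fg hR) hG hs (fun N => (∀ ν ∈ S, ∀ m, ∀ v ∈ G m,
    ∃ j : ℕ, ν ^ j • v ∈ N (e * j + m)) → ∃ m0, ∀ m ≥ m0, N m = G m) (fun _ => ⟨0, fun _ _ => rfl⟩)
    (fun N v b hN hle hv hP ih h => ?_) N hN hle h
  obtain ⟨m0, h0⟩ := ih fun ν hν m u hu =>
    (h ν hν m u hu).imp fun j hj => Submodule.mem_sup_left hj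
  have h1 := hc _ hP fun ν hν => by
    obtain ⟨j, hj⟩ := h ν hν b v hv
    exact hP.pow hR (hS ν hν) (mem_col.2 ⟨hR.pow (hS ν hν) j, hj⟩)
  refine ⟨max m0 (b + 1), fun m hm => le_antisymm (hle m) ?_⟩
  rw [← h0 m (by omega)]
  intro u hu
  obtain ⟨w, hw, a, ha, rfl⟩ := mem_adj.1 hu
  exact add_mem hw (by simpa using (mem_col.1 (hP.eq_of_one hR h1 (by omega) ha)).2)

end ring

end Vale.Agent.P190
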