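import Vale.Agent.P190.Spec

namespace Vale.Agent.P190

open Module

lemma lin_nonneg {B C : ℝ} {m0 : ℤ} (h : ∀ m : ℤ, m0 ≤ m → 0 ≤ B * m + C) : 0 ≤ B := by
  by_contra hB
  push Not at hB
  obtain ⟨n, hn⟩ := exists_int_gt ((|C| + 1) / -B)
  have h1 := h (max m0 n) (le_max_left _ _)
  have h2 : (n : ℝ) ≤ (max m0 n : ℤ) := by exact_mod_cast le_max_right _ _
  rw [div_lt_iff₀ (by linarith)] at hn
  nlinarith [le_abs_self C]

theorem poly_le {a b c a' b' c' : ℝ} {m0 : ℤ}
    (h : ∀ m : ℤ, m0 ≤ m → a * m ^ 2 / 2 + b * m + c ≤ a' * m ^ 2 / 2 + b' * m + c') :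
    a ≤ a' ∧ (a = a' → b ≤ b') ∧ (a = a' → b = b' → c ≤ c') := by
  refine ⟨?_, fun ha => ?_, fun ha hb => ?_⟩
  · have : 0 ≤ (a' - a) / 2 := by
      refine lin_nonneg (C := |b' - b| + |c' - c|) (m0 := max m0 1) fun m hm => ?_
      have h1 := h m ((le_max_left _ _).trans hm)
      have h2 : (1 : ℝ) ≤ m := by exact_mod_cast (le_max_right _ _).trans hm
      by_contra hc
      push Not at hc
      nlinarith [le_abs_self (b' - b), le_abs_self (c' - c), abs_nonneg (c' - c)]
    linarith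
  · have : 0 ≤ b' - b := lin_nonneg (C := c' - c) (m0 := m0) fun m hm => by
      have := h m hm; rw [ha] at this; linarith
    linarith
  · have := h m0 le_rfl; rw [ha, hb] at this; linarith

theorem poly_eq {a b c a' b' c' : ℝ} {m0 : ℤ}
    (h : ∀ m : ℤ, m0 ≤ m → a * m ^ 2 / 2 + b * m + c = a' * m ^ 2 / 2 + b' * m + c') :
    a = a' ∧ b = b' ∧ c = c' := by
  obtain ⟨h1, h2, h3⟩ := poly_le fun m hm => (h m hm).le
  obtain ⟨h4, h5, h6⟩ := poly_le fun m hm => (h m hm).ge
  have ha := le_antisymm h1 h4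
  have hb := le_antisymm (h2 ha) (h5 ha.symm)
  exact ⟨ha, hb, le_antisymm (h3 ha hb) (h6 ha.symm hb.symm)⟩

section gen
variable {k C V ι : Type} [Field k] [CommRing C] [Algebra k C] [AddCommGroup V] [Module k V]
  [Module C V] [IsScalarTower k C V]

/-- the Rees type ring -/
noncomputable def rees (k : Type) [Field k] [Algebra k C] (x : ι → C) :
    Subalgebra k (Polynomial C) :=
  Algebra.adjoin k (Set.range fun i => Polynomial.monomial 1 (x i))

noncomputable def tot {x : ι → C} (m0 : ℤ) (U : Fam k V) (hU : St x U) :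
    Submodule (rees k x) (PolynomialModule C V) where
  carrier := {f | ∀ n : ℕ, f.coeff n ∈ U (m0 + n)}
  add_mem' := fun ha hb n => by simpa using (U _).add_mem (ha n) (hb n)
  zero_mem' := fun n => by simp
  smul_mem' := by
    rintro ⟨a, ha⟩ f hf
    change ∀ n : ℕ, (a • f).coeff n ∈ U (m0 + n)
    induction ha using Algebra.adjoin_induction generalizing f with
    | mem a h =>
      obtain ⟨i, rfl⟩ := h
      intro n
      rw [PolynomialModule.monomial_smul_apply]
      split_ifs with h1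
      · have := hU i _ _ (hf (n - 1))
        rwa [show m0 + ((n - 1 : ℕ) : ℤ) + 1 = m0 + n by omega] at this
      · exact zero_mem _
    | algebraMap r =>
      intro n
      rw [algebraMap_smul]
      exact (U _).smul_mem r (hf n)
    | add a b _ _ h1 h2 =>
      intro n
      rw [add_smul]
      exact (U _).add_mem (h1 hf n) (h2 hf n)
    | mul a b _ _ h1 h2 =>
      rw [mul_smul]
      exact h1 (h2 hf)

theorem FG.exists_max [Fintype ι] {x : ι → C} {G : Fam k V} (hG : FG x G) (S : Set (Fam k V))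
    (hS : ∀ U ∈ S, St x U ∧ ∀ m, U m ≤ G m) (hne : S.Nonempty) :
    ∃ U ∈ S, ∀ U' ∈ S, (∀ m, U m ≤ U' m) → U' = U := by
  classical
  obtain ⟨m0, h0⟩ := hG.low
  obtain ⟨m1, h1⟩ := hG.gen
  have hb : ∀ U ∈ S, ∀ m < m0, U m = ⊥ := fun U hU m hm =>
    le_bot_iff.1 (h0 m hm ▸ (hS U hU).2 m)
  haveI : IsNoetherianRing (rees k x) :=
    isNoetherianRing_of_fg (Subalgebra.fg_def.2 ⟨_, Set.finite_range _, rfl⟩)
  have hfin : ∀ n : ℕ, ∃ s : Finset V, Submodule.span k (s : Set V) = G (m0 + n) := fun n =>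
    (Submodule.fg_iff_finiteDimensional _).2 (hG.fin _)
  choose s hs using hfin
  set T : Submodule (rees k x) (PolynomialModule C V) := Submodule.span (rees k x)
    (⋃ n ∈ Finset.range ((m1 - m0).toNat + 1), PolynomialModule.single C n '' (s n)) with hT
  have hTfg : T.FG := Submodule.fg_span (Set.Finite.biUnion (Finset.finite_toSet _)
    fun n _ => (Finset.finite_toSet _).image _)
  have hsm : ∀ (r : k) (f : PolynomialModule C V), f ∈ T → r • f ∈ T := fun r f hf => by
    have := T.smul_mem (algebraMap k _ r) hf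
    rwa [Subalgebra.smul_def, Subalgebra.coe_algebraMap, algebraMap_smul] at this
  have hlow : ∀ n : ℕ, n < (m1 - m0).toNat + 1 → ∀ v ∈ G (m0 + n),
      PolynomialModule.single C n v ∈ T := by
    intro n hn v hv
    rw [← hs] at hv
    induction hv using Submodule.span_induction with
    | mem v h => exact Submodule.subset_span (Set.mem_biUnion (Finset.mem_range.2 hn) ⟨v, h, rfl⟩)
    | zero => simp
    | add a b _ _ ha hb => rw [PolynomialModule.single_add]; exact T.add_mem ha hb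
    | smul r a _ ha =>
      rw [← algebraMap_smul C r a, PolynomialModule.single_smul, algebraMap_smul]
      exact hsm r _ ha
  have hall : ∀ n : ℕ, ∀ v ∈ G (m0 + n), PolynomialModule.single C n v ∈ T := by
    intro n
    induction n with
    | zero => exact hlow 0 (by omega)
    | succ n ih =>
      by_cases hn : n + 1 < (m1 - m0).toNat + 1
      · exact hlow _ hn
      intro v hv
      obtain ⟨w, hw, rfl⟩ := h1 (m0 + n) (by omega) v (by simpa [add_assoc] using hv)
      have : PolynomialModule.single C (n + 1) (∑ i, x i • w i) =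
          ∑ i, Polynomial.monomial 1 (x i) • PolynomialModule.single C n (w i) := by
        simp only [PolynomialModule.monomial_smul_single, add_comm 1 n]
        exact map_sum (PolynomialModule.lsingle C (n + 1)) _ _
      rw [this]
      exact T.sum_mem fun i _ => T.smul_mem
        (⟨_, Algebra.subset_adjoin ⟨i, rfl⟩⟩ : rees k x) (ih _ (hw i))
  have hle : ∀ U (hU : U ∈ S), tot m0 U (hS U hU).1 ≤ T := by
    intro U hU f hf
    have : f = f.coeff.sum fun n v => PolynomialModule.single C n v := by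
      apply PolynomialModule.coeff_injective
      simp [PolynomialModule.coeff_finsuppSum]
    rw [this]
    exact T.sum_mem fun n _ => hall n _ ((hS U hU).2 _ (hf n))
  haveI := isNoetherian_of_fg_of_noetherian T hTfg
  obtain ⟨U0, hU0⟩ := hne
  obtain ⟨_, ⟨⟨U, hU⟩, rfl⟩, hmax⟩ := (set_has_maximal_iff_noetherian.2 this)
    (Set.range fun U : S => (tot m0 U.1 (hS _ U.2).1).comap T.subtype)
    ⟨_, ⟨U0, hU0⟩, rfl⟩
  refine ⟨U, hU, fun U' hU' hUU => ?_⟩
  have h2 := eq_of_le_of_not_lt (fun f hf n => hUU _ (hf n)) (hmax _ ⟨⟨U', hU'⟩, rfl⟩)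
  funext m
  refine le_antisymm (fun v hv => ?_) (hUU m)
  by_cases hm : m < m0
  · rw [hb U' hU' m hm] at hv; rw [hb U hU m hm]; exact hv
  obtain ⟨n, rfl⟩ : ∃ n : ℕ, m = m0 + n := ⟨(m - m0).toNat, by omega⟩
  have h3 : PolynomialModule.single C n v ∈ tot m0 U' (hS _ hU').1 := by
    intro j
    simp only [PolynomialModule.coeff_single, Finsupp.single_apply]
    split_ifs with h
    · exact h ▸ hv
    · exact zero_mem _
  have h4 : (⟨_, hle U' hU' h3⟩ : T) ∈
      (tot m0 U (hS _ hU).1).comap T.subtype := by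
    dsimp only at h2; rw [h2]; exact h3
  simpa using h4 n

/-- `∑ x i G m` -/
noncomputable def xm [Fintype ι] (x : ι → C) (W : Submodule k V) : Submodule k V where
  carrier := {v | ∃ w : ι → V, (∀ i, w i ∈ W) ∧ v = ∑ i, x i • w i}
  add_mem' := by
    rintro _ _ ⟨a, ha, rfl⟩ ⟨b, hb, rfl⟩
    exact ⟨a + b, fun i => W.add_mem (ha i) (hb i), by simp [Finset.sum_add_distrib]⟩
  zero_mem' := ⟨0, fun _ => W.zero_mem, by simp⟩
  smul_mem' := by
    rintro r _ ⟨a, ha, rfl⟩
    exact ⟨r • a, fun i => W.smul_mem r (ha i), by simp [Finset.smul_sum, smul_comm r]⟩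

lemma smul_mem_xm [Fintype ι] (x : ι → C) {W : Submodule k V} (i : ι) {v : V} (hv : v ∈ W) :
    x i • v ∈ xm x W := by
  classical
  refine ⟨Pi.single i v, fun j => ?_, ?_⟩
  · by_cases h : j = i
    · subst h; simpa using hv
    · simp [h]
  · rw [Finset.sum_eq_single i] <;> simp +contextual

lemma St.xm_le [Fintype ι] {x : ι → C} {G : Fam k V} (hG : St x G) (m : ℤ) :
    xm x (G m) ≤ G (m + 1) := by
  rintro _ ⟨w, hw, rfl⟩
  exact Submodule.sum_mem _ fun i _ => hG i _ _ (hw i)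

theorem FG.sub [Fintype ι] {x : ι → C} {G U : Fam k V} (hG : FG x G) (hU : St x U)
    (hle : ∀ m, U m ≤ G m) : FG x U := by
  refine ⟨hU, fun m => haveI := hG.fin m; Submodule.finiteDimensional_of_le (hle m), ?_, ?_⟩
  · obtain ⟨m0, h0⟩ := hG.low
    exact ⟨m0, fun m hm => le_bot_iff.1 (h0 m hm ▸ hle m)⟩
  let cl : ℤ → Fam k V := fun j m => ⨅ W : {W : Fam k V // St x W ∧ ∀ m ≤ j, U m ≤ W m}, W.1 m
  have c1 : ∀ j, St x (cl j) := fun j i m v hv =>
    (Submodule.mem_iInf _).2 fun W => W.2.1 i m v ((Submodule.mem_iInf _).1 hv W)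
  have c2 : ∀ j m, cl j m ≤ U m := fun j m => iInf_le_of_le ⟨U, hU, fun _ _ => le_rfl⟩ le_rfl
  have c3 : ∀ j m, m ≤ j → U m ≤ cl j m := fun j m hm => le_iInf fun W => W.2.2 m hm
  have c4 : ∀ j m, j ≤ m → cl j (m + 1) ≤ xm x (cl j m) := by
    intro j m hm
    let W : Fam k V := fun m => if m ≤ j then U m else xm x (cl j (m - 1))
    have w1 : ∀ m, W m ≤ cl j m := fun m => by
      simp only [W]
      split_ifs with h
      · exact c3 j m h
      · simpa using (c1 j).xm_le (m - 1)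
    have w2 : St x W := fun i m v hv => by
      simp only [W]
      split_ifs with h
      · exact hU i m v (c2 j m (w1 m hv))
      · simpa using smul_mem_xm x i (w1 m hv)
    refine iInf_le_of_le ⟨W, w2, fun m hm => by simp [W, hm]⟩ ?_
    simp [W, show ¬ m + 1 ≤ j by omega]
  obtain ⟨_, ⟨j, rfl⟩, hj⟩ := hG.exists_max (Set.range cl)
    (by rintro _ ⟨j, rfl⟩; exact ⟨c1 j, fun m => (c2 j m).trans (hle m)⟩) ⟨_, 0, rfl⟩
  have c5 : ∀ m, j ≤ m → U m ≤ cl j m := fun m hm => by
    rw [← hj (cl m) ⟨m, rfl⟩ fun n => le_iInf fun W =>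
      iInf_le_of_le ⟨W.1, W.2.1, fun n hn => W.2.2 n (hn.trans hm)⟩ le_rfl]
    exact c3 m m le_rfl
  refine ⟨j, fun m hm v hv => ?_⟩
  obtain ⟨w, hw, rfl⟩ := c4 j m hm (c5 _ (by omega) hv)
  exact ⟨w, fun i => c2 j m (hw i), rfl⟩

theorem FG.shift [Fintype ι] {x : ι → C} {G : Fam k V} (hG : FG x G) (c : ℤ) :
    FG x (fun m => G (m + c)) := by
  obtain ⟨m0, h0⟩ := hG.low
  obtain ⟨m1, h1⟩ := hG.gen
  refine ⟨fun i m v hv => ?_, fun m => hG.fin _, ⟨m0 - c, fun m hm => h0 _ (by omega)⟩,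
    ⟨m1 - c, fun m hm v hv => h1 _ (by omega) v ?_⟩⟩
  · simpa [add_right_comm] using hG.st i _ v hv
  · simpa [add_right_comm] using hv

theorem FG.sup [Fintype ι] {x : ι → C} {G U : Fam k V} (hG : FG x G) (hU : FG x U) :
    FG x (fun m => G m ⊔ U m) := by
  obtain ⟨m0, h0⟩ := hG.low
  obtain ⟨m1, h1⟩ := hG.gen
  obtain ⟨n0, g0⟩ := hU.low
  obtain ⟨n1, g1⟩ := hU.gen
  refine ⟨fun i m v hv => ?_, fun m => ?_, ⟨min m0 n0, fun m hm => ?_⟩,
    ⟨max m1 n1, fun m hm v hv => ?_⟩⟩
  · obtain ⟨a, ha, b, hb, rfl⟩ := Submodule.mem_sup.1 hv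
    rw [smul_add]
    exact Submodule.add_mem_sup (hG.st i m a ha) (hU.st i m b hb)
  · haveI := hG.fin m; haveI := hU.fin m; infer_instance
  · simp [h0 m (by omega), g0 m (by omega)]
  · obtain ⟨a, ha, b, hb, rfl⟩ := Submodule.mem_sup.1 hv
    obtain ⟨a', ha', rfl⟩ := h1 m (by omega) a ha
    obtain ⟨b', hb', rfl⟩ := g1 m (by omega) b hb
    exact ⟨a' + b', fun i => Submodule.add_mem_sup (ha' i) (hb' i),
      by simp [Finset.sum_add_distrib]⟩

theorem FG.map [Fintype ι] {W : Type} [AddCommGroup W] [Module k W] [Module C W]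
    [IsScalarTower k C W] {x : ι → C} {G : Fam k V} (hG : FG x G) (f : V →ₗ[C] W) :
    FG x (fun m => (G m).map (f.restrictScalars k)) := by
  obtain ⟨m0, h0⟩ := hG.low
  obtain ⟨m1, h1⟩ := hG.gen
  refine ⟨?_, fun m => ?_, ⟨m0, fun m hm => by simp [h0 m hm]⟩, ⟨m1, ?_⟩⟩
  · rintro i m _ ⟨v, hv, rfl⟩
    exact ⟨x i • v, hG.st i m v hv, by simp⟩
  · haveI := hG.fin m; infer_instance
  · rintro m hm _ ⟨v, hv, rfl⟩
    obtain ⟨w, hw, rfl⟩ := h1 m hm v hv
    exact ⟨fun i => f (w i), fun i => ⟨w i, hw i, rfl⟩, by simp⟩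

theorem FG.bot [Fintype ι] (x : ι → C) : FG x (fun _ => (⊥ : Submodule k V)) :=
  ⟨fun i m v hv => by simp_all, fun _ => inferInstance, ⟨0, fun _ _ => rfl⟩,
    ⟨0, fun m _ v hv => ⟨0, fun _ => zero_mem _, by simp_all⟩⟩⟩

theorem FG.iSup [Fintype ι] {τ : Type} [Fintype τ] {x : ι → C} {G : τ → Fam k V}
    (hG : ∀ l, FG x (G l)) : FG x (fun m => ⨆ l, G l m) := by
  classical
  have : ∀ s : Finset τ, FG x (fun m => ⨆ l ∈ s, G l m) := fun s => by
    induction s using Finset.induction_on with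
    | empty => simpa using FG.bot x
    | insert a s _ ih => simp only [Finset.iSup_insert]; exact (hG a).sup ih
  simpa using this Finset.univ

theorem FG.change {x : Fin 3 → C} {G : Fam k V} (hG : FG x G) (α β : k) :
    FG ![x 0 - α • x 2, x 1 - β • x 2, x 2] G := by
  obtain ⟨m1, h1⟩ := hG.gen
  refine ⟨fun i m v hv => ?_, hG.fin, hG.low, ⟨m1, fun m hm v hv => ?_⟩⟩
  · have h := fun i => hG.st i m v hv
    fin_cases i
    · simpa [sub_smul] using (G _).sub_mem (h 0) ((G _).smul_mem α (h 2))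
    · simpa [sub_smul] using (G _).sub_mem (h 1) ((G _).smul_mem β (h 2))
    · simpa using h 2
  · obtain ⟨w, hw, rfl⟩ := h1 m hm v hv
    refine ⟨![w 0, w 1, w 2 + α • w 0 + β • w 1], fun i => ?_, ?_⟩
    · fin_cases i
      · exact hw 0
      · exact hw 1
      · exact (G _).add_mem ((G _).add_mem (hw 2) ((G _).smul_mem _ (hw 0)))
          ((G _).smul_mem _ (hw 1))
    · simp [Fin.sum_univ_three, sub_smul, smul_comm (x 2)]
      abel

end gen

end Vale.Agent.P190
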