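import Vale.Agent.P190.Base1

namespace Vale.Agent.P190

open Module MvPolynomial

def Pj (j : ℕ) (h : ℤ → ℝ) : Prop := ∃ a b c : ℝ, ∃ m0 : ℤ, (j ≤ 2 → a = 0) ∧ (j ≤ 1 → b = 0) ∧
  (j ≤ 0 → c = 0) ∧ ∀ m ≥ m0, h m = a * m ^ 2 / 2 + b * m + c

lemma Pj.step {j : ℕ} (hj : j ≤ 2) {h f g : ℤ → ℝ} (hf : Pj j f) (hg : Pj j g)
    (e : ∀ m, h (m + 1) - h m = f (m + 1) - g m) : Pj (j + 1) h := by
  obtain ⟨a, b, c, m0, h1, h2, h3, h4⟩ := hf
  obtain ⟨a', b', c', m1, g1, g2, g3, g4⟩ := hg
  obtain rfl := h1 hj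
  obtain rfl := g1 hj
  set n := max m0 m1
  refine ⟨b - b', b + c - c' - (b - b') / 2,
    h n - ((b - b') * n ^ 2 / 2 + (b + c - c' - (b - b') / 2) * n), n, fun hh => ?_, fun hh => ?_,
    fun hh => by omega, fun m hm => ?_⟩
  · rw [h2 (by omega), g2 (by omega)]; simp
  · rw [h2 (by omega), g2 (by omega), h3 (by omega), g3 (by omega)]; simp
  · induction m, hm using Int.leInduction with
    | base => ring
    | succ m hm ih =>
      have := e m
      rw [h4 _ (by omega), g4 _ (by omega), ih] at this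
      push_cast at this ⊢
      linarith

lemma dim_rn {k V W : Type} [Field k] [AddCommGroup V] [Module k V] [AddCommGroup W] [Module k W]
    (L : V →ₗ[k] W) (A : Submodule k V) [FiniteDimensional k A] :
    finrank k (A.map L) + finrank k (A ⊓ LinearMap.ker L : Submodule k V) = finrank k A := by
  rw [← LinearMap.finrank_range_add_finrank_ker (L.domRestrict A), LinearMap.range_domRestrict,
    LinearMap.ker_domRestrict, ← Submodule.finrank_map_subtype_eq A, Submodule.map_comap_subtype]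

lemma dim_adj {k V W : Type} [Field k] [AddCommGroup V] [Module k V] [AddCommGroup W] [Module k W]
    (L : V →ₗ[k] W) (A : Submodule k V) (N : Submodule k W) [FiniteDimensional k A]
    [FiniteDimensional k N] :
    finrank k (N ⊔ A.map L : Submodule k W) + finrank k (A ⊓ N.comap L : Submodule k V) =
      finrank k N + finrank k A := by
  have h1 := dim_rn (N.mkQ ∘ₗ L) A
  have h2 := dim_rn N.mkQ (N ⊔ A.map L)
  rw [LinearMap.ker_comp, Submodule.ker_mkQ] at h1
  rw [Submodule.ker_mkQ, Submodule.map_sup, Submodule.mkQ_map_self, bot_sup_eq,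
    ← Submodule.map_comp, inf_eq_right.2 le_sup_left] at h2
  omega

/-- dimension as a real number (use `hf_def` to rewrite inside `hf`) -/
noncomputable def dR {k V : Type} [Field k] [AddCommGroup V] [Module k V] (W : Submodule k V) : ℝ :=
  finrank k W

lemma hf_def {k V : Type} [Field k] [AddCommGroup V] [Module k V] (G : Fam k V) (m : ℤ) :
    hf G m = dR (G m) := rfl

@[simp] lemma dR_bot {k V : Type} [Field k] [AddCommGroup V] [Module k V] :
    dR (⊥ : Submodule k V) = 0 := by simp [dR]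

lemma dR_adj {k V W : Type} [Field k] [AddCommGroup V] [Module k V] [AddCommGroup W] [Module k W]
    (L : V →ₗ[k] W) (A : Submodule k V) (N : Submodule k W) [FiniteDimensional k A]
    [FiniteDimensional k N] : dR (N ⊔ A.map L) + dR (A ⊓ N.comap L) = dR N + dR A := by
  simp only [dR]; exact_mod_cast dim_adj L A N

lemma dR_rn {k V W : Type} [Field k] [AddCommGroup V] [Module k V] [AddCommGroup W] [Module k W]
    (L : V →ₗ[k] W) (A : Submodule k V) [FiniteDimensional k A] :
    dR (A.map L) + dR (A ⊓ LinearMap.ker L) = dR A := by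
  simp only [dR]; exact_mod_cast dim_rn L A

lemma dR_mono {k V : Type} [Field k] [AddCommGroup V] [Module k V] {A B : Submodule k V}
    [FiniteDimensional k B] (h : A ≤ B) : dR A ≤ dR B := by
  simp only [dR]; exact_mod_cast Submodule.finrank_mono h

lemma dR_nonneg {k V : Type} [Field k] [AddCommGroup V] [Module k V] (A : Submodule k V) :
    0 ≤ dR A := Nat.cast_nonneg _

/-- dimension of the image under a map injective on `A` -/
lemma dR_map {k V W : Type} [Field k] [AddCommGroup V] [Module k V] [AddCommGroup W] [Module k W]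
    (L : V →ₗ[k] W) (A : Submodule k V) [FiniteDimensional k A] (h : ∀ v ∈ A, L v = 0 → v = 0) :
    dR (A.map L) = dR A := by
  have := dR_rn L A
  rwa [show A ⊓ LinearMap.ker L = ⊥ from eq_bot_iff.2 fun v hv => h v hv.1 hv.2, dR_bot,
    add_zero] at this

section gen
variable {k C V ι : Type} [Field k] [CommRing C] [Algebra k C] [AddCommGroup V] [Module k V]
  [Module C V] [IsScalarTower k C V]

/-- multiplication by `a` -/
noncomputable def ml (k : Type) [Field k] [Algebra k C] [Module k V] [IsScalarTower k C V]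
    (a : C) : V →ₗ[k] V := (LinearMap.lsmul C V a).restrictScalars k

@[simp] lemma ml_apply (a : C) (v : V) : ml k a v = a • v := rfl

lemma pair_Pj {x : Fin 3 → C} (s : Finset (Fin 3)) : ∀ G U : Fam k V, FG x G → St x U →
    (∀ m, U m ≤ G m) → (∀ i ∉ s, ∀ m, ∀ v ∈ G m, x i • v ∈ U (m + 1)) →
    Pj s.card (fun m => hf G m - hf U m) := by
  induction s using Finset.induction_on with
  | empty =>
    intro G U hG hU hle h
    obtain ⟨m1, h1⟩ := hG.gen
    refine ⟨0, 0, 0, m1 + 1, by simp, by simp, by simp, fun m hm => ?_⟩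
    have : U m = G m := le_antisymm (hle m) fun v hv => by
      obtain ⟨n, rfl⟩ : ∃ n, m = n + 1 := ⟨m - 1, by omega⟩
      obtain ⟨w, hw, rfl⟩ := h1 n (by omega) v hv
      exact Submodule.sum_mem _ fun i _ => h i (by simp) n _ (hw i)
    simp [hf_def, this]
  | insert a s ha ih =>
    intro G U hG hU hle h
    have hc : s.card ≤ 2 := by
      have := Finset.card_le_univ (insert a s)
      rw [Finset.card_insert_of_notMem ha] at this
      simp at this; omega
    rw [Finset.card_insert_of_notMem ha]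
    let U1 : Fam k V := fun m => U m ⊔ (G (m - 1)).map (ml k (x a))
    let U2 : Fam k V := fun m => G m ⊓ (U (m + 1)).comap (ml k (x a))
    have s1 : St x U1 := fun i m v hv => by
      obtain ⟨u, hu, _, ⟨w, hw, rfl⟩, rfl⟩ := Submodule.mem_sup.1 hv
      rw [smul_add]
      refine Submodule.add_mem_sup (hU i m u hu) ⟨x i • w, ?_, by simp [smul_comm (x i)]⟩
      simpa using hG.st i _ w hw
    have s2 : St x U2 := fun i m v hv => ⟨hG.st i m v hv.1, by
      have := hU i _ _ hv.2
      simpa [smul_comm (x i)] using this⟩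
    have p1 := ih G U1 hG s1 (fun m => sup_le (hle m) (by
      rintro _ ⟨w, hw, rfl⟩
      simpa using hG.st a _ w hw)) fun i hi m v hv => by
        by_cases e : i = a
        · exact Submodule.mem_sup_right ⟨v, by simpa using hv, by simp [e]⟩
        · exact Submodule.mem_sup_left (h i (by simp [hi, e]) m v hv)
    have p2 := ih U2 U (hG.sub s2 fun m => inf_le_left) hU
      (fun m v hv => ⟨hle m hv, hU a m v hv⟩) fun i hi m v hv => by
        by_cases e : i = a
        · exact e ▸ hv.2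
        · exact h i (by simp [hi, e]) m v hv.1
    refine Pj.step hc p1 p2 fun m => ?_
    have := hG.fin m
    have := (hG.sub hU hle).fin (m + 1)
    have := dR_adj (ml k (x a)) (G m) (U (m + 1))
    simp only [hf_def, U1, U2, add_sub_cancel_right]
    linarith

omit [Algebra k C] [Module C V] [IsScalarTower k C V] in
lemma hf_bot (m : ℤ) : hf (fun _ => (⊥ : Submodule k V)) m = 0 := by simp [hf]

omit [Algebra k C] [Module C V] [IsScalarTower k C V] in
lemma isHP_of {G : Fam k V} (h : ∃ t, IsHP (hf G) t) : ∃ m0 : ℤ, ∀ m ≥ m0, hf G m = HP G m :=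
  Classical.epsilon_spec h

theorem FG.isHP {x : Fin 3 → C} {G : Fam k V} (hG : FG x G) :
    ∃ m0 : ℤ, ∀ m ≥ m0, hf G m = HP G m := by
  obtain ⟨a, b, c, m0, -, -, -, h⟩ := pair_Pj Finset.univ G (fun _ => ⊥) hG (FG.bot x).st
    (fun _ => bot_le) (by simp)
  exact isHP_of ⟨(a, b, c), m0, fun m hm => by simpa [hf_bot] using h m hm⟩

omit [Algebra k C] [Module C V] [IsScalarTower k C V] in
theorem hp_eq {G : Fam k V} {a b c : ℝ} {m0 : ℤ}
    (h : ∀ m : ℤ, m0 ≤ m → hf G m = a * m ^ 2 / 2 + b * m + c) :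
    rk G = a ∧ dg G = b ∧ cs G = c := by
  obtain ⟨m1, h1⟩ := isHP_of ⟨(a, b, c), m0, h⟩
  exact poly_eq (m0 := max m0 m1) fun m hm => (h1 m (by omega)).symm.trans (h m (by omega))

omit [Algebra k C] [Module C V] [IsScalarTower k C V] in
lemma hf_le {G U : Fam k V} {m n : ℤ} [FiniteDimensional k (G n)] (h : U m ≤ G n) :
    hf U m ≤ hf G n := by
  simp only [hf]; exact_mod_cast Submodule.finrank_mono h

theorem hp_mono {x : Fin 3 → C} {G U : Fam k V} (hG : FG x G) (hU : St x U)
    (hle : ∀ m, U m ≤ G m) :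
    rk U ≤ rk G ∧ (rk U = rk G → dg U ≤ dg G) ∧ (rk U = rk G → dg U = dg G → cs U ≤ cs G) := by
  obtain ⟨m0, h0⟩ := hG.isHP
  obtain ⟨m1, h1⟩ := (hG.sub hU hle).isHP
  refine poly_le (m0 := max m0 m1) fun m hm => ?_
  have := hG.fin m
  have := hf_le (hle m)
  rw [h0 m (by omega), h1 m (by omega)] at this
  exact this

omit [Algebra k C] [Module C V] [IsScalarTower k C V] in
lemma hp_bot : rk (fun _ => (⊥ : Submodule k V)) = 0 ∧ dg (fun _ => (⊥ : Submodule k V)) = 0 ∧
    cs (fun _ => (⊥ : Submodule k V)) = 0 := hp_eq (m0 := 0) fun m _ => by simp [hf_bot]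

theorem rk_nonneg {x : Fin 3 → C} {G : Fam k V} (hG : FG x G) : 0 ≤ rk G := by
  have := (hp_mono hG (FG.bot x).st fun _ => bot_le).1
  rwa [hp_bot.1] at this

/-- A quotient killed by one variable has rank zero, by two variables it is bounded. -/
theorem hp_kill {x : Fin 3 → C} {G U : Fam k V} (hG : FG x G) (hU : St x U)
    (hle : ∀ m, U m ≤ G m) (h0 : ∀ m, ∀ v ∈ G m, x 0 • v ∈ U (m + 1)) :
    rk U = rk G ∧ ((∀ m, ∀ v ∈ G m, x 1 • v ∈ U (m + 1)) → dg U = dg G) := by
  obtain ⟨m0, g0⟩ := hG.isHP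
  obtain ⟨m1, g1⟩ := (hG.sub hU hle).isHP
  have key : ∀ j, Pj j (fun m => hf G m - hf U m) → (j ≤ 2 → rk U = rk G) ∧
      (j ≤ 1 → dg U = dg G) := by
    rintro j ⟨a, b, c, m2, e1, e2, -, e⟩
    obtain ⟨f1, f2, -⟩ := poly_eq (a := rk G - rk U) (b := dg G - dg U) (c := cs G - cs U)
      (a' := a) (b' := b) (c' := c) (m0 := max m0 (max m1 m2)) fun m hm => by
        rw [← e m (by omega)]; dsimp only; rw [g0 m (by omega), g1 m (by omega), HP, HP]; ring
    exact ⟨fun h => by have := e1 h; linarith, fun h => by have := e2 h; linarith⟩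
  refine ⟨(key _ (pair_Pj {1, 2} G U hG hU hle fun i hi => ?_)).1 (by decide), fun h1 =>
    (key _ (pair_Pj {2} G U hG hU hle fun i hi => ?_)).2 (by decide)⟩
  · fin_cases i
    · exact h0
    · simp at hi
    · simp at hi
  · fin_cases i
    · exact h0
    · exact h1
    · simp at hi

theorem mem_Ax {x : Fin 3 → C} {n : ℕ} {a : C} : a ∈ Ax k x n ↔
    ∃ f : MvPolynomial (Fin 3) k, f.IsHomogeneous n ∧ MvPolynomial.aeval x f = a := by
  simp [Ax, show ¬ ((n : ℤ) < 0) by omega]

theorem Ax_neg {x : Fin 3 → C} {j : ℤ} (h : j < 0) : Ax k x j = ⊥ := by simp [Ax, h]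

theorem Ax_mul {x : Fin 3 → C} {i j : ℤ} {a b : C} (ha : a ∈ Ax k x i) (hb : b ∈ Ax k x j) :
    a * b ∈ Ax k x (i + j) := by
  by_cases hi : i < 0
  · rw [Ax_neg hi] at ha; simp_all
  by_cases hj : j < 0
  · rw [Ax_neg hj] at hb; simp_all
  lift i to ℕ using by omega
  lift j to ℕ using by omega
  obtain ⟨f, hf, rfl⟩ := mem_Ax.1 ha
  obtain ⟨g, hg, rfl⟩ := mem_Ax.1 hb
  exact_mod_cast mem_Ax.2 ⟨f * g, hf.mul hg, by simp⟩

theorem x_mem_Ax (x : Fin 3 → C) (i : Fin 3) : x i ∈ Ax k x 1 := by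
  exact_mod_cast mem_Ax.2 ⟨X i, isHomogeneous_X _ i, by simp⟩

theorem one_mem_Ax (x : Fin 3 → C) : (1 : C) ∈ Ax k x 0 := by
  exact_mod_cast mem_Ax.2 ⟨1, isHomogeneous_one _ _, by simp⟩

lemma Ax_zero (x : Fin 3 → C) {a : C} (ha : a ∈ Ax k x 0) : ∃ r : k, a = algebraMap k C r := by
  obtain ⟨f, hf, rfl⟩ := (mem_Ax (n := 0)).1 ha
  rw [← totalDegree_zero_iff_isHomogeneous, totalDegree_eq_zero_iff_eq_C] at hf
  exact ⟨coeff 0 f, by rw [hf]; simp⟩

lemma Ax_succ (x : Fin 3 → C) {m : ℤ} (hm : 0 ≤ m) : Ax k x (m + 1) ≤ xm x (Ax k x m) := by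
  lift m to ℕ using hm
  intro a ha
  obtain ⟨f, hf, rfl⟩ := (mem_Ax (n := m + 1)).1 (by exact_mod_cast ha)
  rw [← mem_homogeneousSubmodule, ← homogeneousSubmodule_one_pow, pow_succ',
    homogeneousSubmodule_one_pow] at hf
  refine Submodule.mul_induction_on hf (fun g hg h hh => ?_) fun a b ha hb => ?_
  · rw [homogeneousSubmodule_one_eq_span_X] at hg
    induction hg using Submodule.span_induction with
    | mem g hg =>
      obtain ⟨i, rfl⟩ := hg
      simpa using! smul_mem_xm x i (mem_Ax.2 ⟨h, hh, rfl⟩)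
    | zero => simp
    | add a b _ _ ha hb => simpa [add_mul] using Submodule.add_mem _ ha hb
    | smul r a _ ha => simpa using Submodule.smul_mem _ r ha
  · simpa using Submodule.add_mem _ ha hb

theorem St.ax {x : Fin 3 → C} {G : Fam k V} (hG : St x G) {j m : ℤ} {a : C} {v : V}
    (ha : a ∈ Ax k x j) (hv : v ∈ G m) : a • v ∈ G (j + m) := by
  by_cases hj : j < 0
  · rw [Ax_neg hj] at ha; simp_all
  replace hj : 0 ≤ j := by omega
  induction j, hj using Int.leInduction generalizing a with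
  | base =>
    obtain ⟨r, rfl⟩ := Ax_zero x ha
    simpa using (G m).smul_mem r hv
  | succ j hj ih =>
    obtain ⟨w, hw, rfl⟩ := Ax_succ x hj ha
    rw [Finset.sum_smul, add_right_comm]
    exact Submodule.sum_mem _ fun i _ => by
      rw [smul_assoc]; exact hG i _ _ (ih (hw i))

theorem fg_Ax (x : Fin 3 → C) : FG x (Ax k x) := by
  refine ⟨fun i m v hv => by simpa [add_comm] using Ax_mul (x_mem_Ax x i) hv, fun m => ?_,
    ⟨0, fun m hm => Ax_neg hm⟩, ⟨0, fun m hm v hv => Ax_succ x hm hv⟩⟩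
  refine (Submodule.fg_iff_finiteDimensional _).1 ?_
  simp only [Ax]
  split_ifs
  · exact Submodule.fg_bot
  · exact (homogeneousSubmodule_fg _ _ _).map _

lemma finrank_hom (n : ℕ) :
    finrank k (homogeneousSubmodule (Fin 3) k n) = (n + 2).choose 2 := by
  classical
  have e : {d : Fin 3 →₀ ℕ | d.degree = n} =
      ((Finset.finsuppAntidiag Finset.univ n : Finset (Fin 3 →₀ ℕ)) : Set _) := by
    ext d; simp [Finsupp.degree_eq_sum]
  have : homogeneousSubmodule (Fin 3) k n = restrictSupport k {d | d.degree = n} := by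
    rw [homogeneousSubmodule_eq_finsupp_supported]; rfl
  rw [this, e, finrank_eq_card_basis (basisRestrictSupport k _)]
  simp [Finset.card_finsuppAntidiag_nat_eq_choose, add_comm 3 n]
  exact Nat.choose_symm_add

theorem hf_Ax {x : Fin 3 → C} (h : Ind k x) {m : ℤ} (hm : -2 ≤ m) :
    hf (Ax k x) m = (m + 1) * (m + 2) / 2 := by
  by_cases h0 : m < 0
  · have : m = -1 ∨ m = -2 := by omega
    rcases this with rfl | rfl <;> simp [hf_def, Ax]
  lift m to ℕ using by omega
  have := (Submodule.fg_iff_finiteDimensional _).1 (homogeneousSubmodule_fg (Fin 3) k m)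
  have h1 := dR_map (aeval (R := k) x).toLinearMap (homogeneousSubmodule (Fin 3) k m) (h m)
  simp only [hf_def, Ax, h0, if_false, Int.toNat_natCast, h1]
  rw [dR, finrank_hom, Nat.cast_choose_two]
  push_cast; ring

theorem hp_Ax {x : Fin 3 → C} (h : Ind k x) :
    rk (Ax k x) = 1 ∧ dg (Ax k x) = 3 / 2 ∧ cs (Ax k x) = 1 :=
  hp_eq (m0 := 0) fun m hm => by rw [hf_Ax h (by omega)]; ring

theorem Ind.change {x : Fin 3 → C} (h : Ind k x) (α β : k) :
    Ind k ![x 0 - α • x 2, x 1 - β • x 2, x 2] ∧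
      Ax k ![x 0 - α • x 2, x 1 - β • x 2, x 2] = Ax k x := by
  let s : k → k → Fin 3 → MvPolynomial (Fin 3) k := fun a b => ![X 0 - a • X 2, X 1 - b • X 2, X 2]
  have hs : ∀ a b i, (s a b i).IsHomogeneous 1 := fun a b i => by
    have := isHomogeneous_X k (σ := Fin 3)
    fin_cases i
    · exact (this 0).sub ((homogeneousSubmodule _ k 1).smul_mem a (this 2))
    · exact (this 1).sub ((homogeneousSubmodule _ k 1).smul_mem b (this 2))
    · exact this 2
  have hh : ∀ a b n (f : MvPolynomial (Fin 3) k), f.IsHomogeneous n →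
      (aeval (s a b) f).IsHomogeneous n := fun a b n f hf => by simpa using hf.aeval _ (hs a b)
  have e1 : ∀ f : MvPolynomial (Fin 3) k,
      aeval x (aeval (s α β) f) = aeval ![x 0 - α • x 2, x 1 - β • x 2, x 2] f := by
    intro f
    rw [← AlgHom.comp_apply, comp_aeval]
    congr 2; funext i; fin_cases i <;> simp [s]
  have e2 : ∀ f : MvPolynomial (Fin 3) k, aeval (s α β) (aeval (s (-α) (-β)) f) = f := by
    intro f
    rw [← AlgHom.comp_apply, comp_aeval]
    have : (fun i => aeval (s α β) (s (-α) (-β) i)) = X := by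
      funext i; fin_cases i <;> simp [s]
    rw [this, aeval_X_left_apply]
  have e3 : ∀ f : MvPolynomial (Fin 3) k, aeval (s (-α) (-β)) (aeval (s α β) f) = f := by
    intro f
    rw [← AlgHom.comp_apply, comp_aeval]
    have : (fun i => aeval (s (-α) (-β)) (s α β i)) = X := by
      funext i; fin_cases i <;> simp [s]
    rw [this, aeval_X_left_apply]
  refine ⟨fun n f hf h0 => ?_, funext fun m => ?_⟩
  · rw [← e3 f, h n _ (hh α β n f hf) (by rw [e1, h0]), map_zero]
  · by_cases hm : m < 0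
    · rw [Ax_neg hm, Ax_neg hm]
    lift m to ℕ using by omega
    ext a
    simp only [mem_Ax]
    exact ⟨fun ⟨f, hf, e⟩ => ⟨_, hh α β m f hf, by rw [e1, e]⟩,
      fun ⟨f, hf, e⟩ => ⟨_, hh (-α) (-β) m f hf, by rw [← e1, e2, e]⟩⟩

/-- Generators in a window of degrees. -/
theorem gens_aux {x : Fin 3 → C} {G : Fam k V} (hf : ∀ m, FiniteDimensional k (G m)) {m0 m1 : ℤ}
    (h0 : ∀ m < m0, G m = ⊥) (h1 : ∀ m ≥ m1, G (m + 1) ≤ xm x (G m)) :
    ∃ (t : ℕ) (v : Fin t → V) (g : Fin t → ℤ), (∀ l, v l ∈ G (g l) ∧ m0 ≤ g l ∧ g l ≤ max m0 m1) ∧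
      ∀ m, ∀ u ∈ G m, ∃ a : Fin t → C, (∀ l, a l ∈ Ax k x (m - g l)) ∧ u = ∑ l, a l • v l := by
  classical
  let τ := Σ m : Finset.Icc m0 (max m0 m1), Fin (finrank k (G m))
  let e := (Fintype.equivFin τ).symm
  let v : τ → V := fun l => finBasis k (G l.1) l.2
  have key : ∀ m, ∀ u ∈ G m, ∃ a : τ → C, (∀ l, a l ∈ Ax k x (m - l.1)) ∧ u = ∑ l, a l • v l := by
    have low : ∀ m ≤ max m0 m1, ∀ u ∈ G m,
        ∃ a : τ → C, (∀ l, a l ∈ Ax k x (m - l.1)) ∧ u = ∑ l, a l • v l := by
      intro m hm u hu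
      by_cases h : m < m0
      · exact ⟨0, fun _ => zero_mem _, by simpa [h0 m h] using hu⟩
      let m' : Finset.Icc m0 (max m0 m1) := ⟨m, by simp only [Finset.mem_Icc]; omega⟩
      have hb := congrArg Subtype.val ((finBasis k (G m')).sum_repr ⟨u, hu⟩)
      refine ⟨∑ i, Pi.single (⟨m', i⟩ : τ) (algebraMap k C ((finBasis k (G m')).repr ⟨u, hu⟩ i)),
        fun l => ?_, ?_⟩
      · rw [Finset.sum_apply]
        refine Submodule.sum_mem _ fun i _ => ?_
        by_cases hl : l = ⟨m', i⟩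
        · subst hl
          simpa [m', Algebra.algebraMap_eq_smul_one] using Submodule.smul_mem _ _ (one_mem_Ax x)
        · simp [hl]
      · simp only [Finset.sum_apply, Finset.sum_smul]
        rw [Finset.sum_comm]
        have : ∀ (j : τ) (c : C), ∑ l, (Pi.single j c : τ → C) l • v l = c • v j := fun j c => by
          rw [Finset.sum_eq_single j] <;> simp +contextual
        simp only [this, algebraMap_smul]
        rw [Submodule.coe_sum] at hb
        exact hb.symm
    intro m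
    by_cases hm : m ≤ max m0 m1
    · exact low m hm
    have hm : max m0 m1 ≤ m := by omega
    induction m, hm using Int.leInduction with
    | base => exact low _ le_rfl
    | succ m hm ih =>
      intro u hu
      obtain ⟨w, hw, rfl⟩ := h1 m (by omega) hu
      choose a ha hw' using fun i => (if hm' : m ≤ max m0 m1 then low m hm' else ih hm') (w i) (hw i)
      refine ⟨fun l => ∑ i, x i * a i l, fun l => Submodule.sum_mem _ fun i _ => ?_, ?_⟩
      · have := Ax_mul (x_mem_Ax x i) (ha i l)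
        rwa [show 1 + (m - (l.1 : ℤ)) = m + 1 - l.1 by ring] at this
      · simp only [hw', Finset.smul_sum, Finset.sum_smul, mul_smul]
        exact Finset.sum_comm
  refine ⟨_, v ∘ e, fun l => (e l).1, fun l => ⟨Subtype.prop _, Finset.mem_Icc.1 (e l).1.2⟩,
    fun m u hu => ?_⟩
  obtain ⟨a, ha, rfl⟩ := key m u hu
  exact ⟨a ∘ e, fun l => ha _, (e.sum_comp fun l => a l • v l).symm⟩

/-- Finitely many homogeneous generators. -/
theorem FG.gens {x : Fin 3 → C} {G : Fam k V} (hG : FG x G) :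
    ∃ (t : ℕ) (v : Fin t → V) (g : Fin t → ℤ), (∀ l, v l ∈ G (g l)) ∧
      ∀ m, ∀ u ∈ G m, ∃ a : Fin t → C, (∀ l, a l ∈ Ax k x (m - g l)) ∧ u = ∑ l, a l • v l := by
  obtain ⟨m0, h0⟩ := hG.low
  obtain ⟨m1, h1⟩ := hG.gen
  obtain ⟨t, v, g, h, h'⟩ := gens_aux hG.fin h0 h1
  exact ⟨t, v, g, fun l => (h l).1, h'⟩

/-- The free module `⊕ A(c l)`. -/
noncomputable def Fr (k : Type) [Field k] [Algebra k C] {τ : Type} (x : Fin 3 → C) (c : τ → ℤ) :
    Fam k (τ → C) := fun m => Submodule.pi Set.univ fun l => Ax k x (m + c l)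

theorem mem_Fr {τ : Type} {x : Fin 3 → C} {c : τ → ℤ} {m : ℤ} {v : τ → C} :
    v ∈ Fr k x c m ↔ ∀ l, v l ∈ Ax k x (m + c l) := by simp [Fr, Submodule.mem_pi]

theorem fg_Fr {τ : Type} [Fintype τ] (x : Fin 3 → C) (c : τ → ℤ) : FG x (Fr k x c) := by
  classical
  have := FG.iSup fun l => ((fg_Ax (k := k) x).shift (c l)).map (LinearMap.single C (fun _ => C) l)
  refine (show _ = Fr k x c from funext fun m => ?_) ▸ this
  rw [Fr, ← Submodule.iSup_map_single]
  rfl

lemma finrank_pi_sub {τ : Type} [Fintype τ] (W : τ → Submodule k V)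
    [∀ l, FiniteDimensional k (W l)] :
    finrank k (Submodule.pi Set.univ W) = ∑ l, finrank k (W l) := by
  rw [← finrank_pi_fintype]
  exact LinearEquiv.finrank_eq
    { toFun := fun v l => ⟨v.1 l, v.2 l trivial⟩
      invFun := fun v => ⟨fun l => v l, fun l _ => (v l).2⟩
      map_add' := fun _ _ => rfl
      map_smul' := fun _ _ => rfl
      left_inv := fun _ => rfl
      right_inv := fun _ => rfl }

theorem hf_Fr {τ : Type} [Fintype τ] (x : Fin 3 → C) (c : τ → ℤ) (m : ℤ) :
    hf (Fr k x c) m = ∑ l, hf (Ax k x) (m + c l) := by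
  have := fun l => (fg_Ax (k := k) x).fin (m + c l)
  rw [hf_def, Fr, dR, finrank_pi_sub]
  push_cast; rfl

end gen

end Vale.Agent.P190
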