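import Vale.Agent.P190.Base

/-! P190, module L: weak Bogomolov inequality from the `χ ≤ h⁰` bound. -/

namespace Vale.Agent.P190.L

open Module MvPolynomial

section poly
variable {k K : Type} [Field k] [Field K] [Algebra k K]

theorem eval_scale {n : ℕ} {f : MvPolynomial (Fin 3) k} (hf : f.IsHomogeneous n) (c : k)
    (p : Fin 3 → k) : eval (fun i => c * p i) f = c ^ n * eval p f := by
  rw [eval_eq', eval_eq', Finset.mul_sum]
  refine Finset.sum_congr rfl fun d hd => ?_
  have h1 : ∑ i, d i = n := by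
    have := hf.coeff_eq_zero (d := d)
    by_contra h
    refine (mem_support_iff.mp hd) (this ?_)
    rwa [Finsupp.degree_eq_sum]
  simp only [mul_pow, Finset.prod_mul_distrib, Finset.prod_pow_eq_pow_sum, h1]
  ring

/-- `g` is a form of degree `j` not vanishing at `(0,0,1)`. -/
def Gd (k : Type) [Field k] [Algebra k K] (y : Fin 3 → K) (j : ℕ) (g : K) : Prop :=
  ∃ f : MvPolynomial (Fin 3) k, f.IsHomogeneous j ∧ aeval y f = g ∧ eval ![0, 0, 1] f ≠ 0

theorem exists_gd [Infinite k] (x : Fin 3 → K) {j : ℕ} {g : K} (hg : g ∈ Ax k x j) (h0 : g ≠ 0) :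
    ∃ α β : k, Gd k ![x 0 - α • x 2, x 1 - β • x 2, x 2] j g := by
  obtain ⟨f, hf, rfl⟩ := mem_Ax.mp hg
  have hf0 : f ≠ 0 := by rintro rfl; simp at h0
  have hex : ∃ α β : k, eval ![α, β, 1] f ≠ 0 := by
    by_contra hne
    push Not at hne
    have : f * X 2 = 0 := by
      refine MvPolynomial.funext fun p => ?_
      rw [map_mul, eval_X, map_zero]
      by_cases hp : p 2 = 0
      · rw [hp, mul_zero]
      · have e : p = fun i => p 2 * (![p 0 / p 2, p 1 / p 2, 1] : Fin 3 → k) i := by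
          funext i
          fin_cases i <;> simp <;> field_simp
        have := eval_scale hf (p 2) ![p 0 / p 2, p 1 / p 2, 1]
        rw [← e, hne, mul_zero] at this
        rw [this, zero_mul]
    rcases mul_eq_zero.mp this with h | h
    · exact hf0 h
    · exact X_ne_zero _ h
  obtain ⟨α, β, h⟩ := hex
  refine ⟨α, β, aeval ![X 0 + C α * X 2, X 1 + C β * X 2, X 2] f, ?_, ?_, ?_⟩
  · have := hf.aeval (S := k) (τ := Fin 3) ![X 0 + C α * X 2, X 1 + C β * X 2, X 2] (n := 1) (by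
      intro i
      fin_cases i
      · exact (isHomogeneous_X k 0).add (isHomogeneous_C_mul_X α 2)
      · exact (isHomogeneous_X k 1).add (isHomogeneous_C_mul_X β 2)
      · exact isHomogeneous_X k 2)
    simpa using this
  · rw [← AlgHom.comp_apply, comp_aeval]
    congr 2
    funext i
    fin_cases i <;> simp [Algebra.smul_def]
  · have e : eval (![0, 0, 1] : Fin 3 → k)
        (aeval ![X 0 + C α * X 2, X 1 + C β * X 2, X 2] f) = eval ![α, β, 1] f := by
      rw [← coe_aeval_eq_eval, ← coe_aeval_eq_eval]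
      change aeval _ (aeval _ f) = aeval _ f
      rw [← AlgHom.comp_apply, comp_aeval]
      congr 2
      funext i
      fin_cases i <;> simp
    rwa [e]

theorem div_X (y : Fin 3 → K) {n : ℕ} {f : MvPolynomial (Fin 3) k} (hf : f.IsHomogeneous n)
    {i : Fin 3} (h : X i ∣ f) : ∃ w ∈ Ax k y ((n : ℤ) - 1), aeval y f = y i * w := by
  obtain ⟨f', rfl⟩ := h
  have key : ∀ d, coeff d f' ≠ 0 → d.degree + 1 = n := by
    intro d hd
    by_contra hne
    apply hd
    rw [← coeff_X_mul d i f']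
    apply hf.coeff_eq_zero
    rw [map_add, Finsupp.degree_single]
    omega
  refine ⟨aeval y f', ?_, by rw [map_mul, aeval_X]⟩
  rcases n with _ | n
  · have : f' = 0 := by
      ext d
      by_contra hd
      have := key d hd
      omega
    rw [this, map_zero]
    exact Submodule.zero_mem _
  · have e : ((n + 1 : ℕ) : ℤ) - 1 = n := by push_cast; ring
    rw [e]
    refine mem_Ax.mpr ⟨f', ?_, rfl⟩
    intro d hd
    have := key d hd
    have h2 : Finsupp.degree d = n := by omega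
    rw [Finsupp.degree_eq_weight_one] at h2
    exact h2

theorem split01 (y : Fin 3 → K) {n : ℕ} {f : MvPolynomial (Fin 3) k} (hf : f.IsHomogeneous n)
    (h : eval ![0, 0, 1] f = 0) : ∃ b ∈ Ax k y ((n : ℤ) - 1), ∃ c ∈ Ax k y ((n : ℤ) - 1),
      aeval y f = y 0 * b + y 1 * c := by
  classical
  have key : ∀ d ∈ f.support, 0 < d 0 ∨ 0 < d 1 := by
    intro d hd
    by_contra hne
    push Not at hne
    have hd0 : d 0 = 0 := by omega
    have hd1 : d 1 = 0 := by omega
    have deg : ∀ e ∈ f.support, e 0 + e 1 + e 2 = n := by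
      intro e he
      by_contra h'
      refine (mem_support_iff.mp he) (hf.coeff_eq_zero ?_)
      rwa [Finsupp.degree_eq_sum, Fin.sum_univ_three]
    rw [eval_eq', Finset.sum_eq_single d] at h
    · rw [Fin.prod_univ_three] at h
      simp [hd0, hd1] at h
      exact (mem_support_iff.mp hd) h
    · intro e he hed
      rw [Fin.prod_univ_three]
      have : e 0 ≠ 0 ∨ e 1 ≠ 0 := by
        by_contra h'
        push Not at h'
        apply hed
        ext i
        have h1 := deg e he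
        have h2 := deg d hd
        fin_cases i
        · simp [h'.1, hd0]
        · simp [h'.2, hd1]
        · simp only [Fin.reduceFinMk]
          omega
      rcases this with h' | h' <;> simp [h']
    · intro h'
      exact absurd hd h'
  have hm : ∀ d ∈ f.support, ∃ b ∈ Ax k y ((n : ℤ) - 1), ∃ c ∈ Ax k y ((n : ℤ) - 1),
      aeval y (monomial d (coeff d f)) = y 0 * b + y 1 * c := by
    intro d hd
    have hh : (monomial d (coeff d f)).IsHomogeneous n := by
      apply isHomogeneous_monomial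
      by_contra h'
      exact (mem_support_iff.mp hd) (hf.coeff_eq_zero h')
    rcases key d hd with h' | h'
    · obtain ⟨w, hw, e⟩ := div_X y hh (i := 0) (X_dvd_monomial.mpr (Or.inr h'.ne'))
      exact ⟨w, hw, 0, Submodule.zero_mem _, by rw [e, mul_zero, add_zero]⟩
    · obtain ⟨w, hw, e⟩ := div_X y hh (i := 1) (X_dvd_monomial.mpr (Or.inr h'.ne'))
      exact ⟨0, Submodule.zero_mem _, w, hw, by rw [e, mul_zero, zero_add]⟩
  choose! b hb c hc e using hm
  refine ⟨∑ d ∈ f.support, b d, Submodule.sum_mem _ hb, ∑ d ∈ f.support, c d,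
    Submodule.sum_mem _ hc, ?_⟩
  conv_lhs => rw [f.as_sum, map_sum]
  rw [Finset.mul_sum, Finset.mul_sum, ← Finset.sum_add_distrib]
  exact Finset.sum_congr rfl e

theorem ax_cases {y : Fin 3 → K} {n : ℤ} {a : K} (ha : a ∈ Ax k y n) :
    a = 0 ∨ ∃ (s : ℕ) (f : MvPolynomial (Fin 3) k), n = s ∧ f.IsHomogeneous s ∧ aeval y f = a := by
  by_cases h : n < 0
  · rw [Ax_neg h] at ha
    exact Or.inl ha
  · obtain ⟨s, rfl⟩ := Int.eq_ofNat_of_zero_le (not_lt.mp h)
    obtain ⟨f, hf, e⟩ := mem_Ax.mp ha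
    exact Or.inr ⟨s, f, rfl, hf, e⟩

theorem ax_lift {y : Fin 3 → K} {n : ℤ} {a : K} (ha : a ∈ Ax k y n) (s : ℕ) (i : Fin 3)
    (hs : n + 1 = s) : ∃ f : MvPolynomial (Fin 3) k, (X i * f).IsHomogeneous s ∧ aeval y f = a := by
  rcases ax_cases ha with rfl | ⟨t, f, rfl, hf, e⟩
  · exact ⟨0, by rw [mul_zero]; exact isHomogeneous_zero _ _ _, map_zero _⟩
  · refine ⟨f, ?_, e⟩
    have : s = 1 + t := by omega
    rw [this]
    exact (isHomogeneous_X k i).mul hf

theorem depA {y : Fin 3 → K} (h : Ind k y) {n : ℤ} {a b : K} (ha : a ∈ Ax k y n)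
    (hb : b ∈ Ax k y n) (e : y 0 * a = y 1 * b) : ∃ w ∈ Ax k y (n - 1), a = y 1 * w := by
  rcases ax_cases ha with rfl | ⟨s, f, rfl, hf, rfl⟩
  · exact ⟨0, Submodule.zero_mem _, by rw [mul_zero]⟩
  obtain ⟨f', hf', rfl⟩ := mem_Ax.mp hb
  have := h (1 + s) (X 0 * f - X 1 * f') (((isHomogeneous_X k 0).mul hf).sub
    ((isHomogeneous_X k 1).mul hf')) (by rw [map_sub, map_mul, map_mul, aeval_X, aeval_X, e, sub_self])
  have hd : X 1 ∣ X 0 * f := ⟨f', sub_eq_zero.mp this⟩
  rcases X_dvd_mul_iff.mp hd with h' | h'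
  · rw [X_dvd_X] at h'
    exact absurd h' (by decide)
  · exact div_X y hf h'

theorem gd0 {y : Fin 3 → K} (h : Ind k y) {j : ℕ} {g : K} (hg : Gd k y j g) {n : ℤ} {a b : K}
    (ha : a ∈ Ax k y n) (hb : b ∈ Ax k y (j + n - 1)) (e : g * a = y 0 * b) :
    ∃ w ∈ Ax k y (n - 1), a = y 0 * w := by
  rcases ax_cases ha with rfl | ⟨s, f, rfl, hf, rfl⟩
  · exact ⟨0, Submodule.zero_mem _, by rw [mul_zero]⟩
  obtain ⟨G, hG, rfl, hG0⟩ := hg
  obtain ⟨B, hB, rfl⟩ := ax_lift hb (j + s) 0 (by push_cast; ring)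
  have := h (j + s) (G * f - X 0 * B) ((hG.mul hf).sub hB)
    (by rw [map_sub, map_mul, map_mul, aeval_X, e, sub_self])
  have hd : X 0 ∣ G * f := ⟨B, sub_eq_zero.mp this⟩
  rcases X_dvd_mul_iff.mp hd with h' | h'
  · obtain ⟨q, rfl⟩ := h'
    exact absurd (by simp) hG0
  · exact div_X y hf h'

theorem gd1 {y : Fin 3 → K} (h : Ind k y) {j : ℕ} {g : K} (hg : Gd k y j g) {n : ℤ} {a b c : K}
    (ha : a ∈ Ax k y n) (hb : b ∈ Ax k y (j + n - 1)) (hc : c ∈ Ax k y (j + n - 1))
    (e : g * a = y 0 * b + y 1 * c) :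
    ∃ b' ∈ Ax k y (n - 1), ∃ c' ∈ Ax k y (n - 1), a = y 0 * b' + y 1 * c' := by
  rcases ax_cases ha with rfl | ⟨s, f, rfl, hf, rfl⟩
  · exact ⟨0, Submodule.zero_mem _, 0, Submodule.zero_mem _, by simp⟩
  obtain ⟨G, hG, rfl, hG0⟩ := hg
  obtain ⟨B, hB, rfl⟩ := ax_lift hb (j + s) 0 (by push_cast; ring)
  obtain ⟨D, hD, rfl⟩ := ax_lift hc (j + s) 1 (by push_cast; ring)
  have := h (j + s) (G * f - (X 0 * B + X 1 * D)) ((hG.mul hf).sub (hB.add hD))
    (by rw [map_sub, map_mul, map_add, map_mul, map_mul, aeval_X, aeval_X, e, sub_self])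
  have h2 := congrArg (eval (![0, 0, 1] : Fin 3 → k)) (sub_eq_zero.mp this)
  simp only [map_mul, map_add, eval_X, Matrix.cons_val_zero, Matrix.cons_val_one, zero_mul,
    add_zero, mul_eq_zero] at h2
  exact split01 y hf (h2.resolve_left hG0)

end poly

section free
variable {k K V τ : Type} [Field k] [Field K] [Algebra k K] [AddCommGroup V] [Module k V]
  [Module K V] [IsScalarTower k K V] [Fintype τ] {y : Fin 3 → K} {v : τ → V} {e : τ → ℤ}

theorem dep_free (h : Ind k y) (hv : AInd k y v e) :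
    Dep2 (y 0) (y 1) (gen (Ax k y) v e) := by
  intro m a b ha hb hab
  obtain ⟨p, hp, rfl⟩ := mem_gen.mp ha
  obtain ⟨q, hq, rfl⟩ := mem_gen.mp hb
  have h0 := hv (m + 1) (fun l => y 0 * p l - y 1 * q l) (fun l => by
    have e1 : m + 1 - e l = 1 + (m - e l) := by ring
    rw [e1]
    exact Submodule.sub_mem _ (Ax_mul (x_mem_Ax y 0) (hp l)) (Ax_mul (x_mem_Ax y 1) (hq l))) (by
    simp only [sub_smul, mul_smul, Finset.sum_sub_distrib, ← Finset.smul_sum]
    rw [hab, sub_self])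
  have h1 : ∀ l, ∃ w ∈ Ax k y (m - e l - 1), p l = y 1 * w := fun l =>
    depA h (hp l) (hq l) (sub_eq_zero.mp (congrFun h0 l))
  choose w hw hw' using h1
  refine ⟨∑ l, w l • v l, mem_gen.mpr ⟨w, fun l => ?_, rfl⟩, ?_⟩
  · have e1 : m - 1 - e l = m - e l - 1 := by ring
    rw [e1]
    exact hw l
  · simp only [Finset.smul_sum, ← mul_smul, ← hw']

theorem gd0_free (h : Ind k y) (hv : AInd k y v e) {j : ℕ} {g : K} (hg : Gd k y j g) {n : ℤ}
    {a b : V} (ha : a ∈ gen (Ax k y) v e n) (hb : b ∈ gen (Ax k y) v e (j + n - 1))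
    (hab : g • a = y 0 • b) : ∃ w ∈ gen (Ax k y) v e (n - 1), a = y 0 • w := by
  obtain ⟨p, hp, rfl⟩ := mem_gen.mp ha
  obtain ⟨q, hq, rfl⟩ := mem_gen.mp hb
  have hgA : g ∈ Ax k y j := by
    obtain ⟨f, hf, e1, -⟩ := hg
    exact mem_Ax.mpr ⟨f, hf, e1⟩
  have h0 := hv (j + n) (fun l => g * p l - y 0 * q l) (fun l => by
    refine Submodule.sub_mem _ ?_ ?_
    · have e1 : j + n - e l = j + (n - e l) := by ring
      rw [e1]
      exact Ax_mul hgA (hp l)
    · have e1 : j + n - e l = 1 + (j + n - 1 - e l) := by ring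
      rw [e1]
      exact Ax_mul (x_mem_Ax y 0) (hq l)) (by
    simp only [sub_smul, mul_smul, Finset.sum_sub_distrib, ← Finset.smul_sum]
    rw [hab, sub_self])
  have h1 : ∀ l, ∃ w ∈ Ax k y (n - e l - 1), p l = y 0 * w := fun l =>
    gd0 h hg (hp l) (by
      have e1 : j + (n - e l) - 1 = j + n - 1 - e l := by ring
      rw [e1]
      exact hq l) (sub_eq_zero.mp (congrFun h0 l))
  choose w hw hw' using h1
  refine ⟨∑ l, w l • v l, mem_gen.mpr ⟨w, fun l => ?_, rfl⟩, ?_⟩
  · have e1 : n - 1 - e l = n - e l - 1 := by ring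
    rw [e1]
    exact hw l
  · simp only [Finset.smul_sum, ← mul_smul, ← hw']

theorem gd1_free (h : Ind k y) (hv : AInd k y v e) {j : ℕ} {g : K} (hg : Gd k y j g) {n : ℤ}
    {a b c : V} (ha : a ∈ gen (Ax k y) v e n) (hb : b ∈ gen (Ax k y) v e (j + n - 1))
    (hc : c ∈ gen (Ax k y) v e (j + n - 1)) (hab : g • a = y 0 • b + y 1 • c) :
    ∃ b' ∈ gen (Ax k y) v e (n - 1), ∃ c' ∈ gen (Ax k y) v e (n - 1),
      a = y 0 • b' + y 1 • c' := by
  obtain ⟨p, hp, rfl⟩ := mem_gen.mp ha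
  obtain ⟨q, hq, rfl⟩ := mem_gen.mp hb
  obtain ⟨r, hr, rfl⟩ := mem_gen.mp hc
  have hgA : g ∈ Ax k y j := by
    obtain ⟨f, hf, e1, -⟩ := hg
    exact mem_Ax.mpr ⟨f, hf, e1⟩
  have h0 := hv (j + n) (fun l => g * p l - (y 0 * q l + y 1 * r l)) (fun l => by
    refine Submodule.sub_mem _ ?_ ?_
    · have e1 : j + n - e l = j + (n - e l) := by ring
      rw [e1]
      exact Ax_mul hgA (hp l)
    · have e1 : j + n - e l = 1 + (j + n - 1 - e l) := by ring
      rw [e1]
      exact Submodule.add_mem _ (Ax_mul (x_mem_Ax y 0) (hq l)) (Ax_mul (x_mem_Ax y 1) (hr l))) (by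
    simp only [sub_smul, add_smul, mul_smul, Finset.sum_sub_distrib, Finset.sum_add_distrib,
      ← Finset.smul_sum]
    rw [hab, sub_self])
  have e2 : ∀ l, j + (n - e l) - 1 = j + n - 1 - e l := fun l => by ring
  have h1 : ∀ l, ∃ b' ∈ Ax k y (n - e l - 1), ∃ c' ∈ Ax k y (n - e l - 1),
      p l = y 0 * b' + y 1 * c' := fun l =>
    gd1 h hg (hp l) (by rw [e2]; exact hq l) (by rw [e2]; exact hr l)
      (sub_eq_zero.mp (congrFun h0 l))
  choose w hw z hz hw' using h1
  have e1 : ∀ l, n - 1 - e l = n - e l - 1 := fun l => by ring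
  refine ⟨∑ l, w l • v l, mem_gen.mpr ⟨w, fun l => by rw [e1]; exact hw l, rfl⟩,
    ∑ l, z l • v l, mem_gen.mpr ⟨z, fun l => by rw [e1]; exact hz l, rfl⟩, ?_⟩
  simp only [Finset.smul_sum, ← mul_smul, ← Finset.sum_add_distrib, ← add_smul, ← hw']

end free

section lin
variable {k K V : Type} [Field k] [Field K] [Algebra k K] [AddCommGroup V] [Module k V]
  [Module K V] [IsScalarTower k K V]

/-- multiplication by a scalar as a `k`-linear map -/
def mu (k : Type) [Field k] [Algebra k K] [Module k V] [IsScalarTower k K V] (c : K) :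
    V →ₗ[k] V := (c • (LinearMap.id : V →ₗ[K] V)).restrictScalars k

@[simp] theorem mu_apply (c : K) (u : V) : mu k c u = c • u := rfl

theorem mu_inj {c : K} (hc : c ≠ 0) : Function.Injective (mu k c : V →ₗ[k] V) :=
  fun _ _ h => smul_right_injective V hc h

theorem finrank_mu {c : K} (hc : c ≠ 0) (A : Submodule k V) :
    finrank k (A.map (mu k c)) = finrank k A :=
  (LinearEquiv.finrank_eq (Submodule.equivMapOfInjective _ (mu_inj hc) A)).symm

theorem hf_le_of_mul {c : K} (hc : c ≠ 0) {A B : Submodule k V} [FiniteDimensional k B]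
    (h : ∀ u ∈ A, c • u ∈ B) : finrank k A ≤ finrank k B := by
  rw [← finrank_mu hc A]
  apply Submodule.finrank_mono
  rintro _ ⟨u, hu, rfl⟩
  exact h u hu

theorem quot_le {c : K} (hc : c ≠ 0) {A A' W W' : Submodule k V} [FiniteDimensional k A]
    [FiniteDimensional k A'] (hW : W ≤ A) (hW' : W' ≤ A') (h1 : ∀ u ∈ A, c • u ∈ A')
    (h2 : ∀ u ∈ A, c • u ∈ W' → u ∈ W) :
    finrank k A + finrank k W' ≤ finrank k A' + finrank k W := by
  have : FiniteDimensional k W := Submodule.finiteDimensional_of_le hW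
  have : FiniteDimensional k W' := Submodule.finiteDimensional_of_le hW'
  have e := Submodule.finrank_sup_add_finrank_inf_eq (A.map (mu k c)) W'
  rw [finrank_mu hc] at e
  have i1 : finrank k (A.map (mu k c) ⊔ W' : Submodule k V) ≤ finrank k A' := by
    apply Submodule.finrank_mono
    refine sup_le ?_ hW'
    rintro _ ⟨u, hu, rfl⟩
    exact h1 u hu
  have i2 : finrank k (A.map (mu k c) ⊓ W' : Submodule k V) ≤ finrank k W := by
    rw [← finrank_mu hc W]
    apply Submodule.finrank_mono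
    rintro _ ⟨⟨u, hu, rfl⟩, h⟩
    exact ⟨u, h2 u hu h, rfl⟩
  omega

theorem rk_le_of_mul {y : Fin 3 → K} {G F : Fam k V} (hG : FG y G) (hF : FG y F) {c : K}
    (hc : c ≠ 0) {j : ℤ} (h : ∀ m, ∀ u ∈ G m, c • u ∈ F (j + m)) : rk G ≤ rk F := by
  obtain ⟨m1, h1⟩ := hG.isHP
  obtain ⟨m2, h2⟩ := hF.isHP
  refine (poly_le (a := rk G) (b := dg G) (c := cs G) (a' := rk F) (b' := rk F * j + dg F)
    (c' := rk F * j ^ 2 / 2 + dg F * j + cs F) (m0 := max m1 (m2 - j)) fun m hm => ?_).1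
  have i1 := h1 m (le_trans (le_max_left _ _) hm)
  have i2 := h2 (j + m) (by have := le_trans (le_max_right _ _) hm; omega)
  have := hF.fin (j + m)
  have i3 : hf G m ≤ hf F (j + m) := by
    unfold hf
    exact_mod_cast hf_le_of_mul hc (h m)
  rw [i1, i2] at i3
  unfold HP at i3
  push_cast at i3
  linarith

theorem growth {τ : Type} [Fintype τ] {y : Fin 3 → K} {v : τ → V} {e : τ → ℤ} (h : Ind k y)
    (hv : AInd k y v e) {G : Fam k V} (hG : FG y G) (hD : Dep2 (y 0) (y 1) G)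
    (hle : ∀ m, gen (Ax k y) v e m ≤ G m) {j : ℕ} {g : K} (hg : Gd k y j g)
    (hgG : ∀ m, ∀ u ∈ G m, g • u ∈ gen (Ax k y) v e (j + m)) (hrk : rk G = rk (gen (Ax k y) v e))
    {m : ℤ} (hm : gen (Ax k y) v e m = ⊥) :
    hf G m - hf G (m - 1) ≤ dg G - dg (gen (Ax k y) v e) := by
  set F := gen (Ax k y) v e with hF
  have hFG : FG y F := fg_gen (fg_Ax y) v e
  let W : ℤ → Submodule k V := fun n => (G (n - 1)).map (mu k (y 0)) ⊔ F n
  have hW : ∀ n, W n ≤ G n := by
    intro n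
    refine sup_le ?_ (hle n)
    rintro _ ⟨u, hu, rfl⟩
    have := hG.st 0 _ _ hu
    rwa [sub_add_cancel] at this
  let q : ℤ → ℝ := fun n => hf G n - finrank k (W n)
  have step : ∀ n, q n ≤ q (n + 1) := by
    intro n
    have := hG.fin n
    have := hG.fin (n + 1)
    have := quot_le (h.ne 1) (hW n) (hW (n + 1)) (fun u hu => hG.st 1 _ _ hu) (by
      intro u hu hu'
      obtain ⟨_, ⟨w, hw, rfl⟩, f, hf, e1⟩ := Submodule.mem_sup.mp hu'
      rw [add_sub_cancel_right] at hw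
      rw [mu_apply] at e1
      have e2 : g • f = y 0 • (-(g • w)) + y 1 • (g • u) := by
        rw [smul_comm (y 1) g u, ← e1, smul_neg, smul_comm (y 0) g w, smul_add]
        abel
      have e3 : (j : ℤ) + (n + 1) - 1 = j + n := by ring
      obtain ⟨b, hb, c, hc, e4⟩ := gd1_free h hv hg hf
        (by rw [e3]; exact Submodule.neg_mem _ (hgG n w hw)) (by rw [e3]; exact hgG n u hu) e2
      rw [add_sub_cancel_right] at hb hc
      have e5 : y 0 • (w + b) = y 1 • (u - c) := by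
        rw [smul_add, smul_sub, ← e1, e4]
        abel
      obtain ⟨z, hz, e6⟩ := hD n (w + b) (u - c) (Submodule.add_mem _ hw (hle n hb))
        (Submodule.sub_mem _ hu (hle n hc)) e5
      rw [e6, smul_comm] at e5
      have e7 := smul_right_injective V (h.ne 1) e5
      refine Submodule.mem_sup.mpr ⟨y 0 • z, ⟨z, hz, rfl⟩, c, hc, ?_⟩
      rw [e7]
      abel)
    simp only [q, hf]
    have : (finrank k (G n) : ℝ) + finrank k (W (n + 1)) ≤
      finrank k (G (n + 1)) + finrank k (W n) := by exact_mod_cast this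
    linarith
  have mono : ∀ n : ℕ, q m ≤ q (m + n) := by
    intro n
    induction n with
    | zero => simp
    | succ n ih =>
      have := step (m + n)
      push_cast
      rw [← add_assoc]
      linarith
  obtain ⟨m1, h1⟩ := hG.isHP
  obtain ⟨m2, h2⟩ := hFG.isHP
  have hqm : q m = hf G m - hf G (m - 1) := by
    have e : W m = (G (m - 1)).map (mu k (y 0)) := by
      simp only [W]
      rw [hm, sup_bot_eq]
    simp only [q, hf]
    rw [e, finrank_mu (h.ne 0)]
  obtain ⟨n, hn⟩ : ∃ n : ℕ, m1 + 1 ≤ m + n ∧ m2 + 1 ≤ m + n :=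
    ⟨(m1 + 1 - m).toNat + (m2 + 1 - m).toNat, by omega, by omega⟩
  have i0 := mono n
  set M := m + n
  have := hG.fin (M - 1)
  have := hFG.fin M
  have := hFG.fin (M - 1)
  have e := Submodule.finrank_sup_add_finrank_inf_eq ((G (M - 1)).map (mu k (y 0))) (F M)
  rw [finrank_mu (h.ne 0)] at e
  have i2 : finrank k ((G (M - 1)).map (mu k (y 0)) ⊓ F M : Submodule k V) ≤
      finrank k (F (M - 1)) := by
    rw [← finrank_mu (h.ne 0) (F (M - 1))]
    apply Submodule.finrank_mono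
    rintro _ ⟨⟨w, hw, rfl⟩, hw'⟩
    have e3 : (j : ℤ) + M - 1 = j + (M - 1) := by ring
    obtain ⟨z, hz, e4⟩ := gd0_free h hv hg (a := y 0 • w) (b := g • w) hw'
      (by rw [e3]; exact hgG _ w hw) (smul_comm _ _ _)
    exact ⟨z, hz, e4.symm⟩
  have i3 : q M ≤ hf G M - hf G (M - 1) - hf F M + hf F (M - 1) := by
    simp only [q, W, hf]
    have e' : (finrank k ((G (M - 1)).map (mu k (y 0)) ⊔ F M : Submodule k V) : ℝ) +
      finrank k ((G (M - 1)).map (mu k (y 0)) ⊓ F M : Submodule k V) =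
      finrank k (G (M - 1)) + finrank k (F M) := by exact_mod_cast e
    have i2' : (finrank k ((G (M - 1)).map (mu k (y 0)) ⊓ F M : Submodule k V) : ℝ) ≤
      finrank k (F (M - 1)) := by exact_mod_cast i2
    linarith
  rw [h1 M (by omega), h1 (M - 1) (by omega), h2 M (by omega), h2 (M - 1) (by omega)] at i3
  unfold HP at i3
  rw [hrk] at i3
  push_cast at i3
  rw [← hqm]
  linarith

end lin

section hull
variable {k K V : Type} [Field k] [Field K] [Algebra k K] [AddCommGroup V] [Module k V]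
  [Module K V] [IsScalarTower k K V] {R : Fam k K} {x : Fin 3 → K} {j0 : ℕ}

omit [Module k V] [IsScalarTower k K V] in
theorem aind_change {τ : Type} [Fintype τ] {y : Fin 3 → K} (h : Ax k y = Ax k x) {v : τ → V}
    {e : τ → ℤ} (hv : AInd k x v e) : AInd k y v e := by
  unfold AInd at hv ⊢
  rw [h]
  exact hv

theorem hull (hR : Gr R) (hx : Hsop R x j0) (hd : 0 < rk R) {G : Fam k V} (hG : FG x G)
    (hs : RSt R G) : ∃ G' : Fam k V, FG x G' ∧ RSt R G' ∧ (∀ m, G m ≤ G' m) ∧ rk G' = rk G ∧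
      dg G' = dg G ∧ ∀ α β : k, Dep2 (x 0 - α • x 2) (x 1 - β • x 2) G' := by
  have hI := hx.ind hR hd
  obtain ⟨t, v, g, hv, hgen⟩ := hG.gens
  obtain ⟨S, hS, j, γ, hγ, hγ0, hγF⟩ := exists_free hI v g
  set F := gen (Ax k x) (fun l : S => v l) (fun l => g l) with hF
  have hFG : FG x F := fg_gen (fg_Ax x) _ _
  let H : Fam k V := fun m =>
    (F (m + j)).map ((γ⁻¹ • (LinearMap.id : V →ₗ[K] V)).restrictScalars k)
  have hH : FG x H := (hFG.shift j).map _
  have memH : ∀ m u, u ∈ H m ↔ γ • u ∈ F (m + j) := by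
    intro m u
    constructor
    · rintro ⟨w, hw, rfl⟩
      simpa [smul_smul, mul_inv_cancel₀ hγ0] using hw
    · intro hu
      exact ⟨γ • u, hu, by simp [smul_smul, inv_mul_cancel₀ hγ0]⟩
  have hGH : ∀ m, G m ≤ H m := by
    intro m u hu
    rw [memH, add_comm]
    exact hγF m u (mem_gen.mpr (hgen m u hu))
  obtain ⟨G', ⟨hs', hle, hle', hr, hdg⟩, hmax⟩ := hH.exists_max
    {U | RSt R U ∧ (∀ m, G m ≤ U m) ∧ (∀ m, U m ≤ H m) ∧ rk U = rk G ∧ dg U = dg G}
    (fun U hU => ⟨hU.1.st hx.1, hU.2.2.1⟩) ⟨G, hs, fun _ => le_rfl, hGH, rfl, rfl⟩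
  have hG' : FG x G' := hH.sub (hs'.st hx.1) hle'
  refine ⟨G', hG', hs', hle, hr, hdg, fun α β => ?_⟩
  set y : Fin 3 → K := ![x 0 - α • x 2, x 1 - β • x 2, x 2] with hy
  obtain ⟨hIy, hA⟩ := hI.change α β
  have hy1 : ∀ i, y i ∈ R 1 := by
    intro i
    fin_cases i
    · exact Submodule.sub_mem _ (hx.1 0) (Submodule.smul_mem _ _ (hx.1 2))
    · exact Submodule.sub_mem _ (hx.1 1) (Submodule.smul_mem _ _ (hx.1 2))
    · exact hx.1 2
  change Dep2 (y 0) (y 1) G'
  have hDF : Dep2 (y 0) (y 1) F := by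
    have := dep_free hIy (aind_change hA hS)
    rwa [hA] at this
  intro m a b ha hb hab
  have n0 : y 0 ≠ 0 := hIy.ne 0
  have n1 : y 1 ≠ 0 := hIy.ne 1
  set w := (y 1)⁻¹ • a with hw
  have hw1 : y 1 • w = a := by rw [hw, smul_smul, mul_inv_cancel₀ n1, one_smul]
  have hw0 : y 0 • w = b := by
    rw [hw, smul_comm, hab, smul_smul, inv_mul_cancel₀ n1, one_smul]
  have hU : RSt R (adj R G' w (m - 1)) := adj_rst hR hs' _ _
  have hGU : ∀ n, G' n ≤ adj R G' w (m - 1) n := fun n => le_sup_left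
  have hUH : ∀ n, adj R G' w (m - 1) n ≤ H n := by
    intro n u hu
    obtain ⟨u', hu', r, hr, rfl⟩ := mem_adj.mp hu
    refine Submodule.add_mem _ (hle' n hu') ?_
    rw [memH]
    have e1 : n - (m - 1) + m = n + 1 := by ring
    have i1 := hs' _ _ _ _ hr ha
    have i2 := hs' _ _ _ _ hr hb
    rw [e1] at i1 i2
    obtain ⟨z, hz, e2⟩ := hDF _ _ _ ((memH _ _).mp (hle' _ i1)) ((memH _ _).mp (hle' _ i2)) (by
      rw [smul_comm (y 0) γ, smul_comm (y 0) r, hab, smul_comm r (y 1), smul_comm γ (y 1)])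
    have e3 : n + 1 + j - 1 = n + j := by ring
    rw [e3] at hz
    rw [← hw1, smul_comm r (y 1), smul_comm γ (y 1)] at e2
    rw [smul_right_injective V n1 e2]
    exact hz
  have hUF : FG y (adj R G' w (m - 1)) := (hH.sub (hU.st hx.1) hUH).change α β
  have kill : ∀ (c : K) (a' : V), c ∈ R 1 → c • w = a' → a' ∈ G' m →
      ∀ n, ∀ u ∈ adj R G' w (m - 1) n, c • u ∈ G' (n + 1) := by
    intro c a' hc e1 ha' n u hu
    obtain ⟨u', hu', r, hr, rfl⟩ := mem_adj.mp hu
    rw [smul_add, smul_comm c r, e1]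
    refine Submodule.add_mem _ ?_ ?_
    · have := hs' _ _ _ _ hc hu'
      rwa [add_comm] at this
    · have := hs' _ _ _ _ hr ha'
      have e2 : n - (m - 1) + m = n + 1 := by ring
      rwa [e2] at this
  obtain ⟨k1, k2⟩ := hp_kill hUF (hs'.st hy1) hGU (kill _ _ (hy1 0) hw0 hb)
  have k3 := k2 (kill _ _ (hy1 1) hw1 ha)
  have := hmax (adj R G' w (m - 1)) ⟨hU, fun n => (hle n).trans (hGU n), hUH, by rw [← k1, hr],
    by rw [← k3, hdg]⟩ hGU
  refine ⟨w, ?_, hw1.symm⟩
  rw [← this]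
  exact mem_adj.mpr ⟨0, Submodule.zero_mem _, 1, by rw [sub_self]; exact hR.one, by simp⟩

theorem cap_dg {G G' : Fam k V} (hG' : FG x G') (hG : St x G) (hle : ∀ m, G m ≤ G' m)
    (hr : rk G' = rk G) (hd : dg G' = dg G) (Y : Submodule K V) :
    rk (cap G' Y) = rk (cap G Y) ∧ dg (cap G' Y) = dg (cap G Y) := by
  have st : ∀ U : Fam k V, St x U → St x (cap U Y) := fun U hU i m u hu =>
    ⟨hU i m u hu.1, Y.smul_mem _ hu.2⟩
  have f1 : FG x G := hG'.sub hG hle
  have f2 : FG x (cap G' Y) := hG'.sub (st _ hG'.st) fun m => inf_le_left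
  have f3 : FG x (cap G Y) := f1.sub (st _ hG) fun m => inf_le_left
  obtain ⟨a1, a2, -⟩ := hp_mono f2 f3.st fun m => inf_le_inf_right _ (hle m)
  obtain ⟨m1, h1⟩ := hG'.isHP
  obtain ⟨m2, h2⟩ := f1.isHP
  obtain ⟨m3, h3⟩ := f2.isHP
  obtain ⟨m4, h4⟩ := f3.isHP
  obtain ⟨b1, b2, -⟩ := poly_le (a := rk (cap G' Y)) (b := dg (cap G' Y)) (c := cs (cap G' Y))
    (a' := rk (cap G Y)) (b' := dg (cap G Y)) (c' := cs (cap G Y) + cs G' - cs G)
    (m0 := max (max m1 m2) (max m3 m4)) (fun m hm => by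
      have := hG'.fin m
      have := f1.fin m
      have := f2.fin m
      have e := Submodule.finrank_sup_add_finrank_inf_eq (cap G' Y m) (G m)
      have e1 : cap G' Y m ⊓ G m = cap G Y m := by
        unfold cap
        rw [inf_right_comm, inf_eq_right.mpr (hle m)]
      rw [e1] at e
      have i1 : finrank k (cap G' Y m ⊔ G m : Submodule k V) ≤ finrank k (G' m) :=
        Submodule.finrank_mono (sup_le inf_le_left (hle m))
      have i2 : hf (cap G' Y) m + hf G m ≤ hf G' m + hf (cap G Y) m := by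
        unfold hf
        have : finrank k (cap G' Y m) + finrank k (G m) ≤
          finrank k (G' m) + finrank k (cap G Y m) := by omega
        exact_mod_cast this
      simp only [max_le_iff] at hm
      rw [h1 m hm.1.1, h2 m hm.1.2, h3 m hm.2.1, h4 m hm.2.2] at i2
      unfold HP at i2
      rw [hr, hd] at i2
      linarith)
  have e := le_antisymm b1 a1
  exact ⟨e, le_antisymm (b2 e) (a2 e.symm)⟩

theorem rk_cap (hR : Gr R) (hx : Hsop R x j0) {G : Fam k V} (hG : FG x G) (hs : RSt R G)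
    (ht : spK K G = ⊤) (Y : Submodule K V) :
    FG x (cap G Y) ∧ rk (cap G Y) = rk R * finrank K Y := by
  have f : FG x (cap G Y) := hG.sub ((cap_rst hs Y).st hx.1) fun m => inf_le_left
  refine ⟨f, ?_⟩
  rw [(rk_eq hR hx.1 (hx.fg hR) f (cap_rst hs Y)).2, spK_cap hR hs, ht, top_inf_eq]

theorem h0_bound (hR : Gr R) (hx : Hsop R x j0) (hd : 0 < rk R) {G : Fam k V} (hG : FG x G)
    (hs : RSt R G) (ht : spK K G = ⊤) {a : ℝ}
    (hw : ∀ Y : Submodule K V, fd R (cap G Y) ≤ a * finrank K Y) {m : ℤ} {v : V} (hv : v ∈ G m)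
    (h0 : v ≠ 0) : -(rk R * m) ≤ a := by
  obtain ⟨f, hr⟩ := rk_cap hR hx hG hs ht (K ∙ v)
  have h1 := hw (K ∙ v)
  rw [finrank_span_singleton h0] at h1 hr
  have li : LinearIndependent K (fun _ : Unit => v) := linearIndependent_unique_iff.mpr h0
  obtain ⟨g1, g2, -⟩ := hp_gen (hx.fg hR) li (fun _ => m)
  have hle : ∀ n, gen R (fun _ : Unit => v) (fun _ => m) n ≤ cap G (K ∙ v) n := by
    intro n u hu
    obtain ⟨c, hc, rfl⟩ := mem_gen.mp hu
    rw [Fintype.sum_unique]
    refine ⟨?_, Submodule.smul_mem _ _ (Submodule.mem_span_singleton_self v)⟩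
    have := hs _ _ _ _ (hc default) hv
    rwa [sub_add_cancel] at this
  have h2 := (hp_mono f ((rst_gen hR _ _).st hx.1) hle).2.1 (by rw [g1, hr]; simp)
  rw [g2] at h2
  unfold fd cen at h1
  rw [hr] at h1
  simp only [Fintype.card_unique, Nat.cast_one, one_mul, Fintype.sum_unique, mul_one] at h1 h2
  rw [mul_div_cancel₀ _ hd.ne'] at h1
  linarith

theorem ax_lin {G : Fam k V} (hG : St x G) (φ : ℤ → V →ₗ[k] K)
    (h2 : ∀ j i, ∀ v ∈ G j, φ (j + 1) (x i • v) = x i * φ j v) (i : ℤ) (c : K)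
    (hc : c ∈ Ax k x i) : ∀ j, ∀ v ∈ G j, φ (i + j) (c • v) = c * φ j v := by
  rcases ax_cases hc with rfl | ⟨n, f, rfl, hf, rfl⟩
  · intro j v _
    rw [zero_smul, map_zero, zero_mul]
  have h1 : ∀ p ∈ homogeneousSubmodule (Fin 3) k 1, ∀ j, ∀ v ∈ G j,
      aeval x p • v ∈ G (j + 1) ∧ φ (j + 1) (aeval x p • v) = aeval x p * φ j v := by
    intro p hp j v hv
    rw [homogeneousSubmodule_one_eq_span_X] at hp
    induction hp using Submodule.span_induction with
    | mem p hp =>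
      obtain ⟨i, rfl⟩ := hp
      rw [aeval_X]
      exact ⟨hG i j v hv, h2 j i v hv⟩
    | zero => simp
    | add p q _ _ ip iq =>
      rw [map_add, add_smul, map_add, ip.2, iq.2, add_mul]
      exact ⟨Submodule.add_mem _ ip.1 iq.1, rfl⟩
    | smul t p _ ip =>
      rw [map_smul, smul_assoc, map_smul, ip.2, smul_mul_assoc]
      exact ⟨Submodule.smul_mem _ _ ip.1, rfl⟩
  have hf' : f ∈ homogeneousSubmodule (Fin 3) k 1 ^ n := by
    rwa [homogeneousSubmodule_one_pow]
  clear hc hf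
  induction hf' using Submodule.pow_induction_on_left' with
  | algebraMap t =>
    intro j v _
    rw [AlgHom.commutes, algebraMap_smul, Nat.cast_zero, zero_add, map_smul, Algebra.smul_def]
  | add p q n _ _ ip iq =>
    intro j v hv
    rw [map_add, add_smul, map_add, ip j v hv, iq j v hv, add_mul]
  | mem_mul p hp n q _ iq =>
    intro j v hv
    obtain ⟨a1, a2⟩ := h1 p hp j v hv
    have := iq (j + 1) _ a1
    have e : ((n.succ : ℕ) : ℤ) + j = n + (j + 1) := by push_cast; ring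
    rw [e, map_mul, mul_comm (aeval x p), mul_smul, this, a2, mul_assoc]

theorem h2_bound (hR : Gr R) (hx : Hsop R x j0) (hd : 0 < rk R) {r : ℕ} {G : Fam k (Fin r → K)}
    (hG : FG x G) (hs : RSt R G) (ht : spK K G = ⊤) {b : ℝ}
    (hw : ∀ Y : Submodule K (Fin r → K), b * (r - finrank K Y) ≤ fd R G - fd R (cap G Y)) {m : ℤ}
    (φ : ℤ → (Fin r → K) →ₗ[k] K) (h1 : ∀ j, ∀ v ∈ G j, φ j v ∈ Ax k x (j - m - 3))
    (h2 : ∀ j i, ∀ v ∈ G j, φ (j + 1) (x i • v) = x i * φ j v)
    (hm : (j0 : ℝ) - 3 / 2 + cen R - b / rk R < m) : ∀ j, ∀ v ∈ G j, φ j v = 0 := by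
  have hI := hx.ind hR hd
  have lin := ax_lin hG.st φ h2
  let N : Fam k (Fin r → K) := fun j =>
    { carrier := {v | v ∈ G j ∧ ∀ i, ∀ c ∈ R i, φ (i + j) (c • v) = 0}
      add_mem' := fun {u v} hu hv => ⟨Submodule.add_mem _ hu.1 hv.1, fun i c hc => by
        rw [smul_add, map_add, hu.2 i c hc, hv.2 i c hc, add_zero]⟩
      zero_mem' := ⟨Submodule.zero_mem _, fun i c _ => by rw [smul_zero, map_zero]⟩
      smul_mem' := fun t v hv => ⟨Submodule.smul_mem _ _ hv.1, fun i c hc => by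
        rw [smul_comm, map_smul, hv.2 i c hc, smul_zero]⟩ }
  have memN : ∀ j v, v ∈ N j ↔ v ∈ G j ∧ ∀ i, ∀ c ∈ R i, φ (i + j) (c • v) = 0 :=
    fun _ _ => Iff.rfl
  have hN : RSt R N := by
    intro i j c v hc hv
    refine ⟨hs _ _ _ _ hc hv.1, fun i' c' hc' => ?_⟩
    rw [smul_smul, ← add_assoc]
    exact hv.2 _ _ (hR.mul _ _ _ _ hc' hc)
  have hcap : cap G (spK K N) = N := by
    funext j
    apply le_antisymm
    · intro v hv
      refine ⟨hv.1, fun i c hc => ?_⟩
      obtain ⟨i1, b1, hb1, hb0, hb⟩ := clr hR hN hv.2 j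
      obtain ⟨i2, b2, hb2, hb20, hb'⟩ := hx.nrm hR hd hb1 hb0
      have e1 := lin _ _ hb' _ _ (hs _ _ _ _ hc hv.1)
      have e2 := hb.2 (i2 + i) (b2 * c) (hR.mul _ _ _ _ hb2 hc)
      have e3 : i2 + i + (i1 + j) = i1 + i2 + (i + j) := by ring
      have e4 : (b2 * c) • b1 • v = (b1 * b2) • c • v := by
        rw [smul_smul, smul_smul]
        congr 1
        ring
      rw [e3, e4, e1] at e2
      exact (mul_eq_zero.mp e2).resolve_left (mul_ne_zero hb0 hb20)
    · intro v hv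
      exact ⟨hv.1, Submodule.subset_span ⟨j, hv⟩⟩
  by_cases hY : spK K N = ⊤
  · intro j v hv
    have : v ∈ N j := by
      rw [← hcap, hY]
      exact ⟨hv, trivial⟩
    have := this.2 0 1 hR.one
    rwa [zero_add, one_smul] at this
  exfalso
  obtain ⟨t, w, g, hw1, hgen⟩ := hx.gens hR
  let Φ : ℤ → (Fin r → K) →ₗ[k] (Fin t → K) := fun j =>
    LinearMap.pi fun l => (φ (g l + j)).comp (mu k (w l))
  have Φa : ∀ j v l, Φ j v l = φ (g l + j) (w l • v) := fun _ _ _ => rfl
  let U : Fam k (Fin t → K) := fun j => (G j).map (Φ j)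
  have hU : St x U := by
    rintro i j _ ⟨v, hv, rfl⟩
    refine ⟨x i • v, hG.st i j v hv, ?_⟩
    funext l
    rw [Pi.smul_apply, Φa, Φa, smul_comm, ← add_assoc, h2 _ _ _ (hs _ _ _ _ (hw1 l).1 hv),
      smul_eq_mul]
  have hUle : ∀ j, U j ≤ Fr k x (fun l => g l - m - 3) j := by
    rintro j _ ⟨v, hv, rfl⟩ l -
    have := h1 _ _ (hs _ _ _ _ (hw1 l).1 hv)
    have e : g l + j - m - 3 = j + (g l - m - 3) := by ring
    rwa [e] at this
  have hker : ∀ j, G j ⊓ LinearMap.ker (Φ j) = N j := by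
    intro j
    apply le_antisymm
    · rintro v ⟨hv, hv'⟩
      refine ⟨hv, fun i c hc => ?_⟩
      obtain ⟨a, ha, rfl⟩ := hgen i c hc
      rw [Finset.sum_smul, map_sum]
      refine Finset.sum_eq_zero fun l _ => ?_
      have e1 := lin _ _ (ha l) _ _ (hs _ _ _ _ (hw1 l).1 hv)
      have e2 : i - g l + (g l + j) = i + j := by ring
      have e3 : φ (g l + j) (w l • v) = 0 := congrFun (LinearMap.mem_ker.mp hv') l
      rw [e2, e3, mul_zero] at e1
      rw [mul_smul, e1]
    · intro v hv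
      refine ⟨hv.1, LinearMap.mem_ker.mpr ?_⟩
      funext l
      exact hv.2 _ _ (hw1 l).1
  have hdim : ∀ j, hf U j = hf G j - hf N j := by
    intro j
    have := hG.fin j
    have e := LinearMap.finrank_range_add_finrank_ker ((Φ j).domRestrict (G j))
    rw [LinearMap.range_domRestrict, LinearMap.ker_domRestrict,
      ← Submodule.finrank_map_subtype_eq, Submodule.map_comap_subtype, hker] at e
    unfold hf
    have e' : (finrank k (U j) : ℝ) + finrank k (N j) = finrank k (G j) := by exact_mod_cast e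
    linarith
  obtain ⟨fN, rN⟩ := rk_cap hR hx hG hs ht (spK K N)
  have hwN := hw (spK K N)
  rw [hcap] at fN rN hwN
  obtain ⟨m1, i1⟩ := hG.isHP
  obtain ⟨m2, i2⟩ := fN.isHP
  obtain ⟨u1, u2, -⟩ := hp_eq (G := U) (a := rk G - rk N) (b := dg G - dg N) (c := cs G - cs N)
    (m0 := max m1 m2) (fun n hn => by
      rw [hdim, i1 n (le_trans (le_max_left _ _) hn), i2 n (le_trans (le_max_right _ _) hn)]
      unfold HP
      ring)
  obtain ⟨S, s1, s2⟩ := free_bound hI _ hU hUle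
  have s3 : ∑ l ∈ S, (((g l - m - 3 : ℤ) : ℝ) + 3 / 2) ≤ S.card * ((j0 : ℝ) - m - 3 / 2) := by
    rw [← nsmul_eq_mul]
    apply Finset.sum_le_card_nsmul
    intro l _
    have : (g l : ℝ) ≤ j0 := by exact_mod_cast (hw1 l).2.2
    push_cast
    linarith
  have rG : rk G = rk R * r := by
    rw [(rk_eq hR hx.1 (hx.fg hR) hG hs).2, ht]
    simp
  have hlt : (finrank K (spK K N) : ℝ) < r := by
    have := Submodule.finrank_lt hY
    rw [finrank_fin_fun] at this
    exact_mod_cast this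
  set s : ℝ := r - finrank K (spK K N) with hsdef
  have s0 : 0 < s := by linarith
  have s4 : (S.card : ℝ) = rk R * s := by rw [← s1, u1, rG, rN, hsdef]; ring
  have s5 : fd R G - fd R N = dg U + rk R * s * cen R := by
    unfold fd
    rw [u2, rG, rN, hsdef]
    ring
  rw [s4] at s3
  have s6 : b * s ≤ rk R * s * ((j0 : ℝ) - m - 3 / 2 + cen R) := by nlinarith
  have s7 : b ≤ rk R * ((j0 : ℝ) - m - 3 / 2 + cen R) := by
    have : b * s ≤ (rk R * ((j0 : ℝ) - m - 3 / 2 + cen R)) * s := by linarith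
    exact le_of_mul_le_mul_right this s0
  have s8 : b / rk R ≤ (j0 : ℝ) - m - 3 / 2 + cen R := by
    rw [div_le_iff₀ hd]
    linarith
  linarith

theorem grow_bound [Infinite k] (hR : Gr R) (hx : Hsop R x j0) (hd : 0 < rk R) {G : Fam k V}
    (hG : FG x G) (hs : RSt R G) (ht : spK K G = ⊤)
    (hD : ∀ α β : k, Dep2 (x 0 - α • x 2) (x 1 - β • x 2) G) {a : ℝ}
    (hw : ∀ Y : Submodule K V, fd R (cap G Y) ≤ a * finrank K Y) (m0 : ℤ) {D : ℝ} (hD0 : 0 ≤ D)
    (hD1 : a / rk R - cen R + m0 + j0 - 1 / 2 ≤ D) (m1 : ℤ) (hm1 : G m1 = ⊥) (n : ℕ)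
    (hn : m1 + n = m0) : hf G m0 ≤ n * (rk G * D) := by
  have hI := hx.ind hR hd
  have := hG.fin m0
  let B := Module.finBasis k (G m0)
  let v : Fin (finrank k (G m0)) → V := fun l => B l
  have hv : ∀ l, v l ∈ G m0 := fun l => (B l).2
  let Y : Submodule K V := Submodule.span K (Set.range v)
  have hY : ∀ u ∈ G m0, u ∈ Y := by
    intro u hu
    have e := congrArg Subtype.val (B.sum_repr ⟨u, hu⟩)
    simp only [AddSubmonoidClass.coe_finsetSum, SetLike.val_smul] at e
    rw [← e]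
    refine Submodule.sum_mem _ fun l _ => ?_
    rw [← algebraMap_smul K]
    exact Submodule.smul_mem _ _ (Submodule.subset_span ⟨l, rfl⟩)
  obtain ⟨f1, r1⟩ := rk_cap hR hx hG hs ht Y
  have hs1 := cap_rst hs Y
  set G1 := cap G Y with hG1
  have hv1 : ∀ l, x 2 • v l ∈ G1 (m0 + 1) := fun l =>
    f1.st 2 _ _ ⟨hv l, Submodule.subset_span ⟨l, rfl⟩⟩
  let U : Fam k V := gen R (fun l => x 2 • v l) (fun _ => m0 + 1)
  have hU : RSt R U := rst_gen hR _ _
  have hsp : spK K G1 ≤ spK K U := by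
    rw [hG1, spK_cap hR hs]
    refine inf_le_right.trans (Submodule.span_le.mpr ?_)
    rintro _ ⟨l, rfl⟩
    have e : v l = (x 2)⁻¹ • x 2 • v l := by rw [smul_smul, inv_mul_cancel₀ (hI.ne 2), one_smul]
    rw [e]
    refine Submodule.smul_mem _ _ (Submodule.subset_span ⟨m0 + 1, ?_⟩)
    refine Submodule.mem_iSup_of_mem l ⟨1, ?_, by simp⟩
    rw [sub_self]
    exact hR.one
  obtain ⟨i1, b1, hb1, hb0, hb⟩ := clr_fg hR hx.1 f1 hU hsp
  obtain ⟨i2, b2, hb2, hb20, hb'⟩ := hx.nrm hR hd hb1 hb0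
  obtain ⟨t, w, g, hw1, hgen⟩ := hx.gens hR
  let z : Fin t × Fin (finrank k (G m0)) → V := fun p => w p.1 • x 2 • v p.2
  let e : Fin t × Fin (finrank k (G m0)) → ℤ := fun p => g p.1 + (m0 + 1)
  have hUz : ∀ m, U m ≤ gen (Ax k x) z e m := by
    intro m u hu
    obtain ⟨c, hc, rfl⟩ := mem_gen.mp hu
    choose a ha ha' using fun l => hgen _ _ (hc l)
    refine mem_gen.mpr ⟨fun p => a p.2 p.1, fun p => ?_, ?_⟩
    · have e1 : m - e p = m - (m0 + 1) - g p.1 := by simp only [e]; ring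
      rw [e1]
      exact ha p.2 p.1
    · rw [Fintype.sum_prod_type_right]
      refine Finset.sum_congr rfl fun l _ => ?_
      rw [ha' l, Finset.sum_smul]
      simp only [z, mul_smul]
  obtain ⟨S, hS, i3, γ, hγ, hγ0, hγF⟩ := exists_free hI z e
  have hg : γ * (b1 * b2) ∈ Ax k x (i3 + (i1 + i2)) := Ax_mul hγ hb'
  have hg0 : γ * (b1 * b2) ≠ 0 := mul_ne_zero hγ0 (mul_ne_zero hb0 hb20)
  obtain ⟨j, hj⟩ : ∃ j : ℕ, i3 + (i1 + i2) = j := by
    refine Int.eq_ofNat_of_zero_le (not_lt.mp fun h => hg0 ?_)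
    rwa [Ax_neg h] at hg
  rw [hj] at hg
  obtain ⟨α, β, hgd⟩ := exists_gd x hg hg0
  obtain ⟨hIy, hA⟩ := hI.change α β
  set y : Fin 3 → K := ![x 0 - α • x 2, x 1 - β • x 2, x 2] with hy
  set F := gen (Ax k x) (fun l : S => z l) (fun l => e l) with hF
  have hFle : ∀ m, F m ≤ G1 m := by
    intro m u hu
    obtain ⟨c, hc, rfl⟩ := mem_gen.mp hu
    refine Submodule.sum_mem _ fun l _ => ?_
    have := f1.st.ax (hc l) (hs1 _ _ _ _ (hw1 l.1.1).1 (hv1 l.1.2))
    have e1 : m - e l + (g l.1.1 + (m0 + 1)) = m := by simp only [e]; ring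
    rwa [e1] at this
  have hgF : ∀ m, ∀ u ∈ G1 m, (γ * (b1 * b2)) • u ∈ F (j + m) := by
    intro m u hu
    have := hγF _ _ (hUz _ (hU _ _ _ _ hb2 (hb m u hu)))
    have e1 : i3 + (i2 + (i1 + m)) = j + m := by rw [← hj]; ring
    rw [e1] at this
    rw [mul_comm b1, mul_smul, mul_smul]
    exact this
  have hFG : FG x F := fg_gen (fg_Ax x) _ _
  have hrk : rk G1 = rk F :=
    le_antisymm (rk_le_of_mul f1 hFG hg0 hgF) (hp_mono f1 hFG.st hFle).1
  have hDy : Dep2 (y 0) (y 1) G1 := by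
    intro m p q hp hq hpq
    obtain ⟨u, hu, e1⟩ := hD α β m p q hp.1 hq.1 hpq
    refine ⟨u, ⟨hu, ?_⟩, e1⟩
    have n1 : x 1 - β • x 2 ≠ 0 := hIy.ne 1
    have e2 : u = (x 1 - β • x 2)⁻¹ • p := by rw [e1, smul_smul, inv_mul_cancel₀ n1, one_smul]
    rw [e2]
    exact Y.smul_mem _ hp.2
  obtain ⟨-, p1, p2⟩ := hp_free hI hS
  have p3 : (Fintype.card S : ℝ) * (1 / 2 - m0 - j0) ≤ dg F := by
    rw [hF, p2, ← nsmul_eq_mul, ← Finset.card_univ]
    apply Finset.card_nsmul_le_sum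
    intro l _
    have : (g l.1.1 : ℝ) ≤ j0 := by exact_mod_cast (hw1 l.1.1).2.2
    simp only [e]
    push_cast
    linarith
  have p4 := hw Y
  have p5 : rk G1 ≤ rk G := (hp_mono hG f1.st fun m => inf_le_left).1
  have p6 : dg G1 - dg F ≤ rk G * D := by
    rw [← p1, ← hrk] at p3
    unfold fd at p4
    have p7 : a * finrank K Y = rk G1 * (a / rk R) := by rw [r1]; field_simp
    have p8 : 0 ≤ rk G1 := rk_nonneg f1
    have p9 : rk G1 * (a / rk R - cen R + m0 + j0 - 1 / 2) ≤ rk G1 * D :=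
      mul_le_mul_of_nonneg_left hD1 p8
    have p10 : rk G1 * D ≤ rk G * D := mul_le_mul_of_nonneg_right p5 hD0
    linarith
  have step : ∀ m ≤ m0, hf G1 m - hf G1 (m - 1) ≤ rk G * D := by
    intro m hm
    have hbot : F m = ⊥ := by
      rw [eq_bot_iff]
      intro u hu
      obtain ⟨c, hc, rfl⟩ := mem_gen.mp hu
      refine Submodule.sum_mem _ fun l _ => ?_
      have := hc l
      rw [Ax_neg (by have := (hw1 l.1.1).2.1; simp only [e]; omega)] at this
      rw [(Submodule.mem_bot k).mp this, zero_smul]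
      exact Submodule.zero_mem _
    have := growth hIy (aind_change hA hS) (f1.change α β) hDy (by rw [hA]; exact hFle) hgd
      (by rw [hA]; exact hgF) (by rw [hA]; exact hrk) (m := m) (by rw [hA]; exact hbot)
    rw [hA] at this
    linarith
  have sum : ∀ s : ℕ, m1 + s ≤ m0 → hf G1 (m1 + s) ≤ s * (rk G * D) := by
    intro s
    induction s with
    | zero =>
      intro _
      have : G1 m1 = ⊥ := by
        rw [eq_bot_iff, ← hm1]
        exact inf_le_left
      rw [Nat.cast_zero, add_zero, Nat.cast_zero, zero_mul]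
      unfold hf
      rw [this, finrank_bot, Nat.cast_zero]
    | succ s ih =>
      intro h
      push_cast at h ⊢
      have i1 := ih (by omega)
      have i2 := step _ h
      have e1 : m1 + (s + 1) - 1 = m1 + s := by ring
      rw [e1] at i2
      linarith
  have := sum n hn.le
  have e1 : G1 m0 = G m0 := le_antisymm inf_le_left fun u hu => ⟨hu, hY u hu⟩
  rw [hn] at this
  unfold hf at this ⊢
  rwa [e1] at this

end hull

end Vale.Agent.P190.L

namespace Vale.Agent.P190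

open Module L

theorem bog (h : PdStmt) : LStmt := by
  intro k K _ _ _ R x j0 hk hR hx hd
  refine ⟨2 * j0 + 1 + |cen R| + (|HP R (cen R)| / rk R + 1), ?_⟩
  intro r G a b hr ⟨hG, hs, ht⟩ hw
  have hI := hx.ind hR hd
  obtain ⟨G', hG', hs', hle, e1, e2, hD⟩ := hull hR hx hd hG hs
  have ht' : spK K G' = ⊤ := by
    rw [eq_top_iff, ← ht]
    exact Submodule.span_mono fun v ⟨m, hv⟩ => ⟨m, hle m hv⟩
  have fdc : ∀ Y : Submodule K (Fin r → K), fd R (cap G' Y) = fd R (cap G Y) := by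
    intro Y
    obtain ⟨c1, c2⟩ := cap_dg hG' hG.st hle e1 e2 Y
    unfold fd
    rw [c1, c2]
  have fdG : fd R G' = fd R G := by
    unfold fd
    rw [e1, e2]
  have rG : rk G = rk R * r := by
    rw [(rk_eq hR hx.1 (hx.fg hR) hG hs).2, ht]
    simp
  have r1 : (1 : ℝ) ≤ r := by exact_mod_cast hr
  have N0 : 0 < rk G := by rw [rG]; positivity
  have hab : b ≤ a := by
    have i1 := (hw ⊤).1
    have i3 := (hw ⊥).2
    have c1 : cap G (⊤ : Submodule K (Fin r → K)) = G := by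
      funext m
      simp [cap]
    have c2 : fd R (cap G (⊥ : Submodule K (Fin r → K))) = 0 := by
      obtain ⟨u1, u2, -⟩ := hp_eq (G := cap G (⊥ : Submodule K (Fin r → K))) (a := 0) (b := 0)
        (c := 0) (m0 := 0) (fun m _ => by
          have e : cap G (⊥ : Submodule K (Fin r → K)) m = ⊥ := by simp [cap]
          unfold hf
          rw [e, finrank_bot]
          simp)
      unfold fd
      rw [u1, u2]
      simp
    rw [c1] at i1
    rw [c2] at i3
    simp only [finrank_top, finrank_fin_fun, finrank_bot, Nat.cast_zero, sub_zero] at i1 i3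
    have : b * r ≤ a * r := by linarith
    exact le_of_mul_le_mul_right this (by linarith)
  set t := (a - b) / rk R with htd
  have t0 : 0 ≤ t := div_nonneg (by linarith) hd.le
  have tt : t = a / rk R - b / rk R := by rw [htd, sub_div]
  set m0 : ℤ := ⌊(j0 : ℝ) - 3 / 2 + cen R - b / rk R⌋ + 1 with hm0
  have m0a : (j0 : ℝ) - 3 / 2 + cen R - b / rk R < m0 := by
    rw [hm0]
    push_cast
    exact Int.lt_floor_add_one _
  have m0b : (m0 : ℝ) ≤ (j0 : ℝ) - 1 / 2 + cen R - b / rk R := by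
    rw [hm0]
    push_cast
    have := Int.floor_le ((j0 : ℝ) - 3 / 2 + cen R - b / rk R)
    linarith
  have hP : HP G' m0 ≤ hf G' m0 := by
    refine h k K (Fin r → K) x G' m0 hI hG' ?_ fun φ h1 h2 =>
      h2_bound hR hx hd hG' hs' ht' (b := b) (fun Y => by rw [fdG, fdc]; exact (hw Y).2) φ h1 h2 m0a
    simpa using hD 0 0
  have hwa : ∀ Y : Submodule K (Fin r → K), fd R (cap G' Y) ≤ a * finrank K Y := fun Y => by
    rw [fdc]
    exact (hw Y).1
  have hbot : ∀ m : ℤ, (m : ℝ) < -(a / rk R) → G' m = ⊥ := by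
    intro m hm
    rw [eq_bot_iff]
    intro v hv
    by_contra h0
    have := h0_bound hR hx hd hG' hs' ht' hwa hv h0
    have i : -(m : ℝ) ≤ a / rk R := by
      rw [le_div_iff₀ hd]
      linarith
    linarith
  have j0' : (0 : ℝ) ≤ j0 := Nat.cast_nonneg _
  have ac := le_abs_self (cen R)
  have ac0 := abs_nonneg (cen R)
  have hf0 : hf G' m0 ≤ rk G * (t + (2 * j0 + 1 + |cen R|)) ^ 2 := by
    set m1 : ℤ := ⌈-(a / rk R)⌉ - 1 with hm1
    have m1a : (m1 : ℝ) < -(a / rk R) := by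
      rw [hm1]
      push_cast
      have := Int.ceil_lt_add_one (-(a / rk R))
      linarith
    have m1b : -(a / rk R) - 1 ≤ m1 := by
      rw [hm1]
      push_cast
      have := Int.le_ceil (-(a / rk R))
      linarith
    by_cases hm : m0 ≤ m1
    · have : (m0 : ℝ) ≤ m1 := by exact_mod_cast hm
      unfold hf
      rw [hbot m0 (by linarith), finrank_bot, Nat.cast_zero]
      positivity
    · obtain ⟨n, hn⟩ : ∃ n : ℕ, m1 + n = m0 := ⟨(m0 - m1).toNat, by omega⟩
      have g := grow_bound hR hx hd hG' hs' ht' hD hwa m0 (D := t + (2 * j0 + 1 + |cen R|))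
        (by positivity) (by linarith) m1 (hbot m1 m1a) n hn
      have hn' : (m1 : ℝ) + n = m0 := by exact_mod_cast hn
      have n1 : (n : ℝ) ≤ t + (2 * j0 + 1 + |cen R|) := by linarith
      rw [e1] at g
      calc hf G' m0 ≤ n * (rk G * (t + (2 * j0 + 1 + |cen R|))) := g
        _ ≤ (t + (2 * j0 + 1 + |cen R|)) * (rk G * (t + (2 * j0 + 1 + |cen R|))) :=
          mul_le_mul_of_nonneg_right n1 (by positivity)
        _ = _ := by ring
  have hcs : cs G ≤ cs G' := (hp_mono hG' hG.st hle).2.2 e1.symm e2.symm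
  have hPG : HP G m0 ≤ HP G' m0 := by
    unfold HP
    rw [e1, e2]
    linarith
  have hmin : HP G (cen R) - fd R G ^ 2 / (2 * rk G) ≤ HP G m0 := by
    have e : HP G m0 - (HP G (cen R) - fd R G ^ 2 / (2 * rk G)) =
        (rk G * (m0 - cen R) + fd R G) ^ 2 / (2 * rk G) := by
      unfold HP fd
      field_simp
      ring
    have : 0 ≤ (rk G * (m0 - cen R) + fd R G) ^ 2 / (2 * rk G) := by positivity
    linarith
  set c' : ℝ := 2 * j0 + 1 + |cen R| with hc'
  set ε : ℝ := |HP R (cen R)| / rk R with hε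
  have ε0 : 0 ≤ ε := by positivity
  have c0 : 0 ≤ c' := by positivity
  have i1 : -(rk G / rk R * HP R (cen R)) ≤ rk G * ε := by
    have e : -(rk G / rk R * HP R (cen R)) = rk G * (-HP R (cen R) / rk R) := by ring
    rw [e]
    exact mul_le_mul_of_nonneg_left (div_le_div_of_nonneg_right (neg_le_abs _) hd.le) N0.le
  have i2 : (t + c') ^ 2 + ε ≤ (t + (c' + (ε + 1))) ^ 2 := by nlinarith
  have i3 := mul_le_mul_of_nonneg_left i2 N0.le
  unfold ga
  linarith

end Vale.Agent.P190
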