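import Vale.Agent.P190.Cnt1

/-! Module A, part 2: averaging over residues. -/

namespace Vale.Agent.P190

open Finset

namespace Ct

lemma std_iff (c : Fin 10 → ℕ) : Std c ↔ (c 1 < 101 ∨ c 5 < 101) ∧ (c 1 < 101 ∨ c 6 < 101) ∧
    (c 2 < 101 ∨ c 6 < 101) ∧ (c 2 < 101 ∨ c 8 < 101) ∧ (c 5 < 101 ∨ c 8 < 101) := by
  simp [Std, Fin.forall_fin_succ, pl]; omega

lemma all10 {P : Fin 10 → Prop} : (∀ e, P e) ↔ P 0 ∧ P 1 ∧ P 2 ∧ P 3 ∧ P 4 ∧ P 5 ∧ P 6 ∧ P 7 ∧ P 8 ∧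
    P 9 := by simp [Fin.forall_fin_succ]

lemma ray_iff {m : ℤ} {c : Fin 10 → ℕ} : Ray m c ↔ (c 0 : ℤ) + c 2 + c 5 - c 8 = m ∧
    (c 4 : ℤ) + c 6 + c 8 - c 2 = m ∧ (c 7 : ℤ) + c 1 + c 2 - c 6 = m ∧
    (c 9 : ℤ) + c 5 + c 6 - c 1 = m ∧ (c 3 : ℤ) + c 1 + c 8 - c 5 = m := by
  simp only [Ray]
  constructor <;> rintro ⟨h1, h2, h3, h4, h5⟩ <;> refine ⟨?_, ?_, ?_, ?_, ?_⟩ <;> omega

lemma dv {m A : ℤ} {a b c d a' b' c' d' : ℕ} (h : 101 * A = m - (a' + b' + c' - d'))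
    (h' : (a : ℤ) + b + c - d = m) (ha : a % 101 = a') (hb : b % 101 = b') (hc : c % 101 = c')
    (hd : d % 101 = d') : ((b / 101 : ℕ) + (c / 101 : ℕ) : ℤ) ≤ A + (d / 101 : ℕ) := by omega

lemma z0 {a b : ℕ} (h : a < 101 ∨ b < 101) : a / 101 = 0 ∨ b / 101 = 0 := by omega

lemma z1 {a b a' b' : ℕ} (h : a = 0 ∨ b = 0) (ha : a' < 101) (hb : b' < 101) :
    101 * a + a' < 101 ∨ 101 * b + b' < 101 := by omega

lemma z2 {a b n : ℕ} (h : a / 101 = b / 101) (ha : a % 101 = n) (hb : b % 101 = n) : a = b := by omega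

lemma up {m A : ℤ} {s b c d a' b' c' d' : ℕ} (h : 101 * A = m - (a' + b' + c' - d'))
    (e : (b : ℤ) + c + s = A + d) : ((101 * s + a' : ℕ) : ℤ) + (101 * b + b' : ℕ) +
      (101 * c + c' : ℕ) - (101 * d + d' : ℕ) = m := by omega

lemma fib_card {m A B C D E : ℤ} {n : Fin 10 → ℕ} (hn : ∀ e, n e < 101)
    (hA : 101 * A = m - (n 0 + n 2 + n 5 - n 8)) (hB : 101 * B = m - (n 4 + n 6 + n 8 - n 2))
    (hC : 101 * C = m - (n 7 + n 1 + n 2 - n 6)) (hD : 101 * D = m - (n 9 + n 5 + n 6 - n 1))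
    (hE : 101 * E = m - (n 3 + n 1 + n 8 - n 5)) :
    {c | Ray m c ∧ Std c ∧ ∀ e, c e % 101 = n e}.ncard = (Dg A B C D E).ncard := by
  refine Set.ncard_congr (fun c _ => (c 1 / 101, c 2 / 101, c 5 / 101, c 6 / 101, c 8 / 101))
    (fun c ⟨h1, h2, h⟩ => ?_) (fun c c' ⟨h1, _, h⟩ ⟨h1', _, h'⟩ e => funext ?_)
    fun ⟨a, b, c, d, e⟩ h => ?_
  · obtain ⟨r1, r2, r3, r4, r5⟩ := ray_iff.1 h1
    obtain ⟨s1, s2, s3, s4, s5⟩ := (std_iff c).1 h2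
    exact ⟨z0 s1, z0 s2, z0 s3, z0 s4, z0 s5, dv hA r1 (h _) (h _) (h _) (h _),
      dv hB r2 (h _) (h _) (h _) (h _), dv hC r3 (h _) (h _) (h _) (h _),
      dv hD r4 (h _) (h _) (h _) (h _), dv hE r5 (h _) (h _) (h _) (h _)⟩
  · simp only [Prod.mk.injEq] at e
    obtain ⟨e1, e2, e5, e6, e8⟩ := e
    replace e1 := z2 e1 (h _) (h' _)
    replace e2 := z2 e2 (h _) (h' _)
    replace e5 := z2 e5 (h _) (h' _)
    replace e6 := z2 e6 (h _) (h' _)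
    replace e8 := z2 e8 (h _) (h' _)
    obtain ⟨r1, r2, r3, r4, r5⟩ := ray_iff.1 h1
    obtain ⟨s1, s2, s3, s4, s5⟩ := ray_iff.1 h1'
    clear hA hB hC hD hE
    exact all10.2 ⟨by omega, e1, e2, by omega, by omega, e5, e6, by omega, e8, by omega⟩
  · obtain ⟨h1, h2, h3, h4, h5, h6, h7, h8, h9, h10⟩ := h
    obtain ⟨s0, e0⟩ := Int.le.dest h6
    obtain ⟨s4, e4⟩ := Int.le.dest h7
    obtain ⟨s7, e7⟩ := Int.le.dest h8
    obtain ⟨s9, e9⟩ := Int.le.dest h9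
    obtain ⟨s3, e3⟩ := Int.le.dest h10
    have k : ∀ x i, (101 * x + n i) / 101 = x := fun x i => by have := hn i; omega
    exact ⟨fun i => 101 * ![s0, a, b, s3, s4, c, d, s7, e, s9] i + n i,
      ⟨ray_iff.2 ⟨up hA e0, up hB e4, up hC e7, up hD e9, up hE e3⟩,
        (std_iff _).2 ⟨z1 h1 (hn _) (hn _), z1 h2 (hn _) (hn _), z1 h3 (hn _) (hn _),
          z1 h4 (hn _) (hn _), z1 h5 (hn _) (hn _)⟩,
        fun i => by rw [Nat.mul_add_mod, Nat.mod_eq_of_lt (hn i)]⟩, by simp only [k]; rfl⟩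

abbrev Zn := ZMod 101

/-- residue vectors -/
noncomputable def TT (m : Zn) : Finset (Fin 10 → Zn) :=
  (Set.toFinite {a | a 0 + a 2 + a 5 - a 8 = m ∧ a 4 + a 6 + a 8 - a 2 = m ∧
    a 7 + a 1 + a 2 - a 6 = m ∧ a 9 + a 5 + a 6 - a 1 = m ∧ a 3 + a 1 + a 8 - a 5 = m}).toFinset

lemma mem_TT {m : Zn} {a : Fin 10 → Zn} : a ∈ TT m ↔ a 0 + a 2 + a 5 - a 8 = m ∧
    a 4 + a 6 + a 8 - a 2 = m ∧ a 7 + a 1 + a 2 - a 6 = m ∧ a 9 + a 5 + a 6 - a 1 = m ∧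
    a 3 + a 1 + a 8 - a 5 = m := Set.Finite.mem_toFinset _

lemma TT_sur (m a b c d e : Zn) : ![m - b - c + e, a, b, m - a - e + c, m - d - e + b, c, d,
    m - a - b + d, e, m - c - d + a] ∈ TT m :=
  mem_TT.2 ⟨show m - b - c + e + b + c - e = m by ring, show m - d - e + b + d + e - b = m by ring,
    show m - a - b + d + a + b - d = m by ring, show m - c - d + a + c + d - a = m by ring,
    show m - a - e + c + a + e - c = m by ring⟩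

lemma TT_card (m : Zn) : #(TT m) = 101 ^ 5 := by
  have : #(TT m) = #(Set.toFinite (Set.univ : Set (Zn × Zn × Zn × Zn × Zn))).toFinset := by
    refine card_bij (fun a _ => (a 1, a 2, a 5, a 6, a 8))
      (fun _ _ => (Set.Finite.mem_toFinset _).2 trivial)
      (fun a ha b hb e => funext ?_) fun p _ =>
        Exists.intro _ (Exists.intro (TT_sur m p.1 p.2.1 p.2.2.1 p.2.2.2.1 p.2.2.2.2) rfl)
    simp only [mem_TT, Prod.mk.injEq, all10] at *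
    obtain ⟨a1, a2, a3, a4, a5⟩ := ha
    obtain ⟨b1, b2, b3, b4, b5⟩ := hb
    obtain ⟨e1, e2, e5, e6, e8⟩ := e
    refine ⟨?_, e1, e2, ?_, ?_, e5, e6, ?_, e8, ?_⟩
    · linear_combination a1 - b1 - e2 - e5 + e8
    · linear_combination a5 - b5 - e1 - e8 + e5
    · linear_combination a2 - b2 - e6 - e8 + e2
    · linear_combination a3 - b3 - e1 - e2 + e6
    · linear_combination a4 - b4 - e5 - e6 + e1
  rw [this, ← Set.ncard_eq_toFinset_card, Set.ncard_univ]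
  simp only [Nat.card_prod, Nat.card_zmod, Nat.reduceMul, Nat.reducePow]

def WW : List (Fin 10 → ℤ) := [![1, -1, -1, 1, 0, 0, -1, 1, 0, 0], ![0, -1, 1, 0, 1, -1, 0, 0, 0, 0],
  ![0, 0, 0, 0, 0, 1, -1, -1, 1, 0], ![0, 1, -1, 0, 0, 0, 0, 0, -1, 1],
  ![0, 0, 0, 0, 0, -1, 1, 1, -1, 0], ![1, 0, 0, -1, 0, -1, 0, 0, 0, 1],
  ![-1, 0, 0, 1, 1, 0, 0, 0, -1, 0], ![-1, 0, 1, 0, 0, 0, 1, 0, 0, -1],
  ![0, 1, -1, 0, -1, 1, 0, 0, 0, 0], ![1, -1, 0, 0, -1, 0, 0, 1, 1, -1],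
  ![0, -1, 0, 1, 0, 1, -1, 0, 1, -1], ![0, 1, 0, -1, 0, -1, 1, 0, -1, 1]]

lemma WW_ex : ∀ e f : Fin 10, e ≠ f → ∃ w ∈ WW, w e = 1 ∧ w f = 0 ∧ w 0 + w 2 + w 5 - w 8 = 0 ∧
    w 4 + w 6 + w 8 - w 2 = 0 ∧ w 7 + w 1 + w 2 - w 6 = 0 ∧ w 9 + w 5 + w 6 - w 1 = 0 ∧
    w 3 + w 1 + w 8 - w 5 = 0 := by decide

lemma avg (m : Zn) {e f : Fin 10} (h : e ≠ f) (g k : Zn → ℝ) :
    101 * ∑ a ∈ TT m, g (a e) * k (a f) = (∑ x, g x) * ∑ a ∈ TT m, k (a f) := by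
  obtain ⟨w, -, w1, w2, w3⟩ := WW_ex e f h
  obtain ⟨v1, v2, v3, v4, v5⟩ : ((w 0 : Zn) + w 2 + w 5 - w 8 = 0 ∧ (w 4 : Zn) + w 6 + w 8 - w 2 = 0 ∧
      (w 7 : Zn) + w 1 + w 2 - w 6 = 0 ∧ (w 9 : Zn) + w 5 + w 6 - w 1 = 0 ∧
      (w 3 : Zn) + w 1 + w 8 - w 5 = 0) := by
    norm_cast; simp only [w3, Int.cast_zero, and_self]
  have s : ∀ t : Zn, ∑ a ∈ TT m, g (a e) * k (a f) = ∑ a ∈ TT m, g (a e + t) * k (a f) := fun t => by
    refine (sum_equiv (Equiv.addRight fun i => t * w i) (fun a => ?_) fun a _ => ?_).symm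
    · simp only [mem_TT, Equiv.coe_addRight, Pi.add_apply]
      refine and_congr ?_ (and_congr ?_ (and_congr ?_ (and_congr ?_ ?_))) <;>
        refine Eq.congr_left ?_
      · linear_combination -t * v1
      · linear_combination -t * v2
      · linear_combination -t * v3
      · linear_combination -t * v4
      · linear_combination -t * v5
    · simp [w1, w2]
  calc _ = ∑ t : Zn, ∑ a ∈ TT m, g (a e + t) * k (a f) := by simp [← s, ZMod.card]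
    _ = _ := by
      rw [sum_comm, mul_sum]
      exact sum_congr rfl fun a _ => by rw [← sum_mul, ← Equiv.sum_comp (Equiv.addLeft (a e)) g]; rfl

noncomputable def yy (x : Zn) : ℝ := x.val - 50

lemma yy_sum : ∑ x, yy x = 0 ∧ ∑ x, yy x ^ 2 = 85850 := by
  have k : ∀ F : ℕ → ℝ, ∑ x : Zn, F x.val = ∑ i ∈ range 101, F i := fun F =>
    Fin.sum_univ_eq_sum_range F 101
  refine ⟨(k fun i => i - 50).trans ?_, (k fun i => (i - 50) ^ 2).trans ?_⟩ <;>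
    simp only [sum_range_succ, sum_range_zero] <;> norm_num

lemma mom (m : Zn) (c : Fin 10 → ℝ) : ∑ a ∈ TT m, ∑ e, c e * yy (a e) = 0 ∧
    ∑ a ∈ TT m, (∑ e, c e * yy (a e)) ^ 2 = 850 * 101 ^ 5 * ∑ e, c e ^ 2 := by
  have n : ∀ e : Fin 10, e ≠ e + 1 := by decide
  have a1 : ∀ e, ∑ a ∈ TT m, yy (a e) = 0 := fun e => by
    have := avg m (n e) yy 1
    rw [yy_sum.1, zero_mul, mul_eq_zero_iff_left (by norm_num)] at this
    simpa only [Pi.one_apply, mul_one] using this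
  have a2 : ∀ e f, ∑ a ∈ TT m, yy (a e) * yy (a f) = if e = f then 850 * 101 ^ 5 else 0 := by
    intro e f
    split_ifs with h
    · have := avg m (n e) (fun x => yy x ^ 2) 1
      simp only [Pi.one_apply, mul_one, yy_sum.2, sum_const, TT_card, nsmul_eq_mul] at this
      simp only [← h, ← sq]
      push_cast at this
      linarith
    · have := avg m h yy yy
      rwa [yy_sum.1, zero_mul, mul_eq_zero_iff_left (by norm_num)] at this
  refine ⟨by rw [sum_comm]; simp [← mul_sum, a1], ?_⟩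
  simp only [sq, sum_mul_sum, mul_mul_mul_comm (c _)]
  rw [sum_comm, mul_sum]
  refine sum_congr rfl fun e _ => ?_
  rw [sum_comm]
  simp [← mul_sum, a2, mul_comm]

end Ct

open Ct in
theorem cnt : CntStmt := by
  classical
  refine ⟨1000, fun m hm => ?_⟩
  have fin : {c | Ray m c ∧ Std c}.Finite := (Sb0.ray_fin m).subset fun _ h => h.1
  have e1 : Nat.card {c // Ray m c ∧ Std c} = fin.toFinset.card :=
    (Set.ncard_eq_toFinset_card _ fin).symm ▸ (Nat.card_coe_set_eq _)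
  rw [e1, card_eq_sum_card_fiberwise (f := fun c e => (c e : Zn)) (t := TT m) fun c hc => by
    obtain ⟨h0, h4, h7, h9, h3⟩ := ray_iff.1 ((Set.Finite.mem_toFinset _).1 hc).1
    refine mem_coe.2 (mem_TT.2 ⟨?_, ?_, ?_, ?_, ?_⟩)
    exacts [by simp [← h0], by simp [← h4], by simp [← h7], by simp [← h9], by simp [← h3]]]
  obtain ⟨l, hl⟩ : ∃ l : (Fin 10 → ℝ) → (Fin 10 → Zn) → ℝ, ∀ c a, l c a = ∑ e, c e * yy (a e) :=
    ⟨_, fun _ _ => rfl⟩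
  have q1 : ∀ c, ∑ a ∈ TT m, l c a = 0 := fun c => by simpa only [hl] using (mom m c).1
  have q2 : ∀ c, ∑ a ∈ TT m, l c a ^ 2 = 850 * 101 ^ 5 * ∑ e, c e ^ 2 := fun c => by
    simpa only [hl] using (mom m c).2
  have key : ∀ a ∈ TT m, (#{c ∈ fin.toFinset | (fun e => (c e : Zn)) = a} : ℝ) =
      (2 * 101 ^ 2)⁻¹ * (2 * 101 ^ 2 + 5 * ((m - 100) * (m + 1)) -
        (2 * m - 99) * l ![1, 1, 1, 1, 1, 1, 1, 1, 1, 1] a +
        (l ![1, 0, 1, 0, 0, 1, 0, 0, -1, 0] a ^ 2 + l ![0, 0, -1, 0, 1, 0, 1, 0, 1, 0] a ^ 2 +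
          l ![0, 1, 1, 0, 0, 0, -1, 1, 0, 0] a ^ 2 + l ![0, -1, 0, 0, 0, 1, 1, 0, 0, 1] a ^ 2 +
          l ![0, 1, 0, 1, 0, -1, 0, 0, 1, 0] a ^ 2) -
        (l ![0, 0, 1, -1, 0, 1, -1, 1, -1, 0] a ^ 2 + l ![1, -1, 0, 0, 0, 1, 1, -1, -1, 0] a ^ 2 +
          l ![-1, -1, -1, 0, 0, 0, 1, 0, 1, 1] a ^ 2 + l ![0, 1, -1, 0, 1, -1, 0, 0, 1, -1] a ^ 2 +
          l ![0, 1, 1, 1, -1, -1, -1, 0, 0, 0] a ^ 2)) := by
    intro a ha
    have d : ∀ i j k l, a i + a j + a k - a l = m →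
        ∃ A : ℤ, 101 * A = m - ((a i).val + (a j).val + (a k).val - (a l).val) := fun i j k l h =>
      ((ZMod.intCast_eq_intCast_iff_dvd_sub _ m 101).1 (by simpa using h)).imp fun _ h => h.symm
    obtain ⟨h0, h4, h7, h9, h3⟩ := mem_TT.1 ha
    obtain ⟨A, hA⟩ := d _ _ _ _ h0
    obtain ⟨B, hB⟩ := d _ _ _ _ h4
    obtain ⟨C, hC⟩ := d _ _ _ _ h7
    obtain ⟨D, hD⟩ := d _ _ _ _ h9
    obtain ⟨E, hE⟩ := d _ _ _ _ h3
    have hn := fun e => ZMod.val_lt (a e)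
    have c := dg_card (A := A) (B := B) (C := C) (D := D) (E := E) (L := m / 101 - 3) (by omega)
    rw [← fib_card hn hA hB hC hD hE, show {c | Ray m c ∧ Std c ∧ ∀ e, c e % 101 = (a e).val} =
      ↑({c ∈ fin.toFinset | (fun e => (c e : Zn)) = a} : Finset _) by
        ext c
        simp [funext_iff, ← ZMod.val_natCast, (ZMod.val_injective 101).eq_iff, and_assoc],
      Set.ncard_coe_finset] at c
    rw [all10] at hn
    replace c := congrArg (Int.cast : ℤ → ℝ)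
      (c (by omega) (by omega) (by omega) (by omega) (by omega))
    have r : ∀ {A x : ℤ}, 101 * A = x → (A : ℝ) = x / 101 := fun h => by rw [← h]; simp
    push_cast at c
    rw [r hA, r hB, r hC, r hD, r hE] at c
    simp only [hl, Fin.sum_univ_succ, Fin.sum_univ_zero, yy, Matrix.cons_val_zero,
      Matrix.cons_val_succ, Fin.succ_zero_eq_one, Fin.reduceSucc]
    push_cast at c
    linear_combination (2 : ℝ)⁻¹ * c
  rw [Nat.cast_sum, sum_congr rfl key, ← mul_sum]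
  simp only [sum_sub_distrib, sum_add_distrib, ← mul_sum, q1, q2, sum_const, TT_card, nsmul_eq_mul,
    Fin.sum_univ_succ, Fin.sum_univ_zero, Matrix.cons_val_zero, Matrix.cons_val_succ]
  push_cast
  ring

end Vale.Agent.P190
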