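import Vale.Agent.P190.Str

/-! Module A: counting standard monomials. -/

namespace Vale.Agent.P190

open Finset

namespace Ct

def tri (X : ℤ) : Set (ℕ × ℕ) := {p | 1 ≤ p.1 ∧ (p.1 + p.2 : ℤ) ≤ X}

def t2 (X : ℤ) : ℤ := if 0 ≤ X then X * (X + 1) else 0

lemma t2_add (x : ℤ) : t2 x + t2 (-x - 1) = x * (x + 1) := by
  unfold t2; split_ifs <;> first | omega | ring

lemma tri_fin (X : ℤ) : (tri X).Finite :=
  (Set.finite_Iic (X.toNat, X.toNat)).subset fun p hp => by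
    simp only [tri, Set.mem_ofPred_eq, Set.mem_Iic, Prod.le_def] at *; omega

lemma tri_card (X : ℤ) : 2 * ((tri X).ncard : ℤ) = t2 X := by
  by_cases h : 0 ≤ X
  · obtain ⟨n, rfl⟩ := Int.eq_ofNat_of_zero_le h
    have : (tri n).ncard = #((range (n + 1)).sigma range) := by
      rw [← Set.ncard_coe_finset]
      refine Set.ncard_congr (fun p _ => ⟨p.1 + p.2, p.2⟩) (fun p hp => ?_)
        (fun p q hp hq e => ?_) fun ⟨j, i⟩ hb => ⟨(j - i, i), ?_, ?_⟩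
      · simp [tri] at *; omega
      · simp only [Sigma.mk.injEq, heq_eq_eq] at e; exact Prod.ext (by omega) e.2
      · simp [tri] at *; omega
      · simp at *; omega
    rw [this, card_sigma, t2, if_pos h]
    simp only [card_range]
    have := sum_range_id_mul_two (n + 1)
    rw [Nat.add_sub_cancel] at this
    zify at this ⊢
    linarith
  · rw [t2, if_neg h, show tri X = ∅ from Set.eq_empty_of_forall_notMem fun p hp => by
      simp only [tri, Set.mem_ofPred_eq] at hp; omega]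
    simp

def cone (X Y Z : ℤ) : Set (ℕ × ℕ) :=
  {p | 1 ≤ p.1 ∧ (p.1 + p.2 : ℤ) ≤ X ∧ (p.1 : ℤ) ≤ Y ∧ (p.2 : ℤ) ≤ Z}

lemma cone_fin (X Y Z : ℤ) : (cone X Y Z).Finite := (tri_fin X).subset fun _ h => ⟨h.1, h.2.1⟩

lemma cone_card {X Y Z : ℤ} (hY : 0 ≤ Y) (hZ : 0 ≤ Z) (h : X ≤ Y + Z) :
    2 * ((cone X Y Z).ncard : ℤ) = t2 X - t2 (X - Y) - t2 (X - Z - 1) := by
  obtain ⟨Y, rfl⟩ := Int.eq_ofNat_of_zero_le hY
  obtain ⟨Z, rfl⟩ := Int.eq_ofNat_of_zero_le hZ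
  have e : tri X = cone X Y Z ∪ (· + (Y, 0)) '' tri (X - Y) ∪ (· + (0, Z + 1)) '' tri (X - Z - 1) := by
    ext ⟨a, b⟩
    simp only [tri, cone, Set.mem_union, Set.mem_image, Set.mem_ofPred_eq, Prod.exists, Prod.mk_add_mk,
      Prod.mk.injEq]
    refine ⟨fun h => ?_, ?_⟩
    · by_cases h1 : a ≤ Y
      · by_cases h2 : b ≤ Z
        · exact .inl (.inl (by omega))
        · exact .inr ⟨a, b - (Z + 1), by omega⟩
      · exact .inl (.inr ⟨a - Y, b, by omega⟩)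
    · rintro ((h | ⟨c, d, h⟩) | ⟨c, d, h⟩) <;> omega
  have c := tri_card X
  rw [e, Set.ncard_union_eq _ ((cone_fin _ _ _).union ((tri_fin _).image _)) ((tri_fin _).image _),
    Set.ncard_union_eq _ (cone_fin _ _ _) ((tri_fin _).image _),
    Set.ncard_image_of_injective _ (add_left_injective _),
    Set.ncard_image_of_injective _ (add_left_injective _)] at c
  · rw [← c, ← tri_card, ← tri_card]; push_cast; ring
  all_goals
    simp only [tri, cone, Set.disjoint_left, Set.mem_union, Set.mem_image, Set.mem_ofPred_eq,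
      Prod.exists, Prod.forall, Prod.mk_add_mk, Prod.mk.injEq]
  · rintro a b h ⟨c, d, h'⟩; omega
  · rintro a b (h | ⟨c, d, h⟩) ⟨c, d, h'⟩ <;> omega

/-- diagonal parts (13, 14, 24, 25, 35) of non-crossing vectors with side data `A, B, C, D, E`
(sides 12, 23, 34, 45, 15) -/
def Dg (A B C D E : ℤ) : Set (ℕ × ℕ × ℕ × ℕ × ℕ) :=
  {d | (d.1 = 0 ∨ d.2.2.1 = 0) ∧ (d.1 = 0 ∨ d.2.2.2.1 = 0) ∧ (d.2.1 = 0 ∨ d.2.2.2.1 = 0) ∧
    (d.2.1 = 0 ∨ d.2.2.2.2 = 0) ∧ (d.2.2.1 = 0 ∨ d.2.2.2.2 = 0) ∧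
    (d.2.1 + d.2.2.1 : ℤ) ≤ A + d.2.2.2.2 ∧ (d.2.2.2.1 + d.2.2.2.2 : ℤ) ≤ B + d.2.1 ∧
    (d.1 + d.2.1 : ℤ) ≤ C + d.2.2.2.1 ∧ (d.2.2.1 + d.2.2.2.1 : ℤ) ≤ D + d.1 ∧
    (d.1 + d.2.2.2.2 : ℤ) ≤ E + d.2.2.1}

lemma dg_card {A B C D E L : ℤ} (L0 : 0 ≤ L) (hA : L ≤ A ∧ A ≤ 2 * L) (hB : L ≤ B ∧ B ≤ 2 * L)
    (hC : L ≤ C ∧ C ≤ 2 * L) (hD : L ≤ D ∧ D ≤ 2 * L) (hE : L ≤ E ∧ E ≤ 2 * L) :
    2 * ((Dg A B C D E).ncard : ℤ) = 2 + (A * (A + 1) + B * (B + 1) + C * (C + 1) + D * (D + 1) +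
      E * (E + 1)) - ((C - E) ^ 2 + (A - C) ^ 2 + (D - A) ^ 2 + (B - D) ^ 2 + (E - B) ^ 2) := by
  have e : Dg A B C D E = {0} ∪ (fun p => (p.1, p.2, 0, 0, 0)) '' cone C E A ∪
      (fun p => (0, p.1, p.2, 0, 0)) '' cone A C D ∪ (fun p => (0, 0, p.1, p.2, 0)) '' cone D A B ∪
      (fun p => (0, 0, 0, p.1, p.2)) '' cone B D E ∪ (fun p => (p.2, 0, 0, 0, p.1)) '' cone E B C := by
    ext ⟨a, b, c, d, e⟩
    simp only [Dg, cone, Set.mem_union, Set.mem_image, Set.mem_ofPred_eq, Prod.exists, Prod.mk.injEq,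
      Set.mem_singleton_iff, Prod.mk_eq_zero]
    refine ⟨fun h => ?_, ?_⟩
    · by_cases h1 : 1 ≤ a ∧ e = 0
      · exact .inl (.inl (.inl (.inl (.inr ⟨a, b, by omega⟩))))
      by_cases h2 : 1 ≤ e ∧ d = 0
      · exact .inr ⟨e, a, by omega⟩
      by_cases h3 : 1 ≤ d ∧ c = 0
      · exact .inl (.inr ⟨d, e, by omega⟩)
      by_cases h4 : 1 ≤ c ∧ b = 0
      · exact .inl (.inl (.inr ⟨c, d, by omega⟩))
      by_cases h5 : 1 ≤ b
      · exact .inl (.inl (.inl (.inr ⟨b, c, by omega⟩)))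
      · exact .inl (.inl (.inl (.inl (.inl (by omega)))))
    · rintro (((((h | ⟨x, y, h⟩) | ⟨x, y, h⟩) | ⟨x, y, h⟩) | ⟨x, y, h⟩) | ⟨x, y, h⟩) <;> omega
  have f := fun (X Y Z : ℤ) (g : ℕ × ℕ → ℕ × ℕ × ℕ × ℕ × ℕ) => (cone_fin X Y Z).image g
  have s := Set.finite_singleton (0 : ℕ × ℕ × ℕ × ℕ × ℕ)
  rw [e, Set.ncard_union_eq _ ((((s.union (f ..)).union (f ..)).union (f ..)).union (f ..)) (f ..),
    Set.ncard_union_eq _ (((s.union (f ..)).union (f ..)).union (f ..)) (f ..),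
    Set.ncard_union_eq _ ((s.union (f ..)).union (f ..)) (f ..),
    Set.ncard_union_eq _ (s.union (f ..)) (f ..), Set.ncard_union_eq _ s (f ..), Set.ncard_singleton]
  · iterate 5 rw [Set.ncard_image_of_injective _ fun p q h => by
      simp only [Prod.mk.injEq] at h; exact Prod.ext (by omega) (by omega)]
    have c1 := cone_card (X := C) (Y := E) (Z := A) (by omega) (by omega) (by omega)
    have c2 := cone_card (X := A) (Y := C) (Z := D) (by omega) (by omega) (by omega)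
    have c3 := cone_card (X := D) (Y := A) (Z := B) (by omega) (by omega) (by omega)
    have c4 := cone_card (X := B) (Y := D) (Z := E) (by omega) (by omega) (by omega)
    have c5 := cone_card (X := E) (Y := B) (Z := C) (by omega) (by omega) (by omega)
    have k : ∀ x y : ℤ, t2 (x - y) + t2 (y - x - 1) = (x - y) * (x - y + 1) := fun x y => by
      rw [← t2_add, neg_sub]
    have p : ∀ x : ℤ, L ≤ x → t2 x = x * (x + 1) := fun x h => if_pos (L0.trans h)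
    rw [p _ (by omega)] at c1 c2 c3 c4 c5
    push_cast
    linear_combination c1 + c2 + c3 + c4 + c5 - k C E - k A C - k D A - k B D - k E B
  all_goals
    simp only [cone, Set.disjoint_left, Set.mem_union, Set.mem_image, Set.mem_ofPred_eq, Prod.exists,
      Prod.forall, Prod.mk.injEq, Set.mem_singleton_iff, Prod.mk_eq_zero]
  · rintro a b c d e h ⟨x, y, h'⟩; omega
  · rintro a b c d e (h | ⟨_, _, h⟩) ⟨x, y, h'⟩ <;> omega
  · rintro a b c d e ((h | ⟨_, _, h⟩) | ⟨_, _, h⟩) ⟨x, y, h'⟩ <;> omega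
  · rintro a b c d e (((h | ⟨_, _, h⟩) | ⟨_, _, h⟩) | ⟨_, _, h⟩) ⟨x, y, h'⟩ <;> omega
  · rintro a b c d e ((((h | ⟨_, _, h⟩) | ⟨_, _, h⟩) | ⟨_, _, h⟩) | ⟨_, _, h⟩) ⟨x, y, h'⟩ <;> omega

end Ct

end Vale.Agent.P190
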