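import Mathlib

/-! P190, module N: modules of maximal depth over power series rings are free. -/

namespace Vale.Agent.P190.Cp

open IsLocalRing RingTheory.Sequence CategoryTheory Abelian

theorem free_of_reg (n : ℕ) : ∀ (R M : Type) [CommRing R] [IsNoetherianRing R] [IsLocalRing R]
    [AddCommGroup M] [Module R M] [Module.Finite R M] (rs : List R), rs.length = n →
    maximalIdeal R = Ideal.ofList rs → IsWeaklyRegular M rs → Module.Free R M := by
  induction n with
  | zero =>
    intro R M _ _ _ _ _ _ rs h1 h2 _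
    rw [List.length_eq_zero_iff.1 h1, Ideal.ofList_nil] at h2
    let := (isField_iff_maximalIdeal_eq.2 h2).toField
    exact Module.Free.of_divisionRing R M
  | succ n ih =>
    intro R M _ _ _ _ _ _ rs h1 h2 h3
    obtain ⟨r, rs, rfl⟩ := List.exists_cons_of_length_eq_add_one h1
    have hr : r ∈ maximalIdeal R := h2 ▸ Ideal.subset_span List.mem_cons_self
    have : Nontrivial (R ⧸ Ideal.span {r}) := Ideal.Quotient.nontrivial_iff.2
      (Ideal.span_singleton_ne_top hr)
    have := IsLocalRing.of_surjective' (Ideal.Quotient.mk (Ideal.span {r}))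
      Ideal.Quotient.mk_surjective
    have := Module.Finite.of_restrictScalars_finite R (R ⧸ Ideal.span {r}) (QuotSMulTop r M)
    have := Module.finitePresentation_of_finite R M
    rw [isWeaklyRegular_cons_iff'] at h3
    refine (Module.free_quotSMulTop_iff_free R M (maximalIdeal_le_jacobson _ hr) h3.1).1
      (ih _ _ _ (by simpa using h1) ?_ h3.2)
    rw [← map_maximalIdeal_of_surjective _ Ideal.Quotient.mk_surjective, h2, Ideal.ofList_cons,
      Ideal.map_sup, Ideal.map_quotient_self, bot_sup_eq, Ideal.map_ofList]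

theorem exists_reg {k P A : Type} [Field k] [Infinite k] [CommRing P] [CommRing A] [Algebra k P]
    [Algebra P A] [IsNoetherianRing A] (I : Ideal A) (n : ℕ) :
    ∀ (s : Finset P) (M : ModuleCat.{0} A) [Module.Finite A M], s.card ≤ n →
    (∀ q : Ideal A, q.IsPrime → Module.annihilator A M ≤ q → (∀ a ∈ s, algebraMap P A a ∈ q) →
      I ≤ q) → (∀ i < n, Subsingleton (Ext (ModuleCat.of A (A ⧸ I)) M i)) →
    ∃ rs : List P, Ideal.span s = Ideal.ofList rs ∧
      IsWeaklyRegular M (rs.map (algebraMap P A)) := by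
  classical
  induction n with
  | zero =>
    intro s M _ h1 _ _
    exact ⟨[], by simp [Finset.card_eq_zero.1 (Nat.le_zero.1 h1)], .nil _ _⟩
  | succ n ih =>
    intro s M _ h1 h2 h3
    have : Subsingleton (ModuleCat.of A (A ⧸ I) ⟶ M) :=
      Ext.addEquiv₀.subsingleton_congr.mp (h3 0 n.zero_lt_succ)
    have : Subsingleton ((A ⧸ I) →ₗ[A] M) :=
      (ModuleCat.homAddEquiv (M := ModuleCat.of A (A ⧸ I))).symm.subsingleton
    obtain ⟨x, xI, hx⟩ := IsSMulRegular.subsingleton_linearMap_iff.mp this
    rw [Ideal.annihilator_quotient] at xI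
    have rg : ∀ r, IsSMulRegular M r ↔ ∀ q ∈ associatedPrimes A M, r ∉ q := fun r => by
      have := Set.ext_iff.1 (biUnion_associatedPrimes_eq_compl_regular A M) r
      simp only [Set.mem_iUnion, Set.mem_compl_iff, Set.mem_ofPred_eq, SetLike.mem_coe] at this
      rw [← not_iff_not, ← this]; simp
    have := (associatedPrimes.finite A M).to_subtype
    let L : (P → k) →ₗ[k] P := ∑ a ∈ s, (LinearMap.proj a).smulRight a
    have hL : ∀ c, L c = ∑ a ∈ s, c a • a := fun c => by simp [L]
    obtain ⟨c, hc⟩ := Submodule.exists_forall_notMem_of_forall_ne_top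
      (fun q : associatedPrimes A M =>
        ((q.1.comap (algebraMap P A)).restrictScalars k).comap L) fun q hq => by
      refine (rg x).1 hx q q.2 (h2 q q.2.isPrime (Submodule.annihilator_top.symm.trans_le
        (IsAssociatedPrime.annihilator_le q.2)) (fun a ha => ?_) xI)
      have : L (Pi.single a 1) ∈ q.1.comap (algebraMap P A) :=
        (hq ▸ Submodule.mem_top : Pi.single a 1 ∈ _)
      rwa [hL, Finset.sum_eq_single a (fun b _ hb => by simp [hb]) (fun h => absurd ha h),
        Pi.single_eq_same, one_smul] at this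
    have hl : IsSMulRegular M (algebraMap P A (L c)) := (rg _).2 fun q hq => hc ⟨q, hq⟩
    by_cases h0 : ∀ y ∈ s, c y = 0
    · rw [hL, Finset.sum_eq_zero fun y hy => by rw [h0 y hy, zero_smul], map_zero] at hl
      have := IsSMulRegular.zero_iff_subsingleton.1 hl
      exact ⟨s.toList, by simp [Ideal.ofList], ⟨fun _ _ _ _ _ => Subsingleton.elim _ _⟩⟩
    push Not at h0
    obtain ⟨y, hy, cy⟩ := h0
    have ex : ∀ J : Ideal P, L c ∈ J → (∀ a ∈ s.erase y, a ∈ J) → ∀ a ∈ s, a ∈ J :=
      fun J a1 a2 a ha => by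
        rcases eq_or_ne a y with rfl | h
        · rw [hL, ← Finset.add_sum_erase _ _ ha, add_mem_cancel_right (J.sum_mem fun b hb =>
            J.smul_of_tower_mem _ (a2 b hb))] at a1
          simpa [cy] using J.smul_of_tower_mem (c a)⁻¹ a1
        · exact a2 a (Finset.mem_erase.2 ⟨h, ha⟩)
    obtain ⟨rs, r1, r2⟩ := ih (s.erase y) (ModuleCat.of A (QuotSMulTop (algebraMap P A (L c)) M))
      (by rw [Finset.card_erase_of_mem hy]; omega) (fun q hq a1 a2 => h2 q hq
        ((LinearMap.annihilator_le_of_surjective _ (Submodule.mkQ_surjective _)).trans a1)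
        (ex (q.comap (algebraMap P A)) (a1 (QuotSMulTop.mem_annihilator _ _)) a2)) fun i hi => by
      have z1 := AddCommGrpCat.isZero_of_iff_subsingleton.mpr (h3 i (by omega))
      have z2 := AddCommGrpCat.isZero_of_iff_subsingleton.mpr (h3 (i + 1) (by omega))
      exact AddCommGrpCat.subsingleton_of_isZero <| ShortComplex.Exact.isZero_of_both_zeros
        ((Ext.covariant_sequence_exact₃' _ hl.smulShortComplex_shortExact) i (i + 1) rfl)
        (z1.eq_zero_of_src _) (z2.eq_zero_of_tgt _)
    refine ⟨L c :: rs, ?_, (isWeaklyRegular_cons_iff _ _ _).2 ⟨hl, r2⟩⟩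
    rw [Ideal.ofList_cons, ← r1]
    refine le_antisymm (Ideal.span_le.2 (ex _ (Ideal.mem_sup_left (Ideal.mem_span_singleton_self _))
      fun a ha => Ideal.mem_sup_right (Ideal.subset_span ha))) (sup_le ?_
        (Ideal.span_mono (Finset.erase_subset y s)))
    rw [Ideal.span_singleton_le_iff_mem, hL]
    exact Ideal.sum_mem _ fun a ha => Submodule.smul_of_tower_mem _ _ (Ideal.subset_span ha)

theorem dim_le (P A : Type) [CommRing P] [CommRing A] [Algebra P A] [Algebra.IsIntegral P A]
    (h : Function.Injective (algebraMap P A)) : ringKrullDim P ≤ ringKrullDim A := by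
  refine iSup_le fun l => ?_
  obtain ⟨Q, -, h1, h2⟩ := Ideal.exists_ideal_over_prime_of_isIntegral l.head.asIdeal (⊥ : Ideal A)
    (by rw [Ideal.comap_bot_of_injective _ h]; exact bot_le)
  have : Q.LiesOver l.head.asIdeal := ⟨h2.symm⟩
  obtain ⟨L, h3, -⟩ := Ideal.exists_ltSeries_of_hasGoingUp l Q
  exact h3 ▸ Order.LTSeries.length_le_krullDim L

theorem dim_ps (k : Type) [Field k] (n : ℕ) :
    (n : WithBot ℕ∞) ≤ ringKrullDim (MvPowerSeries (Fin n) k) := by
  induction n with
  | zero => exact ringKrullDim_nonneg_of_nontrivial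
  | succ n ih =>
    rw [ringKrullDim_eq_of_ringEquiv (MvPowerSeries.finSuccEquiv k n).toRingEquiv]
    refine le_trans ?_ ringKrullDim_succ_le_ringKrullDim_powerseries
    push_cast; gcongr

open MvPowerSeries in
theorem max_ps (k : Type) [Field k] (n : ℕ) : maximalIdeal (MvPowerSeries (Fin n) k) =
    Ideal.span (Set.range X) := by
  have key : ∀ (s : Finset (Fin n)) (f : MvPowerSeries (Fin n) k),
      (∀ m : Fin n →₀ ℕ, (∀ i ∈ s, m i = 0) → coeff m f = 0) → f ∈ Ideal.span (Set.range X) := by
    intro s
    induction s using Finset.induction_on with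
    | empty => intro f hf; rw [show f = 0 from MvPowerSeries.ext fun m => hf m (by simp)]; simp
    | insert i s _ ih =>
      intro f hf
      let g : MvPowerSeries (Fin n) k := fun m => if m i = 0 then coeff m f else 0
      have hg : ∀ m, coeff m g = if m i = 0 then coeff m f else 0 := fun _ => rfl
      obtain ⟨u, hu⟩ := (X_dvd_iff (s := i) (φ := f - g)).2 fun m hm => by simp [hg, hm]
      rw [eq_add_of_sub_eq hu]
      refine add_mem (Ideal.mul_mem_right _ _ (Ideal.subset_span ⟨i, rfl⟩)) (ih g fun m hm => ?_)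
      rw [hg]; split_ifs with h
      exacts [hf m (by simpa [h] using hm), rfl]
  refine le_antisymm (fun f hf => key Finset.univ f fun m hm => ?_) (Ideal.span_le.2 ?_)
  · rw [show m = 0 from Finsupp.ext fun i => hm i (Finset.mem_univ i)]
    simpa [isUnit_iff_constantCoeff] using hf
  · rintro _ ⟨i, rfl⟩
    simp [isUnit_iff_constantCoeff]

/-- A finite module of depth at least the dimension, over a finite extension of a power series
ring, is free over the power series ring. -/
theorem free {k A M : Type} [Field k] [Infinite k] [CommRing A] [IsLocalRing A]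
    [IsNoetherianRing A] {n : ℕ} [Algebra (MvPowerSeries (Fin n) k) A]
    [Module.Finite (MvPowerSeries (Fin n) k) A]
    (h : Function.Injective (algebraMap (MvPowerSeries (Fin n) k) A))
    (hq : ∀ q : Ideal A, q.IsPrime →
      (∀ i, algebraMap (MvPowerSeries (Fin n) k) A (.X i) ∈ q) → maximalIdeal A ≤ q)
    [AddCommGroup M] [Module A M] [Module.Finite A M] [Module (MvPowerSeries (Fin n) k) M]
    [IsScalarTower (MvPowerSeries (Fin n) k) A M] {rs : List A} (h1 : ∀ a ∈ rs, a ∈ maximalIdeal A)
    (h2 : IsRegular M rs) (h3 : (rs.length : WithBot ℕ∞) = ringKrullDim A) :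
    Module.Free (MvPowerSeries (Fin n) k) M := by
  classical
  have := h2.nontrivial
  have hn : n ≤ rs.length := by exact_mod_cast ((dim_ps k n).trans (dim_le _ A h)).trans_eq h3.symm
  obtain ⟨ls, l1, l2⟩ := exists_reg (k := k) (maximalIdeal A) n
    (Finset.univ.image (MvPowerSeries.X : Fin n → MvPowerSeries (Fin n) k)) (ModuleCat.of A M)
    (Finset.card_image_le.trans (by simp)) (fun q a _ b => hq q a fun i => b _ (by simp))
    fun i hi => ModuleCat.subsingleton_ext_of_exists_isRegular (maximalIdeal A) _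
      (by rw [Module.support_eq_zeroLocus, Ideal.annihilator_quotient]) (ModuleCat.of A M)
      (Submodule.top_ne_ideal_smul_of_le_jacobson_annihilator
        (maximalIdeal_le_jacobson _)).symm.lt_top rs h1 h2 i (hi.trans_le hn)
  have := Module.Finite.trans (R := MvPowerSeries (Fin n) k) A M
  exact free_of_reg _ _ M ls rfl (by rw [max_ps, ← l1]; simp)
    ((isWeaklyRegular_map_algebraMap_iff A M ls).1 l2)

end Vale.Agent.P190.Cp
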