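import Vale.Agent.P190.Base
import Vale.Agent.P190.Comp1

/-! P190, module N: homogeneous parameters and the complete local ring. -/

namespace Vale.Agent.P190

open Module PowerSeries IsLocalRing

namespace Cp

variable {k K : Type} [Field k] [Field K] [Algebra k K] {R : Fam k K} {x : Fin 3 → K} {j0 : ℕ}

theorem avoid [Infinite k] (hR : Gr R) {N : Fam k K} (hN : RSt R N) (hle : ∀ m, N m ≤ R m) :
    ∃ z ∈ R 1, ∃ m0, ∀ m ≥ m0, hf (adj R N z 1) m = hf N m + hf R (m - 1) - hf N (m - 1) := by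
  have := hR.fin
  let b := finBasis k (R 1)
  have hRy : FG (fun i => (b i : K)) R := ⟨fun i m v hv => add_comm 1 m ▸ hR.mul _ _ _ _ (b i).2 hv,
    hR.fin, ⟨0, hR.neg⟩, 0, fun m hm v hv => by
      refine Submodule.mul_induction_on (hR.gen m hm hv) (fun a ha c hc => ?_) ?_
      · refine ⟨fun i => b.repr ⟨a, ha⟩ i • c, fun i => (R m).smul_mem _ hc, ?_⟩
        have := congrArg Subtype.val (b.sum_repr ⟨a, ha⟩)
        simp only [AddSubmonoidClass.coe_finsetSum, SetLike.val_smul] at this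
        nth_rewrite 1 [← this]
        simp [Finset.sum_mul]
      · rintro _ _ ⟨u, hu, rfl⟩ ⟨w, hw, rfl⟩
        exact ⟨u + w, fun i => add_mem (hu i) (hw i), by simp [mul_add, Finset.sum_add_distrib]⟩⟩
  obtain ⟨S, S1, S2, m0, h⟩ := pf hR (fun i => (b i).2) hRy hRy hR.rst
    (fun N => ∃ S : Set (Submodule k (R 1)), S.Finite ∧ (∀ W ∈ S, W ≠ ⊤) ∧ ∃ m0, ∀ z : R 1,
      (∀ W ∈ S, z ∉ W) → ∀ m ≥ m0, ∀ v ∈ R m, z.1 * v ∈ N (m + 1) → v ∈ N m)
    ⟨∅, Set.finite_empty, by simp, 0, fun _ _ _ _ _ hv _ => hv⟩ (by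
      rintro N v c hN hle hv hP ⟨S, S1, S2, m0, h⟩
      have step : ∀ z : R 1, (∀ W ∈ S, z ∉ W) → ∀ m ≥ m0, ∀ u ∈ R m, z.1 * u ∈ N (m + 1) →
          (∀ a ∈ R (m - c), z.1 * a ∈ col R N v c (1 + (m - c)) → a ∈ col R N v c (m - c)) →
          u ∈ N m := fun z hz m hm u hu h1 h2 => by
        obtain ⟨w, hw, a, ha, rfl⟩ := mem_adj.1 (h z hz m hm u hu
          (mem_adj.2 ⟨_, h1, 0, zero_mem _, by simp⟩))
        have h3 := hN _ _ _ _ z.2 hw
        rw [add_comm, smul_eq_mul] at h3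
        rw [mul_add, add_mem_cancel_left h3] at h1
        have := (mem_col.1 (h2 a ha (mem_col.2 ⟨hR.mul _ _ _ _ z.2 ha, by
          rwa [show 1 + (m - c) + c = m + 1 by ring, smul_eq_mul, mul_assoc]⟩))).2
        rw [sub_add_cancel] at this
        exact add_mem hw this
      by_cases hc : R 1 ≤ col R N v c 1
      · refine ⟨S, S1, S2, max m0 (c + 1), fun z hz m hm u hu h1 =>
          step z hz m (le_of_max_le_left hm) u hu h1 fun a ha _ => ?_⟩
        have e : m - c = m - c - 1 + 1 := by ring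
        rw [e] at ha ⊢
        refine Submodule.mul_le.2 (fun p hp q hq => ?_)
          (hR.gen _ (by linarith [le_of_max_le_right hm]) ha)
        simpa [mul_comm] using hP.st _ _ _ _ hq (hc hp)
      · refine ⟨insert ((col R N v c 1).comap (R 1).subtype) S, S1.insert _, ?_, m0,
          fun z hz m hm u hu h1 => step z (fun W hW => hz W (.inr hW)) m hm u hu h1
            fun a ha h2 => (hP.pr _ _ _ _ z.2 ha h2).resolve_left (hz _ (.inl rfl))⟩
        rintro W (rfl | hW)
        exacts [mt Submodule.comap_subtype_eq_top.1 hc, S2 W hW]) N hN hle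
  have := S1.to_subtype
  obtain ⟨z, hz⟩ := Submodule.exists_forall_notMem_of_forall_ne_top (fun W : S => W.1)
    fun W => S2 W W.2
  refine ⟨z, z.2, m0 + 1, fun m hm => ?_⟩
  have : FiniteDimensional k (N m) := Submodule.finiteDimensional_of_le (hle m)
  have e : col R N z.1 1 (m - 1) = N (m - 1) := by
    ext a
    rw [mem_col, smul_eq_mul, mul_comm]
    exact ⟨fun ha => h z (fun W hW => hz ⟨W, hW⟩) _ (by linarith) a ha.1 ha.2,
      fun ha => ⟨hle _ ha, add_comm (1 : ℤ) _ ▸ hN _ _ _ _ z.2 ha⟩⟩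
  rw [hf_adj hR, hf, hf, hf, e]; rfl

theorem adj_le1 (hR : Gr R) {N : Fam k K} (hle : ∀ m, N m ≤ R m) {z : K} (hz : z ∈ R 1) (m : ℤ) :
    adj R N z 1 m ≤ R m := fun u hu => by
  obtain ⟨w, hw, a, ha, rfl⟩ := mem_adj.1 hu
  exact add_mem (hle m hw) (by simpa using hR.mul _ _ _ _ ha hz)

/-- the completion of the graded ring -/
def cA (hR : Gr R) : Subalgebra k K⟦X⟧ where
  carrier := {f | ∀ m : ℕ, coeff m f ∈ R m}
  mul_mem' ha hb m := by
    rw [coeff_mul]
    exact sum_mem fun p hp => by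
      simpa [← Finset.HasAntidiagonal.mem_antidiagonal.1 hp] using hR.mul _ _ _ _ (ha p.1) (hb p.2)
  add_mem' ha hb m := by rw [map_add]; exact add_mem (ha m) (hb m)
  algebraMap_mem' c m := by
    rw [PowerSeries.algebraMap_apply, coeff_C]
    split_ifs with h
    · subst h; rw [Algebra.algebraMap_eq_smul_one]; exact (R _).smul_mem _ hR.one
    · exact zero_mem _

/-- monomials -/
noncomputable def mo (hR : Gr R) (m : ℤ) : R m →ₗ[k] cA hR :=
  LinearMap.codRestrict (cA hR).toSubmodule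
    ((monomial m.toNat).restrictScalars k ∘ₗ (R m).subtype) fun a n => by
      simp only [LinearMap.comp_apply, LinearMap.coe_restrictScalars, coeff_monomial]
      split_ifs with h
      · rcases lt_or_ge m 0 with h0 | h0
        · rw [show (R m).subtype a = 0 from (Submodule.eq_bot_iff _).1 (hR.neg m h0) _ a.2]
          exact zero_mem _
        · rw [h, Int.toNat_of_nonneg h0]; exact a.2
      · exact zero_mem _

theorem mo_val (hR : Gr R) (m : ℤ) (a : R m) : (mo hR m a).1 = monomial m.toNat a.1 := rfl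

/-- elements of order at least `n` -/
noncomputable def cF (hR : Gr R) (n : ℕ) : Ideal (cA hR) :=
  (Ideal.span {X ^ n}).comap (cA hR).val

theorem mem_cF {hR : Gr R} {n : ℕ} {f : cA hR} : f ∈ cF hR n ↔ ∀ m < n, coeff m f.1 = 0 := by
  rw [cF, Ideal.mem_comap, Ideal.mem_span_singleton, X_pow_dvd_iff]; rfl

theorem pow_le (hR : Gr R) (n : ℕ) : cF hR 1 ^ n ≤ cF hR n := by
  refine (Ideal.le_comap_pow _ n).trans_eq ?_
  rw [Ideal.span_singleton_pow, pow_one]; rfl

theorem le_mul (hR : Gr R) (hx : Hsop R x j0) {J : Ideal (cA hR)}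
    (hJ : ∀ i, mo hR 1 ⟨x i, hx.1 i⟩ ∈ J) {n : ℕ} (hn : j0 ≤ n) : cF hR (n + 1) ≤ J * cF hR n := by
  intro f hf
  have : ∀ m : ℕ, ∃ w : Fin 3 → K, (∀ i, w i ∈ R m) ∧ (m < n → w = 0) ∧
      coeff (m + 1) f.1 = ∑ i, x i * w i := fun m => by
    rcases lt_or_ge m n with h | h
    · exact ⟨0, fun _ => zero_mem _, fun _ => rfl, by simpa using mem_cF.1 hf _ (by omega)⟩
    · obtain ⟨w, h1, h2⟩ := hx.2 m (by omega) _ (f.2 (m + 1))
      exact ⟨w, h1, fun _ => by omega, h2⟩
  choose w w1 w2 w3 using this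
  have e : f = ∑ i, mo hR 1 ⟨x i, hx.1 i⟩ * ⟨mk fun m => w m i, fun m => by simp [w1]⟩ := by
    ext m
    simp only [AddSubmonoidClass.coe_finsetSum, MulMemClass.coe_mul, mo_val, map_sum,
      Int.toNat_one, monomial_eq_C_mul_X_pow, pow_one, mul_assoc, coeff_C_mul]
    cases m with
    | zero => simpa using mem_cF.1 hf 0 (by omega)
    | succ m => simp [w3, coeff_succ_X_mul]
  rw [e]
  exact sum_mem fun i _ => Ideal.mul_mem_mul (hJ i) (mem_cF.2 fun m hm => by simp [w2 m hm])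

theorem le_pow (hR : Gr R) (hx : Hsop R x j0) (n : ℕ) : cF hR (j0 + n) ≤ cF hR 1 ^ n := by
  induction n with
  | zero => simp
  | succ n ih =>
    rw [pow_succ']
    exact (le_mul hR hx (fun i => mem_cF.2 fun m hm => by
      simp [mo_val, coeff_monomial, Nat.lt_one_iff.1 hm]) (Nat.le_add_right _ _)).trans
      (Ideal.mul_mono_right ih)

theorem cpl (hR : Gr R) (hx : Hsop R x j0) : IsAdicComplete (cF hR 1) (cA hR) where
  haus' f hf := by
    ext m
    have := hf (m + 1)
    rw [SModEq.zero, smul_eq_mul, Ideal.mul_top] at this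
    exact mem_cF.1 (pow_le hR _ this) m (by omega)
  prec' f hf := by
    simp only [SModEq.sub_mem, smul_eq_mul, Ideal.mul_top] at hf ⊢
    refine ⟨⟨mk fun m => coeff m (f (m + 1)).1, fun m => by simpa using (f _).2 m⟩, fun n => ?_⟩
    rw [← sub_add_sub_cancel _ (f (j0 + n))]
    refine add_mem (hf (Nat.le_add_left _ _)) (le_pow hR hx n (mem_cF.2 fun m hm => ?_))
    have := mem_cF.1 (pow_le hR _ (hf (Nat.succ_le_of_lt hm))) m (by omega)
    simpa [sub_eq_zero] using (sub_eq_zero.1 (by simpa using this)).symm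

theorem mx (hR : Gr R) : (cF hR 1).IsMaximal := by
  refine Ideal.isMaximal_iff.2 ⟨fun h => by simpa using mem_cF.1 h 0 one_pos,
    fun J f h1 h2 h3 => ?_⟩
  have := f.2 0
  rw [Nat.cast_zero, hR.zero, Submodule.mem_span_singleton] at this
  obtain ⟨c, hc⟩ := this
  have c0 : c ≠ 0 := by
    rintro rfl
    exact h2 (mem_cF.2 fun m hm => by rw [Nat.lt_one_iff.1 hm, ← hc, zero_smul])
  have := sub_mem h3 (h1 (show f - c • 1 ∈ cF hR 1 from mem_cF.2 fun m hm => by
    rw [Nat.lt_one_iff.1 hm, AddSubgroupClass.coe_sub, map_sub, ← hc]; simp))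
  simpa [c0] using J.smul_of_tower_mem c⁻¹ this

theorem hs (x : Fin 3 → K) : MvPowerSeries.HasSubst fun i => (monomial 1 (x i) : K⟦X⟧) :=
  MvPowerSeries.hasSubst_of_constantCoeff_zero fun i =>
    show constantCoeff (monomial 1 (x i)) = 0 by simpa using coeff_monomial 0 1 (x i)

theorem coeff_sub (p : MvPowerSeries (Fin 3) k) {n : ℕ} {q : MvPolynomial (Fin 3) k}
    (hq : q.IsHomogeneous n) (h : ∀ d, d.degree = n → MvPowerSeries.coeff d p = q.coeff d) :
    coeff n (MvPowerSeries.substAlgHom (hs x) p : K⟦X⟧) = MvPolynomial.aeval x q := by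
  have e : ∀ d : Fin 3 →₀ ℕ, (d.prod fun s e => (monomial 1 (x s) : K⟦X⟧) ^ e) =
      monomial d.degree (d.prod fun s e => x s ^ e) := fun d => by
    simp [monomial_eq_C_mul_X_pow, Finsupp.prod, mul_pow, Finset.prod_mul_distrib,
      Finset.prod_pow_eq_pow_sum, Finsupp.degree_apply]
  rw [MvPowerSeries.substAlgHom_apply, coeff_def (s := Finsupp.single () n) (by simp),
    MvPowerSeries.coeff_subst (hs x), MvPolynomial.aeval_def, MvPolynomial.eval₂_eq,
    finsum_eq_sum_of_support_subset (s := q.support)]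
  · refine Finset.sum_congr rfl fun d hd => ?_
    have : d.degree = n := by
      by_contra h0
      exact MvPolynomial.mem_support_iff.1 hd (hq.coeff_eq_zero h0)
    rw [e, ← coeff_def (n := n) (by simp), this, coeff_monomial_same, h d this, Algebra.smul_def]
    rfl
  · intro d hd
    rw [Function.mem_support, e, ← coeff_def (n := n) (by simp), coeff_monomial] at hd
    split_ifs at hd with h0
    · rw [h d h0.symm] at hd
      exact MvPolynomial.mem_support_iff.2 (left_ne_zero_of_smul hd)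
    · simp at hd

theorem hc (p : MvPowerSeries (Fin 3) k) (n : ℕ) : ∃ q : MvPolynomial (Fin 3) k,
    q.IsHomogeneous n ∧ ∀ d, d.degree = n → MvPowerSeries.coeff d p = q.coeff d :=
  ⟨MvPolynomial.homogeneousComponent n (p.truncTotal (n + 1)),
    MvPolynomial.homogeneousComponent_isHomogeneous _ _, fun d hd => by
      rw [MvPolynomial.coeff_homogeneousComponent, if_pos hd,
        MvPowerSeries.coeff_truncTotal _ (by omega)]⟩

/-- the parameter subring -/
noncomputable def ph (hR : Gr R) (hx : Hsop R x j0) : MvPowerSeries (Fin 3) k →ₐ[k] cA hR :=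
  (MvPowerSeries.substAlgHom (hs x)).codRestrict _ fun p n => by
    obtain ⟨q, q1, q2⟩ := hc p n
    rw [coeff_sub p q1 q2]
    exact hx.ax_le hR _ (mem_Ax.2 ⟨q, q1, rfl⟩)

theorem ph_X (hR : Gr R) (hx : Hsop R x j0) (i : Fin 3) :
    ph hR hx (.X i) = mo hR 1 ⟨x i, hx.1 i⟩ :=
  Subtype.ext (MvPowerSeries.substAlgHom_X (hs x) i)

theorem ph_inj (hR : Gr R) (hx : Hsop R x j0) (hI : Ind k x) : Function.Injective (ph hR hx) :=
  (injective_iff_map_eq_zero _).2 fun p hp => MvPowerSeries.ext fun d => by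
    obtain ⟨q, q1, q2⟩ := hc p d.degree
    have := coeff_sub (x := x) p q1 q2
    rw [show MvPowerSeries.substAlgHom (hs x) p = 0 from congrArg Subtype.val hp, map_zero] at this
    rw [q2 d rfl, hI _ q q1 this.symm]; simp

theorem ph_fin (hR : Gr R) (hx : Hsop R x j0) : (ph hR hx).toRingHom.Finite := by
  obtain ⟨t, v, g, h1, h2⟩ := hx.gens hR
  let := (ph hR hx).toRingHom.toAlgebra
  refine Module.Finite.of_surjective (Fintype.linearCombination (MvPowerSeries (Fin 3) k)
    fun l => mo hR (g l) ⟨v l, (h1 l).1⟩) fun f => ?_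
  choose a a1 a2 using fun n : ℕ => h2 n _ (f.2 n)
  have : ∀ l (j : ℕ), a (j + (g l).toNat) l ∈ Ax k x j := fun l j => by
    simpa [Int.toNat_of_nonneg (h1 l).2.1] using a1 (j + (g l).toNat) l
  choose Q Q1 Q2 using fun l j => mem_Ax.1 (this l j)
  let p : Fin t → MvPowerSeries (Fin 3) k := fun l d => (Q l d.degree).coeff d
  refine ⟨p, Subtype.ext (PowerSeries.ext fun n => ?_)⟩
  rw [a2, Fintype.linearCombination_apply, AddSubmonoidClass.coe_finsetSum, map_sum]
  refine Finset.sum_congr rfl fun l _ => ?_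
  rw [Algebra.smul_def, MulMemClass.coe_mul, mo_val, monomial_eq_C_mul_X_pow, ← mul_assoc,
    coeff_mul_X_pow', coeff_mul_C]
  split_ifs with h
  · congr 1
    refine (coeff_sub _ (Q1 l _) fun d hd => by rw [← hd]; rfl).trans ?_
    rw [Q2, Nat.sub_add_cancel h]
  · have := a1 n l
    rw [Ax_neg (by omega), Submodule.mem_bot] at this
    rw [this, zero_mul]

end Cp

open Cp

theorem hsop : HsopStmt := by
  rintro k K _ _ _ R _ hR ⟨t, m0, ht⟩
  have s0 : RSt R (fun _ => ⊥ : Fam k K) := fun _ _ a v _ hv => by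
    rw [(Submodule.mem_bot k).1 hv, smul_zero]; exact zero_mem _
  have l0 : ∀ m, (fun _ => ⊥ : Fam k K) m ≤ R m := fun _ => bot_le
  obtain ⟨a, ha, m1, h1⟩ := avoid hR s0 l0
  have s1 := adj_rst hR s0 a 1
  have l1 := adj_le1 hR l0 ha
  obtain ⟨b, hb, m2, h2⟩ := avoid hR s1 l1
  have s2 := adj_rst hR s1 b 1
  have l2 := adj_le1 hR l1 hb
  obtain ⟨c, hc, m3, h3⟩ := avoid hR s2 l2
  have l3 := adj_le1 hR l2 hc
  refine ⟨![a, b, c], (max (max m0 m1) (max m2 m3) + 3).toNat, fun i => by fin_cases i <;> assumption,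
    fun m hm v hv => ?_⟩
  have z : ∀ m, hf (fun _ => ⊥ : Fam k K) m = 0 := fun _ => by simp [hf]
  have e := h3 (m + 1) (by omega)
  rw [h2 _ (by omega), h2 _ (by omega), h1 _ (by omega), h1 _ (by omega), h1 _ (by omega),
    z, z, z, z, ht _ (by omega), ht _ (by omega), ht _ (by omega)] at e
  have e2 : hf (adj R (adj R (adj R (fun _ => ⊥) a 1) b 1) c 1) (m + 1) = hf R (m + 1) := by
    rw [e, ht _ (by omega)]; push_cast; ring
  have := hR.fin
  rw [← Submodule.eq_of_le_of_finrank_eq (l3 _) (Nat.cast_injective e2)] at hv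
  obtain ⟨_, h, w2, a2, rfl⟩ := mem_adj.1 hv
  obtain ⟨_, h', w1, a1, rfl⟩ := mem_adj.1 h
  obtain ⟨_, rfl, w0, a0, rfl⟩ := mem_adj.1 h'
  rw [add_sub_cancel_right] at a0 a1 a2
  exact ⟨![w0, w1, w2], fun i => by fin_cases i <;> assumption, by simp [Fin.sum_univ_three, mul_comm]⟩

theorem comp : CompStmt := by
  intro k K _ _ _ R x j0 _ hR hx hI
  have := cpl hR hx
  have hm := mx hR
  have := isLocalRing_of_isAdicComplete_maximal (cF hR 1)
  have e := eq_maximalIdeal hm
  let := (ph hR hx).toRingHom.toAlgebra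
  have : Module.Finite (MvPowerSeries (Fin 3) k) (cA hR) := ph_fin hR hx
  have : IsScalarTower k (MvPowerSeries (Fin 3) k) (cA hR) := .of_algHom _
  have := IsNoetherianRing.of_finite (MvPowerSeries (Fin 3) k) (cA hR)
  refine ⟨cA hR, inferInstance, inferInstance, inferInstance, inferInstance, e ▸ cpl hR hx, ?_⟩
  intro M _ _ _ rs h1 h2 h3
  let := Module.compHom M (algebraMap (MvPowerSeries (Fin 3) k) (cA hR))
  have : IsScalarTower (MvPowerSeries (Fin 3) k) (cA hR) M := .of_compHom _ _ _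
  have := Module.Finite.trans (R := MvPowerSeries (Fin 3) k) (cA hR) M
  have := free (ph_inj hR hx hI) (fun q hq h => e ▸ hq.le_of_pow_le ((pow_le hR _).trans
    ((le_mul hR hx (fun i => ph_X hR hx i ▸ h i) le_rfl).trans Ideal.mul_le_left))) h1 h2 h3
  have := h2.nontrivial
  refine ⟨finrank (MvPowerSeries (Fin 3) k) M, (finrank_pos_iff_of_free _ _).2 this, fun T => ?_⟩
  let τ : MvPowerSeries (Fin 3) k →ₐ[k] Tr k T :=
    (MvPowerSeries.truncTotalAlgHom (Fin 3) k T).restrictScalars k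
  let Ψ₀ := (LinearMap.toMatrixAlgEquiv (finBasis (MvPowerSeries (Fin 3) k) M)).toAlgHom.comp
    (Algebra.lsmul (A := cA hR) (MvPowerSeries (Fin 3) k) (MvPowerSeries (Fin 3) k) M)
  let Ψ := τ.mapMatrix.comp (Ψ₀.restrictScalars k)
  choose θ hθ using fun m => (Ψ.toLinearMap ∘ₗ mo hR m).exists_extend
  have h : ∀ m a (ha : a ∈ R m), θ m a = Ψ (mo hR m ⟨a, ha⟩) := fun m a ha => congr($(hθ m) ⟨a, ha⟩)
  refine ⟨θ, ⟨?_, fun i j a b ha hb _ => ?_⟩, fun i => ?_⟩
  · rw [h _ _ hR.one, ← map_one Ψ]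
    exact congrArg Ψ (Subtype.ext ((monomial_zero_eq_C_apply 1).trans (map_one C)))
  · rcases lt_or_ge i 0 with hi | hi
    · rw [(Submodule.eq_bot_iff _).1 (hR.neg i hi) _ ha]; simp
    rcases lt_or_ge j 0 with hj | hj
    · rw [(Submodule.eq_bot_iff _).1 (hR.neg j hj) _ hb]; simp
    rw [h _ _ ha, h _ _ hb, h _ _ (hR.mul _ _ _ _ ha hb), ← map_mul]
    exact congrArg Ψ (Subtype.ext (by
      rw [MulMemClass.coe_mul, mo_val, mo_val, mo_val, monomial_mul_monomial, Int.toNat_add hi hj]))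
  · have a1 := Ψ₀.commutes (.X i)
    have a2 := (MvPowerSeries.truncTotalAlgHom (Fin 3) k T).commutes (.X i)
    rw [h _ _ (hx.1 i), ← ph_X]
    refine (congrArg τ.mapMatrix a1).trans ?_
    rw [show τ.mapMatrix (algebraMap _ _ (MvPowerSeries.X i)) = Matrix.scalar _ (τ (.X i)) by
      ext; simp [Matrix.algebraMap_matrix_apply, Matrix.diagonal_apply, apply_ite τ]]
    exact congrArg _ ((congrArg τ (MvPolynomial.coe_X i).symm).trans a2)

end Vale.Agent.P190
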