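import Vale.Agent.P190.Flat


/-! P190, module D: the base chart and the derivations. -/

namespace Vale.Agent.P190

namespace Dr

section gen
variable {k K : Type} [Field k] [Field K] [Algebra k K]

open IntermediateField.algebraAdjoinAdjoin in
/-- Partial derivatives with respect to a separating family. -/
theorem exists_der {ι : Type} [DecidableEq ι] {z : ι → K} (hz : AlgebraicIndependent k z)
    [Algebra.IsSeparable (IntermediateField.adjoin k (Set.range z)) K] (i : ι) :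
    ∃ D : Derivation k K K, ∀ j, D (z j) = if i = j then 1 else 0 := by
  let A := Algebra.adjoin k (Set.range z)
  have h1 : Algebra.FormallyEtale A (IntermediateField.adjoin k (Set.range z)) :=
    .of_isLocalization (nonZeroDivisors _)
  have h2 : Algebra.FormallyEtale (IntermediateField.adjoin k (Set.range z)) K :=
    .of_isSeparable _ K
  have h3 : Algebra.FormallyEtale A K := .comp A (IntermediateField.adjoin k (Set.range z)) K
  have he : ∀ a : A, MvPolynomial.aeval z (hz.aevalEquiv.symm a) = a := fun a => by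
    rw [← hz.algebraMap_aevalEquiv, AlgEquiv.apply_symm_apply]
    rfl
  let δ : Derivation k A K := Derivation.mk' ((MvPolynomial.aeval z).toLinearMap ∘ₗ
    (MvPolynomial.pderiv i).toLinearMap ∘ₗ hz.aevalEquiv.symm.toLinearMap) fun a b => by
      simp [he, Subalgebra.smul_def]
  refine ⟨((δ.liftKaehlerDifferential.liftBaseChange K) ∘ₗ
    (KaehlerDifferential.tensorKaehlerEquivOfFormallyEtale k A K).symm.toLinearMap).compDer
      (KaehlerDifferential.D k K), fun j => ?_⟩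
  have h4 := KaehlerDifferential.tensorKaehlerEquivOfFormallyEtale_symm_D_algebraMap k A K
    (hz.aevalEquiv (MvPolynomial.X j))
  rw [hz.algebraMap_aevalEquiv, MvPolynomial.aeval_X] at h4
  have h5 : δ (hz.aevalEquiv (MvPolynomial.X j)) = if i = j then 1 else 0 := by
    change MvPolynomial.aeval z (MvPolynomial.pderiv i
      (hz.aevalEquiv.symm (hz.aevalEquiv (MvPolynomial.X j)))) = _
    rw [AlgEquiv.symm_apply_apply]
    simp [MvPolynomial.pderiv_X, Pi.single_apply, eq_comm]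
  simp [h4, h5]

variable {p : ℕ} [Fact p.Prime] [CharP K p] {D : Derivation k K K} {z : K}

omit [Fact p.Prime] in
theorem der_pow (D : Derivation k K K) (b : K) : D (b ^ p) = 0 := by
  rw [D.leibniz_pow, ← Nat.cast_smul_eq_nsmul K, CharP.cast_eq_zero, zero_smul]

omit [Fact p.Prime] in
theorem step (hz : D z = 1) {n : ℕ} (hn : n + 1 ≤ p)
    (ih : ∀ c : Fin n → K, (∀ i, D (c i) = 0) → ∑ i, c i * z ^ (i : ℕ) = 0 → c = 0)
    (c : Fin (n + 1) → K) (hc : ∀ i, D (c i) = 0) (h : D (∑ i, c i * z ^ (i : ℕ)) = 0)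
    (i : Fin n) : c i.succ = 0 := by
  have h1 := ih (fun i => (((i : ℕ) + 1 : ℕ) : K) * c i.succ) (fun i => by
    rw [D.leibniz, hc, D.map_natCast, smul_zero, smul_zero, add_zero]) (by
    rw [← h, Fin.sum_univ_succ, map_add, map_sum]
    simp only [D.leibniz, D.leibniz_pow, hc, hz, Fin.val_zero, Fin.val_succ, add_zero,
      zero_smul, zero_add, smul_eq_mul, mul_one, Nat.add_sub_cancel, nsmul_eq_mul, mul_zero]
    exact Finset.sum_congr rfl fun i _ => by ring)
  refine (mul_eq_zero.mp (congrFun h1 i)).resolve_left fun h2 => ?_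
  have := Nat.le_of_dvd (by omega) ((CharP.cast_eq_zero_iff K p _).mp h2)
  omega

omit [Fact p.Prime] in
theorem indep (hz : D z = 1) {n : ℕ} (hn : n ≤ p) (c : Fin n → K) (hc : ∀ i, D (c i) = 0)
    (h : ∑ i, c i * z ^ (i : ℕ) = 0) : c = 0 := by
  induction n with
  | zero => exact Subsingleton.elim _ _
  | succ n ih =>
    have h1 := step hz hn (ih (by omega)) c hc (by rw [h, map_zero])
    rw [Fin.sum_univ_succ] at h
    simp only [h1, zero_mul, Finset.sum_const_zero, add_zero, Fin.val_zero, pow_zero,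
      mul_one] at h
    funext i
    exact Fin.cases h h1 i

omit [Fact p.Prime] in
theorem const (hz : D z = 1) {n : ℕ} (hn : n ≤ p) (c : Fin n → K) (hc : ∀ i, D (c i) = 0)
    (h : D (∑ i, c i * z ^ (i : ℕ)) = 0) (i0 : Fin n) (h0 : (i0 : ℕ) = 0) :
    ∑ i, c i * z ^ (i : ℕ) = c i0 := by
  cases n with
  | zero => exact i0.elim0
  | succ n =>
    have h1 := step hz hn (indep hz (by omega)) c hc h
    rw [Fin.sum_univ_succ, show i0 = 0 from Fin.ext h0]
    simp [h1]

variable {a b : K} {da db : Derivation k K K}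

omit [Fact p.Prime] [CharP K p] in
theorem split (β : Fin p × Fin p → K) : ∑ i : Fin p × Fin p, a ^ (i.1 : ℕ) * b ^ (i.2 : ℕ) * β i ^ p =
    ∑ i : Fin p, (∑ j : Fin p, β (i, j) ^ p * b ^ (j : ℕ)) * a ^ (i : ℕ) := by
  rw [Fintype.sum_prod_type]
  refine Finset.sum_congr rfl fun i _ => ?_
  rw [Finset.sum_mul]
  exact Finset.sum_congr rfl fun j _ => by ring

omit [Fact p.Prime] in
theorem inner (h : da b = 0) (β : Fin p → K) : da (∑ j : Fin p, β j ^ p * b ^ (j : ℕ)) = 0 := by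
  rw [map_sum]
  exact Finset.sum_eq_zero fun j _ => by
    rw [da.leibniz, der_pow da (β j), da.leibniz_pow, h]
    simp

omit [Fact p.Prime] in
theorem indep2 (h1 : da a = 1) (h2 : da b = 0) (h3 : db b = 1) (β : Fin p × Fin p → K)
    (h : ∑ i : Fin p × Fin p, a ^ (i.1 : ℕ) * b ^ (i.2 : ℕ) * β i ^ p = 0) : β = 0 := by
  rw [split] at h
  funext ⟨i, j⟩
  exact eq_zero_of_pow_eq_zero (congrFun (indep h3 le_rfl _ (fun j => der_pow db _)
    (congrFun (indep h1 le_rfl _ (fun i => inner h2 _) h) i)) j)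

theorem const2 (h1 : da a = 1) (h2 : da b = 0) (h3 : db b = 1) (β : Fin p × Fin p → K) {f : K}
    (h : f = ∑ i : Fin p × Fin p, a ^ (i.1 : ℕ) * b ^ (i.2 : ℕ) * β i ^ p) (ha : da f = 0)
    (hb : db f = 0) : ∃ g, f = g ^ p := by
  have hp : 0 < p := (Fact.out : p.Prime).pos
  rw [split] at h
  rw [const h1 le_rfl _ (fun i => inner h2 _) (h ▸ ha) ⟨0, hp⟩ rfl] at h
  exact ⟨_, h.trans (const h3 le_rfl _ (fun j => der_pow db _) (h ▸ hb) ⟨0, hp⟩ rfl)⟩

/-- generation over `p`-th powers -/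
theorem span_pow [IsAlgClosed k] (h101 : (101 : k) ≠ 0) {a b : K} {S : Set K} (ha : a ∈ S)
    (hb : b ∈ S) (hS : ∀ M : Subring K, (∀ c, algebraMap k K c ∈ M) → a ∈ M → b ∈ M →
      (∀ t ∈ M, t⁻¹ ∈ Algebra.adjoin k S → t⁻¹ ∈ M) →
      (∀ t ∈ Algebra.adjoin k S, t⁻¹ ∈ Algebra.adjoin k S → t ^ 101 ∈ M → t ∈ M) →
      ∀ t ∈ S, t ∈ M) :
    ∀ β ∈ Algebra.adjoin k S, ∃ c : Fin p × Fin p → K, (∀ i, c i ∈ Algebra.adjoin k S) ∧
      β = ∑ i : Fin p × Fin p, a ^ (i.1 : ℕ) * b ^ (i.2 : ℕ) * c i ^ p := by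
  have hp : p.Prime := Fact.out
  set B := Algebra.adjoin k S
  let C : Subring K := B.toSubring.map (frobenius K p)
  let M := Algebra.adjoin C {a, b}
  have hC : ∀ t ∈ B, t ^ p ∈ M := fun t ht => M.algebraMap_mem ⟨_, t, ht, rfl⟩
  have hk : ∀ c, algebraMap k K c ∈ M := fun c => by
    obtain ⟨d, rfl⟩ := IsAlgClosed.exists_pow_nat_eq c hp.pos
    rw [map_pow]
    exact hC _ (B.algebraMap_mem d)
  have hinv : ∀ t ∈ M, t⁻¹ ∈ B → t⁻¹ ∈ M := fun t ht hi => by
    rcases eq_or_ne t 0 with rfl | h0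
    · simp
    have h1 := M.mul_mem (M.pow_mem ht (p - 1)) (hC _ hi)
    rwa [← pow_sub_one_mul hp.ne_zero t⁻¹, ← mul_assoc, ← mul_pow, mul_inv_cancel₀ h0, one_pow,
      one_mul] at h1
  have hroot : ∀ t ∈ B, t⁻¹ ∈ B → t ^ 101 ∈ M → t ∈ M := fun t ht hi h1 => by
    rcases eq_or_ne t 0 with rfl | h0
    · simp
    have h2 := hinv _ h1 (by rw [← inv_pow]; exact B.pow_mem hi _)
    have h3 : Nat.Coprime p 101 := (Nat.Prime.coprime_iff_not_dvd hp).mpr fun h3 => h101 (by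
      have h4 := (CharP.cast_eq_zero_iff K p 101).mpr h3
      exact (algebraMap k K).injective (by rw [map_ofNat, map_zero]; exact_mod_cast h4))
    obtain ⟨α, -, hα⟩ := Nat.exists_mul_mod_eq_one_of_coprime h3 (by norm_num)
    have h4 := M.mul_mem (hC _ (B.pow_mem ht α)) (M.pow_mem h2 (p * α / 101))
    have h5 : α * p = 101 * (p * α / 101) + 1 := by rw [mul_comm α p]; omega
    rwa [← pow_mul, h5, pow_succ, pow_mul, inv_pow, mul_right_comm,
      mul_inv_cancel₀ (pow_ne_zero _ (pow_ne_zero _ h0)), one_mul] at h4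
  have hle : ∀ β ∈ B, β ∈ M := fun β hβ => by
    induction hβ using Algebra.adjoin_induction with
    | mem t ht =>
      exact hS M.toSubring hk (Algebra.subset_adjoin (by simp))
        (Algebra.subset_adjoin (by simp)) hinv hroot t ht
    | algebraMap c => exact hk c
    | add _ _ _ _ h1 h2 => exact M.add_mem h1 h2
    | mul _ _ _ _ h1 h2 => exact M.mul_mem h1 h2
  have hsp : Subalgebra.toSubmodule M ≤ Submodule.span C
      (Set.range fun i : Fin p × Fin p => a ^ (i.1 : ℕ) * b ^ (i.2 : ℕ)) := by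
    rw [Algebra.adjoin_eq_span, Submodule.span_le]
    intro t ht
    obtain ⟨n, m, rfl⟩ := (Submonoid.mem_closure_pair a b t).mp ht
    have h1 := Submodule.smul_mem _ (⟨_, _, B.mul_mem (B.pow_mem (Algebra.subset_adjoin ha) (n / p))
      (B.pow_mem (Algebra.subset_adjoin hb) (m / p)), rfl⟩ : C) (Submodule.subset_span (R := C)
      (Set.mem_range_self (f := fun i : Fin p × Fin p => a ^ (i.1 : ℕ) * b ^ (i.2 : ℕ))
        (⟨n % p, Nat.mod_lt _ hp.pos⟩, ⟨m % p, Nat.mod_lt _ hp.pos⟩)))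
    have h2 : a ^ n * b ^ m = (a ^ (n / p) * b ^ (m / p)) ^ p * (a ^ (n % p) * b ^ (m % p)) := by
      conv_lhs => rw [← Nat.div_add_mod' n p, ← Nat.div_add_mod' m p]
      ring
    rw [h2]
    exact h1
  intro β hβ
  obtain ⟨c, hc⟩ := (Submodule.mem_span_range_iff_exists_fun C).mp (hsp (hle β hβ))
  choose d hd1 hd2 using fun i => (c i).2
  refine ⟨d, hd1, ?_⟩
  rw [← hc]
  exact Finset.sum_congr rfl fun i _ => by
    rw [Subring.smul_def, ← hd2, smul_eq_mul, mul_comm, frobenius_def]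

theorem log_der (h101 : (101 : k) ≠ 0) (d : Derivation k K K) {t : K} (ht : t ≠ 0) {s : k}
    (hs : d (t ^ 101) = algebraMap k K s) (w : K) :
    (w ^ 101 • d) t = t * ((s / 101) • (w / t) ^ 101) := by
  have h1 : (101 : K) ≠ 0 := fun h =>
    h101 ((algebraMap k K).injective (by rw [map_ofNat, map_zero, h]))
  rw [d.leibniz_pow, nsmul_eq_mul, smul_eq_mul] at hs
  rw [Derivation.smul_apply, Algebra.smul_def (s / 101), map_div₀, ← hs, map_ofNat, smul_eq_mul]
  push_cast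
  field_simp

theorem root_der (h101 : (101 : k) ≠ 0) (d : Derivation k K K) {t : K} (ht : t ≠ 0)
    (hs : d (t ^ 101) = 0) : d t = 0 := by
  have h1 := log_der h101 d ht (s := 0) (by rw [hs, map_zero]) 1
  simpa using h1

end gen

variable {k K : Type} [Field k] [Field K] [Algebra k K] {v : Fin 10 → K}

theorem mem {m : ℤ} (c : Fin 10 → ℕ) (h : Ray m c) : mon v c ∈ RR k v m :=
  Submodule.subset_span ⟨c, h, rfl⟩

theorem v_ne (h : KD k v) (e : Fin 10) : v e ≠ 0 := by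
  have a : ∀ p : MvPolynomial (Fin 2) k, MvPolynomial.eval ![0, 1] p ≠ 0 ∨
      MvPolynomial.eval ![1, 0] p ≠ 0 → MvPolynomial.aeval ![v 1 ^ 101, v 2 ^ 101] p ≠ 0 :=
    fun p hp e => by simp [h.ai.eq_zero_of_aeval_eq_zero p e] at hp
  have a1 := a (.X 0) (by simp)
  have a2 := a (.X 1) (by simp)
  have a4 := a (.X 0 - 1) (by simp)
  have a5 := a (.X 1 - 1) (by simp)
  have a7 := a (.X 1 - .X 0) (by simp)
  simp only [map_sub, map_one, MvPolynomial.aeval_X, Matrix.cons_val_zero, Matrix.cons_val_one,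
    ← h.r4, ← h.r5, ← h.r7] at a1 a2 a4 a5 a7
  fin_cases e <;> simp only [Fin.reduceFinMk]
  exacts [h.g0 ▸ one_ne_zero, ne_zero_pow (by simp) a1, ne_zero_pow (by simp) a2,
    h.g3 ▸ one_ne_zero, ne_zero_pow (by simp) a4, ne_zero_pow (by simp) a5, h.g6 ▸ one_ne_zero,
    ne_zero_pow (by simp) a7, h.g8 ▸ one_ne_zero, h.g9 ▸ one_ne_zero]

theorem mon_eq (h : KD k v) (c : Fin 10 → ℕ) :
    mon v c = v 1 ^ c 1 * v 2 ^ c 2 * v 4 ^ c 4 * v 5 ^ c 5 * v 7 ^ c 7 := by
  simp only [mon, Fin.prod_univ_succ, Fin.prod_univ_zero, Fin.succ_zero_eq_one, Fin.reduceSucc,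
    h.g0, h.g3, h.g6, h.g8, h.g9, one_pow]
  ring

theorem mem' (h : KD k v) {m : ℤ} (c0 c1 c2 c3 c4 c5 c6 c7 c8 c9 : ℕ)
    (hc : ((c0 + c1 + c2 + c3 : ℕ) : ℤ) = 2 * m ∧ ((c0 + c4 + c5 + c6 : ℕ) : ℤ) = 2 * m ∧
      ((c1 + c4 + c7 + c8 : ℕ) : ℤ) = 2 * m ∧ ((c2 + c5 + c7 + c9 : ℕ) : ℤ) = 2 * m ∧
      ((c3 + c6 + c8 + c9 : ℕ) : ℤ) = 2 * m) {f : K}
    (hf : f = v 1 ^ c1 * v 2 ^ c2 * v 4 ^ c4 * v 5 ^ c5 * v 7 ^ c7) : f ∈ RR k v m := by
  have h1 := mem (k := k) (v := v) ![c0, c1, c2, c3, c4, c5, c6, c7, c8, c9] hc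
  rw [mon_eq h] at h1
  rw [hf]
  exact h1

theorem nu_eq (h : KD k v) : mon v c0 = v 2 ^ 3 * v 4 ^ 3 * v 7 ^ 3 := by
  rw [mon_eq h]
  change v 1 ^ 0 * v 2 ^ 3 * v 4 ^ 3 * v 5 ^ 0 * v 7 ^ 3 = _
  ring

end Dr

open Dr

theorem b0 (hR : GrStmt) : B0Stmt := by
  intro k K _ _ _ v h
  have hG := (hR k K v h).1
  have hv := v_ne h
  have h2 := hv 2
  have h4 := hv 4
  have h7 := hv 7
  have hB : ∀ e, v e ∈ B0 k v := fun e => by
    fin_cases e <;> simp only [Fin.reduceFinMk, h.g0, h.g3, h.g6, h.g8, h.g9, one_mem] <;>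
      exact Algebra.subset_adjoin (by simp)
  have hν : mon v c0 ∈ RR k v 4 := mem c0 (by simp [Ray, c0])
  have up : ∀ (i j : ℕ) (β : K), mon v c0 ^ i * β ∈ RR k v (4 * i) →
      mon v c0 ^ (i + j) * β ∈ RR k v (4 * (i + j : ℕ)) := fun i j β hβ => by
    have h1 := hG.mul _ _ _ _ (hG.pow hν j) hβ
    rwa [← mul_assoc, ← pow_add, add_comm j i, show 4 * (j : ℤ) + 4 * i = 4 * (i + j : ℕ) by
      push_cast; ring] at h1
  have key : ∀ β ∈ B0 k v, ∃ j : ℕ, mon v c0 ^ j * β ∈ RR k v (4 * j) := fun β hβ => by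
    induction hβ using Algebra.adjoin_induction with
    | mem t ht =>
      refine ⟨1, ?_⟩
      rw [pow_one, nu_eq h]
      simp only [Set.mem_insert_iff, Set.mem_singleton_iff] at ht
      rcases ht with rfl | rfl | rfl | rfl | rfl | rfl | rfl | rfl
      · exact mem' h 2 1 3 2 3 0 3 3 1 2 (by norm_num) (by ring)
      · exact mem' h 2 0 3 3 3 1 2 3 2 1 (by norm_num) (by ring)
      · exact mem' h 2 0 4 2 3 0 3 3 2 1 (by norm_num) (by ring)
      · exact mem' h 2 0 3 3 4 0 2 3 1 2 (by norm_num) (by ring)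
      · exact mem' h 2 0 3 3 3 0 3 4 1 1 (by norm_num) (by ring)
      · exact mem' h 4 0 2 2 3 0 1 3 2 3 (by norm_num) (by field_simp)
      · exact mem' h 4 0 3 1 2 0 2 3 3 2 (by norm_num) (by field_simp)
      · exact mem' h 4 0 3 1 3 0 1 2 3 3 (by norm_num) (by field_simp)
    | algebraMap c =>
      refine ⟨0, ?_⟩
      have h1 := Submodule.smul_mem _ c hG.one
      rw [Algebra.smul_def, mul_one] at h1
      simpa using h1
    | add a b _ _ ha hb =>
      obtain ⟨i, hi⟩ := ha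
      obtain ⟨j, hj⟩ := hb
      have h1 := up j i b hj
      rw [add_comm j i] at h1
      exact ⟨i + j, by rw [mul_add]; exact add_mem (up i j a hi) h1⟩
    | mul a b _ _ ha hb =>
      obtain ⟨i, hi⟩ := ha
      obtain ⟨j, hj⟩ := hb
      have h1 := hG.mul _ _ _ _ hi hj
      exact ⟨i + j, by
        rwa [pow_add, mul_mul_mul_comm, Nat.cast_add, mul_add]⟩
  refine ⟨hv, hν, fun m a ha => ?_, fun β hβ m => ?_, ?_⟩
  · refine (Submodule.span_le (p := Subalgebra.toSubmodule (B0 k v))).mpr ?_ ha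
    rintro _ ⟨c, -, rfl⟩
    exact (B0 k v).prod_mem fun e _ => pow_mem (hB e) _
  · obtain ⟨i, hi⟩ := key β hβ
    have h1 : mon v c0 ^ m.natAbs ∈ RR k v (4 * m.natAbs + m) :=
      mem' h (3 * m.natAbs + 3 * m).toNat 0 (3 * m.natAbs) (2 * m.natAbs - m).toNat (3 * m.natAbs) 0
        (2 * m.natAbs - m).toNat (3 * m.natAbs) (2 * m.natAbs + 2 * m).toNat
        (2 * m.natAbs + 2 * m).toNat (by omega) (by rw [nu_eq h]; ring)
    have h3 := hG.mul _ _ _ _ h1 hi
    refine ⟨m.natAbs + i, ?_⟩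
    rwa [← mul_assoc, ← pow_add, show 4 * (m.natAbs : ℤ) + m + 4 * i =
      4 * (m.natAbs + i : ℕ) + m by rw [Nat.cast_add]; ring] at h3
  · rw [nu_eq h, mul_inv, mul_inv, ← inv_pow, ← inv_pow, ← inv_pow]
    exact mul_mem (mul_mem (pow_mem (Algebra.subset_adjoin (by simp)) _)
      (pow_mem (Algebra.subset_adjoin (by simp)) _)) (pow_mem (Algebra.subset_adjoin (by simp)) _)

theorem der (hR : GrStmt) (hG : GalStmt) (hB : B0Stmt) : DerStmt := by
  intro k K _ _ _ v p h hp hch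
  have := Fact.mk hp
  have : CharP K p := charP_of_injective_algebraMap (algebraMap k K).injective p
  have := h.ac
  have hg := (hR k K v h).1
  obtain ⟨hv, hν, b1, b2, b3⟩ := hB k K v h
  have hsep : Algebra.IsSeparable
      (IntermediateField.adjoin k (Set.range ![v 1 ^ 101, v 2 ^ 101])) K := by
    have := (hG k K v h).1
    rw [show Set.range ![v 1 ^ 101, v 2 ^ 101] = {v 1 ^ 101, v 2 ^ 101} by
      simp [Set.pair_comm]]
    exact inferInstanceAs (Algebra.IsSeparable (K0 k v) K)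
  choose d hd using exists_der h.ai
  have d00 : d 0 (v 1 ^ 101) = 1 := hd 0 0
  have d01 : d 0 (v 2 ^ 101) = 0 := hd 0 1
  have d10 : d 1 (v 1 ^ 101) = 0 := hd 1 0
  have d11 : d 1 (v 2 ^ 101) = 1 := hd 1 1
  have a1 : ((101 * v 1 ^ 100 : K) • d 0) (v 1) = 1 := by
    rw [← d00, Derivation.leibniz_pow, Derivation.smul_apply]
    simp [mul_assoc]
  have a2 : ((101 * v 1 ^ 100 : K) • d 0) (v 5) = 0 := by
    rw [Derivation.smul_apply, root_der h.ch _ (hv 5) (by rw [h.r5, map_sub, d01]; simp), smul_zero]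
  have a3 : ((101 * v 5 ^ 100 : K) • d 1) (v 5) = 1 := by
    have h1 : d 1 (v 5 ^ 101) = 1 := by rw [h.r5, map_sub, d11]; simp
    rw [← h1, Derivation.leibniz_pow, Derivation.smul_apply]
    simp [mul_assoc]
  have hs : ∀ t ∈ ({v 1, v 5, v 2, v 4, v 7, (v 2)⁻¹, (v 4)⁻¹, (v 7)⁻¹} : Set K), t ∈ B0 k v :=
    fun t ht => Algebra.subset_adjoin ht
  have hc : Flat.Ch (RR k v) p (mon v c0) 1 (B0 k v)
      (fun i => v 1 ^ (i.1 : ℕ) * v 5 ^ (i.2 : ℕ)) :=
    { gr := hg
      mem := hν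
      ne := Finset.prod_ne_zero_iff.mpr fun e _ => pow_ne_zero _ (hv e)
      tne := one_ne_zero
      div := fun m a ha => by simpa using b1 m a ha
      clr := fun β hβ m => by simpa using b2 β hβ m
      inv := by simpa using b3
      eps := fun i => mul_mem (pow_mem (hs _ (by simp)) _) (pow_mem (hs _ (by simp)) _)
      span := span_pow h.ch (by simp) (by simp) fun M _ ha hb hi hr t ht => by
        have m2' : v 2 ^ 101 ∈ M := by
          rw [eq_add_of_sub_eq h.r5.symm]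
          exact add_mem (pow_mem hb _) (one_mem _)
        have m2 := hr _ (hs _ (by simp)) (hs _ (by simp)) m2'
        have m4 : v 4 ∈ M := hr _ (hs _ (by simp)) (hs _ (by simp))
          (h.r4 ▸ sub_mem (pow_mem ha _) (one_mem _))
        have m7 : v 7 ∈ M := hr _ (hs _ (by simp)) (hs _ (by simp))
          (h.r7 ▸ sub_mem m2' (pow_mem ha _))
        simp only [Set.mem_insert_iff, Set.mem_singleton_iff] at ht
        rcases ht with rfl | rfl | rfl | rfl | rfl | rfl | rfl | rfl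
        exacts [ha, hb, m2, m4, m7, hi _ m2 (hs _ (by simp)), hi _ m4 (hs _ (by simp)),
          hi _ m7 (hs _ (by simp))]
      ind := indep2 a1 a2 a3 }
  refine ⟨⟨hν, hc.ne, 1, B0 k v, _, hc.tne, hc.div, hc.clr, hc.inv, hc.eps, hc.span, hc.ind⟩,
    fun i => (v 1 * v 2 * v 4 * v 5 * v 7) ^ 101 • d i, fun i m a ha => ?_, fun f hf => ?_⟩
  · set D := (v 1 * v 2 * v 4 * v 5 * v 7) ^ 101 • d i with hD
    have h1 := hv 1
    have h2 := hv 2
    have h4 := hv 4
    have h5 := hv 5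
    have h7 := hv 7
    obtain ⟨s, s', hs1, hs2⟩ : ∃ s s' : k, d i (v 1 ^ 101) = algebraMap k K s ∧
        d i (v 2 ^ 101) = algebraMap k K s' := by
      fin_cases i
      exacts [⟨1, 0, by simpa using d00, by simpa using d01⟩,
        ⟨0, 1, by simpa using d10, by simpa using d11⟩]
    let T : Submonoid K :=
      { carrier := {f | ∃ g ∈ RR k v 202, D f = f * g}
        one_mem' := ⟨0, zero_mem _, by simp⟩
        mul_mem' := by
          rintro f f' ⟨g, hg1, hg2⟩ ⟨g', hg3, hg4⟩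
          exact ⟨g + g', add_mem hg1 hg3, by
            rw [D.leibniz, hg2, hg4, smul_eq_mul, smul_eq_mul]; ring⟩ }
    have hT : ∀ (t : K) (s : k), t ≠ 0 → d i (t ^ 101) = algebraMap k K s →
        v 1 * v 2 * v 4 * v 5 * v 7 / t ∈ RR k v 2 → t ∈ T := fun t s ht h3 h6 =>
      ⟨_, Submodule.smul_mem _ _ (hg.pow h6 101), log_der h.ch (d i) ht h3 _⟩
    have t1 := hT _ _ h1 hs1 (mem' h 2 0 1 1 1 1 0 1 2 1 (by norm_num) (by field_simp))
    have t2 := hT _ _ h2 hs2 (mem' h 2 1 0 1 1 1 0 1 1 2 (by norm_num) (by field_simp))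
    have t4 := hT _ s h4 (by rw [h.r4, map_sub, hs1]; simp)
      (mem' h 2 1 1 0 0 1 1 1 2 1 (by norm_num) (by field_simp))
    have t5 := hT _ s' h5 (by rw [h.r5, map_sub, hs2]; simp)
      (mem' h 2 1 1 0 1 0 1 1 1 2 (by norm_num) (by field_simp))
    have t7 := hT _ (s' - s) h7 (by rw [h.r7, map_sub, hs1, hs2, map_sub])
      (mem' h 2 1 1 0 1 1 0 0 2 2 (by norm_num) (by field_simp))
    refine (Submodule.span_le (p := (RR k v (m + (202 : ℕ))).comap D.toLinearMap)).mpr ?_ ha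
    rintro _ ⟨c, hc1, rfl⟩
    obtain ⟨g, hg1, hg2⟩ : mon v c ∈ T := by
      rw [mon_eq h]
      exact mul_mem (mul_mem (mul_mem (mul_mem (pow_mem t1 _) (pow_mem t2 _)) (pow_mem t4 _))
        (pow_mem t5 _)) (pow_mem t7 _)
    have h3 := hg.mul _ _ _ _ (mem c hc1) hg1
    rw [← hg2] at h3
    exact h3
  · have hw : (v 1 * v 2 * v 4 * v 5 * v 7) ^ 101 ≠ 0 :=
      pow_ne_zero _ (mul_ne_zero (mul_ne_zero (mul_ne_zero (mul_ne_zero (hv 1) (hv 2)) (hv 4))
        (hv 5)) (hv 7))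
    have h0 : ∀ i, d i f = 0 := fun i => (mul_eq_zero.mp (hf i)).resolve_left hw
    obtain ⟨β, hβ⟩ := hc.spanK f
    exact const2 a1 a2 a3 β hβ (by rw [Derivation.smul_apply, h0, smul_zero])
      (by rw [Derivation.smul_apply, h0, smul_zero])

end Vale.Agent.P190
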