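import Vale.Agent.P190.Base

/-! P190, module Sa: flatness of Frobenius on the charts. -/

namespace Vale.Agent.P190

open Module

namespace Flat

variable {k K V : Type} [Field k] [Field K] [Algebra k K] [AddCommGroup V] [Module k V]
  [Module K V] [IsScalarTower k K V] {R : Fam k K} {p : ℕ}

/-- A `p`-semilinear injective-on-charts map. -/
structure Fb (K : Type) [Field K] [Module K V] (p : ℕ) (Φ : V → V) : Prop where
  add : ∀ u w, Φ (u + w) = Φ u + Φ w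
  smul : ∀ (a : K) u, Φ (a • u) = a ^ p • Φ u
  ind : ∀ ε : Fin p × Fin p → K, (∀ b : Fin p × Fin p → K, ∑ i, ε i * b i ^ p = 0 → b = 0) →
    ∀ u : Fin p × Fin p → V, ∑ i, ε i • Φ (u i) = 0 → u = 0

omit [Module k V] [IsScalarTower k K V] in
theorem Fb.sum {Φ : V → V} (h : Fb K p Φ) {ι : Type} (s : Finset ι) (u : ι → V) :
    Φ (∑ i ∈ s, u i) = ∑ i ∈ s, Φ (u i) :=
  map_sum (AddMonoidHom.mk' Φ h.add) u s

omit [Module k V] [IsScalarTower k K V] in
theorem Fb.sub {Φ : V → V} (h : Fb K p Φ) (u w : V) : Φ (u - w) = Φ u - Φ w :=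
  map_sub (AddMonoidHom.mk' Φ h.add) u w

omit [Module k V] [IsScalarTower k K V] in
theorem Fb.zero {Φ : V → V} (h : Fb K p Φ) : Φ 0 = 0 :=
  map_zero (AddMonoidHom.mk' Φ h.add)

omit [Module k V] [IsScalarTower k K V] in
theorem Fb.inj {Φ : V → V} (h : Fb K p Φ) {ε : Fin p × Fin p → K}
    (he : ∀ b : Fin p × Fin p → K, ∑ i, ε i * b i ^ p = 0 → b = 0)
    {u w : Fin p × Fin p → V} (huw : ∑ i, ε i • Φ (u i) = ∑ i, ε i • Φ (w i)) (i) : u i = w i := by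
  have := h.ind ε he (u - w) (by
    simp only [Pi.sub_apply, h.sub, smul_sub, Finset.sum_sub_distrib, huw, sub_self])
  exact sub_eq_zero.mp (congrFun this i)

theorem fb_one [Fact p.Prime] [CharP K p] : Fb K p (fun w : K => w ^ p) :=
  ⟨fun u w => add_pow_char u w p, fun a u => by simp only [smul_eq_mul, mul_pow],
    fun ε he u hu => he u (by simpa only [smul_eq_mul] using hu)⟩

theorem fb_vec [Fact p.Prime] [CharP K p] (r : ℕ) :
    Fb K p (fun (w : Fin r → K) l => w l ^ p) :=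
  ⟨fun u w => funext fun l => add_pow_char (u l) (w l) p,
    fun a u => funext fun l => by simp only [Pi.smul_apply, smul_eq_mul, mul_pow],
    fun ε he u hu => by
      funext i l
      have h1 := congrFun hu l
      simp only [Finset.sum_apply, Pi.smul_apply, smul_eq_mul, Pi.zero_apply] at h1
      exact congrFun (he (fun i => u i l) h1) i⟩

omit [IsScalarTower k K V] in
theorem fr_mem {Φ : V → V} {G : Fam k V} {m j : ℤ} {a : K} {w : V} (ha : a ∈ R (m - p * j))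
    (hw : w ∈ G j) : a • Φ w ∈ fr R p Φ G m :=
  Submodule.subset_span ⟨j, a, w, ha, hw, rfl⟩

omit [IsScalarTower k K V] in
theorem fr_le {Φ : V → V} {G : Fam k V} {m : ℤ} {U : Submodule k V}
    (h : ∀ j a w, a ∈ R (m - p * j) → w ∈ G j → a • Φ w ∈ U) : fr R p Φ G m ≤ U := by
  refine Submodule.span_le.mpr ?_
  rintro _ ⟨j, a, w, ha, hw, rfl⟩
  exact h j a w ha hw

theorem fr_rst (hR : Gr R) (Φ : V → V) (G : Fam k V) : RSt R (fr R p Φ G) := by
  intro j m a v ha hv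
  refine (fr_le (U := (fr R p Φ G (j + m)).comap
    ((LinearMap.lsmul K V a).restrictScalars k)) ?_) hv
  intro i b w hb hw
  have h1 := hR.mul _ _ _ _ ha hb
  rw [show j + (m - p * i) = j + m - p * i by ring] at h1
  have h2 := fr_mem (Φ := Φ) h1 hw
  rw [mul_smul] at h2
  exact h2

theorem fr_fg {x : Fin 3 → K} {j0 : ℕ} (hR : Gr R) (hx : Hsop R x j0) {Φ : V → V}
    (hΦ : Fb K p Φ) {G : Fam k V} (hG : FG x G) : FG x (fr R p Φ G) := by
  obtain ⟨t, v, g, -, hv⟩ := hG.gens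
  refine (fg_gen (hx.fg hR) (fun l => Φ (v l)) (fun l => p * g l)).sub
    ((fr_rst hR Φ G).st hx.1) fun m => fr_le ?_
  intro j a w ha hw
  obtain ⟨c, hc, rfl⟩ := hv j w hw
  refine mem_gen.mpr ⟨fun l => a * c l ^ p, fun l => ?_, ?_⟩
  · have h1 := hR.mul _ _ _ _ ha (hR.pow (hx.ax_le hR _ (hc l)) p)
    rwa [show m - p * j + (j - g l) * p = m - p * g l by ring] at h1
  · rw [hΦ.sum, Finset.smul_sum]
    exact Finset.sum_congr rfl fun l _ => by rw [hΦ.smul, mul_smul]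

theorem frI_le (hR : Gr R) {P : Fam k K} (hP : ∀ m, P m ≤ R m) (m : ℤ) : frI R p P m ≤ R m := by
  refine fr_le fun j a w ha hw => ?_
  have h1 := hR.mul _ _ _ _ ha (hR.pow (hP _ hw) p)
  rwa [show m - p * j + j * p = m by ring] at h1

/-- Chart data. -/
structure Ch (R : Fam k K) (p : ℕ) (ν τ : K) (B : Subalgebra k K) (ε : Fin p × Fin p → K) :
    Prop where
  gr : Gr R
  mem : ν ∈ R 4
  ne : ν ≠ 0
  tne : τ ≠ 0
  div : ∀ m : ℤ, ∀ a ∈ R m, a / τ ^ m ∈ B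
  clr : ∀ β ∈ B, ∀ m : ℤ, ∃ j : ℕ, ν ^ j * τ ^ m * β ∈ R (4 * j + m)
  inv : τ ^ 4 / ν ∈ B
  eps : ∀ i, ε i ∈ B
  span : ∀ β ∈ B, ∃ b : Fin p × Fin p → K, (∀ i, b i ∈ B) ∧ β = ∑ i, ε i * b i ^ p
  ind : ∀ b : Fin p × Fin p → K, ∑ i, ε i * b i ^ p = 0 → b = 0

theorem exists_ch (hR : Gr R) {ν : K} (h : Chart R p ν) : ∃ τ B ε, Ch R p ν τ B ε := by
  obtain ⟨h1, h2, τ, B, ε, h3, h4, h5, h6, h7, h8, h9⟩ := h
  exact ⟨τ, B, ε, hR, h1, h2, h3, h4, h5, h6, h7, h8, h9⟩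

/-- Localisation at `ν`, degree zero part. -/
def Loc (ν : K) (N : Fam k V) (u : V) : Prop := ∃ j : ℕ, ν ^ j • u ∈ N (4 * j)

section chart
variable {ν τ : K} {B : Subalgebra k K} {ε : Fin p × Fin p → K} (h : Ch R p ν τ B ε)
  {N : Fam k V}
include h

omit [IsScalarTower k K V] in
theorem Ch.up (hN : RSt R N) {u : V} {j j' : ℕ} {m : ℤ} (hu : ν ^ j • u ∈ N (4 * j + m))
    (hj : j ≤ j') : ν ^ j' • u ∈ N (4 * j' + m) := by
  obtain ⟨d, rfl⟩ := Nat.exists_eq_add_of_le hj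
  have h1 := hN _ _ _ _ (h.gr.pow h.mem d) hu
  rw [smul_smul, ← pow_add, add_comm d j] at h1
  rwa [show (4 * ((j + d : ℕ) : ℤ) + m) = 4 * d + (4 * j + m) by push_cast; ring]

omit [IsScalarTower k K V] in
theorem Ch.smul (hN : RSt R N) {β : K} (hβ : β ∈ B) {u : V} (hu : Loc ν N u) :
    Loc ν N (β • u) := by
  obtain ⟨j, hj⟩ := hu
  obtain ⟨i, hi⟩ := h.clr β hβ 0
  refine ⟨i + j, ?_⟩
  have h1 := hN _ _ _ _ hi hj
  rw [smul_smul] at h1 ⊢
  rw [show (4 * ((i + j : ℕ) : ℤ)) = 4 * i + 0 + 4 * j by push_cast; ring,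
    show ν ^ (i + j) * β = ν ^ i * τ ^ (0 : ℤ) * β * ν ^ j by rw [zpow_zero]; ring]
  exact h1

omit [IsScalarTower k K V] in
theorem Ch.add (hN : RSt R N) {u w : V} (hu : Loc ν N u) (hw : Loc ν N w) : Loc ν N (u + w) := by
  obtain ⟨i, hi⟩ := hu
  obtain ⟨j, hj⟩ := hw
  rw [← add_zero (4 * (_ : ℤ))] at hi hj
  have h1 := (N _).add_mem (h.up hN hi (le_max_left i j)) (h.up hN hj (le_max_right i j))
  rw [add_zero, ← smul_add] at h1
  exact ⟨_, h1⟩

omit [IsScalarTower k K V] in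
theorem Ch.sum (hN : RSt R N) {ι : Type} (s : Finset ι) {u : ι → V}
    (hu : ∀ i ∈ s, Loc ν N (u i)) : Loc ν N (∑ i ∈ s, u i) :=
  Finset.sum_induction u (Loc ν N) (fun _ _ => h.add hN) ⟨0, by simp⟩ hu

omit [IsScalarTower k K V] in
theorem Ch.into (hN : RSt R N) {m : ℤ} {w : V} (hw : w ∈ N m) : Loc ν N (τ ^ (-m) • w) := by
  obtain ⟨i, hi⟩ := h.clr 1 B.one_mem (-m)
  refine ⟨i, ?_⟩
  have h1 := hN _ _ _ _ hi hw
  rw [mul_one, show (4 * (i : ℤ) + -m + m) = 4 * i by ring, mul_smul] at h1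
  exact h1

omit [IsScalarTower k K V] in
theorem Ch.out (hN : RSt R N) {u : V} (hu : Loc ν N u) (m : ℤ) :
    ∃ j : ℕ, ν ^ j • τ ^ m • u ∈ N (4 * j + m) := by
  obtain ⟨j, hj⟩ := hu
  obtain ⟨i, hi⟩ := h.clr 1 B.one_mem m
  refine ⟨i + j, ?_⟩
  have h1 := hN _ _ _ _ hi hj
  rw [smul_smul] at h1 ⊢
  rw [show (4 * ((i + j : ℕ) : ℤ) + m) = 4 * i + m + 4 * j by push_cast; ring,
    show ν ^ (i + j) * τ ^ m = ν ^ i * τ ^ m * 1 * ν ^ j by ring]
  exact h1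

omit [IsScalarTower k K V] in
theorem Ch.out' (hN : RSt R N) {m : ℤ} {w : V} (hw : Loc ν N (τ ^ (-m) • w)) :
    ∃ j : ℕ, ν ^ j • w ∈ N (4 * j + m) := by
  obtain ⟨j, hj⟩ := h.out hN hw m
  rw [smul_smul (τ ^ m), ← zpow_add₀ h.tne, add_neg_cancel, zpow_zero, one_smul] at hj
  exact ⟨j, hj⟩

/-- the unit `τ ^ (4 j + m) / (ν ^ j τ ^ m)` -/
theorem Ch.unit (j : ℕ) (m : ℤ) :
    (τ ^ 4 / ν) ^ j * τ ^ (-(4 * (j : ℤ) + m)) * (ν ^ j * τ ^ m) = 1 := by
  have h1 := h.ne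
  have h2 := h.tne
  have h3 : τ ^ (-(4 * (j : ℤ) + m)) = ((τ ^ 4) ^ j * τ ^ m)⁻¹ := by
    rw [zpow_neg, zpow_add₀ h2, ← pow_mul, ← zpow_natCast τ (4 * j)]
    push_cast
    rfl
  have h4 : τ ^ m ≠ 0 := zpow_ne_zero m h2
  rw [h3, div_pow]
  field_simp

omit [IsScalarTower k K V] in
theorem Ch.back (hN : RSt R N) {j : ℕ} {m : ℤ} {u : V}
    (hu : (ν ^ j * τ ^ m) • u ∈ N (4 * j + m)) : Loc ν N u := by
  have h1 := h.smul hN (B.pow_mem h.inv j) (h.into hN hu)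
  rwa [smul_smul, smul_smul, h.unit, one_smul] at h1

theorem Ch.locR {β : K} : Loc ν R β ↔ β ∈ B := by
  constructor
  · rintro ⟨j, hj⟩
    have h1 := B.mul_mem (B.pow_mem h.inv j) (h.div _ _ hj)
    have h2 := h.unit j 0
    rw [add_zero, zpow_zero, mul_one, zpow_neg] at h2
    rwa [smul_eq_mul, div_eq_mul_inv (ν ^ j * β),
      show (τ ^ 4 / ν) ^ j * (ν ^ j * β * (τ ^ (4 * (j : ℤ)))⁻¹) =
      ((τ ^ 4 / ν) ^ j * (τ ^ (4 * (j : ℤ)))⁻¹ * ν ^ j) * β by ring, h2, one_mul] at h1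
  · intro hβ
    obtain ⟨j, hj⟩ := h.clr β hβ 0
    rw [zpow_zero, mul_one, add_zero] at hj
    exact ⟨j, hj⟩

theorem Ch.fr_of {Φ : V → V} (hΦ : Fb K p Φ) {u : Fin p × Fin p → V}
    (hu : ∀ i, Loc ν N (u i)) : Loc ν (fr R p Φ N) (∑ i, ε i • Φ (u i)) := by
  refine h.sum (fr_rst h.gr Φ N) _ fun i _ => h.smul (fr_rst h.gr Φ N) (h.eps i) ?_
  obtain ⟨j, hj⟩ := hu i
  refine ⟨j * p, ?_⟩
  have h1 : (1 : K) ∈ R (4 * ((j * p : ℕ) : ℤ) - p * (4 * j)) := by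
    rw [show (4 * ((j * p : ℕ) : ℤ) - p * (4 * j)) = 0 by push_cast; ring]
    exact h.gr.one
  have h2 := fr_mem (Φ := Φ) h1 hj
  rwa [one_smul, hΦ.smul, ← pow_mul] at h2

theorem Ch.of_fr [IsAlgClosed k] (hp : 0 < p) (hN : RSt R N) {Φ : V → V} (hΦ : Fb K p Φ) {w : V}
    (hw : Loc ν (fr R p Φ N) w) :
    ∃ u : Fin p × Fin p → V, (∀ i, Loc ν N (u i)) ∧ w = ∑ i, ε i • Φ (u i) := by
  obtain ⟨j, hj⟩ := hw
  have key : ∀ y ∈ fr R p Φ N (4 * j), ∃ u : Fin p × Fin p → V, (∀ i, Loc ν N (u i)) ∧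
      (ν ^ j)⁻¹ • y = ∑ i, ε i • Φ (u i) := by
    intro y hy
    induction hy using Submodule.span_induction with
    | mem y hy =>
      obtain ⟨i, a, w, ha, hw, rfl⟩ := hy
      obtain ⟨b, hb, hab⟩ := h.span _ (B.mul_mem (B.pow_mem h.inv j) (h.div _ _ ha))
      refine ⟨fun l => b l • τ ^ (-i) • w, fun l => h.smul hN (hb l) (h.into hN hw), ?_⟩
      have h2 := h.unit j 0
      have h3 : (ν ^ j)⁻¹ * a = (τ ^ 4 / ν) ^ j * (a / τ ^ (4 * (j : ℤ) - p * i)) *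
          (τ ^ (-i)) ^ p := by
        have h4 := h.tne
        have h5 := h.ne
        rw [add_zero, zpow_zero, mul_one] at h2
        rw [← zpow_natCast (τ ^ (-i)), ← zpow_mul, div_eq_mul_inv a, ← zpow_neg,
          show -(4 * (j : ℤ) - p * i) = -(4 * j) + -(-i * p) by ring, zpow_add₀ h4,
          zpow_neg τ (-i * p), ← eq_inv_of_mul_eq_one_left h2]
        have h6 : τ ^ (-i * p) ≠ 0 := zpow_ne_zero _ h4
        field_simp
      rw [smul_smul, h3, hab, Finset.sum_mul, Finset.sum_smul]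
      exact Finset.sum_congr rfl fun l _ => by
        rw [hΦ.smul, hΦ.smul, smul_smul, smul_smul, mul_assoc]
    | zero => exact ⟨0, fun _ => ⟨0, by simp⟩, by simp [hΦ.zero]⟩
    | add y z _ _ hy hz =>
      obtain ⟨u, hu, hy⟩ := hy
      obtain ⟨u', hu', hz⟩ := hz
      exact ⟨u + u', fun i => h.add hN (hu i) (hu' i), by
        simp only [smul_add, hy, hz, Pi.add_apply, hΦ.add, Finset.sum_add_distrib]⟩
    | smul c y _ hy =>
      obtain ⟨u, hu, hy⟩ := hy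
      obtain ⟨d, rfl⟩ := IsAlgClosed.exists_pow_nat_eq c hp
      refine ⟨fun i => algebraMap k K d • u i, fun i => h.smul hN (B.algebraMap_mem d) (hu i), ?_⟩
      rw [smul_comm, hy, Finset.smul_sum]
      exact Finset.sum_congr rfl fun l _ => by
        rw [hΦ.smul, ← map_pow, algebraMap_smul, smul_comm]
  obtain ⟨u, hu, hy⟩ := key _ hj
  rw [smul_smul, inv_mul_cancel₀ (pow_ne_zero j h.ne), one_smul] at hy
  exact ⟨u, hu, hy⟩

theorem Ch.spanK (f : K) : ∃ b : Fin p × Fin p → K, f = ∑ i, ε i * b i ^ p := by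
  obtain ⟨i, a, b, ha, hb, hb0, hf⟩ := h.gr.frac f 0
  rw [add_zero] at ha
  rcases Nat.eq_zero_or_pos p with rfl | hp
  · have := h.span 1 B.one_mem
    simp at this
  obtain ⟨n, rfl⟩ : ∃ n, p = n + 1 := ⟨p - 1, by omega⟩
  obtain ⟨c, -, hc⟩ := h.span _ (B.mul_mem (h.div _ _ ha) (B.pow_mem (h.div _ _ hb) n))
  have h1 : τ ^ i ≠ 0 := zpow_ne_zero _ h.tne
  refine ⟨fun l => c l / (b / τ ^ i), ?_⟩
  have h2 : b / τ ^ i ≠ 0 := div_ne_zero hb0 h1
  simp only [div_pow (c _), ← mul_div_assoc, ← Finset.sum_div, ← hc, ← hf]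
  rw [mul_div_assoc f, eq_div_iff (pow_ne_zero _ h2)]
  ring

theorem Ch.col (hN : RSt R N) {β : K} (hβ : β ∈ B) {v : V} {b : ℤ}
    (hv : Loc ν N (β • τ ^ (-b) • v)) : Loc ν (col R N v b) β := by
  obtain ⟨i, hi⟩ := h.locR.mpr hβ
  rw [smul_comm] at hv
  obtain ⟨j, hj⟩ := h.out' hN hv
  rw [← add_zero (4 * (i : ℤ))] at hi
  have h1 := h.up h.gr.rst hi (le_max_left i j)
  have h2 := h.up hN hj (le_max_right i j)
  rw [add_zero] at h1
  rw [smul_smul] at h2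
  exact ⟨max i j, mem_col.mpr ⟨h1, h2⟩⟩

end chart

section main
variable {x : Fin 3 → K} {j0 : ℕ}

theorem colon [IsAlgClosed k] [Fact p.Prime] [CharP K p] (hR : Gr R) (hx : Hsop R x j0)
    (hc : Cover R p) {Φ : V → V} (hΦ : Fb K p Φ) {N : Fam k V} (hN : RSt R N) (v : V) (b : ℤ) :
    ∃ m0, ∀ m ≥ m0, col R (fr R p Φ N) (Φ v) (p * b) m = frI R p (col R N v b) m := by
  obtain ⟨S, hS, hc⟩ := hc
  have hp : 0 < p := (Fact.out : p.Prime).pos
  have h1 := col_rst hR (fr_rst (p := p) hR Φ N) (Φ v) (p * b)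
  have h2 := col_rst hR hN v b
  refine (ev_eq hR hx S 4 (fun ν hν => (hS ν hν).1) hc
    ((hx.fg hR).sub (h1.st hx.1) fun m => inf_le_left) h1
    (fr_rst (p := p) hR (fun w : K => w ^ p) (col R N v b)) (fun m => ?_) ?_).imp
    fun m0 hm m hm' => (hm m hm').symm
  · refine fr_le fun j a w ha hw => ?_
    obtain ⟨hw1, hw2⟩ := mem_col.mp hw
    refine mem_col.mpr ⟨frI_le hR (fun _ => le_rfl) m (fr_mem ha hw1), ?_⟩
    have h3 := fr_mem (Φ := Φ) (m := m + p * b) (a := a)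
      (by rwa [show m + p * b - p * (j + b) = m - p * j by ring]) hw2
    rwa [hΦ.smul, smul_smul] at h3
  · intro ν hν m a ha
    obtain ⟨τ, B, ε, h⟩ := exists_ch hR (hS ν hν)
    obtain ⟨ha1, ha2⟩ := mem_col.mp ha
    obtain ⟨β, hβ, hβe⟩ := h.span _ (h.div _ _ ha1)
    obtain ⟨u, hu, hue⟩ := h.of_fr hp hN hΦ (h.into (fr_rst hR Φ N) ha2)
    have h3 : τ ^ (-(m + p * b)) • a • Φ v = ∑ i, ε i • Φ (β i • τ ^ (-b) • v) := by
      have h4 : τ ^ (-(m + p * b)) * a = a / τ ^ m * (τ ^ (-b)) ^ p := by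
        rw [← zpow_natCast (τ ^ (-b)), ← zpow_mul, div_eq_mul_inv a, ← zpow_neg,
          show -(m + p * b) = -m + -b * p by ring, zpow_add₀ h.tne]
        ring
      rw [smul_smul, h4, hβe, Finset.sum_mul, Finset.sum_smul]
      exact Finset.sum_congr rfl fun l _ => by
        rw [hΦ.smul, hΦ.smul, smul_smul, smul_smul, mul_assoc]
    have h5 := h.fr_of (N := col R N v b) fb_one (u := β) fun i => h.col hN (hβ i) (by
      rw [hΦ.inj h.ind (h3.symm.trans hue) i]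
      exact hu i)
    simp only [smul_eq_mul, ← hβe] at h5
    refine h.out' (fr_rst hR _ _) ?_
    rwa [smul_eq_mul, zpow_neg, mul_comm, ← div_eq_mul_inv]

theorem capf [IsAlgClosed k] [Fact p.Prime] (hR : Gr R) (hx : Hsop R x j0)
    (hc : Cover R p) {Φ : V → V} (hΦ : Fb K p Φ) {G : Fam k V} (hG : FG x G) (hs : RSt R G)
    (Y : Submodule K V) :
    ∃ m0, ∀ m ≥ m0, cap (fr R p Φ G) (Submodule.span K (Φ '' Y)) m = fr R p Φ (cap G Y) m := by
  obtain ⟨S, hS, hc⟩ := hc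
  have hp : 0 < p := (Fact.out : p.Prime).pos
  have h1 := cap_rst (fr_rst (p := p) hR Φ G) (Submodule.span K (Φ '' Y))
  refine (ev_eq hR hx S 4 (fun ν hν => (hS ν hν).1) hc
    ((fr_fg hR hx hΦ hG).sub (h1.st hx.1) fun m => inf_le_left) h1
    (fr_rst (p := p) hR Φ (cap G Y)) (fun m => ?_) ?_).imp fun m0 hm m hm' => (hm m hm').symm
  · exact fr_le fun j a w ha hw => ⟨fr_mem ha hw.1,
      Submodule.smul_mem _ a (Submodule.subset_span ⟨w, hw.2, rfl⟩)⟩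
  · intro ν hν m w hw
    obtain ⟨τ, B, ε, h⟩ := exists_ch hR (hS ν hν)
    obtain ⟨u, hu, hue⟩ := h.of_fr hp hs hΦ (h.into (fr_rst hR Φ G) hw.1)
    have key : ∀ y ∈ Submodule.span K (Φ '' Y), ∀ f : K, ∃ z : Fin p × Fin p → V,
        (∀ i, z i ∈ Y) ∧ f • y = ∑ i, ε i • Φ (z i) := by
      intro y hy
      induction hy using Submodule.span_induction with
      | mem y hy =>
        obtain ⟨y, hy, rfl⟩ := hy
        intro f
        obtain ⟨b, rfl⟩ := h.spanK f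
        exact ⟨fun i => b i • y, fun i => Y.smul_mem _ hy, by
          simp only [Finset.sum_smul, hΦ.smul, smul_smul]⟩
      | zero => exact fun f => ⟨0, fun _ => Y.zero_mem, by simp [hΦ.zero]⟩
      | add y z _ _ hy hz =>
        intro f
        obtain ⟨u, hu, hy⟩ := hy f
        obtain ⟨u', hu', hz⟩ := hz f
        exact ⟨u + u', fun i => Y.add_mem (hu i) (hu' i), by
          simp only [smul_add, hy, hz, Pi.add_apply, hΦ.add, Finset.sum_add_distrib]⟩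
      | smul c y _ hy =>
        intro f
        rw [smul_smul]
        exact hy _
    obtain ⟨z, hz, hze⟩ := key w hw.2 (τ ^ (-m))
    refine h.out' (fr_rst hR _ _) ?_
    rw [hue]
    refine h.fr_of hΦ fun i => ?_
    obtain ⟨j, hj⟩ := hu i
    refine ⟨j, hj, Y.smul_mem _ ?_⟩
    rw [hΦ.inj h.ind (hue.symm.trans hze) i]
    exact hz i

end main

section points

theorem cod_le {ι : Type} [Fintype ι] {A n : Submodule k K} [FiniteDimensional k A] (hle : n ≤ A)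
    {b : ι → K} (hb : ∀ l, b l ∈ A) (hi : ∀ c : ι → k, ∑ l, c l • b l ∈ n → c = 0) :
    Fintype.card ι + finrank k n ≤ finrank k A ∧
      ((∀ β ∈ A, ∃ c : ι → k, β - ∑ l, c l • b l ∈ n) →
        Fintype.card ι + finrank k n = finrank k A) := by
  have : FiniteDimensional k n := Submodule.finiteDimensional_of_le hle
  let T : ((ι → k) × n) →ₗ[k] K := (Fintype.linearCombination k b).coprod n.subtype
  have hT : ∀ c y, T (c, y) = ∑ l, c l • b l + y := fun c y => by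
    simp [T, Fintype.linearCombination_apply]
  have hinj : Function.Injective T := by
    refine (injective_iff_map_eq_zero T).mpr ?_
    rintro ⟨c, y⟩ hc
    rw [hT] at hc
    have h1 : c = 0 := hi c (by
      rw [eq_neg_of_add_eq_zero_left hc]
      exact n.neg_mem y.2)
    subst h1
    have h2 : y = 0 := by simpa using hc
    rw [h2]
    rfl
  have hr : finrank k (LinearMap.range T) = Fintype.card ι + finrank k n := by
    rw [LinearMap.finrank_range_of_inj hinj, finrank_prod, finrank_fintype_fun_eq_card]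
  have hle' : LinearMap.range T ≤ A := by
    rintro _ ⟨⟨c, y⟩, rfl⟩
    rw [hT]
    exact A.add_mem (A.sum_mem fun l _ => A.smul_mem _ (hb l)) (hle y.2)
  refine ⟨hr ▸ Submodule.finrank_mono hle', fun hs => ?_⟩
  rw [← hr, le_antisymm hle' fun β hβ => ?_]
  obtain ⟨c, hc⟩ := hs β hβ
  exact ⟨(c, ⟨_, hc⟩), by rw [hT]; simp⟩

theorem cod_ex {A n : Submodule k K} (c0 : ℕ)
    (hb : ∀ (D : ℕ) (b : Fin D → K), (∀ l, b l ∈ A) →
      (∀ c : Fin D → k, ∑ l, c l • b l ∈ n → c = 0) → D ≤ c0) :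
    ∃ (D : ℕ) (b : Fin D → K), (∀ l, b l ∈ A) ∧ (∀ c : Fin D → k, ∑ l, c l • b l ∈ n → c = 0) ∧
      ∀ β ∈ A, ∃ c : Fin D → k, β - ∑ l, c l • b l ∈ n := by
  classical
  let P : ℕ → Prop := fun D => ∃ b : Fin D → K, (∀ l, b l ∈ A) ∧
    ∀ c : Fin D → k, ∑ l, c l • b l ∈ n → c = 0
  have h0 : P 0 := ⟨0, fun l => l.elim0, fun c _ => Subsingleton.elim _ _⟩
  obtain ⟨b, hb1, hb2⟩ : P (Nat.findGreatest P c0) := Nat.findGreatest_spec (Nat.zero_le c0) h0
  refine ⟨_, b, hb1, hb2, fun β hβ => ?_⟩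
  by_contra hne
  have h1 : P (Nat.findGreatest P c0 + 1) := by
    refine ⟨Fin.cons β b, fun l => Fin.cases hβ hb1 l, fun c hc => ?_⟩
    rw [Fin.sum_univ_succ] at hc
    simp only [Fin.cons_zero, Fin.cons_succ] at hc
    have h2 : c 0 = 0 := by
      by_contra h2
      refine hne ⟨fun l => -((c 0)⁻¹ * c l.succ), ?_⟩
      have h3 := n.smul_mem (c 0)⁻¹ hc
      rw [smul_add, smul_smul, inv_mul_cancel₀ h2, one_smul, Finset.smul_sum] at h3
      simpa only [neg_smul, Finset.sum_neg_distrib, sub_neg_eq_add, mul_smul] using h3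
    rw [h2, zero_smul, zero_add] at hc
    have h3 := hb2 _ hc
    funext l
    exact Fin.cases h2 (fun i => congrFun h3 i) l
  obtain ⟨b', h2, h3⟩ := h1
  exact Nat.findGreatest_is_greatest (Nat.lt_succ_self _) (hb _ b' h2 h3) ⟨b', h2, h3⟩

variable {ν τ : K} {B : Subalgebra k K} {ε : Fin p × Fin p → K} (h : Ch R p ν τ B ε)
  {Q : Fam k K}
include h

/-- The localisation as a subspace. -/
def Ch.sub (hQ : RSt R Q) : Submodule k K where
  carrier := {u | Loc ν Q u}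
  add_mem' := h.add hQ
  zero_mem' := ⟨0, by simp⟩
  smul_mem' c u hu := by
    rw [← algebraMap_smul K]
    exact h.smul hQ (B.algebraMap_mem c) hu

theorem Ch.unif {ι : Type} [Fintype ι] {b : ι → K} (hb : ∀ l, b l ∈ B) (m : ℤ) :
    ∃ j1 : ℕ, ∀ j ≥ j1, ∀ l, ν ^ j * τ ^ m * b l ∈ R (4 * j + m) := by
  choose J hJ using fun l => h.clr (b l) (hb l) m
  refine ⟨Finset.univ.sup J, fun j hj l => ?_⟩
  have h1 := h.up h.gr.rst (u := τ ^ m * b l) (j := J l) (m := m)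
    (by rw [smul_eq_mul, ← mul_assoc]; exact hJ l)
    ((Finset.le_sup (Finset.mem_univ l)).trans hj)
  rwa [smul_eq_mul, ← mul_assoc] at h1

theorem Ch.indep (hQ : RSt R Q) {ι : Type} [Fintype ι] {b : ι → K}
    (hi : ∀ c : ι → k, Loc ν Q (∑ l, c l • b l) → c = 0) (j : ℕ) (m : ℤ) (c : ι → k)
    (hc : ∑ l, c l • (ν ^ j * τ ^ m * b l) ∈ Q (4 * j + m)) : c = 0 := by
  refine hi c (h.back hQ (j := j) (m := m) ?_)
  simpa only [smul_eq_mul, Finset.mul_sum, mul_smul_comm] using hc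

theorem Ch.colen (hQ : RSt R Q) (hle : ∀ m, Q m ≤ R m) {m0 : ℤ}
    (hinj : ∀ m ≥ m0, ∀ a ∈ R m, ν * a ∈ Q (4 + m) → a ∈ Q m) {ι : Type} [Fintype ι] {b : ι → K}
    (hb : ∀ l, b l ∈ B) (hi : ∀ c : ι → k, Loc ν Q (∑ l, c l • b l) → c = 0)
    (hs : ∀ β ∈ B, ∃ c : ι → k, Loc ν Q (β - ∑ l, c l • b l)) :
    ∃ m1, ∀ m ≥ m1, hf R m - hf Q m = Fintype.card ι := by
  have hinj' : ∀ j : ℕ, ∀ m ≥ m0, ∀ a ∈ R m, ν ^ j * a ∈ Q (4 * j + m) → a ∈ Q m := by
    intro j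
    induction j with
    | zero => intro m _ a _ ha; simpa using ha
    | succ j ih =>
      intro m hm a ha h1
      refine hinj m hm a ha (ih _ (by omega) _ (h.gr.mul _ _ _ _ h.mem ha) ?_)
      rwa [← mul_assoc, ← pow_succ, show (4 * (j : ℤ) + (4 + m)) = 4 * ((j + 1 : ℕ) : ℤ) + m by
        push_cast; ring]
  have key : ∀ m : ℤ, ∃ j1 : ℕ, ∀ j ≥ j1, m0 ≤ 4 * (j : ℤ) + m →
      hf R (4 * j + m) - hf Q (4 * j + m) = Fintype.card ι := by
    intro m
    obtain ⟨j1, hj1⟩ := h.unif hb m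
    refine ⟨j1, fun j hj hm => ?_⟩
    have := h.gr.fin (4 * j + m)
    have h1 := (cod_le (hle (4 * j + m)) (hj1 j hj) (h.indep hQ hi j m)).2 fun a ha => by
      have h2 := B.mul_mem (B.pow_mem h.inv j) (h.div _ _ ha)
      obtain ⟨c, hc⟩ := hs _ h2
      refine ⟨c, ?_⟩
      have h3 : a - ∑ l, c l • (ν ^ j * τ ^ m * b l) ∈ R (4 * j + m) :=
        (R _).sub_mem ha ((R _).sum_mem fun l _ => (R _).smul_mem _ (hj1 j hj l))
      obtain ⟨i, hi⟩ := h.out hQ hc m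
      have h4 := h.up hQ hi (le_max_left i j)
      obtain ⟨d, hd⟩ := Nat.exists_eq_add_of_le (le_max_right i j)
      refine hinj' d _ hm _ h3 ?_
      rw [hd, show (4 * ((j + d : ℕ) : ℤ) + m) = 4 * d + (4 * j + m) by push_cast; ring] at h4
      have h5 : ν ^ d * (a - ∑ l, c l • (ν ^ j * τ ^ m * b l)) = ν ^ (j + d) • τ ^ m •
          ((τ ^ 4 / ν) ^ j * (a / τ ^ (4 * (j : ℤ) + m)) - ∑ l, c l • b l) := by
        have h6 := h.unit j m
        rw [zpow_neg] at h6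
        simp only [mul_assoc, ← Finset.mul_sum, smul_eq_mul, ← mul_smul_comm]
        rw [div_eq_mul_inv a]
        linear_combination (-(ν ^ d * a)) * h6
      rwa [h5]
    rw [hf, hf, ← h1]
    push_cast
    ring
  obtain ⟨j0, h0⟩ := key 0
  obtain ⟨j1, h1⟩ := key 1
  obtain ⟨j2, h2⟩ := key 2
  obtain ⟨j3, h3⟩ := key 3
  refine ⟨max m0 (4 * (j0 + j1 + j2 + j3)), fun m hm => ?_⟩
  obtain ⟨j, hj⟩ : ∃ j : ℕ, m / 4 = j := ⟨(m / 4).toNat, by omega⟩
  have hc : m = 4 * j + 0 ∨ m = 4 * j + 1 ∨ m = 4 * j + 2 ∨ m = 4 * j + 3 := by omega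
  rcases hc with rfl | rfl | rfl | rfl
  exacts [h0 j (by omega) (by omega), h1 j (by omega) (by omega), h2 j (by omega) (by omega),
    h3 j (by omega) (by omega)]

theorem Ch.basis (hQ : RSt R Q) (hle : ∀ m, Q m ≤ R m) {m0 : ℤ} {c : ℝ}
    (hc : ∀ m ≥ m0, hf R m - hf Q m = c) :
    ∃ (D : ℕ) (b : Fin D → K), (∀ l, b l ∈ B) ∧
      (∀ c : Fin D → k, Loc ν Q (∑ l, c l • b l) → c = 0) ∧
      ∀ β ∈ B, ∃ c : Fin D → k, Loc ν Q (β - ∑ l, c l • b l) := by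
  refine cod_ex (A := Subalgebra.toSubmodule B) (n := h.sub hQ) ⌈c⌉₊ fun D b hb hi => ?_
  obtain ⟨j1, hj1⟩ := h.unif hb 0
  let j := max j1 m0.toNat
  have := h.gr.fin (4 * j + 0)
  have h1 := (cod_le (hle (4 * j + 0)) (hj1 j (le_max_left _ _)) (h.indep hQ hi j 0)).1
  have h2 := hc (4 * j + 0) (by omega)
  have h3 : (D : ℝ) ≤ c := by
    rw [← h2, hf, hf, le_sub_iff_add_le]
    rw [Fintype.card_fin] at h1
    exact_mod_cast h1
  exact_mod_cast h3.trans (Nat.le_ceil c)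

theorem Ch.frob [IsAlgClosed k] [Fact p.Prime] [CharP K p] (hQ : RSt R Q) {ι : Type} [Fintype ι]
    {b : ι → K} (hi : ∀ c : ι → k, Loc ν Q (∑ l, c l • b l) → c = 0)
    (hs : ∀ β ∈ B, ∃ c : ι → k, Loc ν Q (β - ∑ l, c l • b l)) :
    (∀ c : (Fin p × Fin p) × ι → k,
      Loc ν (frI R p Q) (∑ l, c l • (ε l.1 * b l.2 ^ p)) → c = 0) ∧
    ∀ β ∈ B, ∃ c : (Fin p × Fin p) × ι → k,
      Loc ν (frI R p Q) (β - ∑ l, c l • (ε l.1 * b l.2 ^ p)) := by
  have hp : 0 < p := (Fact.out : p.Prime).pos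
  have key : ∀ d : (Fin p × Fin p) × ι → k, ∑ l, d l ^ p • (ε l.1 * b l.2 ^ p) =
      ∑ i, ε i • (∑ l, d (i, l) • b l) ^ p := by
    intro d
    rw [Fintype.sum_prod_type]
    refine Finset.sum_congr rfl fun i _ => ?_
    rw [sum_pow_char, Finset.smul_sum]
    exact Finset.sum_congr rfl fun l _ => by rw [smul_pow, smul_eq_mul, mul_smul_comm]
  constructor
  · intro c hc
    choose d hd using fun l => IsAlgClosed.exists_pow_nat_eq (c l) hp
    simp only [← hd, key] at hc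
    obtain ⟨u, hu, hue⟩ := h.of_fr hp hQ fb_one hc
    funext ⟨i, l⟩
    have h1 := hi (fun l => d (i, l)) (by
      rw [fb_one.inj h.ind (u := fun i => ∑ l, d (i, l) • b l) hue i]
      exact hu i)
    rw [← hd, show d (i, l) = 0 from congrFun h1 l, zero_pow hp.ne', Pi.zero_apply]
  · intro β hβ
    obtain ⟨γ, hγ, rfl⟩ := h.span β hβ
    choose d hd using fun i => hs (γ i) (hγ i)
    refine ⟨fun l => d l.1 l.2 ^ p, ?_⟩
    have h1 := h.fr_of fb_one hd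
    rw [key fun l => d l.1 l.2]
    simpa only [sub_pow_char, smul_eq_mul, mul_sub, Finset.sum_sub_distrib] using h1

end points

theorem points {x : Fin 3 → K} {j0 : ℕ} [IsAlgClosed k] [Fact p.Prime] [CharP K p] (hR : Gr R)
    (hx : Hsop R x j0) (hc : Cover R p) {P : Fam k K} {c : ℝ} (hP : PrimeF R P)
    (h0 : ∃ m0, ∀ m ≥ m0, hf R m - hf P m = c) :
    ∃ m0, ∀ m ≥ m0, hf R m - hf (frI R p P) m = p ^ 2 * c := by
  obtain ⟨m0, h0⟩ := h0
  have hp : 0 < p := (Fact.out : p.Prime).pos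
  have hQ : RSt R (frI R p P) := fr_rst hR _ _
  obtain ⟨S, hS, hc'⟩ := id hc
  by_cases hν : ∀ ν ∈ S, ν ∈ P 4
  · have h1 := hc' P hP hν
    have h2 : c = 0 := by
      have h3 : P (max m0 0 + 1) = R (max m0 0 + 1) := by
        refine le_antisymm (hP.le _) ((hR.gen _ (le_max_right _ _)).trans
          (Submodule.mul_le.mpr fun a ha b hb => ?_))
        have h4 := hP.st _ _ _ _ hb (h1 ha)
        rwa [smul_eq_mul, mul_comm] at h4
      rw [← h0 (max m0 0 + 1) (by omega), hf, hf, h3, sub_self]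
    refine (ev_eq hR hx S 4 (fun ν hν => (hS ν hν).1) hc' (hx.fg hR) hR.rst hQ
      (frI_le hR hP.le) fun ν hν' m a ha => ⟨p, ?_⟩).imp fun m1 hm m hm' => ?_
    · have h3 := fr_mem (Φ := fun w : K => w ^ p) (m := 4 * p + m) (a := a)
        (by rwa [show 4 * (p : ℤ) + m - p * 4 = m by ring]) (hν ν hν')
      rwa [smul_eq_mul, mul_comm a] at h3
    · rw [hf, hf, hm m hm', sub_self, h2, mul_zero]
  · push Not at hν
    obtain ⟨ν, hνS, hν⟩ := hν
    obtain ⟨τ, B, ε, h⟩ := exists_ch hR (hS ν hνS)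
    have hinj : ∀ m, ∀ a ∈ R m, ν * a ∈ P (4 + m) → a ∈ P m := fun m a ha h1 =>
      (hP.pr _ _ _ _ h.mem ha h1).resolve_left hν
    obtain ⟨D, b, hb, hi, hs⟩ := h.basis hP.st hP.le h0
    obtain ⟨m1, h1⟩ := h.colen hP.st hP.le (m0 := 0) (fun m _ => hinj m) hb hi hs
    have hD : c = D := by
      rw [← h0 (max m0 m1) (le_max_left _ _), h1 _ (le_max_right _ _), Fintype.card_fin]
    have hcol : col R P ν 4 = P := by
      funext m
      ext a
      rw [mem_col]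
      refine ⟨fun h2 => hinj m a h2.1 ?_, fun h2 => ⟨hP.le m h2, ?_⟩⟩
      · have h3 := h2.2
        rwa [smul_eq_mul, mul_comm, add_comm] at h3
      · have h3 := hP.st _ _ _ _ h.mem h2
        rwa [smul_eq_mul, mul_comm, add_comm] at h3
    obtain ⟨m2, h2⟩ := colon hR hx hc fb_one hP.st ν 4
    rw [hcol] at h2
    obtain ⟨h3, h4⟩ := h.frob hP.st hi hs
    obtain ⟨m3, h5⟩ := h.colen hQ (frI_le hR hP.le) (m0 := m2) (fun m hm a ha h6 => by
      rw [← h2 m hm]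
      refine mem_col.mpr ⟨ha, ?_⟩
      obtain ⟨n, rfl⟩ : ∃ n, p = n + 1 := ⟨p - 1, by omega⟩
      have h7 := hQ _ _ _ _ (hR.pow h.mem n) h6
      rw [smul_eq_mul, ← mul_assoc, ← pow_succ, mul_comm _ a,
        show 4 * (n : ℤ) + (4 + m) = m + ((n + 1 : ℕ) : ℤ) * 4 by push_cast; ring] at h7
      exact h7) (b := fun l : (Fin p × Fin p) × Fin D => ε l.1 * b l.2 ^ p)
      (fun l => B.mul_mem (h.eps l.1) (B.pow_mem (hb l.2) p)) h3 h4
    refine ⟨m3, fun m hm => ?_⟩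
    rw [h5 m hm, hD]
    simp only [Fintype.card_prod, Fintype.card_fin]
    push_cast
    ring

end Flat

open Flat in
theorem flat : FlatStmt := by
  intro k K _ _ _ R x j0 p hk hp hch hR hx _ hc
  have := Fact.mk hp
  have : CharP K p := charP_of_injective_algebraMap (algebraMap k K).injective p
  exact ⟨fun r G hG _ => ⟨fr_fg hR hx (fb_vec r) hG, fr_rst hR _ _⟩,
    fun P hP _ => ⟨frI_le hR hP, fr_rst hR _ _⟩,
    fun r N v b hN => colon hR hx hc (fb_vec r) hN v b,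
    fun r G Y hG hs => capf hR hx hc (fb_vec r) hG hs Y,
    fun P c hP h0 => points hR hx hc hP h0⟩

end Vale.Agent.P190
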