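import Vale.Agent.P190.Geo1

/-! P190-F: the charts cover, and the symmetry of the curve primes. -/

namespace Vale.Agent.P190

open Module MvPolynomial

namespace Ge

theorem alg {k D : Type} [Field k] [IsAlgClosed k] [CommRing D] [IsDomain D] [Algebra k D] {x : D}
    {c : k} (h : x ^ 101 = algebraMap k D c) : ∃ c, algebraMap k D c = x :=
  minpoly.mem_range_of_degree_eq_one k x (IsAlgClosed.degree_eq_one_of_irreducible k
    (minpoly.irreducible (IsIntegral.of_pow (by norm_num : 0 < 101) (h ▸ isIntegral_algebraMap))))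

theorem ht1 {k : Type} [Field k] {I : Ideal (MvPolynomial (Fin 2) k)} [hI : I.IsPrime]
    (hm : ¬ I.IsMaximal) {h : MvPolynomial (Fin 2) k} (hp : Prime h) (hh : h ∈ I) :
    I = Ideal.span {h} := by
  by_contra n
  obtain ⟨M, hM, le⟩ := I.exists_le_maximal hI.ne_top
  have := (Ideal.span_singleton_prime hp.ne_zero).2 hp
  have h1 := Ideal.height_add_one_le_of_lt_of_isPrime (I := ⊥) (J := Ideal.span {h})
    (bot_lt_iff_ne_bot.2 (by simpa using hp.ne_zero))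
  have h2 := Ideal.height_add_one_le_of_lt_of_isPrime
    (lt_of_le_of_ne ((Ideal.span_singleton_le_iff_mem I).2 hh) (Ne.symm n))
  have h3 := Ideal.height_add_one_le_of_lt_of_isPrime
    (lt_of_le_of_ne le fun e => hm (e ▸ hM))
  have h4 := Ideal.height_le_ringKrullDim_of_isPrime (I := M)
  rw [ringKrullDim_of_isNoetherianRing, ringKrullDim_eq_zero_of_field, zero_add, Nat.card_eq_fintype_card,
    Fintype.card_fin] at h4
  have h5 : M.height ≤ 2 := WithBot.coe_le_coe.1 h4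
  have h6 : (0 : ℕ∞) + 1 + 1 + 1 ≤ 2 :=
    calc (0 : ℕ∞) + 1 + 1 + 1 ≤ (⊥ : Ideal (MvPolynomial (Fin 2) k)).height + 1 + 1 + 1 := by
          gcongr; exact zero_le
      _ ≤ _ := by grw [h1, h2, h3, h5]
  exact absurd h6 (by decide)

structure Cx (k : Type) {K : Type} [Field k] [Field K] [Algebra k K] (v : Fin 10 → K) : Prop where
  kd : KD k v
  gr : Gr (RR k v)
  pc : ∀ J, PlC J (mon v)
  ne : ∀ e, v e ≠ 0
  nu : mon v c0 ∈ RR k v 4
  le : ∀ m, ∀ a ∈ RR k v m, a ∈ B0 k v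
  up : ∀ β ∈ B0 k v, ∀ m : ℤ, ∃ j : ℕ, mon v c0 ^ j * β ∈ RR k v (4 * j + m)
  gal : IsGalois (K0 k v) K
  fin : FiniteDimensional (K0 k v) K
  li : LinearIndependent (K0 k v) fun a : Fin 5 → Fin 101 => ∏ i, v (ng i) ^ (a i : ℕ)

variable {k K : Type} [Field k] [Field K] [Algebra k K] {v : Fin 10 → K} {P Q : Fam k K}

theorem mon_ne (c : Cx k v) (t : Fin 10 → ℕ) : mon v t ≠ 0 :=
  Finset.prod_ne_zero_iff.2 fun e _ => pow_ne_zero _ (c.ne e)

theorem lpoly (h : KD k v) (e : Fin 10) :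
    ∃ l : MvPolynomial (Fin 2) k, aeval ![v 1 ^ 101, v 2 ^ 101] l = v e ^ 101 := by
  refine ⟨![1, X 0, X 1, 1, X 0 - 1, X 1 - 1, 1, X 1 - X 0, 1, 1] e, ?_⟩
  fin_cases e <;> simp [h.g0, h.g3, h.g6, h.g8, h.g9, h.r4, h.r5, h.r7]

theorem ev_K0 (l : MvPolynomial (Fin 2) k) : aeval ![v 1 ^ 101, v 2 ^ 101] l ∈ K0 k v := by
  induction l using MvPolynomial.induction_on with
  | C a => simp
  | add p q hp hq => rw [map_add]; exact add_mem hp hq
  | mul_X p i hp =>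
    rw [map_mul, aeval_X]
    exact mul_mem hp (IntermediateField.subset_adjoin _ _ (by fin_cases i <;> simp))

theorem inK0 (c : Cx k v) {m : ℤ} {a : K} (ha : a ∈ RR k v m) (h0 : a ∈ K0 k v) :
    ∃ l : MvPolynomial (Fin 2) k, aeval ![v 1 ^ 101, v 2 ^ 101] l = a := by
  obtain ⟨g, hg⟩ := LinearMap.exists_leftInverse_of_injective _ (LinearMap.ker_eq_bot.2 c.li)
  have g1 : ∀ (t : K0 k v) (a : Fin 5 → Fin 101),
      g (t * ∏ i, v (ng i) ^ (a i : ℕ)) = Finsupp.single a t := fun t a => by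
    have := LinearMap.congr_fun hg (Finsupp.single a t)
    rwa [LinearMap.comp_apply, Finsupp.linearCombination_single] at this
  have g0 := g1 ⟨a, h0⟩ 0
  simp only [Pi.zero_apply, Fin.val_zero, pow_zero, Finset.prod_const_one, mul_one] at g0
  suffices (g a 0 : K) ∈ (aeval ![v 1 ^ 101, v 2 ^ 101] : MvPolynomial (Fin 2) k →ₐ[k] K).range by
    rwa [g0, Finsupp.single_eq_same] at this
  clear g0 h0
  induction ha using Submodule.span_induction with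
  | mem x hx =>
    obtain ⟨t, -, rfl⟩ := hx
    choose l hl using lpoly c.kd
    have e : mon v t = aeval ![v 1 ^ 101, v 2 ^ 101] (∏ i, l (ng i) ^ (t (ng i) / 101)) *
        ∏ i, v (ng i) ^ ((Fin.ofNat 101 (t (ng i)) : Fin 101) : ℕ) := by
      simp only [map_prod, map_pow, hl, Fin.val_ofNat, ← Finset.prod_mul_distrib, ← pow_mul,
        ← pow_add, Nat.div_add_mod]
      simp [mon, Fin.prod_univ_succ, ng, c.kd.g0, c.kd.g3, c.kd.g6, c.kd.g8, c.kd.g9]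
    rw [e, g1 ⟨_, ev_K0 _⟩, Finsupp.single_apply]
    split_ifs
    exacts [⟨_, rfl⟩, zero_mem _]
  | zero => simp
  | add x y _ _ hx hy => rw [map_add]; exact add_mem hx hy
  | smul s x _ hx =>
    rw [LinearMap.map_smul_of_tower]
    exact Subalgebra.smul_mem _ hx s

theorem gal_mon (c : Cx k v) (g : Gal(K/K0 k v)) (t : Fin 10 → ℕ) :
    ∃ s : k, s ≠ 0 ∧ g (mon v t) = s • mon v t := by
  have := c.kd.ac
  have : ∀ e, ∃ s : k, algebraMap k K s = g (v e) / v e := fun e => alg (c := 1) (by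
    obtain ⟨l, hl⟩ := lpoly c.kd e
    have m := ev_K0 (v := v) l
    rw [hl] at m
    rw [div_pow, ← map_pow, show g (v e ^ 101) = v e ^ 101 from g.commutes ⟨_, m⟩, map_one]
    exact div_self (pow_ne_zero _ (c.ne e)))
  choose s hs using this
  have e : g (mon v t) = (∏ e, s e ^ t e) • mon v t := by
    simp only [mon, map_prod, map_pow, Algebra.smul_def, hs, ← Finset.prod_mul_distrib, ← mul_pow,
      div_mul_cancel₀ _ (c.ne _)]
  refine ⟨_, fun z => mon_ne c t ?_, e⟩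
  rwa [z, zero_smul, map_eq_zero] at e

theorem gal_mem (c : Cx k v) (g : Gal(K/K0 k v)) {m : ℤ} {a : K} (ha : a ∈ RR k v m) :
    g a ∈ RR k v m := by
  refine (Submodule.span_le (p := (RR k v m).comap (g.restrictScalars k).toLinearMap)).2 ?_ ha
  rintro _ ⟨t, ht, rfl⟩
  obtain ⟨s, -, e⟩ := gal_mon c g t
  exact show g _ ∈ _ from e ▸ Submodule.smul_mem _ _ (mon_mem ht)

theorem gal_aut (c : Cx k v) (g : Gal(K/K0 k v)) : Aut (RR k v) (g.restrictScalars k) 1 :=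
  ⟨one_ne_zero, fun m a => by
    rw [one_zpow, div_one]
    exact ⟨gal_mem c g, fun h => by simpa using gal_mem c g.symm h⟩⟩

theorem raise (c : Cx k v) (hP : RSt (RR k v) P) {b : K} {j : ℕ} {m : ℤ}
    (h : mon v c0 ^ j * b ∈ P (4 * j + m)) (i : ℕ) :
    mon v c0 ^ (i + j) * b ∈ P (4 * (i + j : ℕ) + m) := by
  have := hP _ _ _ _ (gpow c.gr c.nu i) h
  rwa [smul_eq_mul, ← mul_assoc, ← pow_add, ← add_assoc, ← mul_add, ← Nat.cast_add] at this

def nI (c : Cx k v) (hP : PrimeF (RR k v) P) : Ideal (B0 k v) where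
  carrier := {b | ∃ j : ℕ, mon v c0 ^ j * b ∈ P (4 * j + 0)}
  zero_mem' := ⟨0, by simp⟩
  add_mem' := by
    rintro a b ⟨i, hi⟩ ⟨j, hj⟩
    refine ⟨i + j, ?_⟩
    rw [Subalgebra.coe_add, mul_add]
    exact add_mem (add_comm i j ▸ raise c hP.st hi j) (raise c hP.st hj i)
  smul_mem' := by
    rintro a b ⟨j, hj⟩
    obtain ⟨i, hi⟩ := c.up a a.2 0
    refine ⟨i + j, ?_⟩
    have := hP.st _ _ _ _ hi hj
    rw [smul_eq_mul, mul_mul_mul_comm, ← pow_add] at this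
    exact (by push_cast; ring : (4 * i + 0 + (4 * j + 0) : ℤ) = 4 * (i + j : ℕ) + 0) ▸ this

theorem mem_of (c : Cx k v) (hP : PrimeF (RR k v) P) {m : ℤ} {a : B0 k v} (h : a.1 ∈ P m) :
    a ∈ nI c hP := by
  obtain ⟨j, hj⟩ := c.up 1 (one_mem _) (-m)
  have := hP.st _ _ _ _ hj h
  rw [mul_one, neg_add_cancel_right] at this
  exact ⟨j, by rwa [add_zero]⟩

theorem of_mem (c : Cx k v) (hP : PrimeF (RR k v) P) (n : mon v c0 ∉ P 4) {m : ℤ} {a : B0 k v}
    (ha : a.1 ∈ RR k v m) (h : a ∈ nI c hP) : a.1 ∈ P m := by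
  obtain ⟨i, hi⟩ := h
  obtain ⟨j, hj⟩ := c.up 1 (one_mem _) m
  have := hP.st _ _ _ _ hj hi
  rw [mul_one, smul_eq_mul, ← mul_assoc, ← pow_add,
    (by push_cast; ring : (4 * j + m + (4 * i + 0) : ℤ) = 4 * (j + i : ℕ) + m)] at this
  exact (hP.pr _ _ _ _ (gpow c.gr c.nu _) ha this).resolve_left (npow c.gr hP c.nu n _)

theorem nI_prime (c : Cx k v) (hP : PrimeF (RR k v) P) (n : mon v c0 ∉ P 4) :
    (nI c hP).IsPrime := by
  refine ⟨(Ideal.ne_top_iff_one _).2 fun h => hP.one (of_mem c hP n (one c.gr) h), ?_⟩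
  intro a b h
  obtain ⟨i, hi⟩ := c.up a a.2 0
  obtain ⟨j, hj⟩ := c.up b b.2 0
  have := of_mem c hP n (a := ⟨_, c.le _ _ (gpow c.gr c.nu (i + j))⟩ * (a * b)) (by
    have := c.gr.mul _ _ _ _ hi hj
    rwa [mul_mul_mul_comm, ← pow_add] at this) (Ideal.mul_mem_left _ _ h)
  exact (hP.pr _ _ _ _ hi hj (by rwa [mul_mul_mul_comm, ← pow_add])).imp (⟨i, ·⟩) (⟨j, ·⟩)

theorem v_mem (h : KD k v) (e : Fin 10) : v e ∈ B0 k v := by
  fin_cases e <;> simp only [Fin.reduceFinMk, h.g0, h.g3, h.g6, h.g8, h.g9, one_mem] <;>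
    exact Algebra.subset_adjoin (by simp)

noncomputable def ev (h : KD k v) : MvPolynomial (Fin 2) k →ₐ[k] B0 k v :=
  aeval ![⟨v 1, v_mem h 1⟩ ^ 101, ⟨v 2, v_mem h 2⟩ ^ 101]

theorem ev_coe (h : KD k v) (l : MvPolynomial (Fin 2) k) :
    (ev h l : K) = aeval ![v 1 ^ 101, v 2 ^ 101] l := by
  refine AlgHom.congr_fun (algHom_ext (f := (B0 k v).val.comp (ev h)) fun i => ?_) l
  fin_cases i <;> simp [ev]

noncomputable def pI (c : Cx k v) (hP : PrimeF (RR k v) P) : Ideal (MvPolynomial (Fin 2) k) :=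
  (nI c hP).comap (ev c.kd)

theorem nrm (c : Cx k v) [i : Fintype Gal(K/K0 k v)] {m : ℤ} {f : K} (hf : f ∈ RR k v m) :
    ∃ l, ev c.kd l = ∏ g : Gal(K/K0 k v), ⟨g f, c.le _ _ (gal_mem c g hf)⟩ := by
  have := c.gal
  have := c.fin
  obtain ⟨M, hM⟩ := Finset.prod_induction (s := Finset.univ) (fun g : Gal(K/K0 k v) => g f)
    (fun x => ∃ M, x ∈ RR k v M) (fun _ _ ⟨_, a⟩ ⟨_, b⟩ => ⟨_, c.gr.mul _ _ _ _ a b⟩)
    ⟨0, one c.gr⟩ fun g _ => ⟨m, gal_mem c g hf⟩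
  obtain ⟨l, hl⟩ := inK0 c hM (by
    rw [Subsingleton.elim i (AlgEquiv.fintype _ _), ← Algebra.norm_eq_prod_automorphisms]
    exact (Algebra.norm (K0 k v) f).2)
  exact ⟨l, Subtype.ext (by rw [ev_coe, hl, SubmonoidClass.coe_finset_prod])⟩

theorem nrm_mem (c : Cx k v) (hP : PrimeF (RR k v) P) [Fintype Gal(K/K0 k v)] {m : ℤ} {f : K}
    (hf : f ∈ P m) {l : MvPolynomial (Fin 2) k}
    (h : ev c.kd l = ∏ g : Gal(K/K0 k v), ⟨g f, c.le _ _ (gal_mem c g (hP.le m hf))⟩) :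
    l ∈ pI c hP := by
  rw [pI, Ideal.mem_comap, h]
  exact Ideal.prod_mem _ (Finset.mem_univ 1) (mem_of c hP hf)

theorem conj0 (c : Cx k v) (hP : PrimeF (RR k v) P) (hQ : PrimeF (RR k v) Q)
    (n : mon v c0 ∉ P 4) (h : pI c hQ ≤ pI c hP) : Conj (RR k v) Q P := by
  have := c.fin
  have r := fun g : Gal(K/K0 k v) => rel_pull (g.restrictScalars k) 1 P
  have p := fun g => (r g).prime (gal_aut c g) hP
  have n' : ∀ g : Gal(K/K0 k v), mon v c0 ∉ pull (g.restrictScalars k) 1 P 4 := fun g a => by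
    obtain ⟨s, s0, e⟩ := gal_mon c g c0
    rw [r g, one_zpow, div_one] at a
    exact n ((Submodule.smul_mem_iff _ s0).1 (e ▸ a))
  obtain ⟨g, -, hg⟩ := (Ideal.subset_union_prime (s := Finset.univ) (f := fun g => nI c (p g))
    (I := nI c hQ) 1 1 fun g _ _ _ => nI_prime c (p g) (n' g)).1 (by
      rintro b ⟨j, hj⟩
      obtain ⟨l, hl⟩ := nrm c (hQ.le _ hj)
      have := h (nrm_mem c hQ hj hl)
      rw [pI, Ideal.mem_comap, hl, (nI_prime c hP n).prod_mem_iff] at this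
      obtain ⟨g, -, hg⟩ := this
      refine Set.mem_biUnion (Finset.mem_coe.2 (Finset.mem_univ g)) ⟨j, (r g _ _).2 ?_⟩
      rw [one_zpow, div_one]
      exact of_mem c hP n (gal_mem c g (hQ.le _ hj)) hg)
  exact ⟨_, 1, gal_aut c g, fun m a ha => (r g m a).1 (of_mem c (p g) (n' g)
    (a := ⟨a, c.le _ _ (hQ.le m ha)⟩) (hQ.le m ha) (hg (mem_of c hQ ha)))⟩

theorem pI_ne (c : Cx k v) (hP : Curve (RR k v) P) : pI c hP.1 ≠ ⊥ := fun e => by
  have := c.fin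
  obtain ⟨m, hm⟩ := hP.2.1
  obtain ⟨f, hf, f0⟩ := Submodule.exists_mem_ne_zero_of_ne_bot hm
  obtain ⟨l, hl⟩ := nrm c (hP.1.le m hf)
  have := nrm_mem c hP.1 hf hl
  rw [e, Ideal.mem_bot] at this
  rw [this, map_zero, eq_comm, Finset.prod_eq_zero_iff] at hl
  obtain ⟨g, -, hg⟩ := hl
  exact f0 ((map_eq_zero g).1 (congrArg Subtype.val hg))

theorem pI_nmax (c : Cx k v) (hP : Curve (RR k v) P) (n : mon v c0 ∉ P 4) :
    ¬ (pI c hP.1).IsMaximal := fun h => by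
  have := c.kd.ac
  have := nI_prime c hP.1 n
  obtain ⟨x, hx⟩ := isMaximal_iff_eq_vanishingIdeal_singleton.1 h
  set φ := Ideal.Quotient.mkₐ k (nI c hP.1)
  have h1 : ∀ e, ∃ s, algebraMap k _ s = φ ⟨v e, v_mem c.kd e⟩ := fun e => by
    obtain ⟨l, hl⟩ := lpoly c.kd e
    have : l - C (aeval x l) ∈ pI c hP.1 := by
      rw [hx, mem_vanishingIdeal_singleton_iff]; simp
    have : φ (ev c.kd _) = 0 := Ideal.Quotient.eq_zero_iff_mem.2 this
    rw [map_sub, map_sub, sub_eq_zero, ← algebraMap_eq, AlgHom.commutes, AlgHom.commutes] at this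
    refine alg (c := aeval x l) ?_
    rw [← map_pow, show (⟨v e, v_mem c.kd e⟩ : B0 k v) ^ 101 = ev c.kd l from
      Subtype.ext (by rw [ev_coe, hl]; rfl)]
    exact this
  have h2 : ∀ e (h : (v e)⁻¹ ∈ B0 k v), ∃ s, algebraMap k _ s = φ ⟨_, h⟩ := fun e h => by
    obtain ⟨s, hs⟩ := h1 e
    have : algebraMap k _ s * φ ⟨_, h⟩ = 1 := by
      rw [hs, ← map_mul, ← map_one φ]
      exact congrArg φ (Subtype.ext (mul_inv_cancel₀ (c.ne e)))
    have s0 : s ≠ 0 := by rintro rfl; simp at this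
    refine ⟨s⁻¹, ?_⟩
    rw [← mul_one (algebraMap k _ s⁻¹), ← this, ← mul_assoc, ← map_mul, inv_mul_cancel₀ s0,
      map_one, one_mul]
  have h3 : ∀ b (h : b ∈ B0 k v), φ ⟨b, h⟩ ∈ (⊥ : Subalgebra k _) := fun b h => by
    induction h using Algebra.adjoin_induction with
    | mem x hx =>
      simp only [Set.mem_insert_iff, Set.mem_singleton_iff] at hx
      rcases hx with rfl | rfl | rfl | rfl | rfl | rfl | rfl | rfl <;>
        first | exact h1 _ | exact h2 _ _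
    | algebraMap r => exact ⟨r, (φ.commutes r).symm⟩
    | add x y hx hy a b => exact (map_add φ ⟨x, hx⟩ ⟨y, hy⟩) ▸ add_mem a b
    | mul x y hx hy a b => exact (map_mul φ ⟨x, hx⟩ ⟨y, hy⟩) ▸ mul_mem a b
  refine hP.2.2 ⟨1, fun m => ?_⟩
  have := c.gr.fin m
  refine col1 (hP.1.le m) (φ.toLinearMap ∘ₗ Submodule.inclusion (p := RR k v m)
    (p' := (B0 k v).toSubmodule) (c.le m)) 1 (fun w => ?_) fun a ha => ?_
  · obtain ⟨b, rfl⟩ := Ideal.Quotient.mkₐ_surjective k _ w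
    obtain ⟨s, hs⟩ := h3 b.1 b.2
    exact ⟨s, by rw [← Algebra.algebraMap_eq_smul_one]; exact hs⟩
  · exact of_mem c hP.1 n (a := ⟨a, c.le m a a.2⟩) a.2 (Ideal.Quotient.eq_zero_iff_mem.1 ha)

theorem conj1 (c : Cx k v) (hP : Curve (RR k v) P) (hQ : Curve (RR k v) Q)
    (n : mon v c0 ∉ P 4) (n' : mon v c0 ∉ Q 4) {h : MvPolynomial (Fin 2) k} (hp : Prime h)
    (a : h ∈ pI c hP.1) (b : h ∈ pI c hQ.1) : Conj (RR k v) Q P := by
  have := nI_prime c hQ.1 n'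
  have : (pI c hQ.1).IsPrime := Ideal.IsPrime.comap _
  exact conj0 c hP.1 hQ.1 n
    ((ht1 (pI_nmax c hQ n') hp b).trans_le ((Ideal.span_singleton_le_iff_mem _).2 a))

theorem ray0 : Ray 4 c0 := by simp [Ray, c0]

/-- the data of `AutStmt` -/
structure Au (k : Type) {K : Type} [Field k] [Field K] [Algebra k K] (v : Fin 10 → K)
    (π : Equiv.Perm (Fin 10)) (σ : K ≃ₐ[k] K) (u : K) : Prop where
  aut : Aut (RR k v) σ u
  ray : ∀ m c, Ray m c → Ray m (c ∘ π.symm)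
  eq : ∀ m c, Ray m c → ∃ s : k, s ≠ 0 ∧ σ (mon v (c ∘ π.symm)) / u ^ m = s • mon v c

theorem au (hA : AutStmt) (c : Cx k v) {e f : Fin 10} (d : dj e f) :
    ∃ π σ u, π 1 = e ∧ π 5 = f ∧ Au k v π σ u := by
  obtain ⟨π, σ, u, h1, h2, hu, h3, h4⟩ := hA k K v c.kd e f d
  have e0 : ∀ t : Fin 10 → ℕ, (t ∘ π.symm) ∘ π = t := fun t => by ext; simp
  have r : ∀ m t, Ray m t → Ray m (t ∘ π.symm) := fun m t h => by rwa [h3, e0]
  have q : ∀ m t, Ray m t → ∃ s : k, s ≠ 0 ∧ tw σ u m (mon v t) = s • mon v (t ∘ π) :=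
    fun m t h => (h4 m t h).imp fun s hs => ⟨hs.1, by
      rw [tw_ap, hs.2, smul_div_assoc, mul_div_cancel_left₀ _ (zpow_ne_zero _ hu)]⟩
  refine ⟨π, σ, u, h1, h2, ⟨hu, fun m a => ?_⟩, r, fun m t h => ?_⟩
  · have := c.gr.fin m
    have : (RR k v m).map (tw σ u m) = RR k v m := by
      refine Submodule.eq_of_le_of_finrank_eq (Submodule.map_le_iff_le_comap.2
        (Submodule.span_le.2 ?_)) (Submodule.equivMapOfInjective _ (tw_inj hu m) _).finrank_eq.symm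
      rintro _ ⟨t, ht, rfl⟩
      obtain ⟨s, -, e⟩ := q m t ht
      exact show tw σ u m _ ∈ _ from e ▸ Submodule.smul_mem _ _ (mon_mem ((h3 m t).1 ht))
    rw [← tw_ap]
    refine ⟨fun h => this.le ⟨a, h, rfl⟩, fun h => ?_⟩
    obtain ⟨b, hb, e⟩ := this.ge h
    exact tw_inj hu m e ▸ hb
  · simpa only [e0, tw_ap] using q m _ (r m t h)

theorem move (hA : AutStmt) (c : Cx k v) (hP : Curve (RR k v) P) (w : mon v 1 ∈ P 2) :
    ∃ P', ∃ h : Curve (RR k v) P', Conj (RR k v) P P' ∧ Conj (RR k v) P' P ∧ mon v c0 ∉ P' 4 ∧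
      X 0 ∈ pI c h.1 := by
  obtain ⟨e, f, d, h1, h2⟩ := supp c.gr c.pc hP.1 (curve_ne c.gr hP)
  obtain ⟨π, σ, u, rfl, rfl, a⟩ := au hA c d
  obtain ⟨P', r⟩ := exists_rel σ a.aut.1 P
  have h := r.curve a.aut hP
  refine ⟨P', h, r.conj a.aut, (r.symm a.aut.1).conj (aut_symm a.aut), fun n => ?_, ?_⟩
  · obtain ⟨s, -, hs⟩ := a.eq 4 c0 ray0
    exact h1 4 _ (a.ray _ _ ray0) (by simp [c0]) (by simp [c0])
      ((r _ _).2 (hs ▸ Submodule.smul_mem _ _ n))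
  · have y : Ray 1 ![1, 1, 0, 0, 1, 0, 0, 0, 0, 2] := by simp [Ray]
    obtain ⟨s, s0, hs⟩ := a.eq 1 _ y
    have := (r _ _).1 (h2 w 1 _ (a.ray _ _ y) (by simp))
    rw [hs, Submodule.smul_mem_iff _ s0] at this
    have := (nI c h.1).mul_mem_left ⟨(v 4)⁻¹, Algebra.subset_adjoin (by simp)⟩
      (mem_of c h.1 (a := ⟨_, c.le _ _ (mon_mem y)⟩) this)
    have := (nI c h.1).pow_mem_of_mem this 101 (by norm_num)
    rw [pI, Ideal.mem_comap]
    refine (congrArg (· ∈ nI c h.1) (Subtype.ext ?_)).mp this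
    have := c.ne 4
    simp [ev_coe, mon, Fin.prod_univ_succ, c.kd.g0, c.kd.g9]
    field_simp

theorem w_nu (c : Cx k v) (hP : PrimeF (RR k v) P) (w : mon v 1 ∉ P 2) : mon v c0 ∉ P 4 :=
  nmem c.gr hP (by simp [Ray]) w ray0 (by simp)

end Ge

open Ge in
theorem geo (hR : GrStmt) (hG : GalStmt) (hB : B0Stmt) (hA : AutStmt) (_h1 : GenStmt) :
    GeoStmt := by
  intro k K _ _ _ v p h hc
  obtain ⟨a1, a2⟩ := hR k K v h
  obtain ⟨b1, b2, b3, b4, -⟩ := hB k K v h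
  obtain ⟨g1, g2, g3⟩ := hG k K v h
  have c : Cx k v := ⟨h, a1, a2, b1, b2, b3, b4, g1, g2, g3⟩
  refine ⟨?_, mon v 1, mon_mem (by simp [Ray]), mon_ne c _, fun P Q hP hQ wP wQ => ?_,
    fun P hP w => ?_⟩
  · classical
    choose! π σ u h1 h2 a using fun (x : Fin 10 × Fin 10) (d : dj x.1 x.2) => au hA c d
    refine ⟨(Finset.univ.filter fun x : Fin 10 × Fin 10 => dj x.1 x.2).image
      fun x => mon v (c0 ∘ (π x).symm), fun ν hν => ?_, fun P hP s => ?_⟩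
    · obtain ⟨x, hx, rfl⟩ := Finset.mem_image.1 hν
      have a := a x (Finset.mem_filter.1 hx).2
      obtain ⟨s, s0, hs⟩ := a.eq 4 c0 ray0
      exact chart_pull a.aut s0 hs hc
    · by_contra n
      obtain ⟨e, f, d, h3, -⟩ := supp c.gr c.pc hP n
      refine h3 4 _ ((a (e, f) d).ray _ _ ray0) ?_ ?_
        (s _ (Finset.mem_image_of_mem _ (Finset.mem_filter.2 ⟨Finset.mem_univ (e, f), d⟩)))
      · rw [Function.comp, (Equiv.symm_apply_eq _).2 (h1 (e, f) d).symm]; rfl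
      · rw [Function.comp, (Equiv.symm_apply_eq _).2 (h2 (e, f) d).symm]; rfl
  · obtain ⟨P', hP', -, p1, p2, p3⟩ := move hA c hP wP
    obtain ⟨Q', hQ', q1, -, q2, q3⟩ := move hA c hQ wQ
    exact conj_trans q1 (conj_trans (conj1 c hP' hQ' p2 q2 X_prime p3 q3) p1)
  · have n := w_nu c hP.1 w
    have := nI_prime c hP.1 n
    obtain ⟨l, hl, lp⟩ := (Ideal.IsPrime.comap (ev c.kd) : (pI c hP.1).IsPrime).exists_mem_prime_of_ne_bot
      (pI_ne c hP)
    obtain ⟨j, hj⟩ := id hl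
    refine ⟨_, _, hj, mul_ne_zero (pow_ne_zero _ (mon_ne c _)) fun z => lp.ne_zero ?_,
      fun Q hQ a b => conj1 c hP hQ n (w_nu c hQ.1 b) lp hl ⟨j, a⟩⟩
    rw [ev_coe] at z
    exact (algebraicIndependent_iff.1 h.ai) l z

end Vale.Agent.P190
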