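import Vale.Agent.P190.Spec

/-! P190-F, first half: transport along automorphisms and supports of prime families. -/

namespace Vale.Agent.P190.Ge

open Module

section A
variable {k K : Type} [Field k] [Field K] [Algebra k K] {R P P' Q : Fam k K}
  {σ : K ≃ₐ[k] K} {u : K}

theorem one (hR : Gr R) : (1 : K) ∈ R 0 := hR.zero ▸ Submodule.subset_span rfl

theorem gpow (hR : Gr R) {i : ℤ} {a : K} (ha : a ∈ R i) (n : ℕ) : a ^ n ∈ R (i * n) := by
  induction n with
  | zero => simpa using one hR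
  | succ n ih =>
    rw [pow_succ, Nat.cast_succ, mul_add, mul_one]
    exact hR.mul _ _ _ _ ih ha

theorem npow (hR : Gr R) (hP : PrimeF R P) {i : ℤ} {a : K} (ha : a ∈ R i) (h : a ∉ P i) (n : ℕ) :
    a ^ n ∉ P (i * n) := by
  induction n with
  | zero => simpa using hP.one
  | succ n ih =>
    rw [pow_succ, Nat.cast_succ, mul_add, mul_one]
    exact fun e => (hP.pr _ _ _ _ (gpow hR ha n) ha e).elim ih h

def Rel (σ : K ≃ₐ[k] K) (u : K) (P P' : Fam k K) : Prop :=
  ∀ (m : ℤ) (a : K), a ∈ P m ↔ σ a / u ^ m ∈ P' m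

noncomputable def tw (σ : K ≃ₐ[k] K) (u : K) (m : ℤ) : K →ₗ[k] K :=
  LinearMap.mulRight k (u ^ m)⁻¹ ∘ₗ σ.toLinearMap

theorem tw_ap (m : ℤ) (a : K) : tw σ u m a = σ a / u ^ m := by simp [tw, div_eq_mul_inv]

theorem tw_inj (hu : u ≠ 0) (m : ℤ) : Function.Injective (tw σ u m) := fun a b h => by
  rw [tw_ap, tw_ap, div_left_inj' (zpow_ne_zero _ hu)] at h
  exact σ.injective h

noncomputable def pull (σ : K ≃ₐ[k] K) (u : K) (P : Fam k K) : Fam k K :=
  fun m => (P m).comap (tw σ u m)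

theorem rel_pull (σ : K ≃ₐ[k] K) (u : K) (P : Fam k K) : Rel σ u (pull σ u P) P := fun m a => by
  rw [← tw_ap]; rfl

theorem Rel.symm (hu : u ≠ 0) (h : Rel σ u P P') : Rel σ.symm (σ.symm u)⁻¹ P' P := fun m a => by
  have := zpow_ne_zero m hu
  rw [h m, map_div₀, map_zpow₀, map_inv₀, σ.apply_symm_apply, σ.apply_symm_apply, inv_zpow,
    div_inv_eq_mul, mul_div_cancel_right₀ _ this]

theorem aut_symm (h : Aut R σ u) : Aut R σ.symm (σ.symm u)⁻¹ :=
  ⟨inv_ne_zero ((map_ne_zero _).2 h.1), Rel.symm h.1 h.2⟩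

theorem exists_rel (σ : K ≃ₐ[k] K) (hu : u ≠ 0) (P : Fam k K) : ∃ P', Rel σ u P P' := by
  have := (rel_pull σ.symm (σ.symm u)⁻¹ P).symm (inv_ne_zero ((map_ne_zero _).2 hu))
  exact ⟨_, by simpa using this⟩

theorem tw_mul (hu : u ≠ 0) (i j : ℤ) (a b : K) :
    σ (a * b) / u ^ (i + j) = σ a / u ^ i * (σ b / u ^ j) := by
  rw [map_mul, zpow_add₀ hu, div_mul_div_comm]

theorem Rel.prime (hA : Aut R σ u) (h : Rel σ u P P') (hP : PrimeF R P') : PrimeF R P where
  le m a ha := (hA.2 m a).2 (hP.le m ((h m a).1 ha))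
  st j m a b ha hb := by
    rw [h, smul_eq_mul, tw_mul hA.1]
    exact hP.st j m _ _ ((hA.2 j a).1 ha) ((h m b).1 hb)
  one := by simpa [h 0] using hP.one
  pr i j a b ha hb e := by
    rw [h, tw_mul hA.1] at e
    rw [h, h]
    exact hP.pr _ _ _ _ ((hA.2 i a).1 ha) ((hA.2 j b).1 hb) e

theorem Rel.map (hu : u ≠ 0) (h : Rel σ u P P') (m : ℤ) : P' m = (P m).map (tw σ u m) := by
  ext a
  constructor
  · intro ha
    refine ⟨_, (h.symm hu m a).1 ha, ?_⟩
    have := zpow_ne_zero m hu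
    rw [tw_ap, map_div₀, map_zpow₀, map_inv₀, σ.apply_symm_apply, σ.apply_symm_apply, inv_zpow,
      div_inv_eq_mul, mul_div_cancel_right₀ _ this]
  · rintro ⟨b, hb, rfl⟩
    exact tw_ap (σ := σ) (u := u) m b ▸ (h m b).1 hb

theorem Rel.curve (hA : Aut R σ u) (h : Rel σ u P P') (hP : Curve R P) : Curve R P' := by
  refine ⟨(h.symm hA.1).prime (aut_symm hA) hP.1, ?_, fun ⟨c, hc⟩ => hP.2.2 ⟨c, fun m => ?_⟩⟩
  · obtain ⟨m, hm⟩ := hP.2.1
    refine ⟨m, fun e => hm ((Submodule.eq_bot_iff _).2 fun a ha => ?_)⟩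
    have := (h m a).1 ha
    rw [e, Submodule.mem_bot, div_eq_zero_iff, map_eq_zero] at this
    exact this.resolve_right (zpow_ne_zero _ hA.1)
  · have := hc m
    rwa [hf, hf, h.map hA.1 m, ← (Submodule.equivMapOfInjective _ (tw_inj hA.1 m) _).finrank_eq]
      at this

theorem Rel.conj (hA : Aut R σ u) (h : Rel σ u P P') : Conj R P P' :=
  ⟨σ, u, hA, fun m a ha => (h m a).1 ha⟩

theorem conj_trans (h : Conj R Q P) (h' : Conj R P P') : Conj R Q P' := by
  obtain ⟨σ, u, ⟨hu, hA⟩, h⟩ := h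
  obtain ⟨τ, w, ⟨hw, hB⟩, h'⟩ := h'
  have e : ∀ (m : ℤ) a, (σ.trans τ) a / (τ u * w) ^ m = τ (σ a / u ^ m) / w ^ m := fun m a => by
    rw [map_div₀, map_zpow₀, mul_zpow, div_div]; rfl
  refine ⟨σ.trans τ, τ u * w, ⟨mul_ne_zero ((map_ne_zero _).2 hu) hw, fun m a => ?_⟩,
    fun m a ha => ?_⟩
  · rw [e, hA, hB]
  · rw [e]; exact h' m _ (h m a ha)

theorem chart_pull {p : ℕ} {ν μ : K} {s : k} (hA : Aut R σ u) (hs : s ≠ 0)
    (e : σ ν / u ^ (4 : ℤ) = s • μ) (h : Chart R p μ) : Chart R p ν := by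
  obtain ⟨h1, h2, τ, B, ε, t0, h3, h4, h5, h6, h7, h8⟩ := h
  have hu := hA.1
  have s0 : algebraMap k K s ≠ 0 := (map_ne_zero _).2 hs
  have e' : σ ν = algebraMap k K s * μ * u ^ 4 := by
    rw [← Algebra.smul_def, ← e, ← zpow_natCast, Nat.cast_ofNat, div_mul_cancel₀ _ (zpow_ne_zero _ hu)]
  refine ⟨(hA.2 4 ν).2 (e ▸ Submodule.smul_mem _ _ h1), fun n0 => ?_, σ.symm (τ * u),
    B.comap σ.toAlgHom, fun i => σ.symm (ε i), (map_ne_zero _).2 (mul_ne_zero t0 hu),
    fun m a ha => ?_, fun β hβ m => ?_, ?_, fun i => ?_, fun β hβ => ?_, fun b hb => ?_⟩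
  · rw [n0, map_zero] at e'
    exact mul_ne_zero (mul_ne_zero s0 h2) (pow_ne_zero _ hu) e'.symm
  · have := h3 m _ ((hA.2 m a).1 ha)
    show σ _ ∈ B
    rwa [map_div₀, map_zpow₀, σ.apply_symm_apply, mul_zpow, mul_comm, ← div_div]
  · obtain ⟨j, hj⟩ := h4 (σ β) hβ m
    refine ⟨j, (hA.2 _ _).2 ?_⟩
    have : σ (ν ^ j * σ.symm (τ * u) ^ m * β) / u ^ (4 * j + m : ℤ) =
        s ^ j • (μ ^ j * τ ^ m * σ β) := by
      have := zpow_ne_zero m hu
      rw [map_mul, map_mul, map_pow, map_zpow₀, σ.apply_symm_apply, e', Algebra.smul_def, map_pow,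
        zpow_add₀ hu, zpow_mul, zpow_natCast, mul_zpow, zpow_ofNat]
      field_simp
      ring
    exact this ▸ Submodule.smul_mem _ _ hj
  · show σ _ ∈ B
    have : σ (σ.symm (τ * u) ^ 4 / ν) = s⁻¹ • (τ ^ 4 / μ) := by
      rw [map_div₀, map_pow, σ.apply_symm_apply, e', Algebra.smul_def, map_inv₀]
      field_simp
    exact this ▸ B.smul_mem h5 _
  · show σ _ ∈ B
    simpa using h6 i
  · obtain ⟨b, hb, e⟩ := h7 (σ β) hβ
    refine ⟨fun i => σ.symm (b i), fun i => ?_, σ.injective ?_⟩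
    · show σ _ ∈ B
      simpa using hb i
    · simp [e]
  · have := h8 (fun i => σ (b i)) (by simpa using congrArg σ hb)
    exact funext fun i => (map_eq_zero σ).1 (congrFun this i)

theorem col1 {D : Type} [AddCommGroup D] [Module k D] {U W : Submodule k K}
    [FiniteDimensional k W] (h : U ≤ W) (ψ : W →ₗ[k] D) (d : D) (hd : ∀ w, ∃ c : k, c • d = w)
    (hψ : ∀ a : W, ψ a = 0 → a.1 ∈ U) : (finrank k W : ℝ) ≤ finrank k U + 1 := by
  have : Module.Finite k D := Module.Finite.of_surjective (LinearMap.toSpanSingleton k D d) hd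
  have h1 := ψ.finrank_range_add_finrank_ker
  have h2 := (Submodule.finrank_le (LinearMap.range ψ)).trans (finrank_le_one d hd)
  have h3 := Submodule.finrank_mono (show LinearMap.ker ψ ≤ U.comap W.subtype from hψ)
  rw [(Submodule.comapSubtypeEquivOfLe h).finrank_eq] at h3
  exact_mod_cast (by omega : finrank k W ≤ finrank k U + 1)

theorem curve_ne (hR : Gr R) (hP : Curve R P) : ¬ R 1 ≤ P 1 := fun h => hP.2.2 ⟨1, fun m => by
  have := hR.fin m
  have h0 : (0 : ℝ) ≤ hf P m := Nat.cast_nonneg _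
  rcases lt_trichotomy m 0 with hm | rfl | hm
  · rw [hf, hR.neg m hm, finrank_bot]; push_cast; linarith
  · rw [hf, hR.zero, finrank_span_singleton one_ne_zero]; push_cast; linarith
  · have : R m = P m := le_antisymm (by
      have := hR.gen (m - 1) (by omega)
      rw [sub_add_cancel] at this
      refine this.trans (Submodule.mul_le.2 fun a ha b hb => ?_)
      have := hP.1.st _ _ _ _ hb (h ha)
      rwa [sub_add_cancel, smul_eq_mul, mul_comm] at this) (hP.1.le m)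
    rw [hf, this, ← hf]; linarith⟩

end A

theorem ray_add {m m' : ℤ} {c c' : Fin 10 → ℕ} (h : Ray m c) (h' : Ray m' c') :
    Ray (m + m') (c + c') := by
  simp only [Ray, Pi.add_apply] at *
  omega

theorem ray_sub {m m' : ℤ} {c c' : Fin 10 → ℕ} (h : Ray m (c + c')) (h' : Ray m' c') :
    Ray (m - m') c := by
  simp only [Ray, Pi.add_apply] at *
  omega

theorem ray_smul {m : ℤ} {c : Fin 10 → ℕ} (h : Ray m c) (n : ℕ) : Ray (m * n) (n • c) := by
  induction n with
  | zero => simp [Ray]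
  | succ n ih => rw [succ_nsmul, Nat.cast_succ, mul_add, mul_one]; exact ray_add ih h

def cv : Fin 15 → Fin 4 → Fin 10 :=
  ![![0, 1, 2, 3], ![0, 4, 5, 6], ![1, 4, 7, 8], ![2, 5, 7, 9], ![3, 6, 8, 9], ![0, 1, 4, 4],
    ![0, 2, 5, 5], ![0, 3, 6, 6], ![1, 2, 7, 7], ![1, 3, 8, 8], ![2, 3, 9, 9], ![4, 5, 7, 7],
    ![4, 6, 8, 8], ![5, 6, 9, 9], ![7, 8, 9, 9]]

theorem ray_cv {m : ℤ} {c : Fin 10 → ℕ} (h : Ray m c) (hm : 1 ≤ m) (i : Fin 15) :
    ∃ j, c (cv i j) ≠ 0 := by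
  by_contra! n
  have n0 := n 0
  have n1 := n 1
  have n2 := n 2
  have n3 := n 3
  simp only [Ray] at h
  fin_cases i <;> simp [cv] at n0 n1 n2 n3 <;> omega

def mt (q : Fin 5) (i : Fin 3) : Fin 10 × Fin 10 :=
  ![(pl q 0, pl q 1), (pl q 2, pl q 3), (pl q 4, pl q 5)] i

instance (e f : Fin 10) : Decidable (dj e f) := by unfold dj; infer_instance

def Cb (z : Fin 10 → Bool) : Prop := (∀ i, ∃ j, z (cv i j) = true) →
    (∀ q i, z (mt q i).1 = true → z (mt q i).2 = true →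
      ∃ j, j ≠ i ∧ z (mt q j).1 = true ∧ z (mt q j).2 = true) →
    ∃ e f, dj e f ∧ (∀ g, z g = false → g = e ∨ g = f) ∧ ((∃ g, z g = false) → z e = false)

instance (z : Fin 10 → Bool) : Decidable (Cb z) := by unfold Cb; infer_instance

theorem comb : ∀ z, Cb z := by
  simp only [Fin.forall_fin_succ_pi, Fin.forall_fin_zero_pi]
  decide +kernel

theorem ray_ad {m : ℤ} {c : Fin 10 → ℕ} {q : Fin 5} {i : Fin 3}
    (h : Ray m (ad c (mt q i).1 (mt q i).2)) (j : Fin 3) : Ray m (ad c (mt q j).1 (mt q j).2) := by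
  simp only [Ray, ad, Pi.add_apply, Pi.single_apply] at *
  fin_cases q <;> fin_cases i <;> fin_cases j <;> simp [mt, pl] at h ⊢ <;> omega

theorem mt_ne : ∀ q i, (mt q i).1 ≠ (mt q i).2 := by decide

section B
variable {k K : Type} [Field k] [Field K] [Algebra k K] {v : Fin 10 → K} {P : Fam k K}

theorem mon_add (c c' : Fin 10 → ℕ) : mon v (c + c') = mon v c * mon v c' := by
  simp [mon, pow_add, Finset.prod_mul_distrib]

theorem mon_smul (c : Fin 10 → ℕ) (n : ℕ) : mon v (n • c) = mon v c ^ n := by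
  simp [mon, ← Finset.prod_pow, ← pow_mul, mul_comm]

theorem mon_mem {m : ℤ} {c : Fin 10 → ℕ} (h : Ray m c) : mon v c ∈ RR k v m :=
  Submodule.subset_span ⟨c, h, rfl⟩

theorem nmem (hR : Gr (RR k v)) (hP : PrimeF (RR k v) P) {M m : ℤ} {t c : Fin 10 → ℕ}
    (ht : Ray M t) (h : mon v t ∉ P M) (hc : Ray m c) (s : ∀ e, c e ≠ 0 → t e ≠ 0) :
    mon v c ∉ P m := fun hm => by
  have e : (∑ e, c e) • t = ((∑ e, c e) • t - c) + c := by
    refine (tsub_add_cancel_of_le fun e => ?_).symm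
    by_cases z : c e = 0
    · simp [z]
    · exact (Finset.single_le_sum (fun _ _ => Nat.zero_le _) (Finset.mem_univ e)).trans
        (Nat.le_mul_of_pos_right _ (Nat.pos_of_ne_zero (s e z)))
  have := hP.st _ _ _ _ (mon_mem (ray_sub (e ▸ ray_smul ht _) hc)) hm
  rw [smul_eq_mul, ← mon_add, ← e, sub_add_cancel, mon_smul] at this
  exact npow hR hP (mon_mem ht) h _ this

theorem supp (hR : Gr (RR k v)) (hp : ∀ J, PlC J (mon v)) (hP : PrimeF (RR k v) P)
    (h : ¬ RR k v 1 ≤ P 1) : ∃ e f, dj e f ∧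
      (∀ m c, Ray m c → c e = 0 → c f = 0 → mon v c ∉ P m) ∧
      (mon v 1 ∈ P 2 → ∀ m c, Ray m c → c e ≠ 0 → mon v c ∈ P m) := by
  obtain ⟨⟨M, t⟩, ⟨h1, h2, h3⟩, hm⟩ := Set.Finite.exists_maximalFor'
    (fun x : ℤ × (Fin 10 → ℕ) => fun e => x.2 e ≠ 0)
    {x | 1 ≤ x.1 ∧ Ray x.1 x.2 ∧ mon v x.2 ∉ P x.1} (Set.toFinite _) (by
      by_contra! n
      refine h (Submodule.span_le.2 ?_)
      rintro _ ⟨c, hc, rfl⟩
      by_contra n'
      exact n.subset (show ((1 : ℤ), c) ∈ _ from ⟨le_rfl, hc, n'⟩))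
  dsimp only at h1 h2 h3
  have key : ∀ m c e, Ray m c → t e = 0 → c e ≠ 0 → mon v c ∈ P m := fun m c e hc z n => by
    by_contra n'
    have m0 : 0 ≤ m := by simp only [Ray] at hc; omega
    refine hm (j := (M + m, t + c)) ⟨by dsimp only; omega, ray_add h2 hc, fun a => ?_⟩
      (fun e (a : t e ≠ 0) => show t e + c e ≠ 0 by omega) e (show t e + c e ≠ 0 by omega) z
    rw [mon_add] at a
    exact (hP.pr _ _ _ _ (mon_mem h2) (mon_mem hc) a).elim h3 n'
  obtain ⟨e, f, d, a, b⟩ := comb (fun e => decide (t e ≠ 0))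
    (fun i => by simpa using ray_cv h2 h1 i) (fun q i a b => by
      by_contra! n
      simp only [decide_eq_true_eq] at a b n
      have ne := mt_ne q i
      obtain ⟨c, hc⟩ : ∃ c, ad c (mt q i).1 (mt q i).2 = 101 • t := by
        refine ⟨101 • t - Pi.single (mt q i).1 101 - Pi.single (mt q i).2 101, funext fun e => ?_⟩
        simp only [ad, Pi.add_apply, Pi.sub_apply, Pi.single_apply, Pi.smul_apply, smul_eq_mul]
        split_ifs with x y y
        · exact (ne (x.symm.trans y)).elim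
        · subst x; omega
        · subst y; omega
        · omega
      have r := ray_ad (q := q) (i := i) (c := c) (hc ▸ ray_smul h2 101)
      have o : ∀ j, j ≠ i → mon v (ad c (mt q j).1 (mt q j).2) ∈ P (M * (101 : ℕ)) := fun j hj => by
        by_cases z : t (mt q j).1 = 0
        · exact key _ _ _ (r j) z (by simp [ad])
        · exact key _ _ (mt q j).2 (r j) (by simpa using n j hj z) (by simp [ad])
      have w := npow hR hP (mon_mem h2) h3 101
      rw [← mon_smul, ← hc] at w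
      have pq := hp _ q c _ le_rfl (r 0)
      fin_cases i
      · exact w (pq ▸ add_mem (o 1 (by decide)) (o 2 (by decide)))
      · exact w (eq_sub_of_add_eq pq.symm ▸ sub_mem (o 0 (by decide)) (o 2 (by decide)))
      · exact w (eq_sub_of_add_eq' pq.symm ▸ sub_mem (o 0 (by decide)) (o 1 (by decide))))
  simp only [decide_eq_false_iff_not, not_not] at a b
  refine ⟨e, f, d, fun m c hc x y => nmem hR hP h2 h3 hc fun g n z => ?_, fun w m c hc => ?_⟩
  · rcases a g z with rfl | rfl <;> contradiction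
  · refine key m c e hc (b ?_)
    by_contra! n
    exact nmem hR hP h2 h3 (by simp [Ray]) (fun e _ => n e) w

end B

end Vale.Agent.P190.Ge
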