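import Vale.Agent.P190.Base

/-! Module H: Frobenius pull-backs are at most boundedly unstable. -/

namespace Vale.Agent.P190

open Module

namespace Ins

variable {k K : Type} [Field k] [Field K] [Algebra k K] {r : ℕ}

/-- a derivation acting on coordinates -/
def dv (D : Derivation k K K) : (Fin r → K) →ₗ[k] (Fin r → K) := D.toLinearMap.compLeft (Fin r)

lemma dv_apply (D : Derivation k K K) (y : Fin r → K) (l : Fin r) : dv D y l = D (y l) := rfl

lemma dv_smul (D : Derivation k K K) (c : K) (y : Fin r → K) :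
    dv D (c • y) = c • dv D y + D c • y := by
  funext l; simp [dv_apply, mul_comm]

lemma split (D : Derivation k K K) (Y : Submodule K (Fin r → K)) :
    ∃ Y1 Y2 : Submodule K (Fin r → K), (∀ y ∈ Y, dv D y ∈ Y → y ∈ Y1) ∧ Y ≤ Y2 ∧
      (∀ y ∈ Y, dv D y ∈ Y2) ∧ finrank K Y1 + finrank K Y2 = 2 * finrank K Y := by
  let ψ : Y →ₗ[K] (Fin r → K) ⧸ Y :=
    { toFun := fun y => Y.mkQ (dv D y.1)
      map_add' := fun a b => by simp
      map_smul' := fun c a => by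
        rw [Submodule.coe_smul, dv_smul, map_add, map_smul, Y.mkQ_apply (_ • _),
          (Submodule.Quotient.mk_eq_zero Y).2 (Y.smul_mem _ a.2), add_zero, RingHom.id_apply] }
  have h1 : Y ≤ (LinearMap.range ψ).comap Y.mkQ := fun y hy => by
    rw [Submodule.mem_comap, Y.mkQ_apply, (Submodule.Quotient.mk_eq_zero Y).2 hy]
    exact zero_mem _
  refine ⟨(LinearMap.ker ψ).map Y.subtype, (LinearMap.range ψ).comap Y.mkQ,
    fun y hy h => ⟨⟨y, hy⟩, (Submodule.Quotient.mk_eq_zero Y).2 h, rfl⟩, h1,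
    fun y hy => ⟨⟨y, hy⟩, rfl⟩, ?_⟩
  have a := dim_rn Y.mkQ ((LinearMap.range ψ).comap Y.mkQ)
  rw [Submodule.map_comap_eq_of_surjective Y.mkQ_surjective, Submodule.ker_mkQ,
    inf_eq_right.2 h1] at a
  have b := ψ.finrank_range_add_finrank_ker
  rw [Submodule.finrank_map_subtype_eq]
  omega

lemma descend {ι : Type} (D : ι → Derivation k K K) {Y W : Submodule K (Fin r → K)}
    (hY : ∀ i, ∀ y ∈ Y, dv (D i) y ∈ Y) (hW : ∀ y ∈ Y, (∀ i, dv (D i) y = 0) → y ∈ W) : Y ≤ W := by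
  classical
  suffices h : ∀ n, ∀ y ∈ Y, (Finset.univ.filter fun l => y l ≠ 0).card = n → y ∈ W from
    fun y hy => h _ y hy rfl
  intro n
  induction n using Nat.strong_induction_on with
  | _ n ih =>
  rintro y hy rfl
  have k1 : ∀ u ∈ Y, (∀ l, y l = 0 → u l = 0) → ∀ l, y l ≠ 0 → u l = 0 → u ∈ W :=
    fun u hu h1 l h2 h3 => ih _ (Finset.card_lt_card ⟨fun a ha => by
      simp only [Finset.mem_filter, Finset.mem_univ, true_and] at ha ⊢
      exact mt (h1 a) ha, fun h => by simpa [h3] using h (x := l) (by simpa using h2)⟩) u hu rfl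
  by_cases h0 : y = 0
  · exact h0 ▸ zero_mem _
  obtain ⟨l, hl⟩ := Function.ne_iff.1 h0
  replace hl : y l ≠ 0 := hl
  have hy' := Y.smul_mem (y l)⁻¹ hy
  by_cases h : ∀ i, dv (D i) ((y l)⁻¹ • y) = 0
  · simpa [hl] using W.smul_mem (y l) (hW _ hy' h)
  obtain ⟨i, hi⟩ := not_forall.1 h
  obtain ⟨l', hl'⟩ := Function.ne_iff.1 hi
  obtain ⟨u, hu⟩ : ∃ u, u = dv (D i) ((y l)⁻¹ • y) := ⟨_, rfl⟩
  replace hl' : u l' ≠ 0 := hu ▸ hl'
  have u1 : u ∈ Y := hu ▸ hY i _ hy'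
  have u2 : ∀ a, y a = 0 → u a = 0 := fun a ha => by rw [hu, dv_apply]; simp [ha]
  have u3 := k1 u u1 u2 l hl (by
    rw [hu, dv_apply, Pi.smul_apply, smul_eq_mul, inv_mul_cancel₀ hl, Derivation.map_one_eq_zero])
  simpa using add_mem (k1 (y - (y l' / u l') • u) (sub_mem hy (Y.smul_mem _ u1))
    (fun a ha => by simp [ha, u2 a ha]) l' (mt (u2 l') hl') (by simp [hl']))
    (W.smul_mem (y l' / u l') u3)

lemma maxp {α : Type} [Nonempty α] (F : α → ℝ) (c : ℝ) (hc : ∀ Y, F Y ≤ c)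
    (h : ∀ Y, F Y ≤ 0 ∨ ∃ Y1 Y2, 2 * F Y + 1 ≤ F Y1 + F Y2) (Y : α) : F Y ≤ 0 := by
  have b : BddAbove (Set.range F) := ⟨c, by rintro _ ⟨Y, rfl⟩; exact hc Y⟩
  have := ciSup_le (f := F) (c := max 0 (iSup F - 1 / 2)) fun Y => (h Y).elim le_max_of_le_left
    fun ⟨Y1, Y2, e⟩ => le_max_of_le_right (by linarith [le_ciSup b Y1, le_ciSup b Y2])
  rcases le_max_iff.1 this with h | h <;> linarith [le_ciSup b Y]

variable {R : Fam k K} {x : Fin 3 → K} {j0 : ℕ} {G : Fam k (Fin r → K)}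

lemma cap_fg (hx : Hsop R x j0) (hG : Good R x G) (Y : Submodule K (Fin r → K)) :
    FG x (cap G Y) := hG.1.sub ((cap_rst hG.2.1 Y).st hx.1) fun _ => inf_le_left

lemma rk_cap (hR : Gr R) (hx : Hsop R x j0) (hG : Good R x G) (Y : Submodule K (Fin r → K)) :
    rk (cap G Y) = rk R * finrank K Y := by
  rw [(rk_eq hR hx.1 (hx.fg hR) (cap_fg hx hG Y) (cap_rst hG.2.1 Y)).2, spK_cap hR hG.2.1, hG.2.2,
    top_inf_eq]

lemma destab (hR : Gr R) (hx : Hsop R x j0) (hG : Good R x G) {δ : ℕ} (D : Derivation k K K)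
    (hD : ∀ m, ∀ u ∈ G m, dv D u ∈ G (m + δ)) {Y : Submodule K (Fin r → K)}
    (h : ¬ ∀ y ∈ Y, dv D y ∈ Y) : ∃ (Y1 Y2 : Submodule K (Fin r → K)) (s : ℝ), 1 ≤ s ∧
      (finrank K Y1 : ℝ) = finrank K Y - s ∧ (finrank K Y2 : ℝ) = finrank K Y + s ∧
      2 * fd R (cap G Y) ≤ fd R (cap G Y1) + fd R (cap G Y2) + s * (rk R * δ) := by
  obtain ⟨Y1, Y2, h1, h2, h3, h4⟩ := split D Y
  have h5 := Submodule.finrank_lt_finrank_of_lt (lt_of_le_of_ne h2 fun e => h (e ▸ h3))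
  replace h4 : (finrank K Y1 : ℝ) + finrank K Y2 = 2 * finrank K Y := by exact_mod_cast h4
  replace h5 : (finrank K Y : ℝ) + 1 ≤ finrank K Y2 := by exact_mod_cast h5
  refine ⟨Y1, Y2, finrank K Y2 - finrank K Y, by linarith, by linarith, by ring, ?_⟩
  obtain ⟨m0, e0⟩ := (cap_fg hx hG Y).isHP
  obtain ⟨m1, e1⟩ := (cap_fg hx hG Y1).isHP
  obtain ⟨m2, e2⟩ := (cap_fg hx hG Y2).isHP
  have := (poly_le (a := 2 * rk (cap G Y)) (b := 2 * dg (cap G Y) + rk (cap G Y) * δ)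
    (c := cs (cap G Y) + HP (cap G Y) δ) (a' := rk (cap G Y1) + rk (cap G Y2))
    (b' := dg (cap G Y1) + dg (cap G Y2) + rk (cap G Y2) * δ)
    (c' := cs (cap G Y1) + HP (cap G Y2) δ) (m0 := max m0 (max m1 m2)) fun m hm => by
      have := (cap_fg hx hG Y).fin m
      have := (cap_fg hx hG Y).fin (m + δ)
      have := (cap_fg hx hG Y1).fin m
      have := (cap_fg hx hG Y2).fin (m + δ)
      have a := dR_adj (dv D) (cap G Y m) (cap G Y (m + δ))
      have b := dR_mono (A := cap G Y (m + δ) ⊔ (cap G Y m).map (dv D)) (B := cap G Y2 (m + δ))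
        (sup_le (fun u hu => ⟨hu.1, h2 hu.2⟩) (by
          rintro _ ⟨u, hu, rfl⟩; exact ⟨hD m u hu.1, h3 u hu.2⟩))
      have c := dR_mono (A := cap G Y m ⊓ (cap G Y (m + δ)).comap (dv D)) (B := cap G Y1 m)
        fun u hu => ⟨hu.1.1, h1 u hu.1.2 hu.2.2⟩
      rw [← hf_def, ← hf_def, e0 _ (by omega), e0 _ (by omega)] at a
      rw [← hf_def, e2 _ (by omega)] at b
      rw [← hf_def, e1 _ (by omega)] at c
      simp only [HP] at a b c ⊢
      push_cast at a b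
      linarith).2.1 (by simp only [rk_cap hR hx hG]; rw [← mul_add, h4]; ring)
  simp only [fd, rk_cap hR hx hG] at this ⊢
  rw [show (finrank K Y1 : ℝ) = 2 * finrank K Y - finrank K Y2 by linarith]
  linarith

lemma bound (hR : Gr R) (hx : Hsop R x j0) (hd : 0 < rk R) (hG : Good R x G) {δ : ℕ}
    (D : Fin 2 → Derivation k K K) (hD : ∀ i m, ∀ u ∈ G m, dv (D i) u ∈ G (m + δ)) (α β : ℝ)
    (h : ∀ Y : Submodule K (Fin r → K), (∀ i, ∀ y ∈ Y, dv (D i) y ∈ Y) →
      fd R (cap G Y) ≤ α * finrank K Y + β) (Y : Submodule K (Fin r → K)) :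
    fd R (cap G Y) ≤ α * finrank K Y + β +
      (rk R * δ + 1) / 2 * (finrank K Y * (r - finrank K Y)) := by
  have e0 : 0 ≤ rk R * δ := by positivity
  have t1 : ∀ Y : Submodule K (Fin r → K), (finrank K Y : ℝ) ≤ r := fun Y => by
    exact_mod_cast Y.finrank_le.trans_eq (Module.finrank_fin_fun K)
  have t2 : ∀ Y : Submodule K (Fin r → K),
      0 ≤ (rk R * δ + 1) / 2 * (finrank K Y * (r - finrank K Y)) := fun Y =>
    mul_nonneg (by positivity) (mul_nonneg (Nat.cast_nonneg _) (sub_nonneg.2 (t1 Y)))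
  obtain ⟨c, hc⟩ := dg_bdd (hx.ind hR hd) hG.1
  refine sub_nonpos.1 (maxp (fun Y : Submodule K (Fin r → K) => fd R (cap G Y) -
    (α * finrank K Y + β + (rk R * δ + 1) / 2 * (finrank K Y * (r - finrank K Y))))
    (c + |rk R * cen R - α| * r - β) (fun Y => ?_) (fun Y => ?_) Y)
  · have a := hc _ (cap_fg hx hG Y).st fun _ => inf_le_left
    have b := mul_le_mul (le_abs_self (rk R * cen R - α)) (t1 Y) (Nat.cast_nonneg _) (abs_nonneg _)
    simp only [fd, rk_cap hR hx hG]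
    linarith [t2 Y]
  by_cases hs : ∀ i, ∀ y ∈ Y, dv (D i) y ∈ Y
  · exact .inl (by linarith [h Y hs, t2 Y])
  obtain ⟨i, hi⟩ := not_forall.1 hs
  obtain ⟨Y1, Y2, s, s1, s2, s3, s4⟩ := destab hR hx hG (D i) (hD i) hi
  refine .inr ⟨Y1, Y2, ?_⟩
  simp only [s2, s3]
  nlinarith [mul_nonneg e0 (mul_nonneg (zero_le_one.trans s1) (sub_nonneg.2 s1))]

end Ins

open Ins in
theorem inst (hF : FlatStmt) (hS : S1Stmt) : HStmt := by
  intro k K _ _ _ R x j0 p δ h1 h2 h3 hR hx hd hc hs ⟨D, d1, d2⟩ r G a b hG hW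
  obtain ⟨f1, -, -, f4, -⟩ := hF k K R x j0 p h1 h2 h3 hR hx hd hc
  replace hS := hS k K R x j0 p h1 h2 h3 hR hx hd hc hs r
  have := charP_of_injective_algebraMap (algebraMap k K).injective p
  have := Fact.mk h2
  obtain ⟨g1, g2⟩ := f1 r G hG.1 hG.2.1
  have hG' : Good R x (frv R p G) := by
    refine ⟨g1, g2, Submodule.eq_top_of_finrank_eq ?_⟩
    have a := (hS G hG.1 hG.2.1).1
    rw [(rk_eq hR hx.1 (hx.fg hR) g1 g2).2, (rk_eq hR hx.1 (hx.fg hR) hG.1 hG.2.1).2, hG.2.2,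
      finrank_top] at a
    exact_mod_cast mul_left_cancel₀ hd.ne' a
  have hD : ∀ i m, ∀ u ∈ frv R p G m, dv (D i) u ∈ frv R p G (m + δ) := fun i m u hu => by
    refine (Submodule.span_le (p := (frv R p G (m + δ)).comap (dv (D i)))).2 ?_ hu
    rintro _ ⟨j, c, w, c1, w1, rfl⟩
    refine Submodule.subset_span ⟨j, D i c, w, by
      rw [show m + δ - p * j = m - p * j + δ by ring]; exact d1 i _ c c1, w1, ?_⟩
    rw [dv_smul, add_eq_right, show dv (D i) (fun l => w l ^ p) = 0 from funext fun l => by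
      simp [dv_apply, Derivation.leibniz_pow], smul_zero]
  have st : ∀ Y : Submodule K (Fin r → K), (∀ i, ∀ y ∈ Y, dv (D i) y ∈ Y) →
      ∃ Y0 : Submodule K (Fin r → K), (finrank K Y0 : ℝ) = finrank K Y ∧
        fd R (cap (frv R p G) Y) = p * fd R (cap G Y0) := fun Y hY => by
    let Y0 : Submodule K (Fin r → K) :=
      { carrier := {w | (fun l => w l ^ p) ∈ Y}
        add_mem' := fun {u w} hu hw => by
          simp only [Set.mem_ofPred_eq, Pi.add_apply, add_pow_char]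
          exact add_mem hu hw
        zero_mem' := by
          simp only [Set.mem_ofPred_eq, Pi.zero_apply, zero_pow h2.ne_zero]
          exact zero_mem Y
        smul_mem' := fun c w hw => by
          simp only [Set.mem_ofPred_eq, Pi.smul_apply, smul_eq_mul, mul_pow]
          exact Y.smul_mem (c ^ p) hw }
    have e : Submodule.span K ((fun (w : Fin r → K) l => w l ^ p) '' Y0) = Y :=
      le_antisymm (Submodule.span_le.2 (by rintro _ ⟨w, hw, rfl⟩; exact hw))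
        (descend D hY fun y hy h => by
          choose w hw using fun l => d2 (y l) fun i => congrFun (h i) l
          obtain rfl : y = fun l => w l ^ p := funext hw
          exact Submodule.subset_span ⟨w, hy, rfl⟩)
    obtain ⟨m0, f4⟩ := f4 r G Y0 hG.1 hG.2.1
    rw [e] at f4
    obtain ⟨a1, a2, -⟩ := hp_congr (G := cap (frv R p G) Y) (U := frv R p (cap G Y0))
      fun m hm => by rw [hf_def, hf_def, f4 m hm]
    obtain ⟨b1, b2, -⟩ := hS _ (cap_fg hx hG Y0) (cap_rst hG.2.1 Y0)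
    refine ⟨Y0, mul_left_cancel₀ hd.ne' ?_, by rw [← b2, fd, fd, a1, a2]⟩
    rw [← rk_cap hR hx hG, ← rk_cap hR hx hG', a1, b1]
  have p0 : (0 : ℝ) ≤ p := Nat.cast_nonneg _
  refine ⟨hG', fun Y => ?_⟩
  have t0 : (0 : ℝ) ≤ finrank K Y := Nat.cast_nonneg _
  have t1 : (finrank K Y : ℝ) ≤ r := by
    exact_mod_cast Y.finrank_le.trans_eq (Module.finrank_fin_fun K)
  have e0 : 0 ≤ rk R * δ := by positivity
  have a1 := bound hR hx hd hG' D hD (p * a) 0 (fun Y hY => by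
    obtain ⟨Y0, y1, y2⟩ := st Y hY
    rw [y2, ← y1, add_zero, mul_assoc]
    exact mul_le_mul_of_nonneg_left (hW Y0).1 p0) Y
  have a2 := bound hR hx hd hG' D hD (p * b) (fd R (frv R p G) - p * b * r) (fun Y hY => by
    obtain ⟨Y0, y1, y2⟩ := st Y hY
    rw [y2, ← y1, (hS G hG.1 hG.2.1).2.1]
    linarith [mul_le_mul_of_nonneg_left (hW Y0).2 p0]) Y
  have t2 := sub_nonneg.2 t1
  constructor
  · nlinarith [mul_nonneg t0 t0, mul_nonneg t0 t2, mul_nonneg e0 (mul_nonneg t0 t0),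
      mul_nonneg e0 (mul_nonneg t0 t2)]
  · nlinarith [mul_nonneg t2 t2, mul_nonneg t0 t2, mul_nonneg e0 (mul_nonneg t2 t2),
      mul_nonneg e0 (mul_nonneg t0 t2)]

end Vale.Agent.P190
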