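import Vale.Agent.P190.Geo

/-! P190-C: the Kummer cover, its Galois group, independence of standard monomials. -/

namespace Vale.Agent.P190

open Module MvPolynomial

namespace Ku

noncomputable def ll (k : Type) [Field k] : Fin 10 → MvPolynomial (Fin 2) k :=
  ![1, X 0, X 1, 1, X 0 - 1, X 1 - 1, 1, X 1 - X 0, 1, 1]

theorem pr {k : Type} [Field k] (w : Fin 2 → MvPolynomial (Fin 2) k) (h : ∀ i, aeval w (w i) = X i)
    (i : Fin 2) : Prime (-w i) := by
  have e : (aeval w : MvPolynomial (Fin 2) k →ₐ[k] _).comp (aeval w) = AlgHom.id k _ :=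
    algHom_ext fun i => by simpa using h i
  simpa using ((MulEquiv.prime_iff (AlgEquiv.ofAlgHom _ _ e e)).2 (X_prime (i := i))).neg

theorem ll_prime (k : Type) [Field k] (i : Fin 5) : Prime (ll k (ng i)) := by
  fin_cases i
  · exact X_prime
  · exact X_prime
  · exact (congrArg Prime (neg_sub _ _)).mp
      (pr ![1 - X 0, X 1] (fun i => by fin_cases i <;> simp) 0)
  · exact (congrArg Prime (neg_sub _ _)).mp
      (pr ![X 0, 1 - X 1] (fun i => by fin_cases i <;> simp) 1)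
  · exact (congrArg Prime (neg_sub _ _)).mp
      (pr ![X 0, X 0 - X 1] (fun i => by fin_cases i <;> simp) 1)

theorem ll_dvd (k : Type) [Field k] (i j : Fin 5) (h : ll k (ng i) ∣ ll k (ng j)) : i = j := by
  obtain ⟨q, h⟩ := h
  have h0 := congrArg (eval ![0, 0]) h
  have h1 := congrArg (eval ![0, 1]) h
  have h2 := congrArg (eval ![1, 0]) h
  have h3 := congrArg (eval ![1, 1]) h
  fin_cases i <;> fin_cases j <;> simp [ll, ng] at h0 h1 h2 h3 ⊢

theorem mult {A ι : Type} [CommRing A] [IsDomain A] [WfDvdMonoid A] [Fintype ι] {p : ι → A}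
    (hp : ∀ i, Prime (p i)) (hd : ∀ i j, p i ∣ p j → i = j) {f : A} (hf : f ≠ 0) (i : ι) :
    ∃ t : ℕ, ∀ a : ι → ℕ, emultiplicity (p i) (f ^ 101 * ∏ j, p j ^ a j) = (101 * t + a i : ℕ) := by
  refine ⟨multiplicity (p i) f, fun a => ?_⟩
  rw [emultiplicity_mul (hp i), emultiplicity_pow (hp i), Finset.emultiplicity_prod (hp i),
    (FiniteMultiplicity.of_prime_left (hp i) hf).emultiplicity_eq_multiplicity,
    Finset.sum_eq_single i (fun j _ n => by
      rw [emultiplicity_pow (hp i), emultiplicity_eq_zero.2 fun d => n (hd _ _ d).symm, mul_zero])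
      (by simp), emultiplicity_pow_self_of_prime (hp i)]
  norm_cast

theorem fan0 {a b c d e : ℕ} (h1 : a = 0 ∨ c = 0) (h2 : a = 0 ∨ d = 0)
    (h3 : b = 0 ∨ d = 0) (h4 : b = 0 ∨ e = 0) (h5 : c = 0 ∨ e = 0) :
    (c = 0 ∧ d = 0 ∧ e = 0) ∨ (a = 0 ∧ d = 0 ∧ e = 0) ∨ (a = 0 ∧ b = 0 ∧ e = 0) ∨
      (a = 0 ∧ b = 0 ∧ c = 0) ∨ (b = 0 ∧ c = 0 ∧ d = 0) := by
  rcases h1 with h1 | h1 <;> rcases h2 with h2 | h2 <;> rcases h3 with h3 | h3 <;>
    rcases h4 with h4 | h4 <;> rcases h5 with h5 | h5 <;> simp [*]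

theorem fan {a b c d e a' b' c' d' e' : ℕ}
    (h : (c = 0 ∧ d = 0 ∧ e = 0) ∨ (a = 0 ∧ d = 0 ∧ e = 0) ∨ (a = 0 ∧ b = 0 ∧ e = 0) ∨
      (a = 0 ∧ b = 0 ∧ c = 0) ∨ (b = 0 ∧ c = 0 ∧ d = 0))
    (g : (c' = 0 ∧ d' = 0 ∧ e' = 0) ∨ (a' = 0 ∧ d' = 0 ∧ e' = 0) ∨ (a' = 0 ∧ b' = 0 ∧ e' = 0) ∨
      (a' = 0 ∧ b' = 0 ∧ c' = 0) ∨ (b' = 0 ∧ c' = 0 ∧ d' = 0))
    (u : d + c + a' = d' + c' + a) (w : e + b' + c' = e' + b + c) :
    a = a' ∧ b = b' ∧ c = c' ∧ d = d' ∧ e = e' := by
  rcases h with h | h | h | h | h <;> rcases g with g | g | g | g | g <;> omega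

theorem std0 {c : Fin 10 → ℕ} (s : Std c) {x y : Fin 10} (q : Fin 5) (hx : pl q 0 = x)
    (hy : pl q 1 = y) : c x / 101 = 0 ∨ c y / 101 = 0 := by
  have := s q
  rw [hx, hy] at this
  omega

theorem std1 {c : Fin 10 → ℕ} (s : Std c) :
    (c 5 / 101 = 0 ∧ c 6 / 101 = 0 ∧ c 8 / 101 = 0) ∨ (c 1 / 101 = 0 ∧ c 6 / 101 = 0 ∧ c 8 / 101 = 0) ∨
    (c 1 / 101 = 0 ∧ c 2 / 101 = 0 ∧ c 8 / 101 = 0) ∨ (c 1 / 101 = 0 ∧ c 2 / 101 = 0 ∧ c 5 / 101 = 0) ∨
    (c 2 / 101 = 0 ∧ c 5 / 101 = 0 ∧ c 6 / 101 = 0) :=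
  fan0 (std0 s 0 rfl rfl) (std0 s 1 rfl rfl) (std0 s 2 rfl rfl) (std0 s 3 rfl rfl) (std0 s 4 rfl rfl)

theorem dm {x y : ℕ} (h : x % 101 = y % 101) :
    (x : ℤ) - y = 101 * ((x / 101 : ℕ) - (y / 101 : ℕ)) := by
  omega

theorem md {x y : ℕ} {z : ℤ} (h : (x : ℤ) - y = 101 * z) : x % 101 = y % 101 := by
  omega

theorem ray_eq {m : ℤ} {c c' : Fin 10 → ℕ} (h : Ray m c) (h' : Ray m c') (d1 : c 1 = c' 1)
    (d2 : c 2 = c' 2) (d5 : c 5 = c' 5) (d6 : c 6 = c' 6) (d8 : c 8 = c' 8) : c = c' := by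
  simp only [Ray] at h h'
  ext e
  fin_cases e <;> simp only [Fin.reduceFinMk] <;> omega

theorem ray_df {m : ℤ} {c c' : Fin 10 → ℕ} (h : Ray m c) (h' : Ray m c') :
    (c 6 : ℤ) - c' 6 = (c 7 - c' 7) + (c 1 - c' 1) + (c 2 - c' 2) ∧
      (c 8 : ℤ) - c' 8 = -(c 7 - c' 7) - (c 1 - c' 1) - (c 4 - c' 4) := by
  simp only [Ray] at h h'
  omega

theorem inj {m : ℤ} {c c' : Fin 10 → ℕ} (h : Ray m c) (h' : Ray m c') (s : Std c) (s' : Std c')
    (r1 : c 1 % 101 = c' 1 % 101) (r2 : c 2 % 101 = c' 2 % 101) (r4 : c 4 % 101 = c' 4 % 101)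
    (r5 : c 5 % 101 = c' 5 % 101) (r7 : c 7 % 101 = c' 7 % 101)
    (e1 : c 1 / 101 + c 4 / 101 = c' 1 / 101 + c' 4 / 101)
    (e2 : c 2 / 101 + c 5 / 101 + c 7 / 101 = c' 2 / 101 + c' 5 / 101 + c' 7 / 101) : c = c' := by
  have f := fan (std1 s) (std1 s')
  replace r1 := dm r1
  replace r2 := dm r2
  replace r4 := dm r4
  replace r5 := dm r5
  replace r7 := dm r7
  obtain ⟨a6, a8⟩ := ray_df h h'
  have r6 := dm (md (a6.trans (by rw [r7, r1, r2, ← mul_add, ← mul_add])))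
  have r8 := dm (md (a8.trans (by rw [r7, r1, r4, ← mul_neg, ← mul_sub, ← mul_sub])))
  have e := ray_eq h h'
  clear h h'
  generalize c 1 / 101 = q1, c 2 / 101 = q2, c 4 / 101 = q4, c 5 / 101 = q5, c 6 / 101 = q6,
    c 7 / 101 = q7, c 8 / 101 = q8, c' 1 / 101 = p1, c' 2 / 101 = p2, c' 4 / 101 = p4,
    c' 5 / 101 = p5, c' 6 / 101 = p6, c' 7 / 101 = p7, c' 8 / 101 = p8 at *
  obtain ⟨rfl, rfl, rfl, rfl, rfl⟩ := f (by zify at e1 e2 ⊢; linarith) (by zify at e1 e2 ⊢; linarith)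
  rw [sub_self, mul_zero, sub_eq_zero, Nat.cast_inj] at r1 r2 r5 r6 r8
  exact e r1 r2 r5 r6 r8

variable {k K : Type} [Field k] [Field K] [Algebra k K] {v : Fin 10 → K}

theorem hl (h : KD k v) (e : Fin 10) : aeval ![v 1 ^ 101, v 2 ^ 101] (ll k e) = v e ^ 101 := by
  fin_cases e <;> simp [ll, h.g0, h.g3, h.g6, h.g8, h.g9, h.r4, h.r5, h.r7]

theorem pm (h : KD k v) (e : Fin 10) : v e ^ 101 ∈ K0 k v := hl h e ▸ Ge.ev_K0 _

theorem vne (h : KD k v) (e : Fin 10) : v e ≠ 0 := fun z => by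
  have := hl h e
  rw [z, zero_pow (by norm_num)] at this
  have := h.ai.eq_zero_of_aeval_eq_zero _ this
  have h1 := congrArg (eval ![0, 1]) this
  have h2 := congrArg (eval ![1, 0]) this
  fin_cases e <;> simp [ll] at h1 h2

theorem spl {n : ℕ} (hn : 0 < n) {ζ : K} (hζ : IsPrimitiveRoot ζ n) (x : K) {f : Polynomial k}
    {a : k} (e : x ^ n = algebraMap k K a) (h : f ∣ Polynomial.X ^ n - Polynomial.C a) :
    (f.map (algebraMap k K)).Splits :=
  (X_pow_sub_C_splits_of_isPrimitiveRoot hζ e).of_dvd (Polynomial.X_pow_sub_C_ne_zero hn _)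
    (by simpa using Polynomial.map_dvd (algebraMap k K) h)

theorem gal1 (h : KD k v) : IsGalois (K0 k v) K ∧ FiniteDimensional (K0 k v) K := by
  have := h.ac
  have : NeZero ((101 : ℕ) : k) := ⟨by exact_mod_cast h.ch⟩
  obtain ⟨ζ, hζ⟩ := HasEnoughRootsOfUnity.exists_primitiveRoot k 101
  have t := IntermediateField.adjoin_eq_top_of_adjoin_eq_top (E := K0 k v) k h.top
  have d : ∀ e, minpoly (K0 k v) (v e) ∣ Polynomial.X ^ 101 - Polynomial.C ⟨_, pm h e⟩ :=
    fun e => minpoly.dvd _ _ (by simp)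
  have i : ∀ x ∈ Set.range v, IsIntegral (K0 k v) x := by
    rintro _ ⟨e, rfl⟩
    exact .of_pow (by norm_num : 0 < 101) (isIntegral_algebraMap (x := (⟨_, pm h e⟩ : K0 k v)))
  have f := IntermediateField.finiteDimensional_adjoin i
  rw [t] at f
  have f := IntermediateField.topEquiv.toLinearEquiv.finiteDimensional (K := K0 k v) (V₂ := K)
  have s := (IntermediateField.isSeparable_adjoin_iff_isSeparable (K0 k v) K (S := Set.range v)).2 (by
    rintro _ ⟨e, rfl⟩
    refine (Polynomial.separable_X_pow_sub_C _ ?_ fun z => ?_).of_dvd (d e)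
    · rw [← map_natCast (algebraMap k (K0 k v)), map_ne_zero]
      exact this.ne
    · exact pow_ne_zero 101 (vne h e) (congrArg Subtype.val z))
  rw [t] at s
  have := AlgEquiv.Algebra.isSeparable (IntermediateField.topEquiv (F := K0 k v) (E := K))
  have : Normal (K0 k v) K := normal_iff.2 fun x => ⟨.of_finite (K0 k v) x,
    IntermediateField.splits_of_mem_adjoin (K0 k v) K (L := K) (S := Set.range v) (fun y hy => ⟨i y hy, by
      obtain ⟨e, rfl⟩ := hy
      exact spl (by norm_num) (hζ.map_of_injective (algebraMap k K).injective) _ rfl (d e)⟩) (t.ge trivial)⟩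
  exact ⟨{}, f⟩

theorem chi {ι G : Type} [Fintype ι] [Monoid G] (χ : ι → G →* K) (h : Function.Injective χ)
    (d : ι → K) (e : ∀ g, ∑ a, d a * χ a g = 0) (a : ι) : d a = 0 :=
  Fintype.linearIndependent_iff.1 ((linearIndependent_monoidHom G K).comp χ h) d
    (funext fun g => by simpa using e g) a

theorem gal2 (h : KD k v) :
    LinearIndependent (K0 k v) fun a : Fin 5 → Fin 101 => ∏ i, v (ng i) ^ (a i : ℕ) := by
  have := h.ac
  obtain ⟨_, _⟩ := gal1 h
  set b := fun a : Fin 5 → Fin 101 => ∏ i, v (ng i) ^ (a i : ℕ)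
  have b0 : ∀ a, b a ≠ 0 := fun a =>
    Finset.prod_ne_zero_iff.2 fun i _ => pow_ne_zero _ (vne h _)
  have b1 : ∀ a, b a ^ 101 = aeval ![v 1 ^ 101, v 2 ^ 101] (∏ i, ll k (ng i) ^ (a i : ℕ)) := fun a => by
    simp only [b, map_prod, map_pow, hl h, ← Finset.prod_pow, ← pow_mul, mul_comm]
  have c1 : ∀ a (g : Gal(K/K0 k v)), ∃ s : k, algebraMap k K s = g (b a) / b a := fun a g =>
    Ge.alg (c := 1) (by
      have m := Ge.ev_K0 (v := v) (∏ i, ll k (ng i) ^ (a i : ℕ))
      rw [← b1] at m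
      rw [div_pow, ← map_pow, show g (b a ^ 101) = b a ^ 101 from g.commutes ⟨_, m⟩, map_one]
      exact div_self (pow_ne_zero _ (b0 a)))
  let χ : (Fin 5 → Fin 101) → Gal(K/K0 k v) →* K := fun a =>
    { toFun := fun g => g (b a) / b a
      map_one' := div_self (b0 a)
      map_mul' := fun g g' => by
        obtain ⟨s, hs⟩ := c1 a g'
        have e : g' (b a) = algebraMap k K s * b a := by rw [hs, div_mul_cancel₀ _ (b0 a)]
        rw [AlgEquiv.mul_apply, ← hs, e, map_mul,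
          show g (algebraMap k K s) = _ from (g.restrictScalars k).commutes s]
        ring }
  have ci : Function.Injective χ := fun a a' e => by
    obtain ⟨t, ht⟩ := (IsGalois.mem_range_algebraMap_iff_fixed (F := K0 k v) (b a / b a')).2 fun g => by
      have : g (b a) / b a = g (b a') / b a' := DFunLike.congr_fun e g
      rw [map_div₀, div_eq_div_iff ((map_ne_zero g).2 (b0 a')) (b0 a'), mul_comm (b a)]
      exact (div_eq_div_iff (b0 a) (b0 a')).1 this
    have m : (t : K) ∈ IntermediateField.adjoin k (Set.range ![v 1 ^ 101, v 2 ^ 101]) := by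
      simpa [K0, Set.pair_comm] using t.2
    obtain ⟨r, s, e⟩ := (IntermediateField.mem_adjoin_range_iff _ _ _).1 m
    rw [show (t : K) = _ from ht] at e
    have n := div_ne_zero (b0 a) (b0 a')
    rw [e, div_ne_zero_iff] at n
    rw [div_eq_div_iff (b0 a') n.2, mul_comm] at e
    have e := congrArg (· ^ 101) e
    simp only [mul_pow, b1, ← map_pow, ← map_mul] at e
    have e := h.ai e
    funext i
    obtain ⟨x, hx⟩ := mult (ll_prime k) (ll_dvd k) (f := s) (by rintro rfl; simp at n) i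
    obtain ⟨y, hy⟩ := mult (ll_prime k) (ll_dvd k) (f := r) (by rintro rfl; simp at n) i
    have := (hx _).symm.trans ((congrArg _ e).trans (hy _))
    rw [Nat.cast_inj] at this
    omega
  refine Fintype.linearIndependent_iff.2 fun c hc a => ?_
  have := chi χ ci (fun a => c a • b a) (fun g => by
    have := congrArg g hc
    simp only [map_sum, map_smul, map_zero] at this
    refine (Finset.sum_congr rfl fun a _ => ?_).trans this
    show (c a • b a) * (g (b a) / b a) = _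
    rw [smul_mul_assoc, mul_div_cancel₀ _ (b0 a)]) a
  exact (smul_eq_zero.1 this).resolve_right (b0 a)

theorem li {ι A : Type} [DecidableEq A] {f : ι → K} (L : A → K →ₗ[k] Polynomial k) (a : ι → A)
    (Q : ι → Polynomial k) (h0 : ∀ i, Q i ≠ 0) (h1 : ∀ x i, L x (f i) = if a i = x then Q i else 0)
    (h2 : ∀ i j, a i = a j → (Q i).natDegree = (Q j).natDegree → i = j) :
    LinearIndependent k f := by
  refine linearIndependent_iff'.2 fun s g e i hi => ?_
  have := congrArg (L (a i)) e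
  simp only [map_sum, map_smul, h1, map_zero] at this
  have d := Polynomial.degree_sum_eq_of_disjoint (fun j => g j • if a j = a i then Q j else 0) s (by
    rintro x ⟨-, hx⟩ y ⟨-, hy⟩ n e
    by_cases p : a x = a i <;> by_cases q : a y = a i <;> simp [p, q] at hx hy
    simp only [Function.comp, p, q, if_true, Polynomial.smul_eq_C_mul, Polynomial.degree_C_mul hx.1,
      Polynomial.degree_C_mul hy.1] at e
    exact n (h2 _ _ (p.trans q.symm) (Polynomial.natDegree_eq_of_degree_eq e)))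
  rw [this, Polynomial.degree_zero, eq_comm, Finset.sup_eq_bot_iff] at d
  simpa [h0] using d i hi

theorem deg (k : Type) [Field k] {N : ℕ} (hN : 2 ≤ N) (q : Fin 5 → ℕ) :
    (aeval ![Polynomial.X, (Polynomial.X : Polynomial k) ^ N] (∏ i, ll k (ng i) ^ q i)).Monic ∧
    (aeval ![Polynomial.X, (Polynomial.X : Polynomial k) ^ N] (∏ i, ll k (ng i) ^ q i)).natDegree =
      q 0 + q 2 + N * (q 1 + q 3 + q 4) := by
  have : ∀ i, (aeval ![Polynomial.X, (Polynomial.X : Polynomial k) ^ N] (ll k (ng i))).Monic ∧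
      (aeval ![Polynomial.X, (Polynomial.X : Polynomial k) ^ N] (ll k (ng i))).natDegree =
        ![1, N, 1, N, N] i := fun i => by
    have l : (Polynomial.X : Polynomial k).degree < (Polynomial.X ^ N : Polynomial k).degree := by
      simpa using (by omega : 1 < N)
    fin_cases i <;> simp [ll, ng]
    · exact ⟨Polynomial.monic_X_sub_C 1, Polynomial.natDegree_X_sub_C 1⟩
    · exact ⟨Polynomial.monic_X_pow_sub_C 1 (by omega), Polynomial.natDegree_X_pow_sub_C⟩
    · exact ⟨(Polynomial.monic_X_pow N).sub_of_left l, by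
        rw [Polynomial.natDegree_eq_of_degree_eq (Polynomial.degree_sub_eq_left_of_degree_lt l)]
        simp⟩
  simp only [map_prod, map_pow]
  refine ⟨Polynomial.monic_prod_of_monic _ _ fun i _ => (this i).1.pow _, ?_⟩
  rw [Polynomial.natDegree_prod_of_monic _ _ fun i _ => (this i).1.pow _]
  simp only [Polynomial.natDegree_pow, (this _).2]
  simp [Fin.sum_univ_succ]
  ring

end Ku

open Ku

theorem kum : KumStmt := by
  intro k _ hk h
  let φ := IsScalarTower.toAlgHom k (MvPolynomial (Fin 2) k)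
    (AlgebraicClosure (FractionRing (MvPolynomial (Fin 2) k)))
  have hφ : Function.Injective φ := (algebraMap (FractionRing (MvPolynomial (Fin 2) k)) _).injective.comp
    (IsFractionRing.injective (MvPolynomial (Fin 2) k) _)
  choose w hw using fun e => IsAlgClosed.exists_pow_nat_eq (φ (ll k e)) (by norm_num : 0 < 101)
  let w' := ![1, w 1, w 2, 1, w 4, w 5, 1, w 7, 1, 1]
  let K := IntermediateField.adjoin k (Set.range w')
  refine ⟨K, inferInstance, inferInstance,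
    fun e => ⟨w' e, IntermediateField.subset_adjoin _ _ ⟨e, rfl⟩⟩, hk, h, rfl, rfl, rfl, rfl, rfl,
    Subtype.ext ?_, Subtype.ext ?_, Subtype.ext ?_, .of_comp K.val ?_,
    K.lift_injective ?_⟩
  · show w 4 ^ 101 = w 1 ^ 101 - 1
    simp [hw, ll]
  · show w 5 ^ 101 = w 2 ^ 101 - 1
    simp [hw, ll]
  · show w 7 ^ 101 = w 2 ^ 101 - w 1 ^ 101
    simp [hw, ll]
  · refine (congrArg (fun x => AlgebraicIndependent k x) (funext fun i => ?_)).mp ((algebraicIndependent_X (Fin 2) k).map' hφ)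
    fin_cases i
    exacts [(hw 1).symm, (hw 2).symm]
  · rw [IntermediateField.lift_adjoin, IntermediateField.lift_top, ← Set.range_comp]
    rfl

theorem gal : GalStmt := fun _ _ _ _ _ _ h => ⟨(gal1 h).1, (gal1 h).2, gal2 h⟩

theorem ind (hG : GalStmt) : IndStmt := by
  intro k K _ _ _ v h m
  obtain ⟨g, hg⟩ := LinearMap.exists_leftInverse_of_injective _
    (LinearMap.ker_eq_bot.2 (hG k K v h).2.2)
  obtain ⟨r, hr⟩ := LinearMap.exists_leftInverse_of_injective
    (aeval ![v 1 ^ 101, v 2 ^ 101] : MvPolynomial (Fin 2) k →ₐ[k] K).toLinearMap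
    (LinearMap.ker_eq_bot.2 h.ai)
  set N := (2 * m).toNat + 2
  refine li (fun a => (aeval ![Polynomial.X, Polynomial.X ^ N]).toLinearMap ∘ₗ r ∘ₗ
      (K0 k v).val.toLinearMap ∘ₗ (Finsupp.lapply a ∘ₗ g).restrictScalars k)
    (fun c i => Fin.ofNat 101 (c.1 (ng i))) _
    (fun c => (deg k (N := N) (by omega) fun i => c.1 (ng i) / 101).1.ne_zero) (fun a c => ?_)
    fun c c' e d => Subtype.ext ?_
  · have e : mon v c = (⟨_, Ge.ev_K0 (∏ i, ll k (ng i) ^ (c.1 (ng i) / 101))⟩ : K0 k v) •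
        ∏ i, v (ng i) ^ ((Fin.ofNat 101 (c.1 (ng i)) : Fin 101) : ℕ) := by
      show _ = aeval ![v 1 ^ 101, v 2 ^ 101] (∏ i, ll k (ng i) ^ (c.1 (ng i) / 101)) * _
      simp only [map_prod, map_pow, hl h, Fin.val_ofNat, ← Finset.prod_mul_distrib, ← pow_mul,
        ← pow_add, Nat.div_add_mod]
      simp [mon, Fin.prod_univ_succ, ng, h.g0, h.g3, h.g6, h.g8, h.g9]
    have := LinearMap.congr_fun hg (Finsupp.single (fun i => Fin.ofNat 101 (c.1 (ng i)))
      ⟨_, Ge.ev_K0 (∏ i, ll k (ng i) ^ (c.1 (ng i) / 101))⟩)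
    rw [LinearMap.comp_apply, Finsupp.linearCombination_single, ← e] at this
    simp only [LinearMap.comp_apply, LinearMap.restrictScalars_apply, this, Finsupp.lapply_apply,
      LinearMap.id_apply, Finsupp.single_apply]
    split_ifs
    · exact congrArg _ (LinearMap.congr_fun hr _)
    · simp
  · rw [(deg k (by omega) _).2, (deg k (by omega) _).2] at d
    have b : ∀ c : Fin 10 → ℕ, Ray m c → c (ng 0) / 101 + c (ng 2) / 101 < N := fun c hc => by
      show c 1 / 101 + c 4 / 101 < N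
      simp only [Ray] at hc
      omega
    have d1 := congrArg (· % N) d
    simp only [Nat.add_mul_mod_self_left, Nat.mod_eq_of_lt (b _ c.2.1),
      Nat.mod_eq_of_lt (b _ c'.2.1)] at d1
    rw [d1, add_left_cancel_iff, mul_right_inj' (by omega)] at d
    have r := fun i => congrArg Fin.val (congrFun e i)
    exact inj c.2.1 c'.2.1 c.2.2 c'.2.2 (r 0) (r 1) (r 2) (r 3) (r 4) d1 d

end Vale.Agent.P190
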