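import Vale.Agent.P190.Lat3

namespace Vale.Agent.P190

open Module

namespace La

variable {k K F : Type} [Field k] [Field K] [Field F] [Algebra k K] [Algebra k F]
  {R : Fam k K} {x : Fin 3 → K} {N T : ℕ} {xb : Fin 3 → F}

lemma exists_act (h : Rep R x N T) (xb : Fin 3 → F) :
    ∃ ρ : ℤ → K →ₗ[k] End F (Om F N T), Act R x xb ρ := by
  obtain ⟨θ, h1, h2⟩ := h
  let s0 : End F (Om F 1 T) := sh 1
  let φ : MvPolynomial (Fin 3) k →ₐ[k] Polynomial F :=
    MvPolynomial.aeval fun i => Polynomial.C (xb i) * Polynomial.X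
  let τ1 : MvPolynomial (Fin 3) k →ₐ[k] End F (Om F 1 T) :=
    ((Polynomial.aeval s0).restrictScalars k).comp φ
  have hX : ∀ i, τ1 (MvPolynomial.X i) = xb i • s0 := fun i => by
    simp [τ1, φ, Algebra.smul_def]
  have hk : ∀ f ∈ Ideal.span (Set.range (MvPolynomial.X : Fin 3 → MvPolynomial (Fin 3) k)) ^ T,
      τ1 f = 0 := fun f hf => by
    have h3 : φ f ∈ Ideal.span {(Polynomial.X : Polynomial F)} ^ T := by
      refine Ideal.le_comap_pow φ.toRingHom T (Ideal.pow_right_mono (Ideal.span_le.2 ?_) T hf)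
      rintro _ ⟨i, rfl⟩
      simpa [φ] using Ideal.mul_mem_left _ _ (Ideal.mem_span_singleton_self _)
    rw [Ideal.span_singleton_pow, Ideal.mem_span_singleton'] at h3
    obtain ⟨g, hg⟩ := h3
    have : s0 ^ T = 0 := by
      rw [sh_pow]; exact LinearMap.ext fun v => funext fun p => sh_DD T v p p.2.2
    simp [τ1, ← hg, this]
  let τ0 : Tr k T →ₐ[k] End F (Om F 1 T) :=
    { Ideal.Quotient.lift _ τ1.toRingHom hk with commutes' := fun r => τ1.commutes r }
  have hτ : ∀ f, τ0 (Ideal.Quotient.mk _ f) = τ1 f := fun _ => rfl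
  let c : Om F N T ≃ₗ[F] (Fin N → Om F 1 T) :=
    { toFun := fun v l p => v (l, p.2)
      invFun := fun w p => w p.1 (0, p.2)
      map_add' := fun _ _ => rfl
      map_smul' := fun _ _ => rfl
      left_inv := fun _ => rfl
      right_inv := fun w => by
        funext l ⟨a, i⟩
        rw [Subsingleton.elim a 0] }
  let α : Matrix (Fin N) (Fin N) (Tr k T) →ₐ[k] End F (Om F N T) :=
    (c.symm.conjAlgEquiv k).toAlgHom.comp
      ((endVecAlgEquivMatrixEnd (Fin N) k F (Om F 1 T)).symm.toAlgHom.comp τ0.mapMatrix)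
  have hα : ∀ M v p, α M v p = ∑ l, τ0 (M p.1 l) (c v l) (0, p.2) := fun M v p => by
    change (∑ l, τ0 (M p.1 l) (c v l)) (0, p.2) = _
    rw [Finset.sum_apply]
  have t1 : ∀ f, Commute (τ0 f) s0 ∧ ∀ n, ∀ v ∈ WW k xb 1 T n, τ0 f v ∈ WW k xb 1 T n := by
    intro f
    obtain ⟨f, rfl⟩ := Ideal.Quotient.mk_surjective f
    rw [hτ]
    induction f using MvPolynomial.induction_on with
    | C r =>
      rw [← MvPolynomial.algebraMap_eq, AlgHom.commutes]
      exact ⟨Algebra.commutes r _, fun n v hv => Submodule.smul_mem _ r hv⟩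
    | add f g hf hg =>
      rw [map_add]
      exact ⟨hf.1.add_left hg.1, fun n v hv => add_mem (hf.2 n v hv) (hg.2 n v hv)⟩
    | mul_X f i hf =>
      rw [map_mul, hX]
      exact ⟨hf.1.mul_left ((Commute.refl s0).smul_left _), fun n v hv => hf.2 n _ (by
        simpa using sh_W ((fg_Fr xb _).st i n v hv))⟩
  have cs : ∀ v l, c (sh 1 v) l = s0 (c v l) := fun v l => rfl
  refine ⟨fun m => α.toLinearMap ∘ₗ θ m, ⟨by simp [h1.1], fun i j a b ha hb _ => by
    simp [h1.2 i j a b ha hb le_top]⟩, fun m a => ?_, fun i => ?_, fun m a n v hv => ?_⟩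
  · refine LinearMap.ext fun v => funext fun p => ?_
    change α _ (sh 1 v) p = sh 1 (α _ v) p
    simp only [hα, cs, ← End.mul_apply, (t1 _).1.eq]
    simp only [End.mul_apply, s0, sh_apply, hα]
    split_ifs <;> simp
  · refine LinearMap.ext fun v => funext fun p => ?_
    change α _ v p = _
    rw [hα, h2, Finset.sum_eq_single p.1 (fun l _ hl => by simp [hl.symm]) (by simp)]
    simp only [Matrix.scalar_apply, Matrix.diagonal_apply_eq, hτ, hX]
    rfl
  · refine mem_Fr.2 fun p => ?_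
    change α _ v p ∈ _
    rw [hα]
    exact Submodule.sum_mem _ fun l _ =>
      mem_Fr.1 ((t1 _).2 n _ (mem_Fr.2 fun q => mem_Fr.1 hv (l, q.2))) (0, p.2)

/-- the discriminant of the special fibre -/
noncomputable def Pi (k : Type) [Field k] [Algebra k F] (xb : Fin 3 → F)
    (L : Submodule F (Om F N T)) : ℝ :=
  2 * N * PE k xb L 0 - (N * (T + 3 / 2) - rk (MM k xb L)) ^ 2

lemma PE_eq (L : Submodule F (Om F N T)) (y : ℝ) : 2 * N * PE k xb L y =
    (N * y + (N * (T + 3 / 2) - rk (MM k xb L))) ^ 2 + Pi k xb L := by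
  simp only [Pi, PE, dP]; ring

lemma num {A B z : ℝ} (hA : 1 ≤ A) (hB : 0 ≤ B) (h : 2 * (A + B) * z < 2 + A * B) : z ≤ 2 * A := by
  by_contra hc
  push Not at hc
  nlinarith [mul_pos (sub_pos.2 hc) (by linarith : 0 < A + B), mul_nonneg (by linarith : 0 ≤ A) hB]

end La

open La in
theorem lat : MStmt := by
  intro N j0 j hN hj
  refine ⟨2 * N ^ 2 * (1 + j0 ^ 2) + j0 + N ^ 2 + j + 3, fun k K _ _ _ R x hR hx hd hE hρ => ?_⟩
  generalize hT : 2 * N ^ 2 * (1 + j0 ^ 2) + j0 + N ^ 2 + j + 3 = T at hρ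
  have hd0 : 0 < rk R := by linarith
  have hN' : (1 : ℝ) ≤ N := by exact_mod_cast hN
  obtain ⟨F, xb, hb, h2, hi, hA⟩ := exists_bar (hx.ind hR hd0)
  obtain ⟨ρ, h⟩ := exists_act hρ xb
  obtain ⟨L0, hL0, i0⟩ := init hR hx h2 hi hA h (by omega)
  have lb : ∀ L : Submodule F (Om F N T), -(N : ℝ) ^ 2 / 4 ≤ Pi k xb L := fun L => by
    have h1 := PE_eq (k := k) (xb := xb) L (-(N * (T + 3 / 2) - rk (MM k xb L)) / N)
    have h3 := PE_ge hi L (-(N * (T + 3 / 2) - rk (MM k xb L)) / N)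
    rw [mul_div_cancel₀ _ (by positivity), neg_add_cancel] at h1
    nlinarith
  let S : Set ℝ := {t | ∃ L a, Lat R ρ L a ∧ a + j + 1 ≤ T ∧ t = Pi k xb L + a}
  have bS : BddBelow S := ⟨-(N : ℝ) ^ 2 / 4, by
    rintro _ ⟨L, a, -, -, rfl⟩
    have := lb L
    have : (0 : ℝ) ≤ a := Nat.cast_nonneg _
    linarith⟩
  have m0 : Pi k xb L0 + j0 ∈ S := ⟨L0, j0, hL0, by omega, rfl⟩
  obtain ⟨_, ⟨L, a, hL, ha, rfl⟩, hlt⟩ := exists_lt_of_csInf_lt ⟨_, m0⟩ (lt_add_one (sInf S))
  have ha' : a + 1 + j + 1 ≤ T := by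
    have h1 := csInf_le bS m0
    have h3 := PE_eq (k := k) (xb := xb) L0 (-j0)
    have h4 := lb L
    have : (a : ℝ) < 2 * N ^ 2 * (1 + j0 ^ 2) + j0 + N ^ 2 + 1 + 1 := by
      nlinarith [sq_nonneg (N * -(j0 : ℝ) + (N * (T + 3 / 2) - rk (MM k xb L0)))]
    have : a < 2 * N ^ 2 * (1 + j0 ^ 2) + j0 + N ^ 2 + 1 + 1 := by exact_mod_cast this
    omega
  obtain ⟨r, E, hE, e1, e2⟩ := latE hR hx hd0 hb h2 hA hj hE h hL ha
  obtain ⟨m1, f1⟩ := (fg_MM (k := k) (xb := xb) L).isHP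
  obtain ⟨r1, r2, r3⟩ := hp_eq (G := E) (a := N) (b := N * (T + 3 / 2) - rk (MM k xb L))
    (c := PE k xb L 0) (m0 := max m1 0) fun m hm => by
      rw [e1, f1 _ (by omega), f1 _ (by omega), hf_Ax hi (by omega)]
      simp only [HP, PE, dP]; push_cast; ring
  have q1 := (rk_eq hR hx.1 (hx.fg hR) hE.1 hE.2.1).2
  rw [hE.2.2, finrank_top, finrank_fin_fun, r1] at q1
  have hr : 1 ≤ r := Nat.pos_of_ne_zero fun e => by simp [e] at q1; omega
  have hr' : (1 : ℝ) ≤ r := by exact_mod_cast hr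
  refine ⟨r, E, hr, hE, r1, fun y => ?_, fun Y => ?_⟩
  · refine (PE_ge hi L y).trans_eq ?_
    simp only [HP, r1, r2, r3, PE, dP]; ring
  obtain ⟨L', hL', e3⟩ := e2 Y
  have fS := hE.1.sub ((cap_rst hE.2.1 Y).st hx.1) fun _ => inf_le_left
  have q2 := (rk_eq hR hx.1 (hx.fg hR) fS (cap_rst hE.2.1 Y)).2
  rw [spK_cap hR hE.2.1, hE.2.2, top_inf_eq] at q2
  obtain ⟨m2, f2⟩ := (fg_MM (k := k) (xb := xb) L').isHP
  obtain ⟨m3, f3⟩ := fS.isHP
  obtain ⟨m4, f4⟩ := hE.1.isHP
  obtain ⟨g1, g2, -⟩ := poly_eq (a := rk (MM k xb L) - rk (MM k xb L'))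
    (b := dg (MM k xb L) - dg (MM k xb L')) (c := cs (MM k xb L) - cs (MM k xb L'))
    (a' := rk E - rk (cap E Y)) (b' := dg E - dg (cap E Y)) (c' := cs E - cs (cap E Y))
    (m0 := max (max m1 m2) (max m3 m4)) fun m hm => by
      have := e3 m
      rw [f1 _ (by omega), f2 _ (by omega), f3 _ (by omega), f4 _ (by omega)] at this
      simp only [HP] at this
      linarith
  have key := csInf_le bS ⟨L', a + 1, hL', ha', rfl⟩
  have ht : finrank K Y ≤ r := by simpa using Submodule.finrank_le Y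
  set t := finrank K Y with htd
  have k2 : -2 < 2 * N * (dg E - dg (cap E Y)) - 2 * dg E * (N - rk R * t) +
      (N - rk R * t) * (rk R * t) := by
    simp only [La.Pi, PE, dP] at key hlt
    rw [r1, q2] at g1
    rw [show rk (MM k xb L') = rk (MM k xb L) - (N - rk R * t) by linarith,
      show dg (MM k xb L') = dg (MM k xb L) - (dg E - dg (cap E Y)) by linarith] at key
    rw [r2] at key ⊢
    push_cast at key
    nlinarith
  have e4 : ∀ z : ℝ, (dg E + rk R * r * z) / r = dg E / r + rk R * z := fun z => by field_simp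
  obtain ⟨μ, hμ⟩ : ∃ μ, dg E = μ * r := ⟨dg E / r, by field_simp⟩
  simp only [fd, r1, q2, q1, e4]
  rw [q1, hμ] at k2
  rw [hμ, mul_div_cancel_right₀ _ (by positivity)]
  have t0 : (0 : ℝ) ≤ t := Nat.cast_nonneg _
  have t1 : (t : ℝ) ≤ r := by exact_mod_cast ht
  constructor
  · rcases Nat.eq_zero_or_pos t with h0 | h0
    · have : cap E Y = fun _ => ⊥ := funext fun m => by
        rw [cap, Submodule.finrank_eq_zero.1 (show finrank K Y = 0 from h0)]; simp
      simp [this, hp_bot.2.1, h0]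
    · have := num (A := rk R * t) (B := rk R * (r - t)) (z := dg (cap E Y) - μ * t)
        (one_le_mul_of_one_le_of_one_le hd (by exact_mod_cast h0))
        (mul_nonneg hd0.le (by linarith)) (by linarith)
      linarith
  · rcases eq_or_lt_of_le ht with h0 | h0
    · have : cap E Y = E := funext fun m => by
        rw [cap, Submodule.eq_top_of_finrank_eq (S := Y) (by simpa using h0)]; simp
      rw [this, hμ, h0]; simp
    · have := num (A := rk R * (r - t)) (B := rk R * t) (z := dg (cap E Y) - μ * t)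
        (one_le_mul_of_one_le_of_one_le hd (by
          have : (t : ℝ) + 1 ≤ r := by exact_mod_cast h0
          linarith)) (mul_nonneg hd0.le t0) (by linarith)
      linarith

end Vale.Agent.P190
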