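import Vale.Agent.P190.Base

namespace Vale.Agent.P190.La

open Module MvPolynomial

variable {k K F : Type} [Field k] [Field K] [Field F] [Algebra k K] [Algebra k F] [Algebra F K]
  [IsScalarTower k F K] {R : Fam k K} {x : Fin 3 → K} {j0 : ℕ} {xb : Fin 3 → F}

lemma hom_ind {n : ℕ} {f : MvPolynomial (Fin 3) k} (hf : f.IsHomogeneous n)
    (Q : ℕ → MvPolynomial (Fin 3) k → Prop) (h0 : ∀ r : k, Q 0 (algebraMap k _ r))
    (h1 : ∀ n (w : Fin 3 → MvPolynomial (Fin 3) k), (∀ i, (w i).IsHomogeneous n) →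
      (∀ i, Q n (w i)) → Q (n + 1) (∑ i, X i * w i)) : Q n f := by
  have e : ∀ (n : ℕ) (f : MvPolynomial (Fin 3) k), f ∈ Ax k X n ↔ f.IsHomogeneous n := by
    intro n f; simp [mem_Ax]
  induction n generalizing f with
  | zero =>
    obtain ⟨r, rfl⟩ := Ax_zero X ((e 0 f).2 hf)
    exact h0 r
  | succ n ih =>
    obtain ⟨w, hw, rfl⟩ := Ax_succ X (m := n) (by omega) ((e (n + 1) f).2 hf)
    exact h1 n w (fun i => (e _ _).1 (hw i)) fun i => ih ((e _ _).1 (hw i))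

lemma aeval_bar (h2 : x 2 ≠ 0) (hb : ∀ i, algebraMap F K (xb i) = x i / x 2) {n : ℕ}
    {f : MvPolynomial (Fin 3) k} (hf : f.IsHomogeneous n) :
    aeval x f = x 2 ^ n * algebraMap F K (aeval xb f) := by
  refine hom_ind hf (fun n f => aeval x f = x 2 ^ n * algebraMap F K (aeval xb f))
    (fun r => by simp [← IsScalarTower.algebraMap_apply]) fun n w _ h => ?_
  simp only [map_sum, map_mul, aeval_X, h, hb, Finset.mul_sum]
  refine Finset.sum_congr rfl fun i _ => ?_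
  field_simp
  ring

lemma kact {V : Type} [AddCommGroup V] [Module k V] [Module F V] [IsScalarTower k F V]
    (hR : Gr R) (hx : Hsop R x j0) (hd : 0 < rk R) (hb : ∀ i, algebraMap F K (xb i) = x i / x 2)
    (hA : Gr (Ax k xb)) (θ : ℤ → K →ₗ[k] End F V) (hθ : MF R θ ⊤)
    (h1 : ∀ i, θ 1 (x i) = algebraMap F _ (xb i)) :
    ∃ Θ : K →+* End F V, (∀ a ∈ R 1, Θ (a / x 2) = θ 1 a) ∧
      ∀ f : F, Θ (algebraMap F K f) = algebraMap F _ f := by
  have h2 := (hx.ind hR hd).ne 2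
  have mul : ∀ i j a b, a ∈ R i → b ∈ R j → θ (i + j) (a * b) = θ i a * θ j b :=
    fun i j a b ha hb => hθ.2 i j a b ha hb le_top
  have hax : ∀ (n : ℕ) (f : MvPolynomial (Fin 3) k), f.IsHomogeneous n → aeval x f ∈ R n :=
    fun n f hf => hx.ax_le hR n (mem_Ax.2 ⟨f, hf, rfl⟩)
  have ev : ∀ (n : ℕ) (f : MvPolynomial (Fin 3) k), f.IsHomogeneous n →
      θ n (aeval x f) = algebraMap F _ (aeval xb f) := fun n f hf => by
    refine hom_ind hf (fun n f => θ n (aeval x f) = algebraMap F _ (aeval xb f)) (fun r => ?_)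
      fun n w hw h => ?_
    · simp only [AlgHom.commutes, ← IsScalarTower.algebraMap_apply, Nat.cast_zero]
      rw [Algebra.algebraMap_eq_smul_one, map_smul, hθ.1, Algebra.algebraMap_eq_smul_one]
    · simp only [map_sum, map_mul, aeval_X]
      refine Finset.sum_congr rfl fun i _ => ?_
      rw [Nat.cast_succ, add_comm, mul _ _ _ _ (hx.1 i) (hax n _ (hw i)), h, h1]
  have com : ∀ i j a b, a ∈ R i → b ∈ R j → θ i a * θ j b = θ j b * θ i a :=
    fun i j a b ha hb => by rw [← mul i j a b ha hb, ← mul j i b a hb ha, add_comm, mul_comm]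
  have un : ∀ m b, b ∈ R m → b ≠ 0 → IsUnit (θ m b) := fun m b hbm hb0 => by
    obtain ⟨i, b', h3, h4, h5⟩ := hx.nrm hR hd hbm hb0
    have hn : 0 ≤ m + i := by
      by_contra h
      rw [Ax_neg (by omega)] at h5
      exact mul_ne_zero hb0 h4 h5
    obtain ⟨n, hn⟩ := Int.eq_ofNat_of_zero_le hn
    rw [hn] at h5
    obtain ⟨f, hf, e⟩ := mem_Ax.1 h5
    have h6 : aeval xb f ≠ 0 := fun h => by
      rw [aeval_bar h2 hb hf, h, map_zero, mul_zero] at e
      exact mul_ne_zero hb0 h4 e.symm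
    have h7 := (IsUnit.mk0 _ h6).map (algebraMap F (End F V))
    rw [← ev n f hf, e, ← hn, mul _ _ _ _ hbm h3] at h7
    exact ((Commute.isUnit_mul_iff (com _ _ _ _ hbm h3)).1 h7).1
  have ex : ∀ f : K, ∃ T : End F V, ∀ m a b, a ∈ R m → b ∈ R m → f * b = a →
      T * θ m b = θ m a := fun f => by
    obtain ⟨i, a0, b0, ha0, hb0, h0, e0⟩ := hR.frac f 0
    rw [add_zero] at ha0
    obtain ⟨u, hu⟩ := un i b0 hb0 h0
    refine ⟨θ i a0 * ↑u⁻¹, fun m a b ha hb e => u.mul_left_inj.1 ?_⟩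
    rw [mul_assoc, hu, com _ _ _ _ hb hb0, ← hu, ← mul_assoc, Units.inv_mul_cancel_right, hu,
      ← mul _ _ _ _ ha0 hb, ← mul _ _ _ _ ha hb0, add_comm, ← e, ← e0]
    congr 1; ring
  choose T hT using ex
  have uq : ∀ f S m a b, a ∈ R m → b ∈ R m → b ≠ 0 → f * b = a → S * θ m b = θ m a → T f = S :=
    fun f S m a b ha hb h0 e h => (un m b hb h0).mul_left_inj.1 (by rw [h, hT f m a b ha hb e])
  have two : ∀ f g : K, ∃ i a b i' a' b', a ∈ R i ∧ b ∈ R i ∧ a' ∈ R i' ∧ b' ∈ R i' ∧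
      b * b' ≠ 0 ∧ f * b = a ∧ g * b' = a' := fun f g => by
    obtain ⟨i, a, b, ha, hb, h0, e⟩ := hR.frac f 0
    obtain ⟨i', a', b', ha', hb', h0', e'⟩ := hR.frac g 0
    rw [add_zero] at ha ha'
    exact ⟨i, a, b, i', a', b', ha, hb, ha', hb', mul_ne_zero h0 h0', e, e'⟩
  let Θ : K →+* End F V :=
    { toFun := T
      map_one' := uq 1 1 0 1 1 hR.one hR.one one_ne_zero (one_mul _) (one_mul _)
      map_zero' := uq 0 0 0 0 1 (zero_mem _) hR.one one_ne_zero (zero_mul _) (by simp)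
      map_mul' := fun f g => by
        obtain ⟨i, a, b, i', a', b', ha, hb, ha', hb', h0, e, e'⟩ := two f g
        refine uq _ _ _ _ _ (hR.mul _ _ _ _ ha ha') (hR.mul _ _ _ _ hb hb') h0
          (by rw [← e, ← e']; ring) ?_
        rw [mul _ _ _ _ hb hb', mul _ _ _ _ ha ha', com _ _ _ _ hb hb', mul_assoc,
          ← mul_assoc (T g), hT g _ _ _ ha' hb' e', com _ _ _ _ ha' hb, ← mul_assoc,
          hT f _ _ _ ha hb e]
      map_add' := fun f g => by
        obtain ⟨i, a, b, i', a', b', ha, hb, ha', hb', h0, e, e'⟩ := two f g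
        refine uq _ _ _ _ _ (add_mem (hR.mul _ _ _ _ ha hb') (hR.mul _ _ _ _ hb ha'))
          (hR.mul _ _ _ _ hb hb') h0 (by rw [← e, ← e']; ring) ?_
        rw [map_add, mul _ _ _ _ hb hb', mul _ _ _ _ ha hb', mul _ _ _ _ hb ha', add_mul,
          ← mul_assoc, hT f _ _ _ ha hb e, com _ _ _ _ hb hb', ← mul_assoc,
          hT g _ _ _ ha' hb' e', com _ _ _ _ ha' hb] }
  have hb2 : xb 2 = 1 := (algebraMap F K).injective (by rw [hb, div_self h2, map_one])
  refine ⟨Θ, fun a ha => uq _ _ 1 a (x 2) ha (hx.1 2) h2 (by field_simp) (by simp [h1, hb2]),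
    fun f => ?_⟩
  obtain ⟨i, a, b, ha, hb', h0, e⟩ := hA.frac f 0
  rw [add_zero] at ha
  have hi : 0 ≤ i := by
    by_contra h
    rw [Ax_neg (by omega)] at hb'
    exact h0 hb'
  lift i to ℕ using hi
  rw [mem_Ax] at ha hb'
  obtain ⟨fa, ha, rfl⟩ := ha
  obtain ⟨fb, hb', rfl⟩ := hb'
  refine uq _ _ i _ _ (hax i fa ha) (hax i fb hb') ?_ ?_ ?_
  · rw [aeval_bar h2 hb hb']
    exact mul_ne_zero (pow_ne_zero _ h2) ((map_ne_zero _).2 h0)
  · rw [aeval_bar h2 hb hb', aeval_bar h2 hb ha, ← e, map_mul]; ring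
  · rw [ev i fa ha, ev i fb hb', ← map_mul, e]

lemma Ax_mono (h : xb 2 = 1) {i j : ℤ} (hij : i ≤ j) : Ax k xb i ≤ Ax k xb j := by
  induction j, hij using Int.leInduction with
  | base => exact le_rfl
  | succ j _ ih => exact fun a ha => by simpa [h] using Ax_mul (ih ha) (x_mem_Ax xb 2)

lemma gr_Ax (h : xb 2 = 1) (hf : ∀ f : F, ∃ i a b, a ∈ Ax k xb i ∧ b ∈ Ax k xb i ∧ b ≠ 0 ∧
    f * b = a) : Gr (Ax k xb) := by
  refine ⟨le_antisymm (fun a ha => ?_) (by simpa using one_mem_Ax xb), fun m => Ax_neg,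
    fun _ _ _ _ => Ax_mul, (fg_Ax xb).fin, fun m hm a ha => ?_, fun f e => ?_⟩
  · obtain ⟨r, rfl⟩ := Ax_zero xb ha
    exact Submodule.mem_span_singleton.2 ⟨r, (Algebra.algebraMap_eq_smul_one r).symm⟩
  · obtain ⟨w, hw, rfl⟩ := Ax_succ xb hm ha
    exact Submodule.sum_mem _ fun i _ => Submodule.mul_mem_mul (x_mem_Ax xb i) (hw i)
  · obtain ⟨i, a, b, ha, hb, h0, e'⟩ := hf f
    exact ⟨i + |e|, a, b, Ax_mono h (by have := neg_abs_le e; omega) ha,
      Ax_mono h (by have := abs_nonneg e; omega) hb, h0, e'⟩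

/-- the degree zero fraction field of the polynomial ring -/
lemma exists_bar (hi : Ind k x) : ∃ (F : IntermediateField k K) (xb : Fin 3 → F),
    (∀ i, algebraMap F K (xb i) = x i / x 2) ∧ xb 2 = 1 ∧ Ind k xb ∧ Gr (Ax k xb) := by
  have h2 := hi.ne 2
  let F := IntermediateField.adjoin k (Set.range fun i => x i / x 2)
  let xb : Fin 3 → F := fun i => ⟨_, IntermediateField.subset_adjoin _ _ ⟨i, rfl⟩⟩
  have hb : ∀ i, algebraMap F K (xb i) = x i / x 2 := fun _ => rfl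
  have h : xb 2 = 1 := Subtype.ext (div_self h2)
  refine ⟨F, xb, hb, h, fun n f hf e => hi n f hf (by rw [aeval_bar h2 hb hf, e]; simp),
    gr_Ax h fun ⟨f, hf⟩ => ?_⟩
  induction hf using IntermediateField.adjoin_induction with
  | mem f hf =>
    obtain ⟨i, rfl⟩ := hf
    exact ⟨1, xb i, 1, x_mem_Ax xb i, h ▸ x_mem_Ax xb 2, one_ne_zero, mul_one _⟩
  | algebraMap r =>
    exact ⟨0, r • 1, 1, Submodule.smul_mem _ _ (one_mem_Ax xb), one_mem_Ax xb, one_ne_zero,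
      Subtype.ext (by simp [Algebra.algebraMap_eq_smul_one])⟩
  | add f g hf hg h1 h2 =>
    obtain ⟨i, a, b, ha, hb, h0, e⟩ := h1
    obtain ⟨i', a', b', ha', hb', h0', e'⟩ := h2
    refine ⟨i + i', a * b' + b * a', b * b', add_mem (Ax_mul ha hb') (Ax_mul hb ha'),
      Ax_mul hb hb', mul_ne_zero h0 h0', ?_⟩
    rw [← e, ← e']; change ((⟨f, hf⟩ : F) + ⟨g, hg⟩) * _ = _; ring
  | inv f hf h1 =>
    obtain ⟨i, a, b, ha, hb, h0, e⟩ := h1
    by_cases hf0 : (⟨f, hf⟩ : F) = 0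
    · refine ⟨i, 0, b, zero_mem _, hb, h0, ?_⟩
      change (⟨f, hf⟩ : F)⁻¹ * _ = _; simp [hf0]
    · refine ⟨i, b, a, hb, ha, e ▸ mul_ne_zero hf0 h0, ?_⟩
      rw [← e]; change (⟨f, hf⟩ : F)⁻¹ * _ = _; field_simp
  | mul f g hf hg h1 h2 =>
    obtain ⟨i, a, b, ha, hb, h0, e⟩ := h1
    obtain ⟨i', a', b', ha', hb', h0', e'⟩ := h2
    refine ⟨i + i', a * a', b * b', Ax_mul ha ha', Ax_mul hb hb', mul_ne_zero h0 h0', ?_⟩
    rw [← e, ← e']; change ((⟨f, hf⟩ : F) * ⟨g, hg⟩) * _ = _; ring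

lemma rst_of_one {V : Type} [AddCommGroup V] [Module k V] [Module K V] [IsScalarTower k K V]
    (hR : Gr R) {G : Fam k V} (h : ∀ a ∈ R 1, ∀ m, ∀ v ∈ G m, a • v ∈ G (m + 1)) : RSt R G := by
  intro j m a v ha hv
  by_cases hj : j < 0
  · rw [hR.neg j hj] at ha; simp_all
  replace hj : 0 ≤ j := by omega
  induction j, hj using Int.leInduction generalizing a with
  | base =>
    rw [hR.zero] at ha
    obtain ⟨r, rfl⟩ := Submodule.mem_span_singleton.1 ha
    simpa using (G m).smul_mem r hv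
  | succ j hj ih =>
    refine Submodule.mul_induction_on (hR.gen j hj ha) (fun a ha b hb => ?_) fun a b ha hb => ?_
    · rw [mul_smul, add_right_comm]; exact h a ha _ _ (ih b hb)
    · rw [add_smul]; exact add_mem ha hb

end Vale.Agent.P190.La
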