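import Vale.Agent.P190.Lat1

namespace Vale.Agent.P190.La

open Module

abbrev Om (F : Type) (N T : ℕ) : Type := Fin N × Fin T → F

section shift
variable {F : Type} [Field F] {N T : ℕ}

def sh (c : ℕ) : End F (Om F N T) where
  toFun v p := if h : c ≤ p.2 then v (p.1, ⟨p.2 - c, by omega⟩) else 0
  map_add' v w := by funext p; by_cases h : c ≤ p.2 <;> simp [h]
  map_smul' a v := by funext p; by_cases h : c ≤ p.2 <;> simp [h]

lemma sh_apply (c : ℕ) (v : Om F N T) (p) :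
    sh c v p = if h : c ≤ p.2 then v (p.1, ⟨p.2 - c, by omega⟩) else 0 := rfl

lemma sh_pow (c : ℕ) : (sh 1 : End F (Om F N T)) ^ c = sh c := by
  induction c with
  | zero => ext v p; simp [sh_apply]
  | succ c ih =>
    rw [pow_succ', ih]
    refine LinearMap.ext fun v => funext fun p => ?_
    simp only [End.mul_apply, sh_apply]
    split_ifs <;> first | rfl | omega | (congr 3; omega)

def ush : End F (Om F N T) where
  toFun v p := if h : p.2 + 1 < T then v (p.1, ⟨p.2 + 1, h⟩) else 0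
  map_add' v w := by funext p; by_cases h : p.2 + 1 < T <;> simp [h]
  map_smul' a v := by funext p; by_cases h : p.2 + 1 < T <;> simp [h]

lemma ush_apply (v : Om F N T) (p) :
    ush v p = if h : p.2 + 1 < T then v (p.1, ⟨p.2 + 1, h⟩) else 0 := rfl

def DD (F : Type) [Field F] (N T a : ℕ) : Submodule F (Om F N T) where
  carrier := {v | ∀ p : Fin N × Fin T, (p.2 : ℕ) < a → v p = 0}
  add_mem' := fun ha hb p h => by simp [ha p h, hb p h]
  zero_mem' := fun _ _ => rfl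
  smul_mem' := fun c v hv p h => by simp [hv p h]

lemma DD_anti {a b : ℕ} (h : a ≤ b) : DD F N T b ≤ DD F N T a := fun _ hv p hp => hv p (by omega)

lemma sh_ush {v : Om F N T} (hv : v ∈ DD F N T 1) : sh 1 (ush v) = v := by
  funext ⟨l, i⟩
  simp only [sh_apply, ush_apply]
  split_ifs with h1 h2
  · congr; omega
  · omega
  · exact (hv _ (by simp; omega)).symm

lemma ush_DD {a : ℕ} {v : Om F N T} (hv : v ∈ DD F N T (a + 1)) : ush v ∈ DD F N T a := by
  intro p hp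
  rw [ush_apply]
  split_ifs
  · exact hv _ (by simpa using hp)
  · rfl

lemma sh_DD (c : ℕ) (v : Om F N T) : sh c v ∈ DD F N T c := fun p hp => by
  simp [sh_apply, not_le.2 hp]

lemma ker_sh {c : ℕ} {v : Om F N T} (h : sh c v = 0) : v ∈ DD F N T (T - c) := fun p hp => by
  simpa [sh_apply] using congrFun h (p.1, ⟨p.2 + c, by omega⟩)

lemma sh_top {v : Om F N T} (h : v ∈ DD F N T (T - 1)) : sh 1 v = 0 := funext fun p => by
  rw [sh_apply]
  split_ifs
  · exact h _ (by simp; omega)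
  · rfl

lemma DD_range (a : ℕ) {v : Om F N T} (h : v ∈ DD F N T a) : ∃ w, (sh 1 ^ a) w = v := by
  induction a generalizing v with
  | zero => exact ⟨v, rfl⟩
  | succ a ih =>
    obtain ⟨w, hw⟩ := ih (ush_DD h)
    exact ⟨w, by rw [pow_succ', End.mul_apply, hw, sh_ush (DD_anti (by omega) h)]⟩

variable {k : Type} [Field k] [Algebra k F]

noncomputable abbrev WW (k : Type) [Field k] [Algebra k F] (xb : Fin 3 → F) (N T : ℕ) :
    Fam k (Om F N T) := Fr k xb fun p => ((p.2 : ℕ) : ℤ)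

variable {xb : Fin 3 → F}

lemma sh_W {m : ℤ} {v : Om F N T} (hv : v ∈ WW k xb N T (m + 1)) : sh 1 v ∈ WW k xb N T m :=
  mem_Fr.2 fun p => by
    rw [sh_apply]
    split_ifs with h
    · have := mem_Fr.1 hv (p.1, ⟨p.2 - 1, by omega⟩)
      rwa [show m + 1 + ((p.2 - 1 : ℕ) : ℤ) = m + (p.2 : ℕ) by omega] at this
    · exact zero_mem _

lemma ush_W {m : ℤ} {v : Om F N T} (hv : v ∈ WW k xb N T m) : ush v ∈ WW k xb N T (m + 1) :=
  mem_Fr.2 fun p => by
    rw [ush_apply]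
    split_ifs with h
    · have := mem_Fr.1 hv (p.1, ⟨p.2 + 1, h⟩)
      rwa [show m + ((p.2 + 1 : ℕ) : ℤ) = m + 1 + (p.2 : ℕ) by omega] at this
    · exact zero_mem _

lemma shp_W (c : ℕ) {m : ℤ} {v : Om F N T} (hv : v ∈ WW k xb N T (m + c)) :
    (sh 1 ^ c) v ∈ WW k xb N T m := by
  induction c generalizing m with
  | zero => simpa using hv
  | succ c ih =>
    rw [pow_succ', End.mul_apply]
    exact sh_W (ih (by rwa [add_assoc, add_comm 1, ← Nat.cast_succ]))

lemma rst_W : RSt (Ax k xb) (WW k xb N T) := fun _ _ _ _ ha hv => (fg_Fr xb _).st.ax ha hv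

lemma single_W (h : xb 2 = 1) (p : Fin N × Fin T) {m : ℤ} (hm : 0 ≤ m) :
    Pi.single p (1 : F) ∈ WW k xb N T m := mem_Fr.2 fun q => by
  by_cases e : q = p
  · subst e; simpa using Ax_mono h (by omega) (one_mem_Ax xb)
  · simp [e]

lemma span_single (v : Om F N T) {S : Submodule F (Om F N T)} (h : ∀ p, Pi.single p 1 ∈ S) :
    v ∈ S := by
  rw [← Finset.univ_sum_single v]
  exact S.sum_mem fun p _ => by simpa [← Pi.single_smul] using S.smul_mem (v p) (h p)

lemma hf_WD (a : ℕ) (m : ℤ) : dR (cap (WW k xb N T) (DD F N T a) m) =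
    N * ∑ i ∈ Finset.range T, if i < a then 0 else hf (Ax k xb) (m + i) := by
  have e : cap (WW k xb N T) (DD F N T a) m = Submodule.pi Set.univ
      fun p : Fin N × Fin T => if (p.2 : ℕ) < a then ⊥ else Ax k xb (m + (p.2 : ℕ)) := by
    ext v
    simp only [cap, Submodule.mem_inf, mem_Fr, Submodule.mem_pi, Set.mem_univ, true_imp_iff]
    refine ⟨fun h p => ?_, fun h => ⟨fun p => ?_, fun p hp => by simpa [hp] using h p⟩⟩
    · split_ifs with hp
      exacts [h.2 p hp, h.1 p]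
    · have := h p
      split_ifs at this
      · simp_all
      · exact this
  have : ∀ p : Fin N × Fin T, FiniteDimensional k
      (if (p.2 : ℕ) < a then ⊥ else Ax k xb (m + (p.2 : ℕ)) : Submodule k F) := fun p => by
    by_cases h : (p.2 : ℕ) < a
    · rw [if_pos h]; infer_instance
    · rw [if_neg h]; exact (fg_Ax (k := k) xb).fin _
  rw [e, dR, finrank_pi_sub, Nat.cast_sum, Fintype.sum_prod_type,
    ← Fin.sum_univ_eq_sum_range fun i => if i < a then 0 else hf (Ax k xb) (m + i)]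
  simp only [← dR.eq_def, apply_ite dR, dR_bot, hf_def]
  simp

end shift

variable {k K F : Type} [Field k] [Field K] [Field F] [Algebra k K] [Algebra k F] [Algebra F K]
  [IsScalarTower k F K] {R : Fam k K} {x : Fin 3 → K} {j0 N T : ℕ} {xb : Fin 3 → F}

structure Act (R : Fam k K) (x : Fin 3 → K) (xb : Fin 3 → F)
    (ρ : ℤ → K →ₗ[k] End F (Om F N T)) : Prop where
  mf : MF R ρ ⊤
  com : ∀ m a, Commute (ρ m a) (sh 1)
  one : ∀ i, ρ 1 (x i) = xb i • sh 1
  hW : ∀ m a n, ∀ v ∈ WW k xb N T n, ρ m a v ∈ WW k xb N T n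

structure Lat (R : Fam k K) (ρ : ℤ → K →ₗ[k] End F (Om F N T)) (L : Submodule F (Om F N T))
    (a : ℕ) : Prop where
  s : ∀ v ∈ L, sh 1 v ∈ L
  d : DD F N T a ≤ L
  r : ∀ u ∈ R 1, ∀ v ∈ L, ∃ w ∈ L, ρ 1 u v = sh 1 w

variable {ρ : ℤ → K →ₗ[k] End F (Om F N T)} {L : Submodule F (Om F N T)} {a : ℕ}

omit [Algebra F K] [IsScalarTower k F K] in
lemma Act.mul (h : Act R x xb ρ) {i j : ℤ} {a b : K} (ha : a ∈ R i) (hb : b ∈ R j) :
    ρ (i + j) (a * b) = ρ i a * ρ j b := h.mf.2 i j a b ha hb le_top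

omit [Algebra F K] [IsScalarTower k F K] in
lemma Act.comp (h : Act R x xb ρ) (m : ℤ) (a : K) (c : ℕ) (v : Om F N T) :
    ρ m a ((sh 1 ^ c) v) = (sh 1 ^ c) (ρ m a v) :=
  LinearMap.congr_fun ((h.com m a).pow_right c) v

omit [Algebra F K] [IsScalarTower k F K] in
lemma Lat.all (hR : Gr R) (h : Act R x xb ρ) (hL : Lat R ρ L a) (m : ℕ) :
    ∀ u ∈ R m, ∀ v ∈ L, ∃ w ∈ L, ρ m u v = (sh 1 ^ m) w := by
  induction m with
  | zero =>
    intro u hu v hv
    rw [Nat.cast_zero, hR.zero] at hu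
    obtain ⟨r, rfl⟩ := Submodule.mem_span_singleton.1 hu
    exact ⟨r • v, L.smul_of_tower_mem r hv, by simp [h.mf.1]⟩
  | succ m ih =>
    intro u hu v hv
    refine Submodule.mul_induction_on (hR.gen m (by omega) hu) (fun a ha b hb => ?_) ?_
    · obtain ⟨w, hw, e⟩ := ih b hb v hv
      obtain ⟨w', hw', e'⟩ := hL.r a ha w hw
      refine ⟨w', hw', ?_⟩
      rw [Nat.cast_succ, add_comm, h.mul ha hb, End.mul_apply, e, h.comp, e', pow_succ]
      rfl
    · rintro a b ⟨w, hw, e⟩ ⟨w', hw', e'⟩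
      exact ⟨w + w', add_mem hw hw', by rw [map_add, map_add, LinearMap.add_apply, e, e']⟩

lemma factor {A B C : Type} [AddCommGroup A] [AddCommGroup B] [AddCommGroup C] [Module F A]
    [Module F B] [Module F C] (f : A →ₗ[F] B) (g : A →ₗ[F] C) (h : ∀ a, f a = 0 → g a = 0) :
    ∃ γ : B →ₗ[F] C, ∀ a, γ (f a) = g a := by
  obtain ⟨γ, hγ⟩ := LinearMap.exists_extend
    ((LinearMap.ker f).liftQ g h ∘ₗ f.quotKerEquivRange.symm.toLinearMap)
  exact ⟨γ, fun a => by
    have := LinearMap.congr_fun hγ ⟨f a, LinearMap.mem_range_self f a⟩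
    rwa [LinearMap.comp_apply, LinearMap.comp_apply, LinearEquiv.coe_coe,
      LinearMap.quotKerEquivRange_symm_apply_image] at this⟩

/-- the generic fibre of the special fibre of a lattice, as a `K`-vector space -/
lemma fibre (hR : Gr R) (hx : Hsop R x j0) (hd : 0 < rk R)
    (hb : ∀ i, algebraMap F K (xb i) = x i / x 2) (hA : Gr (Ax k xb)) {j : ℕ} (hj : 1 ≤ j)
    (hE : Ext R j) (h : Act R x xb ρ) (hL : Lat R ρ L a) (ha : a + j + 1 ≤ T) :
    ∃ (r : ℕ) (π : Om F N T →ₗ[k] (Fin r → K)),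
      (∀ (f : F) v, π (f • v) = algebraMap F K f • π v) ∧
      (∀ v ∈ L, π v = 0 ↔ ∃ w ∈ L, v = sh 1 w) ∧ (∀ y, ∃ v ∈ L, π v = y) ∧
      ∀ u ∈ R 1, ∀ v ∈ L, ∀ w ∈ L, ρ 1 u v = sh 1 w → π w = (u / x 2) • π v := by
  let S : Submodule F L := (L.map (sh 1)).comap L.subtype
  let q := S.mkQ
  have hq : ∀ v : L, q v = 0 ↔ ∃ w ∈ L, v.1 = sh 1 w := fun v => by
    rw [Submodule.mkQ_apply, Submodule.Quotient.mk_eq_zero]
    exact ⟨fun ⟨w, hw, e⟩ => ⟨w, hw, e.symm⟩, fun ⟨w, hw, e⟩ => ⟨w, hw, e.symm⟩⟩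
  obtain ⟨ι, hι⟩ := q.exists_rightInverse_of_surjective S.range_mkQ
  have hγ : ∀ m : ℤ, ∃ γ : Om F N T →ₗ[F] L ⧸ S, m ≤ j → ∀ v : L, γ ((sh 1 ^ m.toNat) v.1) = q v := by
    intro m
    by_cases hm : m ≤ j
    · obtain ⟨γ, hγ⟩ := factor ((sh 1 ^ m.toNat : End F (Om F N T)) ∘ₗ L.subtype) q fun v hv => by
        have h1 : v.1 ∈ DD F N T (a + 1) := DD_anti (by omega) (ker_sh (sh_pow (F := F) _ ▸ hv))
        exact (hq v).2 ⟨_, hL.d (ush_DD h1), (sh_ush (DD_anti (by omega) h1)).symm⟩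
      exact ⟨γ, fun _ => hγ⟩
    · exact ⟨0, fun h => absurd h hm⟩
  choose γ hγ using hγ
  let θ : ℤ → K →ₗ[k] End F (L ⧸ S) := fun m =>
    { toFun := fun u => γ m ∘ₗ ρ m u ∘ₗ L.subtype ∘ₗ ι
      map_add' := fun u v => LinearMap.ext fun y => by simp
      map_smul' := fun c u => LinearMap.ext fun y => by simp }
  have hθ : ∀ m : ℕ, m ≤ j → ∀ u ∈ R m, ∀ v w : L, ρ m u v = (sh 1 ^ m) w.1 →
      θ m u (q v) = q w := by
    intro m hm u hu v w e
    obtain ⟨z, hz, e1⟩ := (hq (ι (q v) - v)).1 (by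
      rw [map_sub, sub_eq_zero]; exact LinearMap.congr_fun hι (q v))
    obtain ⟨z', hz', e2⟩ := hL.all hR h m u hu z hz
    have e3 : ρ m u (ι (q v)) = (sh 1 ^ m) (w + ⟨_, hL.s z' hz'⟩ : L).1 := by
      have := h.comp m u 1 z
      rw [pow_one] at this
      rw [eq_add_of_sub_eq e1, map_add, this, e2, e, Submodule.coe_add, map_add, add_comm,
        ← End.mul_apply, ← pow_succ', pow_succ]
      rfl
    have := hγ m (by omega) (w + ⟨_, hL.s z' hz'⟩)
    rw [Int.toNat_natCast, ← e3, map_add, (hq ⟨_, hL.s z' hz'⟩).2 ⟨z', hz', rfl⟩, add_zero] at this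
    exact this
  have hs : ∀ y, ∃ v, q v = y := S.mkQ_surjective
  obtain ⟨θ', h1, h2⟩ := hE _ θ ⟨LinearMap.ext fun y => by
      obtain ⟨v, rfl⟩ := hs y
      exact hθ 0 (by omega) 1 hR.one v v (by simp [h.mf.1]), fun i i' u u' hu hu' hi => by
      by_cases c1 : i < 0
      · rw [hR.neg i c1] at hu; simp_all
      by_cases c2 : i' < 0
      · rw [hR.neg i' c2] at hu'; simp_all
      lift i to ℕ using by omega
      lift i' to ℕ using by omega
      have hi' : i + i' ≤ j := by exact_mod_cast hi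
      refine LinearMap.ext fun y => ?_
      obtain ⟨v, rfl⟩ := hs y
      obtain ⟨w, hw, e⟩ := hL.all hR h i' u' hu' v v.2
      obtain ⟨w', hw', e'⟩ := hL.all hR h i u hu w hw
      rw [End.mul_apply, hθ i' (by omega) u' hu' v ⟨w, hw⟩ e, hθ i (by omega) u hu _ ⟨w', hw'⟩ e']
      exact_mod_cast hθ (i + i') hi' _ (by exact_mod_cast hR.mul _ _ _ _ hu hu') v ⟨w', hw'⟩ (by
        rw [Nat.cast_add, h.mul hu hu', End.mul_apply, e, h.comp, e', add_comm, pow_add]; rfl)⟩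
  have h3 : ∀ u ∈ R 1, ∀ v w : L, ρ 1 u v = sh 1 w.1 → θ' 1 u (q v) = q w := fun u hu v w e => by
    rw [h2 1 (by omega) u hu]
    exact hθ 1 hj u hu v w (by simpa using e)
  obtain ⟨Θ, h4, h5⟩ := kact hR hx hd hb hA θ' h1 fun i => LinearMap.ext fun y => by
    obtain ⟨v, rfl⟩ := hs y
    rw [h3 _ (hx.1 i) v (xb i • v) (by simp [h.one])]; simp
  letI : Module K (L ⧸ S) := Module.compHom _ Θ
  have sm : ∀ (f : K) (y : L ⧸ S), f • y = Θ f y := fun _ _ => rfl
  have : IsScalarTower F K (L ⧸ S) := ⟨fun f g y => by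
    rw [sm, sm, Algebra.smul_def, map_mul, h5]; rfl⟩
  have : IsScalarTower k K (L ⧸ S) := ⟨fun f g y => by
    rw [← algebraMap_smul F f g, smul_assoc, algebraMap_smul]⟩
  have : Module.Finite K (L ⧸ S) := Module.Finite.of_restrictScalars_finite F K _
  let e := (finBasis K (L ⧸ S)).equivFun
  obtain ⟨q', hq'⟩ := LinearMap.exists_extend q
  have h6 : ∀ v (hv : v ∈ L), q' v = q ⟨v, hv⟩ := fun v hv => LinearMap.congr_fun hq' ⟨v, hv⟩
  refine ⟨_, e.toLinearMap.restrictScalars k ∘ₗ q'.restrictScalars k, fun f v => ?_,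
    fun v hv => ?_, fun y => ?_, fun u hu v hv w hw e' => ?_⟩
  · simp only [LinearMap.comp_apply, LinearMap.restrictScalars_apply]
    rw [← map_smul e.toLinearMap, algebraMap_smul, map_smul]
  · simpa [h6 v hv] using hq ⟨v, hv⟩
  · obtain ⟨v, hv⟩ := hs (e.symm y)
    exact ⟨v, v.2, by simp [h6 v v.2, hv]⟩
  · simp only [LinearMap.comp_apply, LinearMap.restrictScalars_apply]
    rw [← map_smul, sm, h4 u hu, h6 v hv, h6 w hw, h3 u hu ⟨v, hv⟩ ⟨w, hw⟩ e']

end Vale.Agent.P190.La
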