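import Vale.Agent.P190.Lat2

namespace Vale.Agent.P190.La

open Module

variable {k K F : Type} [Field k] [Field K] [Field F] [Algebra k K] [Algebra k F] [Algebra F K]
  [IsScalarTower k F K] {R : Fam k K} {x : Fin 3 → K} {j0 N T : ℕ} {xb : Fin 3 → F}
  {ρ : ℤ → K →ₗ[k] End F (Om F N T)} {L : Submodule F (Om F N T)} {a : ℕ}

noncomputable abbrev MM (k : Type) [Field k] [Algebra k F] (xb : Fin 3 → F)
    (L : Submodule F (Om F N T)) : Fam k (Om F N T) := cap (WW k xb N T) L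

lemma fg_MM (L : Submodule F (Om F N T)) : FG xb (MM k xb L) :=
  (fg_Fr xb _).sub ((cap_rst rst_W L).st (x_mem_Ax xb)) fun _ => inf_le_left

lemma latE (hR : Gr R) (hx : Hsop R x j0) (hd : 0 < rk R)
    (hb : ∀ i, algebraMap F K (xb i) = x i / x 2) (h2 : xb 2 = 1) (hA : Gr (Ax k xb)) {j : ℕ}
    (hj : 1 ≤ j) (hE : Ext R j) (h : Act R x xb ρ) (hL : Lat R ρ L a) (ha : a + j + 1 ≤ T) :
    ∃ (r : ℕ) (E : Fam k (Fin r → K)), Good R x E ∧
      (∀ m, hf E m = hf (MM k xb L) m - hf (MM k xb L) (m + 1) + N * hf (Ax k xb) (m + T)) ∧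
      ∀ Y : Submodule K (Fin r → K), ∃ L', Lat R ρ L' (a + 1) ∧
        ∀ m, hf (MM k xb L) m - hf (MM k xb L') m = hf E m - hf (cap E Y) m := by
  obtain ⟨r, π, p1, p2, p3, p4⟩ := fibre hR hx hd hb hA hj hE h hL ha
  have x2 := (hx.ind hR hd).ne 2
  let πm : ℤ → Om F N T →ₗ[k] (Fin r → K) := fun m => ml k (x 2 ^ m) ∘ₗ π
  have hπ : ∀ m v, πm m v = x 2 ^ m • π v := fun _ _ => rfl
  have hπ0 : ∀ m v, πm m v = 0 ↔ π v = 0 := fun m v => by simp [hπ, zpow_ne_zero m x2]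
  let E : Fam k (Fin r → K) := fun m => (MM k xb L m).map (πm m)
  have fM := fg_MM (k := k) (xb := xb) L
  have dn : ∀ m, ∀ v ∈ WW k xb N T m, ∀ w ∈ L, v = sh 1 w →
      ush v ∈ MM k xb L (m + 1) ∧ sh 1 (ush v) = v := fun m v hv w hw e => by
    have e1 := sh_ush (e ▸ sh_DD 1 w : v ∈ _)
    refine ⟨⟨ush_W hv, ?_⟩, e1⟩
    have := L.add_mem (hL.d (DD_anti (by omega) (ker_sh (c := 1) (v := ush v - w)
      (by rw [map_sub, e1, e, sub_self])))) hw
    simpa using this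
  have rE : RSt R E := rst_of_one hR (by
    rintro u hu m _ ⟨v, hv, rfl⟩
    obtain ⟨w, hw, e⟩ := hL.r u hu v hv.2
    obtain ⟨e1, e2⟩ := dn m _ (h.hW 1 u m v hv.1) w hw e
    refine ⟨_, e1, ?_⟩
    rw [hπ, hπ, p4 u hu v hv.2 _ e1.2 e2.symm, smul_smul, smul_smul, zpow_add_one₀ x2]
    congr 1; field_simp)
  refine ⟨r, E, ⟨⟨rE.st hx.1, fun m => ?_, ?_, ?_⟩, rE, ?_⟩, fun m => ?_, fun Y => ?_⟩
  · have := fM.fin m; infer_instance
  · obtain ⟨m0, h0⟩ := fM.low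
    exact ⟨m0, fun m hm => by simp only [E, h0 m hm, Submodule.map_bot]⟩
  · obtain ⟨m1, h1⟩ := fM.gen
    refine ⟨m1, ?_⟩
    rintro m hm _ ⟨v, hv, rfl⟩
    obtain ⟨w, hw, rfl⟩ := h1 m hm v hv
    refine ⟨fun i => πm m (w i), fun i => ⟨_, hw i, rfl⟩, ?_⟩
    rw [map_sum]
    refine Finset.sum_congr rfl fun i _ => ?_
    simp only [hπ, p1, hb, smul_smul, zpow_add_one₀ x2]
    rw [show x 2 ^ m * x 2 * (x i / x 2) = x i * x 2 ^ m by field_simp]
  · refine eq_top_iff.2 fun y _ => ?_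
    obtain ⟨v, hv, rfl⟩ := p3 y
    obtain ⟨i, b, -, h0, hb⟩ := clr hA (rst_W (k := k)) (v := v)
      (span_single v fun p => Submodule.subset_span ⟨0, single_W h2 p le_rfl⟩) 0
    have h1 : πm _ (b • v) ∈ spK K E := Submodule.subset_span ⟨_, _, ⟨hb, L.smul_mem b hv⟩, rfl⟩
    rw [hπ, p1, smul_smul] at h1
    exact (Submodule.smul_mem_iff _ (mul_ne_zero (zpow_ne_zero _ x2) ((map_ne_zero _).2 h0))).1 h1
  · have := fM.fin m
    have := fM.fin (m + 1)
    have h1 := dR_rn (πm m) (MM k xb L m)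
    have h3 := dR_rn ((sh 1 : End F (Om F N T)).restrictScalars k) (MM k xb L (m + 1))
    have e1 : (MM k xb L (m + 1)).map ((sh 1 : End F (Om F N T)).restrictScalars k) =
        MM k xb L m ⊓ LinearMap.ker (πm m) := by
      refine le_antisymm ?_ fun v hv => ?_
      · rintro _ ⟨w, hw, rfl⟩
        exact ⟨⟨sh_W hw.1, hL.s w hw.2⟩, (hπ0 _ _).2 ((p2 _ (hL.s w hw.2)).2 ⟨w, hw.2, rfl⟩)⟩
      · obtain ⟨w, hw, e⟩ := (p2 v hv.1.2).1 ((hπ0 _ _).1 hv.2)
        exact ⟨_, (dn m v hv.1.1 w hw e).1, (dn m v hv.1.1 w hw e).2⟩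
    have e2 : MM k xb L (m + 1) ⊓ LinearMap.ker ((sh 1 : End F (Om F N T)).restrictScalars k) =
        cap (WW k xb N T) (DD F N T (T - 1)) (m + 1) := by
      ext v
      exact ⟨fun hv => ⟨hv.1.1, ker_sh hv.2⟩,
        fun hv => ⟨⟨hv.1, hL.d (DD_anti (by omega) hv.2)⟩, sh_top hv.2⟩⟩
    rw [e1, e2, hf_WD, Finset.sum_eq_single (T - 1) (fun i hi hi' => if_pos (by
      have := Finset.mem_range.1 hi; omega)) (by simp; omega), if_neg (lt_irrefl _),
      show m + 1 + ((T - 1 : ℕ) : ℤ) = m + T by omega] at h3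
    simp only [hf_def] at h3 ⊢
    linarith
  · let L' : Submodule F (Om F N T) :=
      { carrier := {v | v ∈ L ∧ π v ∈ Y}
        add_mem' := fun ha hb => ⟨add_mem ha.1 hb.1, by simpa using add_mem ha.2 hb.2⟩
        zero_mem' := ⟨zero_mem _, by simp⟩
        smul_mem' := fun c v hv => ⟨L.smul_mem c hv.1, p1 c v ▸ Y.smul_mem _ hv.2⟩ }
    have s0 : ∀ w ∈ L, sh 1 w ∈ L' := fun w hw =>
      ⟨hL.s w hw, by rw [(p2 _ (hL.s w hw)).2 ⟨w, hw, rfl⟩]; exact zero_mem _⟩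
    refine ⟨L', ⟨fun v hv => s0 v hv.1, fun v hv => ?_, fun u hu v hv => ?_⟩, fun m => ?_⟩
    · rw [← sh_ush (DD_anti (by omega) hv)]
      exact s0 _ (hL.d (ush_DD hv))
    · obtain ⟨w, hw, e⟩ := hL.r u hu v hv.1
      exact ⟨w, ⟨hw, p4 u hu v hv.1 w hw e ▸ Y.smul_mem _ hv.2⟩, e⟩
    have := fM.fin m
    have := (fg_MM (k := k) (xb := xb) L').fin m
    have h1 := dR_rn (πm m) (MM k xb L m)
    have h3 := dR_rn (πm m) (MM k xb L' m)
    have e1 : (MM k xb L' m).map (πm m) = cap E Y m := by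
      refine le_antisymm ?_ ?_
      · rintro _ ⟨v, hv, rfl⟩
        exact ⟨⟨v, ⟨hv.1, hv.2.1⟩, rfl⟩, Y.smul_mem _ hv.2.2⟩
      · rintro _ ⟨⟨v, hv, rfl⟩, hY⟩
        exact ⟨v, ⟨hv.1, hv.2, (Y.smul_mem_iff (zpow_ne_zero m x2)).1 hY⟩, rfl⟩
    have e2 : MM k xb L' m ⊓ LinearMap.ker (πm m) = MM k xb L m ⊓ LinearMap.ker (πm m) := by
      ext v
      exact ⟨fun hv => ⟨⟨hv.1.1, hv.1.2.1⟩, hv.2⟩, fun hv => ⟨⟨hv.1.1, hv.1.2, by
        rw [(hπ0 _ _).1 hv.2]; exact zero_mem _⟩, hv.2⟩⟩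
    rw [e1, e2] at h3
    simp only [hf_def]
    linarith

/-- first difference of the Hilbert polynomial -/
noncomputable def dP {V : Type} [AddCommGroup V] [Module k V] (U : Fam k V) (y : ℝ) : ℝ :=
  rk U * (y + 1 / 2) + dg U

/-- Hilbert polynomial of the special fibre -/
noncomputable def PE (k : Type) [Field k] [Algebra k F] (xb : Fin 3 → F)
    (L : Submodule F (Om F N T)) (y : ℝ) : ℝ :=
  N * ((y + T + 1) * (y + T + 2) / 2) - dP (MM k xb L) y

lemma sum_pos (T : ℕ) (y : ℝ) :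
    ∑ i ∈ Finset.range T, max (y + i) 0 ≤ (y + T) * (y + T - 1) / 2 + 1 / 8 := by
  have key : ∀ T : ℕ, y + T ≤ 1 → ∑ i ∈ Finset.range T, max (y + i) 0 = 0 := fun T h =>
    Finset.sum_eq_zero fun i hi => max_eq_right (by
      have : (i : ℝ) + 1 ≤ T := by exact_mod_cast Finset.mem_range.1 hi
      linarith)
  induction T with
  | zero => simp; nlinarith [sq_nonneg (y - 1 / 2)]
  | succ T ih =>
    by_cases h : 0 ≤ y + T
    · rw [Finset.sum_range_succ, max_eq_left h]; push_cast; nlinarith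
    · rw [key _ (by push_cast; linarith)]; push_cast; nlinarith [sq_nonneg (y + T + 1 / 2)]

lemma PE_ge (hi : Ind k xb) (L : Submodule F (Om F N T)) (y : ℝ) : -(N : ℝ) / 8 ≤ PE k xb L y := by
  obtain ⟨S, h1, h2⟩ := free_bound hi _ (fg_MM L).st fun _ => inf_le_left
  have h3 : dP (MM k xb L) y ≤ ∑ p : Fin N × Fin T, max (y + 2 + (p.2 : ℕ)) 0 := by
    refine le_trans ?_ (Finset.sum_le_univ_sum_of_nonneg (s := S) fun p => le_max_right _ _)
    refine le_trans ?_ (Finset.sum_le_sum fun p _ => le_max_left _ _)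
    simp only [Finset.sum_add_distrib, Finset.sum_const, nsmul_eq_mul] at h2 ⊢
    rw [dP, h1]; push_cast at h2; linarith
  rw [Fintype.sum_prod_type] at h3
  dsimp only at h3
  rw [Finset.sum_const, Finset.card_univ, Fintype.card_fin, nsmul_eq_mul,
    Fin.sum_univ_eq_sum_range fun i => max (y + 2 + (i : ℕ)) 0] at h3
  have h4 := mul_le_mul_of_nonneg_left (sum_pos T (y + 2)) (Nat.cast_nonneg N)
  rw [PE]; linarith

lemma sum_tail (j0 : ℕ) (y : ℝ) {T : ℕ} (h : j0 ≤ T) :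
    ∑ i ∈ Finset.range T, (if i < j0 then 0 else y + i + 2) =
      (y + T + 1) * (y + T + 2) / 2 - (y + j0 + 1) * (y + j0 + 2) / 2 := by
  induction T, h using Nat.le_induction with
  | base => rw [sub_self]; exact Finset.sum_eq_zero fun i hi => if_pos (Finset.mem_range.1 hi)
  | succ T h ih => rw [Finset.sum_range_succ, ih, if_neg (by omega)]; push_cast; ring

lemma dP_D (hi : Ind k xb) (h : j0 ≤ T) (y : ℝ) : dP (MM k xb (DD F N T j0)) y =
    N * ((y + T + 1) * (y + T + 2) / 2 - (y + j0 + 1) * (y + j0 + 2) / 2) := by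
  obtain ⟨m0, e⟩ := (fg_MM (k := k) (xb := xb) (DD F N T j0)).isHP
  obtain ⟨-, h1, h2⟩ := poly_eq (a := 0) (a' := 0) (b := rk (MM k xb (DD F N T j0)))
    (c := dP (MM k xb (DD F N T j0)) 0) (b' := N * (T - j0))
    (c' := N * ((T + 1) * (T + 2) / 2 - (j0 + 1) * (j0 + 2) / 2)) (m0 := max m0 0) fun m hm => by
      have e1 := e m (by omega)
      have e2 := e (m + 1) (by omega)
      rw [hf_def, hf_WD, HP] at e1 e2
      have e3 : (∑ i ∈ Finset.range T, if i < j0 then 0 else hf (Ax k xb) (m + 1 + i)) -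
          (∑ i ∈ Finset.range T, if i < j0 then 0 else hf (Ax k xb) (m + i)) =
          ((m : ℝ) + T + 1) * (m + T + 2) / 2 - (m + j0 + 1) * (m + j0 + 2) / 2 := by
        rw [← Finset.sum_sub_distrib, ← sum_tail j0 m h]
        refine Finset.sum_congr rfl fun i _ => ?_
        split_ifs
        · simp
        · rw [hf_Ax hi (by omega), hf_Ax hi (by omega)]; push_cast; ring
      rw [dP]; push_cast at e2
      linear_combination e1 - e2 + N * e3
  rw [dP] at h2 ⊢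
  linear_combination h1 * y + h2

omit [Algebra F K] [IsScalarTower k F K] in
lemma init (hR : Gr R) (hx : Hsop R x j0) (h2 : xb 2 = 1) (hi : Ind k xb) (hA : Gr (Ax k xb))
    (h : Act R x xb ρ) (hT : j0 ≤ T) :
    ∃ L, Lat R ρ L j0 ∧ PE k xb L (-j0) ≤ N * (1 + j0 ^ 2) := by
  let G : Set (Om F N T) := {v | ∃ m c : ℕ, m + c = j0 ∧ ∃ u ∈ R m, ∃ w, v = (sh 1 ^ c) (ρ m u w)}
  let L := Submodule.span F G
  have hL : Lat R ρ L j0 := by
    refine ⟨fun v hv => ?_, fun v hv => ?_, fun u hu v hv => ?_⟩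
    · refine (Submodule.span_le (p := L.comap (sh 1))).2 ?_ hv
      rintro _ ⟨m, c, e, u, hu, w, rfl⟩
      refine Submodule.subset_span ⟨m, c, e, u, hu, sh 1 w, ?_⟩
      have := h.comp m u 1 w
      rw [pow_one] at this
      rw [this, ← End.mul_apply, ← pow_succ', pow_succ]; rfl
    · obtain ⟨w, rfl⟩ := DD_range j0 hv
      exact Submodule.subset_span ⟨0, j0, by simp, 1, hR.one, w, by simp [h.mf.1]⟩
    · refine (Submodule.span_le (p := (L.map (sh 1)).comap (ρ 1 u))).2 ?_ hv |>.imp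
        fun w hw => ⟨hw.1, hw.2.symm⟩
      rintro _ ⟨m, c, e, u', hu', w, rfl⟩
      have h1 := hR.mul _ _ _ _ hu hu'
      change ρ 1 u _ ∈ L.map (sh 1)
      rw [h.comp, ← End.mul_apply (ρ 1 u), ← h.mul hu hu']
      rw [add_comm] at h1 ⊢
      rcases c with _ | c
      · obtain ⟨z, hz, e'⟩ := hx.2 m (by omega) _ h1
        simp only [e', map_sum, LinearMap.sum_apply, pow_zero, End.one_apply, smul_eq_mul]
        refine Submodule.sum_mem _ fun i _ => ?_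
        rw [add_comm, h.mul (hx.1 i) (hz i), h.one]
        exact Submodule.smul_mem _ _ ⟨_, Submodule.subset_span ⟨m, 0, e, _, hz i, w, rfl⟩, rfl⟩
      · exact ⟨_, Submodule.subset_span ⟨m + 1, c, by omega, _, h1, w, rfl⟩, by
          rw [pow_succ']; rfl⟩
  refine ⟨L, hL, ?_⟩
  let κ : Om F N T →ₗ[F] (Fin N × Fin j0 → F) :=
    LinearMap.funLeft F F fun p => (p.1, Fin.castLE hT p.2)
  have fM := fg_MM (k := k) (xb := xb) L
  have fB := fM.map κ
  set B : Fam k (Fin N × Fin j0 → F) := fun m => (MM k xb L m).map (κ.restrictScalars k) with hB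
  have sB : RSt (Ax k xb) B := fun _ _ _ _ ha hv => fB.st.ax ha hv
  obtain ⟨v, v1, v2, v3⟩ := Submodule.exists_fun_fin_finrank_span_eq F (B 0 : Set (Fin N × Fin j0 → F))
  have e0 : spK F B = Submodule.span F (B 0 : Set (Fin N × Fin j0 → F)) := by
    refine le_antisymm (Submodule.span_le.2 ?_) (Submodule.span_mono fun v hv => ⟨0, hv⟩)
    rintro _ ⟨n, z, hz, rfl⟩
    refine (Submodule.span_le (p := (Submodule.span F (B 0 : Set (Fin N × Fin j0 → F))).comap κ)).2 ?_ hz.2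
    rintro _ ⟨m, c, e, u, hu, w, rfl⟩
    refine span_single w (S := (Submodule.span F (B 0 : Set (Fin N × Fin j0 → F))).comap
      (κ ∘ₗ (sh 1 ^ c : End F _) ∘ₗ ρ m u)) fun p => Submodule.subset_span ⟨_, ⟨?_, ?_⟩, rfl⟩
    · exact shp_W c (h.hW _ _ _ _ (single_W h2 p (by omega)))
    · exact Submodule.subset_span ⟨m, c, e, u, hu, _, rfl⟩
  obtain ⟨a1, a2, -⟩ := hp_Ax hi
  have r1 := (rk_eq hA (x_mem_Ax xb) (fg_Ax xb) fB sB).2
  rw [e0, a1, one_mul] at r1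
  obtain ⟨g1, g2, -⟩ := hp_gen (fg_Ax (k := k) xb) v3 fun _ => 0
  simp only [Fintype.card_fin, a1, a2, mul_one, Int.cast_zero, Finset.sum_const_zero, mul_zero,
    sub_zero, ← r1] at g1 g2
  have r2 := (hp_mono fB (fg_gen (fg_Ax xb) v fun _ => 0).st (gen_le sB v1)).2.1 g1
  have r3 : rk B ≤ N * j0 := by
    rw [r1]
    have := Submodule.finrank_le (Submodule.span F (B 0 : Set (Fin N × Fin j0 → F)))
    simp only [finrank_fintype_fun_eq_card, Fintype.card_prod, Fintype.card_fin] at this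
    exact_mod_cast this
  obtain ⟨m1, e1⟩ := fB.isHP
  obtain ⟨m2, e2⟩ := (fg_MM (k := k) (xb := xb) (DD F N T j0)).isHP
  obtain ⟨c1, c2, -⟩ := hp_eq (G := MM k xb L) (a := rk B + rk (MM k xb (DD F N T j0)))
    (b := dg B + dg (MM k xb (DD F N T j0))) (c := cs B + cs (MM k xb (DD F N T j0)))
    (m0 := max m1 m2) fun m hm => by
      have := fM.fin m
      have e : MM k xb L m ⊓ LinearMap.ker (κ.restrictScalars k) = MM k xb (DD F N T j0) m := by
        ext v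
        exact ⟨fun hv => ⟨hv.1.1, fun p hp => congrFun hv.2 (p.1, ⟨p.2, hp⟩)⟩,
          fun hv => ⟨⟨hv.1, hL.d hv.2⟩, funext fun p => hv.2 _ p.2.2⟩⟩
      rw [hf_def, ← dR_rn (κ.restrictScalars k), e, ← hf_def B, ← hf_def, e1 _ (by omega),
        e2 _ (by omega), HP, HP]; ring
  have d1 := dP_D (N := N) hi hT (-j0)
  have r4 := rk_nonneg fB
  have hj : (0 : ℝ) ≤ j0 := Nat.cast_nonneg _
  rw [PE, dP, c1, c2]
  rw [dP] at d1
  nlinarith [mul_le_mul_of_nonneg_right r3 hj]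

end Vale.Agent.P190.La
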