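import Vale.Agent.P190.Bog

/-! P190, module P: `χ ≤ h⁰` when the dual vanishes, through a free resolution of length one. -/

namespace Vale.Agent.P190.Pd

open Module MvPolynomial L

section
variable {k K : Type} [Field k] [Field K] [Algebra k K] {x : Fin 3 → K}

theorem ax0_inv {a : K} (ha : a ∈ Ax k x 0) : a⁻¹ ∈ Ax k x 0 := by
  obtain ⟨f, hf, rfl⟩ := (mem_Ax (n := 0)).mp ha
  rw [← totalDegree_zero_iff_isHomogeneous, totalDegree_eq_zero_iff_eq_C] at hf
  rw [hf, aeval_C, ← map_inv₀, Algebra.algebraMap_eq_smul_one]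
  exact Submodule.smul_mem _ _ (one_mem_Ax x)

theorem ax_split {n : ℤ} {a : K} (ha : a ∈ Ax k x n) (h0 : n = 0 → a = 0) :
    ∃ b0 ∈ Ax k x (n - 1), ∃ b1 ∈ Ax k x (n - 1), ∃ b2 ∈ Ax k x (n - 1),
      a = x 0 * b0 + x 1 * b1 + x 2 * b2 := by
  by_cases h : a = 0
  · exact ⟨0, Submodule.zero_mem _, 0, Submodule.zero_mem _, 0, Submodule.zero_mem _, by simp [h]⟩
  rcases ax_cases ha with h' | ⟨s, f, rfl, hf, rfl⟩
  · exact absurd h' h
  have hs : s ≠ 0 := by
    rintro rfl
    exact h (h0 rfl)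
  have h2 : (C (eval ![0, 0, 1] f) * X 2 ^ s : MvPolynomial (Fin 3) k).IsHomogeneous s :=
    isHomogeneous_C_mul_X_pow _ _ _
  obtain ⟨b, hb, c, hc, e⟩ := split01 x (hf.sub h2) (by simp)
  obtain ⟨w, hw, e'⟩ := div_X x h2 (i := 2) (Dvd.dvd.mul_left (dvd_pow_self _ hs) _)
  refine ⟨b, hb, c, hc, w, hw, ?_⟩
  rw [← e, ← e', map_sub, sub_add_cancel]

theorem hf_sym (h : Ind k x) (n : ℤ) :
    hf (Ax k x) n + hf (Ax k x) (-n - 3) = ((n : ℝ) + 1) * (n + 2) / 2 := by
  have z : ∀ j < 0, hf (Ax k x) j = 0 := by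
    intro j hj
    unfold hf
    rw [Ax_neg hj, finrank_bot, Nat.cast_zero]
  by_cases hn : -2 ≤ n
  · rw [hf_Ax h hn, z _ (by omega), add_zero]
  · rw [z n (by omega), hf_Ax h (by omega)]
    push_cast
    ring

end

section
variable {k K W : Type} [Field k] [Field K] [Algebra k K] [AddCommGroup W] [Module k W]
  [Module K W] [IsScalarTower k K W] {x : Fin 3 → K}

/-- `x 2` is regular modulo `x 0, x 1`. -/
def Dep3 (x : Fin 3 → K) (Z : Fam k W) : Prop :=
  ∀ m a b c, a ∈ Z m → b ∈ Z m → c ∈ Z m → x 2 • c = x 0 • a + x 1 • b →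
    ∃ a' ∈ Z (m - 1), ∃ b' ∈ Z (m - 1), c = x 0 • a' + x 1 • b'

def Gens (x : Fin 3 → K) (Z : Fam k W) {t : ℕ} (z : Fin t → W) (g : Fin t → ℤ) : Prop :=
  (∀ l, z l ∈ Z (g l)) ∧
    ∀ m, ∀ u ∈ Z m, ∃ a : Fin t → K, (∀ l, a l ∈ Ax k x (m - g l)) ∧ u = ∑ l, a l • z l

theorem exists_min {Z : Fam k W} (hZ : FG x Z) : ∃ (t : ℕ) (z : Fin t → W) (g : Fin t → ℤ),
    Gens x Z z g ∧ ∀ (m : ℤ) (a : Fin t → K), (∀ l, a l ∈ Ax k x (m - g l)) →
      ∑ l, a l • z l = 0 → ∀ l, m - g l = 0 → a l = 0 := by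
  classical
  have hex : ∃ t : ℕ, ∃ (z : Fin t → W) (g : Fin t → ℤ), Gens x Z z g := hZ.gens
  have h1 := Nat.find_spec hex
  have h2 : ∀ s < Nat.find hex, ¬ ∃ (z : Fin s → W) (g : Fin s → ℤ), Gens x Z z g :=
    fun s hs => Nat.find_min hex hs
  generalize Nat.find hex = t at h1 h2
  obtain ⟨z, g, hz⟩ := h1
  refine ⟨t, z, g, hz, fun m a ha h0 l hl => ?_⟩
  by_contra hne
  obtain ⟨s, rfl⟩ : ∃ s, t = s + 1 := ⟨t - 1, by have := l.pos; omega⟩
  refine h2 s (Nat.lt_succ_self s) ⟨fun j => z (l.succAbove j), fun j => g (l.succAbove j),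
    fun j => hz.1 _, fun n u hu => ?_⟩
  obtain ⟨b, hb, rfl⟩ := hz.2 n u hu
  have hi : (a l)⁻¹ ∈ Ax k x 0 := ax0_inv (by rw [← hl]; exact ha l)
  refine ⟨fun j => b (l.succAbove j) - b l * (a l)⁻¹ * a (l.succAbove j), fun j => ?_, ?_⟩
  · refine Submodule.sub_mem _ (hb _) ?_
    have := Ax_mul (Ax_mul (hb l) hi) (ha (l.succAbove j))
    have e : n - g l + 0 + (m - g (l.succAbove j)) = n - g (l.succAbove j) := by omega
    rwa [e] at this
  · rw [Fin.sum_univ_succAbove _ l] at h0 ⊢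
    have e : z l = -((a l)⁻¹ • ∑ j, a (l.succAbove j) • z (l.succAbove j)) := by
      rw [eq_neg_of_add_eq_zero_right h0, smul_neg, neg_neg, smul_smul, inv_mul_cancel₀ hne,
        one_smul]
    simp only [sub_smul, mul_smul, Finset.sum_sub_distrib, ← Finset.smul_sum]
    conv_lhs => rw [e]
    rw [smul_neg]
    abel

theorem free_of_dep (hI : Ind k x) {Z : Fam k W} (hZ : FG x Z) (h2 : Dep2 (x 0) (x 1) Z)
    (h3 : Dep3 x Z) : ∃ (t : ℕ) (z : Fin t → W) (g : Fin t → ℤ), Gens x Z z g ∧ AInd k x z g := by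
  obtain ⟨t, z, g, hz, hmin⟩ := exists_min hZ
  refine ⟨t, z, g, hz, ?_⟩
  let π : (Fin t → K) →ₗ[K] W := Fintype.linearCombination K z
  have πa : ∀ a, π a = ∑ l, a l • z l := fun a => rfl
  let F : ℤ → (Fin t → K) → Prop := fun m a => ∀ l, a l ∈ Ax k x (m - g l)
  have hπ : ∀ m a, F m a → π a ∈ Z m := by
    intro m a ha
    rw [πa]
    refine Submodule.sum_mem _ fun l _ => ?_
    have := hZ.st.ax (ha l) (hz.1 l)
    rwa [sub_add_cancel] at this
  have Fx : ∀ m a i, F (m - 1) a → F m (x i • a) := by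
    intro m a i ha l
    have := Ax_mul (x_mem_Ax x i) (ha l)
    have e : 1 + (m - 1 - g l) = m - g l := by ring
    rwa [e] at this
  have Fa : ∀ m a b, F m a → F m b → F m (a + b) := fun m a b ha hb l =>
    Submodule.add_mem _ (ha l) (hb l)
  have Fs : ∀ m a b, F m a → F m b → F m (a - b) := fun m a b ha hb l =>
    Submodule.sub_mem _ (ha l) (hb l)
  have step : ∀ m, (∀ a, F (m - 1) a → π a = 0 → a = 0) → ∀ a, F m a → π a = 0 → a = 0 := by
    intro m ih a ha h0
    have hs := fun l => ax_split (ha l) (hmin m a ha h0 l)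
    choose a0 h0' a1 h1' a2 h2' e using hs
    have e1 : ∀ l, m - g l - 1 = m - 1 - g l := fun l => by ring
    simp only [e1] at h0' h1' h2'
    have ea : a = x 0 • a0 + x 1 • a1 + x 2 • a2 := funext e
    have r0 : x 0 • π a0 + x 1 • π a1 + x 2 • π a2 = 0 := by
      rw [← map_smul, ← map_smul, ← map_smul, ← map_add, ← map_add, ← ea, h0]
    obtain ⟨p, hp, q, hq, e2⟩ := h3 (m - 1) (-π a0) (-π a1) (π a2)
      (Submodule.neg_mem _ (hπ _ _ h0')) (Submodule.neg_mem _ (hπ _ _ h1')) (hπ _ _ h2') (by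
        rw [smul_neg, smul_neg, ← neg_add]
        exact eq_neg_of_add_eq_zero_right r0)
    obtain ⟨p', hp', rfl⟩ := hz.2 _ _ hp
    obtain ⟨q', hq', rfl⟩ := hz.2 _ _ hq
    rw [← πa, ← πa] at e2
    have r1 : x 0 • π (a0 + x 2 • p') = x 1 • (-π (a1 + x 2 • q')) := by
      rw [e2] at r0
      rw [map_add, map_add, map_smul, map_smul, ← sub_eq_zero, ← r0]
      module
    obtain ⟨r, hr, e3⟩ := h2 (m - 1) _ _ (hπ _ _ (Fa _ _ _ h0' (Fx _ _ 2 hp')))
      (Submodule.neg_mem _ (hπ _ _ (Fa _ _ _ h1' (Fx _ _ 2 hq')))) r1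
    obtain ⟨r', hr', rfl⟩ := hz.2 _ _ hr
    rw [← πa] at e3
    rw [e3, smul_comm] at r1
    have e4 := smul_right_injective W (hI.ne 1) r1
    have z0 := ih (a0 + x 2 • p' - x 1 • r') (Fs _ _ _ (Fa _ _ _ h0' (Fx _ _ 2 hp')) (Fx _ _ 1 hr'))
      (by rw [map_sub, e3, map_smul, sub_self])
    have z1 := ih (a1 + x 2 • q' + x 0 • r') (Fa _ _ _ (Fa _ _ _ h1' (Fx _ _ 2 hq')) (Fx _ _ 0 hr'))
      (by rw [map_add, map_smul, e4, add_neg_cancel])
    have z2 := ih (a2 - (x 0 • p' + x 1 • q'))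
      (Fs _ _ _ h2' (Fa _ _ _ (Fx _ _ 0 hp') (Fx _ _ 1 hq')))
      (by rw [map_sub, e2, map_add, map_smul, map_smul, sub_self])
    have : a = x 0 • (a0 + x 2 • p' - x 1 • r') + x 1 • (a1 + x 2 • q' + x 0 • r') +
        x 2 • (a2 - (x 0 • p' + x 1 • q')) := by
      rw [ea]
      module
    rw [this, z0, z1, z2]
    simp
  obtain ⟨m0, hm0⟩ : ∃ m0 : ℤ, ∀ l, m0 < g l := by
    obtain ⟨b, hb⟩ := (Set.finite_range g).bddBelow
    exact ⟨b - 1, fun l => by have := hb ⟨l, rfl⟩; omega⟩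
  have low : ∀ m ≤ m0, ∀ a, F m a → π a = 0 → a = 0 := by
    intro m hm a ha _
    funext l
    have := ha l
    rwa [Ax_neg (by have := hm0 l; omega)] at this
  have all : ∀ n : ℕ, ∀ a, F (m0 + n) a → π a = 0 → a = 0 := by
    intro n
    induction n with
    | zero => exact low _ (by simp)
    | succ n ih =>
      apply step
      have e : m0 + ((n + 1 : ℕ) : ℤ) - 1 = m0 + n := by push_cast; ring
      rwa [e]
  intro m a ha h0
  by_cases hm : m ≤ m0
  · exact low m hm a ha h0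
  · obtain ⟨n, rfl⟩ : ∃ n : ℕ, m = m0 + n := ⟨(m - m0).toNat, by omega⟩
    exact all n a ha h0

omit [Module K W] [IsScalarTower k K W] in
theorem factor {U : Type} [AddCommGroup U] [Module k U] (F : Submodule k U) (π : U →ₗ[k] W)
    (f : U →ₗ[k] K) (h : ∀ a ∈ F, π a = 0 → f a = 0) :
    ∃ φ : W →ₗ[k] K, ∀ a ∈ F, φ (π a) = f a := by
  have hk : LinearMap.ker (π.domRestrict F) ≤ LinearMap.ker (f.domRestrict F) :=
    fun a ha => h a a.2 ha
  obtain ⟨φ, hφ⟩ := LinearMap.exists_extend (((LinearMap.ker (π.domRestrict F)).liftQ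
    (f.domRestrict F) hk).comp (π.domRestrict F).quotKerEquivRange.symm.toLinearMap)
  refine ⟨φ, fun a ha => ?_⟩
  have := LinearMap.congr_fun hφ ⟨π a, ⟨a, ha⟩, rfl⟩
  rw [LinearMap.comp_apply, Submodule.subtype_apply] at this
  rw [this, LinearMap.comp_apply, LinearEquiv.coe_coe]
  have e := (π.domRestrict F).quotKerEquivRange_symm_apply_image ⟨a, ha⟩ ⟨⟨a, ha⟩, rfl⟩
  erw [e]
  rfl

end

end Vale.Agent.P190.Pd

namespace Vale.Agent.P190

open Module L Pd

theorem pd : PdStmt := by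
  intro k K V _ _ _ _ _ _ _ x G m hI hG hD hφ
  classical
  obtain ⟨t, v, g, hv, hgen⟩ := hG.gens
  let π : (Fin t → K) →ₗ[K] V := Fintype.linearCombination K v
  have πa : ∀ a, π a = ∑ l, a l • v l := fun a => rfl
  let F : Fam k (Fin t → K) := Fr k x fun l => -g l
  have memF : ∀ n a, a ∈ F n ↔ ∀ l, a l ∈ Ax k x (n - g l) := fun n a => by
    simp only [F, mem_Fr, sub_eq_add_neg]
  have hF : FG x F := fg_Fr x _
  have hπ : ∀ n, ∀ a ∈ F n, π a ∈ G n := by
    intro n a ha
    rw [πa]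
    refine Submodule.sum_mem _ fun l _ => ?_
    have := hG.st.ax ((memF _ _).mp ha l) (hv l)
    rwa [sub_add_cancel] at this
  have hsur : ∀ n, ∀ u ∈ G n, ∃ a ∈ F n, u = π a := by
    intro n u hu
    obtain ⟨a, ha, e⟩ := hgen n u hu
    exact ⟨a, (memF _ _).mpr ha, e⟩
  let Z : Fam k (Fin t → K) := cap F (LinearMap.ker π)
  have hZ : FG x Z := hF.sub (fun i n a ha => ⟨hF.st i n a ha.1, (LinearMap.ker π).smul_mem _ ha.2⟩)
    fun n => inf_le_left
  have e1 : ∀ n l, n - g l - 1 = n - 1 - g l := fun n l => by ring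
  have Fx : ∀ n a i, a ∈ F (n - 1) → x i • a ∈ F n := by
    intro n a i ha
    have := hF.st i _ _ ha
    rwa [sub_add_cancel] at this
  have h2 : Dep2 (x 0) (x 1) Z := by
    intro n a b ha hb hab
    have := fun l => depA hI ((memF _ _).mp ha.1 l) ((memF _ _).mp hb.1 l) (congrFun hab l)
    choose w hw e using this
    have ea : a = x 1 • w := funext e
    refine ⟨w, ⟨(memF _ _).mpr fun l => by rw [← e1]; exact hw l, ?_⟩, ea⟩
    have h0 : π a = 0 := ha.2
    rw [ea, map_smul] at h0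
    exact (smul_eq_zero.mp h0).resolve_left (hI.ne 1)
  have h3 : Dep3 x Z := by
    intro n a b c ha hb hc habc
    have gd : Gd k x 1 (x 2) :=
      ⟨MvPolynomial.X 2, MvPolynomial.isHomogeneous_X k 2, MvPolynomial.aeval_X _ _, by simp⟩
    have e2 : ∀ l, ((1 : ℕ) : ℤ) + (n - g l) - 1 = n - g l := fun l => by push_cast; ring
    have := fun l => gd1 hI gd ((memF _ _).mp hc.1 l) (by rw [e2]; exact (memF _ _).mp ha.1 l)
      (by rw [e2]; exact (memF _ _).mp hb.1 l) (congrFun habc l)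
    choose a' ha' b' hb' e using this
    have ec : c = x 0 • a' + x 1 • b' := funext e
    have fa : a' ∈ F (n - 1) := (memF _ _).mpr fun l => by rw [← e1]; exact ha' l
    have fb : b' ∈ F (n - 1) := (memF _ _).mpr fun l => by rw [← e1]; exact hb' l
    have h0 : π c = 0 := hc.2
    rw [ec, map_add, map_smul, map_smul] at h0
    have r1 : x 0 • π a' = x 1 • (-π b') := by
      rw [smul_neg]
      exact eq_neg_of_add_eq_zero_left h0
    obtain ⟨w, hw, e3⟩ := hD _ _ _ (hπ _ _ fa) (Submodule.neg_mem _ (hπ _ _ fb)) r1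
    obtain ⟨u, hu, rfl⟩ := hsur _ _ hw
    rw [e3, smul_comm] at r1
    have e4 := smul_right_injective V (hI.ne 1) r1
    refine ⟨a' - x 1 • u, ⟨Submodule.sub_mem _ fa (Fx _ _ 1 hu), ?_⟩, b' + x 0 • u,
      ⟨Submodule.add_mem _ fb (Fx _ _ 0 hu), ?_⟩, ?_⟩
    · change π _ = 0
      rw [map_sub, map_smul, e3, sub_self]
    · change π _ = 0
      rw [map_add, map_smul, e4, add_neg_cancel]
    · rw [ec]
      module
  obtain ⟨s, z, h, hz, hzi⟩ := free_of_dep hI hZ h2 h3
  have hZg : gen (Ax k x) z h = Z := by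
    funext n
    apply le_antisymm
    · intro u hu
      obtain ⟨a, ha, rfl⟩ := mem_gen.mp hu
      refine Submodule.sum_mem _ fun l _ => ?_
      have := hZ.st.ax (ha l) (hz.1 l)
      rwa [sub_add_cancel] at this
    · intro u hu
      exact mem_gen.mpr (hz.2 n u hu)
  have hdim : ∀ n, hf G n = ∑ l, hf (Ax k x) (n - g l) - ∑ i, hf (Ax k x) (n - h i) := by
    intro n
    have := hF.fin n
    have e := LinearMap.finrank_range_add_finrank_ker ((π.restrictScalars k).domRestrict (F n))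
    have r : (F n).map (π.restrictScalars k) = G n := by
      apply le_antisymm
      · rintro _ ⟨a, ha, rfl⟩
        exact hπ n a ha
      · intro u hu
        obtain ⟨a, ha, e⟩ := hsur n u hu
        exact ⟨a, ha, e.symm⟩
    rw [LinearMap.range_domRestrict, LinearMap.ker_domRestrict,
      ← Submodule.finrank_map_subtype_eq, Submodule.map_comap_subtype, r] at e
    have e' : hf G n + hf Z n = hf F n := by
      unfold hf
      exact_mod_cast e
    rw [← (hp_free hI hzi).1, hZg, eq_sub_iff_add_eq, e', hf_Fr]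
    simp only [sub_eq_add_neg]
  have hHP : HP G m = ∑ l, ((m : ℝ) - g l + 1) * (m - g l + 2) / 2 -
      ∑ i, ((m : ℝ) - h i + 1) * (m - h i + 2) / 2 := by
    obtain ⟨b1, hb1⟩ := (Set.finite_range g).bddAbove
    obtain ⟨b2, hb2⟩ := (Set.finite_range h).bddAbove
    have key : ∀ (u : ℕ) (c : Fin u → ℤ) (y : ℝ), ∑ l, (y - c l + 1) * (y - c l + 2) / 2 =
        u * y ^ 2 / 2 + (∑ l, (3 / 2 - (c l : ℝ))) * y + ∑ l, (1 - (c l : ℝ)) * (2 - c l) / 2 := by
      intro u c y
      have : (u : ℝ) * y ^ 2 / 2 = ∑ _l : Fin u, y ^ 2 / 2 := by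
        simp
        ring
      rw [this, Finset.sum_mul, ← Finset.sum_add_distrib, ← Finset.sum_add_distrib]
      exact Finset.sum_congr rfl fun l _ => by ring
    obtain ⟨u1, u2, u3⟩ := hp_eq (G := G) (a := t - s)
      (b := ∑ l, (3 / 2 - (g l : ℝ)) - ∑ l, (3 / 2 - (h l : ℝ)))
      (c := ∑ l, (1 - (g l : ℝ)) * (2 - g l) / 2 - ∑ l, (1 - (h l : ℝ)) * (2 - h l) / 2)
      (m0 := max b1 b2) (fun n hn => by
        have i1 : ∑ l, hf (Ax k x) (n - g l) = ∑ l, ((n : ℝ) - g l + 1) * (n - g l + 2) / 2 := by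
          refine Finset.sum_congr rfl fun l _ => ?_
          have := hb1 ⟨l, rfl⟩
          rw [hf_Ax hI (by have := le_trans (le_max_left _ _) hn; omega)]
          push_cast
          rfl
        have i2 : ∑ l, hf (Ax k x) (n - h l) = ∑ l, ((n : ℝ) - h l + 1) * (n - h l + 2) / 2 := by
          refine Finset.sum_congr rfl fun l _ => ?_
          have := hb2 ⟨l, rfl⟩
          rw [hf_Ax hI (by have := le_trans (le_max_right _ _) hn; omega)]
          push_cast
          rfl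
        rw [hdim, i1, i2, key, key]
        ring)
    unfold HP
    rw [u1, u2, u3, key, key]
    ring
  have sym : ∀ (u : ℕ) (c : Fin u → ℤ), ∑ l, ((m : ℝ) - c l + 1) * (m - c l + 2) / 2 =
      ∑ l, hf (Ax k x) (m - c l) + hf (Fr k x fun l => c l - m - 3) 0 := by
    intro u c
    rw [hf_Fr, ← Finset.sum_add_distrib]
    refine Finset.sum_congr rfl fun l _ => ?_
    have := hf_sym hI (m - c l)
    have e : -(m - c l) - 3 = 0 + (c l - m - 3) := by ring
    rw [e] at this
    rw [this]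
    push_cast
    rfl
  have dual : hf (Fr k x fun l => g l - m - 3) 0 ≤ hf (Fr k x fun l => h l - m - 3) 0 := by
    let Ψ : (Fin t → K) →ₗ[k] (Fin s → K) :=
      (LinearMap.pi fun i => Fintype.linearCombination K (z i)).restrictScalars k
    have Ψa : ∀ ψ i, Ψ ψ i = ∑ l, ψ l * z i l := fun _ _ => rfl
    have := (fg_Fr (k := k) x fun l => h l - m - 3).fin 0
    unfold hf
    rw [Nat.cast_le]
    refine LinearMap.finrank_le_finrank_of_injective
      (f := Ψ.restrict (p := Fr k x (fun l => g l - m - 3) 0)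
        (q := Fr k x (fun l => h l - m - 3) 0) ?_) ?_
    · intro ψ hψ
      refine mem_Fr.mpr fun i => ?_
      rw [Ψa]
      refine Submodule.sum_mem _ fun l _ => ?_
      have := Ax_mul (mem_Fr.mp hψ l) ((memF _ _).mp (hz.1 i).1 l)
      have e : 0 + (g l - m - 3) + (h i - g l) = 0 + (h i - m - 3) := by ring
      rwa [e] at this
    · rw [injective_iff_map_eq_zero]
      rintro ⟨ψ, hψ⟩ h0
      have h1 : Ψ ψ = 0 := congrArg Subtype.val h0
      let f : (Fin t → K) →ₗ[K] K := Fintype.linearCombination K ψ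
      have fa : ∀ a, f a = ∑ l, a l * ψ l := fun a => rfl
      have hfz : ∀ i, f (z i) = 0 := by
        intro i
        have := congrFun h1 i
        rw [Ψa] at this
        rw [fa]
        simpa only [mul_comm, Pi.zero_apply] using this
      have ex := fun j => factor (F j) (π.restrictScalars k) (f.restrictScalars k) (by
        intro a ha h0
        obtain ⟨c, -, rfl⟩ := hz.2 j a ⟨ha, h0⟩
        simp only [LinearMap.restrictScalars_apply, map_sum, map_smul, hfz, smul_zero,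
          Finset.sum_const_zero])
      choose φ hφ' using ex
      simp only [LinearMap.restrictScalars_apply] at hφ'
      have van := hφ φ (by
        intro j u hu
        obtain ⟨a, ha, rfl⟩ := hsur j u hu
        rw [hφ' j a ha, fa]
        refine Submodule.sum_mem _ fun l _ => ?_
        have := Ax_mul ((memF _ _).mp ha l) (mem_Fr.mp hψ l)
        have e : j - g l + (0 + (g l - m - 3)) = j - m - 3 := by ring
        rwa [e] at this) (by
        intro j i u hu
        obtain ⟨a, ha, rfl⟩ := hsur j u hu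
        rw [← map_smul, hφ' _ _ (hF.st i j a ha), hφ' j a ha, map_smul, smul_eq_mul])
      ext l
      have hl : (Pi.single l 1 : Fin t → K) ∈ F (g l) := by
        refine (memF _ _).mpr fun l' => ?_
        by_cases e : l' = l
        · rw [e, Pi.single_eq_same, sub_self]
          exact one_mem_Ax x
        · rw [Pi.single_eq_of_ne e]
          exact Submodule.zero_mem _
      have := van _ _ (hπ _ _ hl)
      rw [hφ' _ _ hl, fa] at this
      simpa [Pi.single_apply] using this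
  rw [hHP, sym, sym, hdim]
  linarith

end Vale.Agent.P190
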