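import Vale.Agent.P190.Flat

/-! P190, module Sb: scaling of Hilbert polynomials under Frobenius. -/

namespace Vale.Agent.P190

open Module Flat

namespace Scale

variable {k K V : Type} [Field k] [Field K] [Algebra k K] [AddCommGroup V] [Module k V]
  [Module K V] [IsScalarTower k K V] {R : Fam k K} {p : ℕ} {x : Fin 3 → K} {j0 : ℕ}

/-- The defect of the scaling formula. -/
noncomputable def phi (R : Fam k K) (p : ℕ) (Φ : V → V) (U : Fam k V) (y : ℝ) : ℝ :=
  HP (fr R p Φ U) (cen R + p * y) - p ^ 2 * HP U (cen R + y) +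
    (p ^ 2 - 1) * (rk U / rk R) * HP R (cen R)

noncomputable abbrev phI (R : Fam k K) (p : ℕ) (P : Fam k K) (y : ℝ) : ℝ :=
  phi R p (fun w => w ^ p) P y

theorem hp_step {U N : Fam k V} {P : Fam k K} (hN : FG x N) (hR : FG x R) (hP : FG x P) (b : ℤ)
    {m0 : ℤ} (h : ∀ m ≥ m0, hf U m = hf N m + hf R (m - b) - hf P (m - b)) :
    rk U = rk N + rk R - rk P ∧ ∀ y : ℝ, HP U y = HP N y + HP R (y - b) - HP P (y - b) := by
  obtain ⟨m1, h1⟩ := hN.isHP
  obtain ⟨m2, h2⟩ := hR.isHP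
  obtain ⟨m3, h3⟩ := hP.isHP
  obtain ⟨e1, e2, e3⟩ := hp_eq (G := U) (a := rk N + rk R - rk P)
    (b := dg N + (dg R - rk R * b) - (dg P - rk P * b)) (c := cs N + HP R (-b) - HP P (-b))
    (m0 := max (max m0 m1) (max (m2 + b) (m3 + b))) fun m hm => by
      rw [h m (by omega), h1 m (by omega), h2 _ (by omega), h3 _ (by omega)]
      simp only [HP]
      push_cast
      ring
  refine ⟨e1, fun y => ?_⟩
  rw [HP, e1, e2, e3]
  simp only [HP]
  ring

theorem fr_adj (hR : Gr R) {Φ : V → V} (hΦ : Fb K p Φ) (N : Fam k V) (v : V) (b : ℤ) :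
    fr R p Φ (adj R N v b) = adj R (fr R p Φ N) (Φ v) (p * b) := by
  funext m
  refine le_antisymm (fr_le fun j a u ha hu => ?_) fun u hu => ?_
  · obtain ⟨w, hw, c, hc, rfl⟩ := mem_adj.mp hu
    refine mem_adj.mpr ⟨_, fr_mem ha hw, a * c ^ p, ?_, by
      rw [hΦ.add, hΦ.smul, smul_add, mul_smul]⟩
    have h1 := hR.mul _ _ _ _ ha (hR.pow hc p)
    rwa [show m - p * j + (j - b) * p = m - p * b by ring] at h1
  · obtain ⟨w, hw, c, hc, rfl⟩ := mem_adj.mp hu
    refine add_mem (fr_le (fun j a w ha hw => fr_mem ha (Submodule.mem_sup_left hw)) hw)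
      (fr_mem hc (mem_adj.mpr ⟨0, zero_mem _, 1, ?_, by simp⟩))
    rw [sub_self]
    exact hR.one

omit [IsScalarTower k K V] in
theorem phi_bot {Φ : V → V} (hΦ : Fb K p Φ) (y : ℝ) : phi R p Φ (fun _ => ⊥) y = 0 := by
  have h1 : fr R p Φ (fun _ => (⊥ : Submodule k V)) = fun _ => ⊥ := by
    funext m
    refine le_bot_iff.mp (fr_le fun j a w _ hw => ?_)
    rw [(Submodule.mem_bot k).mp hw, hΦ.zero, smul_zero]
    exact zero_mem _
  rw [phi, h1]
  simp only [HP, hp_bot.1, hp_bot.2.1, hp_bot.2.2]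
  ring

theorem hp_cen (hd : 0 < rk R) (c y : ℝ) :
    HP R (cen R + c * y) - c ^ 2 * HP R (cen R + y) + (c ^ 2 - 1) * HP R (cen R) = 0 := by
  simp only [HP, cen]
  field_simp
  ring

section
variable [IsAlgClosed k] [Fact p.Prime] [CharP K p] (hR : Gr R) (hx : Hsop R x j0)
  (hd : 0 < rk R) (hc : Cover R p)
include hR hx hd hc

theorem phi_adj {Φ : V → V} (hΦ : Fb K p Φ) {N : Fam k V} (hN : FG x N) (hs : RSt R N) (v : V)
    (b : ℤ) (y : ℝ) :
    phi R p Φ (adj R N v b) y = phi R p Φ N y - phI R p (col R N v b) (y - b) := by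
  have hf1 := hx.fg hR
  have hP : FG x (col R N v b) := hf1.sub ((col_rst hR hs v b).st hx.1) fun _ => inf_le_left
  have hN' := fr_fg hR hx hΦ hN
  obtain ⟨e1, e2⟩ := hp_step (U := adj R N v b) hN hf1 hP b (m0 := 0) fun m _ => by
    have := hN.fin m
    exact hf_adj hR v b m
  obtain ⟨m0, h0⟩ := colon hR hx hc hΦ hs v b
  obtain ⟨-, e3⟩ := hp_step (U := adj R (fr R p Φ N) (Φ v) (p * b)) hN' hf1
    (fr_fg hR hx fb_one hP) (p * b) (m0 := m0 + p * b) fun m hm => by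
      have := hN'.fin m
      rw [hf_adj hR _ _ m, hf_def (col _ _ _ _), h0 _ (by omega)]
      rfl
  have e4 := hp_cen hd p (y - b)
  simp only [phi]
  rw [fr_adj hR hΦ, e1, e2, e3]
  push_cast
  rw [show cen R + p * y - p * b = cen R + p * (y - b) by ring,
    show cen R + y - b = cen R + (y - b) by ring, sub_div, add_div, div_self hd.ne']
  linear_combination e4

omit [IsAlgClosed k] [Fact p.Prime] [CharP K p] hx hc in
theorem phi_top (y : ℝ) : phI R p R y = 0 := by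
  have h1 : fr R p (fun w : K => w ^ p) R = R := by
    funext m
    refine le_antisymm (frI_le hR (fun _ => le_rfl) m) fun a ha => ?_
    have h2 := fr_mem (Φ := fun w : K => w ^ p) (p := p) (m := m) (j := 0) (G := R)
      (by simpa using ha) hR.one
    simpa using h2
  have h2 := hp_cen hd p y
  simp only [phi]
  rw [h1, div_self hd.ne', mul_one]
  exact h2

omit [IsAlgClosed k] [Fact p.Prime] [CharP K p] hd hc in
theorem rk_full {P : Fam k K} (hle : ∀ m, P m ≤ R m) (hs : RSt R P) {j : ℤ} {f : K} (hf : f ∈ P j)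
    (h0 : f ≠ 0) : rk P = rk R := by
  have hf1 := hx.fg hR
  refine le_antisymm (hp_mono hf1 (hs.st hx.1) hle).1
    (rk_le_of_smul hf1 (hf1.sub (hs.st hx.1) hle) h0 (j := j) fun m a ha => ?_).1
  have h1 := hs _ _ _ _ ha hf
  rwa [smul_eq_mul, mul_comm, add_comm] at h1

omit hd in
theorem phi_pt' {P : Fam k K} (hP : PrimeF R P) {c : ℝ} (h : ∀ m, hf R m ≤ hf P m + c) :
    rk P = rk R ∧ ∃ e : ℝ, (∀ y, HP P y = HP R y - e) ∧
      ∀ y, HP (frI R p P) y = HP R y - p ^ 2 * e := by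
  have hf1 := hx.fg hR
  have hP1 := hf1.sub (hP.st.st hx.1) hP.le
  obtain ⟨m1, h1⟩ := hf1.isHP
  obtain ⟨m2, h2⟩ := hP1.isHP
  obtain ⟨a1, a2, -⟩ := hp_mono hf1 (hP.st.st hx.1) hP.le
  obtain ⟨b1, b2, -⟩ := poly_le (a := rk R) (b := dg R) (c := cs R) (a' := rk P) (b' := dg P)
    (c' := cs P + c) (m0 := max m1 m2) fun m hm => by
      have := h m
      rw [h1 m (by omega), h2 m (by omega), HP, HP] at this
      linarith
  have e1 : rk P = rk R := le_antisymm a1 b1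
  have e2 : dg P = dg R := le_antisymm (a2 e1) (b2 e1.symm)
  refine ⟨e1, cs R - cs P, fun y => by simp only [HP, e1, e2]; ring, ?_⟩
  obtain ⟨m3, h3⟩ := points hR hx hc hP (c := cs R - cs P) ⟨max m1 m2, fun m hm => by
    rw [h1 m (by omega), h2 m (by omega), HP, HP, e1, e2]
    ring⟩
  obtain ⟨c1, c2, c3⟩ := hp_eq (G := frI R p P) (a := rk R) (b := dg R)
    (c := cs R - p ^ 2 * (cs R - cs P)) (m0 := max m1 m3) fun m hm => by
      have := h3 m (by omega)
      rw [h1 m (by omega), HP] at this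
      linarith
  intro y
  simp only [HP, c1, c2, c3]
  ring

theorem phi_pt {P : Fam k K} (hP : PrimeF R P) {c : ℝ} (h : ∀ m, hf R m ≤ hf P m + c) (y : ℝ) :
    phI R p P y = 0 := by
  obtain ⟨e1, e, e2, e3⟩ := phi_pt' hR hx hc hP h
  have h2 := hp_cen hd p y
  simp only [phi]
  rw [e1, e2, e3, div_self hd.ne']
  linear_combination h2

omit [IsAlgClosed k] [Fact p.Prime] [CharP K p] hd hc in
theorem phi_aff {P : Fam k K} (hP : PrimeF R P) {j : ℤ} {f : K} (hf : f ∈ P j) (h0 : f ≠ 0) :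
    ∃ α β : ℝ, ∀ y, phI R p P y = α * y + β := by
  have e1 := rk_full hR hx hP.le hP.st hf h0
  have h1 := fr_mem (R := R) (Φ := fun w : K => w ^ p) (p := p) (m := p * j) (a := 1)
    (by rw [sub_self]; exact hR.one) hf
  rw [one_smul] at h1
  have e2 := rk_full hR hx (frI_le hR hP.le) (fr_rst hR _ _) h1 (pow_ne_zero p h0)
  refine ⟨phI R p P 1 - phI R p P 0, phI R p P 0, fun y => ?_⟩
  simp only [phi, HP, e1, e2]
  ring

omit [IsAlgClosed k] [Fact p.Prime] [CharP K p] hd hc in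
theorem nest {Q P : Fam k K} (hQ : PrimeF R Q) {j : ℤ} {f : K} (hf1 : f ∈ Q j) (h0 : f ≠ 0)
    (hle : ∀ m, Q m ≤ P m) (hP : ∀ m, P m ≤ R m) (hs : RSt R P)
    (hu : ¬ ∃ c : ℝ, ∀ m, hf R m ≤ hf P m + c) : P = Q := by
  by_contra hne
  obtain ⟨i, hi⟩ := Function.ne_iff.mp hne
  obtain ⟨g, hg1, hg2⟩ := SetLike.exists_of_lt (lt_of_le_of_ne (hle i) hi.symm)
  have hF := hx.fg hR
  have hQF := hF.sub (hQ.st.st hx.1) hQ.le
  have hcol : col R Q g i = Q := by
    funext m
    ext a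
    rw [mem_col]
    refine ⟨fun h2 => (hQ.pr _ _ _ _ h2.1 (hP i hg1) h2.2).resolve_right hg2,
      fun h2 => ⟨hQ.le m h2, ?_⟩⟩
    have h3 := hQ.st _ _ _ _ (hP i hg1) h2
    rwa [smul_eq_mul, mul_comm, add_comm] at h3
  have e1 := rk_full hR hx hQ.le hQ.st hf1 h0
  obtain ⟨m1, h1⟩ := hF.isHP
  obtain ⟨m2, h2⟩ := hQF.isHP
  have key : ∀ m ≥ max (max m1 m2) (max m1 m2 + i), hf R m ≤ hf P m + (dg R - dg Q) * i := by
    intro m hm
    have := hQF.fin m
    have := (hF.sub (hs.st hx.1) hP).fin m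
    have h3 := hf_le (G := P) (U := adj R Q g i) (adj_le hs hle hg1 m)
    rw [hf_adj hR, hcol, h1 (m - i) (by omega), h2 (m - i) (by omega), h2 m (by omega)] at h3
    rw [h1 m (by omega)]
    simp only [HP, e1] at h3 ⊢
    push_cast at h3
    linarith
  set M := max (max m1 m2) (max m1 m2 + i)
  have hn : ∀ m, 0 ≤ hf R m := fun m => dR_nonneg _
  refine hu ⟨|(dg R - dg Q) * i| + ∑ m ∈ Finset.Icc 0 M, hf R m, fun m => ?_⟩
  have h3 : 0 ≤ hf P m := dR_nonneg _
  have h4 : 0 ≤ ∑ m ∈ Finset.Icc 0 M, hf R m := Finset.sum_nonneg fun m _ => hn m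
  have h5 := abs_nonneg ((dg R - dg Q) * i)
  by_cases hm : M ≤ m
  · linarith [key m hm, le_abs_self ((dg R - dg Q) * i)]
  by_cases hm0 : m < 0
  · rw [hf_def R, hR.neg m hm0, dR_bot]
    linarith
  · have := Finset.single_le_sum (fun m _ => hn m) (Finset.mem_Icc.mpr ⟨not_lt.mp hm0,
      (not_le.mp hm).le⟩)
    linarith

omit [IsAlgClosed k] [Fact p.Prime] [CharP K p] hd hc in
theorem phi_conj {Q P : Fam k K} (hQ : Curve R Q) (hP : Curve R P) (h : Conj R Q P) (y : ℝ) :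
    phI R p Q y = phI R p P y := by
  obtain ⟨σ, u, ⟨hu, hA⟩, h⟩ := h
  let L : ℤ → K →ₗ[k] K := fun m => (ml k (u ^ m)⁻¹).comp σ.toLinearMap
  have hL : ∀ m a, L m a = σ a / u ^ m := fun m a => by
    simp only [L, LinearMap.comp_apply, ml_apply, smul_eq_mul, div_eq_inv_mul]
    rfl
  have hmul : ∀ i j a b, L (i + j) (a * b) = L i a * L j b := fun i j a b => by
    rw [hL, hL, hL, map_mul, zpow_add₀ hu, div_mul_div_comm]
  have hpow : ∀ i j a b, L i (a * b ^ p) = L (i - p * j) a * L j b ^ p := fun i j a b => by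
    rw [hL, hL, hL, map_mul, map_pow, div_pow, div_mul_div_comm, ← zpow_natCast (u ^ j),
      ← zpow_mul, ← zpow_add₀ hu, show i - p * j + j * p = i by ring]
  have hsur : ∀ m, Function.Surjective (L m) := fun m b =>
    ⟨σ.symm (b * u ^ m), by rw [hL, σ.apply_symm_apply, mul_div_cancel_right₀ _ (zpow_ne_zero m hu)]⟩
  have hdim : ∀ m (A : Submodule k K), A ≤ R m → dR (A.map (L m)) = dR A := fun m A hA' => by
    have := hR.fin m
    have := Submodule.finiteDimensional_of_le hA'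
    refine dR_map _ _ fun v _ hv => ?_
    rw [hL, div_eq_zero_iff] at hv
    exact (map_eq_zero_iff σ σ.injective).mp (hv.resolve_right (zpow_ne_zero m hu))
  have hR' : ∀ m a, a ∈ R m ↔ L m a ∈ R m := fun m a => by rw [hL]; exact hA m a
  let P' : Fam k K := fun m => (P m).comap (L m)
  have hle : ∀ m, P' m ≤ R m := fun m a ha => (hR' m a).mpr (hP.1.le m ha)
  have h1 : ∀ m, hf P' m = hf P m := fun m => by
    rw [hf_def, hf_def, ← hdim m _ (hle m), Submodule.map_comap_eq_of_surjective (hsur m)]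
  obtain ⟨j, hj⟩ := hQ.2.1
  obtain ⟨f, hf1, hf0⟩ := Submodule.exists_mem_ne_zero_of_ne_bot hj
  have hE : P' = Q := nest hR hx hQ.1 hf1 hf0 (fun m a ha => by
      have h2 := h m a ha
      rwa [← hL] at h2) hle (fun i m a b ha hb => by
      have h2 := hP.1.st _ _ _ _ ((hR' i a).mp ha) hb
      rwa [smul_eq_mul, ← hmul] at h2) (by simpa only [h1] using hP.2.2)
  have h2 : ∀ m, hf (frI R p P') m = hf (frI R p P) m := fun m => by
    rw [hf_def, hf_def, ← hdim m _ (frI_le hR hle m)]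
    congr 1
    refine le_antisymm (Submodule.map_le_iff_le_comap.mpr (fr_le fun i a w ha hw => ?_))
      (fr_le fun i a w ha hw => ?_)
    · have h3 := fr_mem (Φ := fun w : K => w ^ p) ((hR' _ a).mp ha) (G := P) hw
      rwa [smul_eq_mul, ← hpow] at h3
    · obtain ⟨a, rfl⟩ := hsur (m - p * i) a
      obtain ⟨w, rfl⟩ := hsur i w
      exact ⟨_, fr_mem ((hR' _ a).mpr ha) (G := P') hw, hpow _ _ _ _⟩
  obtain ⟨a1, a2, a3⟩ := hp_congr (G := P') (U := P) (m0 := 0) fun m _ => h1 m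
  obtain ⟨b1, b2, b3⟩ := hp_congr (G := frI R p P') (U := frI R p P) (m0 := 0) fun m _ => h2 m
  rw [← hE]
  simp only [phi, HP, a1, a2, a3, b1, b2, b3]

theorem phi_key {P : Fam k K} (hP : Curve R P) {j : ℤ} {f : K} (hf1 : f ∈ P j) (h0 : f ≠ 0)
    (h : ∀ Q, Curve R Q → f ∈ Q j → (∀ y, phI R p Q y = 0) ∨ ∀ y, phI R p Q y = phI R p P y)
    (y : ℝ) : phI R p P y = 0 := by
  obtain ⟨α, β, hab⟩ := phi_aff (p := p) hR hx hP.1 hf1 h0
  have hF := hx.fg hR
  have hfR := hP.1.le j hf1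
  have hb : RSt R (fun _ => (⊥ : Submodule k K)) := fun _ _ a v _ hv => by
    rw [(Submodule.mem_bot k).mp hv, smul_zero]
    exact zero_mem _
  obtain ⟨t, B, h1, h2⟩ := pf hR hx.1 hF hF hR.rst (fun N => f ∈ N j → ∃ (t : ℕ) (B : ℝ),
      (∀ y, phI R p N y = t * (α * y + β) - α * B) ∧
      (t = 0 → ∃ i g, g ∈ R i ∧ g ∉ P i ∧ ∀ m, ∀ a ∈ R m, g * a ∈ N (i + m)))
    (fun _ => ⟨0, 0, fun y => by rw [phi_top hR hd]; simp, fun _ =>
      ⟨0, 1, hR.one, hP.1.one, fun m a ha => by simpa using ha⟩⟩)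
    (fun N v b hN hle hv hQ ih hfN => by
      obtain ⟨t, B, h1, h2⟩ := ih (Submodule.mem_sup_left hfN)
      have h3 := fun y => phi_adj hR hx hd hc fb_one (hF.sub (hN.st hx.1) hle) hN v b y
      have hfQ : f ∈ col R N v b j := mem_col.mpr ⟨hfR, by
        have h4 := hN _ _ _ _ hv hfN
        rwa [smul_eq_mul, mul_comm, add_comm] at h4⟩
      have hA : (∀ y, phI R p (col R N v b) y = phI R p P y) → ∃ (t : ℕ) (B : ℝ),
          (∀ y, phI R p N y = t * (α * y + β) - α * B) ∧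
          (t = 0 → ∃ i g, g ∈ R i ∧ g ∉ P i ∧ ∀ m, ∀ a ∈ R m, g * a ∈ N (i + m)) := fun h4 =>
        ⟨t + 1, B + b, fun y => by
          have h5 := h3 y
          rw [h4, hab] at h5
          push_cast
          linear_combination h1 y - h5, fun h5 => absurd h5 t.succ_ne_zero⟩
      by_cases hQP : ∀ m, col R N v b m ≤ P m
      · exact hA fun y => by rw [nest hR hx hQ hfQ h0 hQP hP.1.le hP.1.st hP.2.2]
      have hZ : (∀ y, phI R p (col R N v b) y = 0) ∨
          ∀ y, phI R p (col R N v b) y = phI R p P y := by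
        by_cases hu : ∃ c : ℝ, ∀ m, hf R m ≤ hf (col R N v b) m + c
        · exact Or.inl (phi_pt hR hx hd hc hQ hu.choose_spec)
        · exact h _ ⟨hQ, ⟨j, (Submodule.ne_bot_iff _).mpr ⟨f, hfQ, h0⟩⟩, hu⟩ hfQ
      refine hZ.elim (fun h4 => ⟨t, B, fun y => ?_, fun ht => ?_⟩) hA
      · have h5 := h3 y
        rw [h4] at h5
        linear_combination h1 y - h5
      · obtain ⟨i, g, hg1, hg2, hg3⟩ := h2 ht
        obtain ⟨i', hi'⟩ := not_forall.mp hQP
        obtain ⟨g', hg4, hg5⟩ := SetLike.not_le_iff_exists.mp hi'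
        refine ⟨i' + i, g' * g, hR.mul _ _ _ _ hg4.1 hg1, fun h5 =>
          (hP.1.pr _ _ _ _ hg4.1 hg1 h5).elim hg5 hg2, fun m a ha => ?_⟩
        obtain ⟨w, hw, c, hc1, hc2⟩ := mem_adj.mp (hg3 m a ha)
        have h5 := hN _ _ _ _ hg4.1 hw
        have h6 := hN _ _ _ _ hc1 (mem_col.mp hg4).2
        rw [show i + m - b + (i' + b) = i' + (i + m) by ring, smul_comm] at h6
        rw [mul_assoc, hc2, add_assoc, mul_add]
        exact add_mem h5 h6)
    (adj R (fun _ => ⊥) f j) (adj_rst hR hb f j) (adj_le hR.rst (fun _ => bot_le) hfR)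
    (mem_adj.mpr ⟨0, zero_mem _, 1, by rw [sub_self]; exact hR.one, by simp⟩)
  have hcol : col R (fun _ => (⊥ : Submodule k K)) f j = fun _ => ⊥ := by
    funext m
    refine le_bot_iff.mp fun a ha => ?_
    have h3 := (mem_col.mp ha).2
    rw [Submodule.mem_bot, smul_eq_mul] at h3
    exact (mul_eq_zero.mp h3).resolve_right h0
  have h3 : ∀ y, (t : ℝ) * (α * y + β) - α * B = 0 := fun y => by
    rw [← h1, phI, phi_adj hR hx hd hc fb_one (FG.bot x) hb, hcol, phI, phi_bot fb_one,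
      phi_bot fb_one, sub_zero]
  have ht : (t : ℝ) ≠ 0 := by
    intro ht
    obtain ⟨i, g, hg1, hg2, hg3⟩ := h2 (by exact_mod_cast ht)
    have h4 := adj_le hP.1.st (fun _ => bot_le) hf1 _ (hg3 0 1 hR.one)
    rw [mul_one, add_zero] at h4
    exact hg2 h4
  have hα : α = 0 :=
    (mul_eq_zero.mp (by linear_combination h3 1 - h3 0 : (t : ℝ) * α = 0)).resolve_left ht
  have hβ : β = 0 := (mul_eq_zero.mp (by
    have h4 := h3 0
    rw [hα] at h4
    linear_combination h4 : (t : ℝ) * β = 0)).resolve_left ht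
  rw [hab, hα, hβ]
  ring

theorem phi_prime (hS : Sym R) {P : Fam k K} (hP : PrimeF R P) (y : ℝ) : phI R p P y = 0 := by
  obtain ⟨w, -, hw0, s1, s2⟩ := hS
  have h1 : ∀ P, Curve R P → w ∈ P 2 → ∀ y, phI R p P y = 0 := fun P hP hw =>
    phi_key hR hx hd hc hP hw hw0 fun Q hQ hw' =>
      Or.inr (phi_conj hR hx hQ hP (s1 P Q hP hQ hw hw'))
  by_cases h0 : ∃ m, P m ≠ ⊥
  · by_cases hu : ∃ c : ℝ, ∀ m, hf R m ≤ hf P m + c
    · exact phi_pt hR hx hd hc hP hu.choose_spec y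
    have hC : Curve R P := ⟨hP, h0, hu⟩
    by_cases hw : w ∈ P 2
    · exact h1 P hC hw y
    obtain ⟨j, f, hf1, hf0, h2⟩ := s2 P hC hw
    refine phi_key hR hx hd hc hC hf1 hf0 (fun Q hQ hfQ => ?_) y
    by_cases hw' : w ∈ Q 2
    · exact Or.inl (h1 Q hQ hw')
    · exact Or.inr (phi_conj hR hx hQ hC (h2 Q hQ hfQ hw'))
  · push Not at h0
    rw [show P = fun _ => ⊥ from funext h0]
    exact phi_bot fb_one y

theorem phi_zero (hS : Sym R) {Φ : V → V} (hΦ : Fb K p Φ) {G : Fam k V} (hG : FG x G)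
    (hs : RSt R G) (y : ℝ) : phi R p Φ G y = 0 := by
  have h1 := pf hR hx.1 (hx.fg hR) hG hs (fun N => phi R p Φ N y = phi R p Φ G y) rfl
    (fun N v b hN hle _ hP ih => by
      rw [← ih, phi_adj hR hx hd hc hΦ (hG.sub (hN.st hx.1) hle) hN, phi_prime hR hx hd hc hS hP,
        sub_zero])
    (fun _ => ⊥) (fun _ _ a v _ hv => by
      rw [(Submodule.mem_bot k).mp hv, smul_zero]
      exact zero_mem _) fun _ => bot_le
  rw [← h1, phi_bot hΦ]

end

end Scale

open Scale in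
theorem s1 (_h : FlatStmt) : S1Stmt := by
  intro k K _ _ _ R x j0 p hk hp hch hR hx hd hc hS r G hG hs
  have := Fact.mk hp
  have : CharP K p := charP_of_injective_algebraMap (algebraMap k K).injective p
  have h := phi_zero hR hx hd hc hS (fb_vec r) hG hs
  have hp0 : (p : ℝ) ≠ 0 := by exact_mod_cast hp.ne_zero
  have h0 := h 0
  have h1 := h 1
  have h2 := h (-1)
  simp only [phi] at h0 h1 h2
  have e1 : rk (frv R p G) = rk G := by
    simp only [HP] at h0 h1 h2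
    exact mul_left_cancel₀ (pow_ne_zero 2 hp0) (by linear_combination h1 + h2 - 2 * h0)
  refine ⟨e1, ?_, ?_⟩
  · simp only [HP] at h1 h2
    simp only [fd]
    exact mul_left_cancel₀ (mul_ne_zero two_ne_zero hp0) (by linear_combination h1 - h2)
  · simp only [mul_zero, add_zero] at h0
    simp only [ga, e1]
    linear_combination h0

end Vale.Agent.P190
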