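import Vale.Agent.P190.Spec

/-! Module U: transfer of finite data from an ultraproduct to large characteristic. -/

namespace Vale.Agent.P190

open Module Filter

namespace Ul

section ultra
variable {ι : Type} (U : Ultrafilter ι) (F : ι → Type) [∀ i, Field (F i)]

/-- elements vanishing almost everywhere -/
def mx : Ideal (∀ i, F i) where
  carrier := {a | ∀ᶠ i in U, a i = 0}
  add_mem' ha hb := (Eventually.and ha hb).mono fun i h => by simp [h.1, h.2]
  zero_mem' := Eventually.of_forall fun _ => rfl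
  smul_mem' c a ha := Eventually.mono ha fun i h => by simp [h]

lemma mem_mx {a : ∀ i, F i} : a ∈ mx U F ↔ ∀ᶠ i in U, a i = 0 := Iff.rfl

lemma mx_max : (mx U F).IsMaximal := by
  refine Ideal.isMaximal_iff.2 ⟨fun h => ?_, fun J a hJ ha haJ => ?_⟩
  · obtain ⟨i, hi⟩ := ((mem_mx U F).1 h).exists
    exact one_ne_zero hi
  · have : 1 - (fun i => (a i)⁻¹) * a ∈ mx U F :=
      (Ultrafilter.eventually_not.2 ha).mono fun i h => by simp [h]
    simpa using J.add_mem (hJ this) (J.mul_mem_left (fun i => (a i)⁻¹) haJ)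

lemma root [∀ i, IsAlgClosed (F i)] {k : Type} [Field k] (π : (∀ i, F i) →+* k)
    (hπ : Function.Surjective π) : IsAlgClosed k := by
  refine IsAlgClosed.of_exists_root k fun p hp hi => ?_
  obtain ⟨q, rfl, h2, h3⟩ := Polynomial.lifts_and_natDegree_eq_and_monic
    ((Polynomial.mem_lifts p).2 (Polynomial.map_surjective π hπ p)) hp
  choose r hr using fun i => IsAlgClosed.exists_root (q.map (Pi.evalRingHom F i)) (by
    rw [ne_eq, Polynomial.degree_eq_natDegree (h3.map _).ne_zero, h3.natDegree_map, h2]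
    exact_mod_cast hi.natDegree_pos.ne')
  have : q.eval r = 0 := funext fun i => by
    have := hr i
    rwa [Polynomial.IsRoot, show r i = Pi.evalRingHom F i r from rfl, Polynomial.eval_map,
      Polynomial.eval₂_at_apply] at this
  exact ⟨π r, by rw [Polynomial.eval_map, Polynomial.eval₂_at_apply, this, map_zero]⟩

end ultra

section red
variable {L k : Type} [CommRing L] [Field k]

/-- reduction of coefficients followed by truncation -/
noncomputable def red (φ : L →+* k) (T : ℕ) : MvPolynomial (Fin 3) L →+* Tr k T :=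
  (Ideal.Quotient.mk _).comp (MvPolynomial.map φ)

lemma red_zero {φ : L →+* k} {T : ℕ} {f : MvPolynomial (Fin 3) L} :
    red φ T f = 0 ↔ ∀ x ∈ f.support, Finsupp.degree x < T → φ (f.coeff x) = 0 := by
  rw [red, RingHom.comp_apply, Ideal.Quotient.eq_zero_iff_mem,
    MvPolynomial.mem_pow_idealOfVars_iff']
  simp only [MvPolynomial.coeff_map]
  refine ⟨fun h x _ => h x, fun h x hx => ?_⟩
  by_cases h' : x ∈ f.support
  · exact h x h' hx
  · rw [MvPolynomial.notMem_support_iff.1 h', map_zero]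

lemma red_smul (φ : L →+* k) (T : ℕ) (a : L) (f : MvPolynomial (Fin 3) L) :
    red φ T (a • f) = φ a • red φ T f := by
  rw [red, RingHom.comp_apply, RingHom.comp_apply, MvPolynomial.smul_eq_C_mul, map_mul,
    MvPolynomial.map_C, ← MvPolynomial.smul_eq_C_mul]
  rfl

lemma mat_sum (φ : L →+* k) (T N : ℕ) {τ : Type} [Fintype τ] (a : τ → L)
    (A : τ → Matrix (Fin N) (Fin N) (MvPolynomial (Fin 3) L)) :
    (red φ T).mapMatrix (∑ t, a t • A t) = ∑ t, φ (a t) • (red φ T).mapMatrix (A t) := by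
  rw [map_sum]
  exact Finset.sum_congr rfl fun t _ => Matrix.ext fun i j => red_smul φ T _ _

lemma mat_X (φ : L →+* k) (T N : ℕ) (i : Fin 3) :
    (red φ T).mapMatrix (Matrix.scalar (Fin N) (MvPolynomial.X i)) =
      Matrix.scalar (Fin N) (Ideal.Quotient.mk _ (MvPolynomial.X i)) := by
  simp [red, Matrix.diagonal_map]

variable {ι : Type} {l : Filter ι} {F : ι → Type} [∀ i, Field (F i)] {π : L →+* k}
  {φ : ∀ i, L →+* F i}

lemma ev_eq (h : ∀ a, π a = 0 → ∀ᶠ i in l, φ i a = 0) {a b : L} (e : π a = π b) :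
    ∀ᶠ i in l, φ i a = φ i b := by
  simpa only [map_sub, sub_eq_zero] using h (a - b) (by rw [map_sub, e, sub_self])

lemma ev_mat (h : ∀ a, π a = 0 → ∀ᶠ i in l, φ i a = 0) {T N : ℕ}
    {A B : Matrix (Fin N) (Fin N) (MvPolynomial (Fin 3) L)}
    (e : (red π T).mapMatrix A = (red π T).mapMatrix B) :
    ∀ᶠ i in l, (red (φ i) T).mapMatrix A = (red (φ i) T).mapMatrix B := by
  have k : ∀ {k' : Type} [Field k'] (ρ : L →+* k'), (red ρ T).mapMatrix A = (red ρ T).mapMatrix B ↔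
      ∀ r s, ∀ x ∈ (A r s - B r s).support, Finsupp.degree x < T →
        ρ ((A r s - B r s).coeff x) = 0 := fun ρ => by
    simp only [← red_zero, map_sub, sub_eq_zero, ← Matrix.ext_iff]
    rfl
  simp only [k, eventually_all, eventually_all_finset, eventually_imp_distrib_left] at e ⊢
  exact fun r s x hx hd => h _ (e r s x hx hd)

end red

lemma ray_le {m : ℤ} {c : Fin 10 → ℕ} (h : Ray m c) {j : ℕ} (hj : m ≤ j) : c ≤ fun _ => 2 * j := by
  intro e
  obtain ⟨h1, h2, h3, h4, h5⟩ := h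
  fin_cases e <;> simp <;> omega

lemma ray_fin (m : ℤ) (P : (Fin 10 → ℕ) → Prop) : Finite {c // Ray m c ∧ P c} :=
  ((Set.finite_Iic fun _ => 2 * m.toNat).subset fun _ hc => ray_le hc.1 m.self_le_toNat).to_subtype

lemma ray_add {i j : ℤ} {c d : Fin 10 → ℕ} (h : Ray i c) (h' : Ray j d) : Ray (i + j) (c + d) := by
  simp only [Ray, Pi.add_apply] at *
  omega

lemma ray_pl {m : ℤ} {c : Fin 10 → ℕ} {q : Fin 5} (h : Ray m (ad c (pl q 0) (pl q 1))) :
    Ray m (ad c (pl q 2) (pl q 3)) ∧ Ray m (ad c (pl q 4) (pl q 5)) := by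
  fin_cases q <;> simp [Ray, ad, pl] at h ⊢ <;> omega

/-- the degree of an exponent vector -/
def deg (c : Fin 10 → ℕ) : ℤ := ((c 0 + c 1 + c 2 + c 3 : ℕ) : ℤ) / 2

lemma deg_eq {m : ℤ} {c : Fin 10 → ℕ} (h : Ray m c) : deg c = m := by
  have := h.1
  rw [deg]; omega

section ring
variable {k K : Type} [Field k] [Field K] [Algebra k K] {v : Fin 10 → K}

lemma mon_add (c d : Fin 10 → ℕ) : mon v (c + d) = mon v c * mon v d := by
  simp [mon, pow_add, Finset.prod_mul_distrib]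

lemma mon_mem {m : ℤ} {c : Fin 10 → ℕ} (h : Ray m c) : mon v c ∈ RR k v m :=
  Submodule.subset_span ⟨c, h, rfl⟩

lemma mem_RR {m : ℤ} [Fintype {c // Ray m c ∧ True}] {f : K} :
    f ∈ RR k v m ↔ ∃ a : {c // Ray m c ∧ True} → k, ∑ c, a c • mon v c.1 = f := by
  rw [← Submodule.mem_span_range_iff_exists_fun, RR]
  refine Iff.of_eq (congrArg (f ∈ Submodule.span k ·) (Set.ext fun g => ⟨?_, ?_⟩))
  · rintro ⟨c, h, rfl⟩; exact ⟨⟨c, h, trivial⟩, rfl⟩
  · rintro ⟨c, rfl⟩; exact ⟨c.1, c.2.1, rfl⟩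

lemma rel {st : (Fin 10 → ℕ) → ((Fin 10 → ℕ) →₀ ℤ)} (hS : ∀ m c, Ray m c →
      (∀ s ∈ (st c).support, Ray m s ∧ Std s) ∧ ∀ (M : Type) [AddCommGroup M]
        (ψ : (Fin 10 → ℕ) → M), PlC m ψ → ψ c = (st c).sum fun s z => z • ψ s)
    (hI : IndStmt) (hR : GrStmt) (h : KD k v) {m : ℤ} {τ : Type} [Fintype τ]
    {e : τ → Fin 10 → ℕ} (he : ∀ t, Ray m (e t)) {c : Fin 10 → ℕ} (hc : Ray m c) (a : τ → k) :
    mon v c = ∑ t, a t • mon v (e t) ↔
      ∀ s : {s // Ray m s ∧ Std s}, (st c s.1 : k) = ∑ t, a t * (st (e t) s.1 : k) := by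
  classical
  have := @Fintype.ofFinite _ (ray_fin m Std)
  have k1 : ∀ c, Ray m c → mon v c = ∑ s : {s // Ray m s ∧ Std s}, (st c s.1 : k) • mon v s.1 := by
    intro c hc
    rw [(hS m c hc).2 K _ ((hR k K v h).2 m), Finsupp.sum]
    simp only [Int.cast_smul_eq_zsmul]
    refine Finset.sum_bij_ne_zero (fun s hs _ => ⟨s, (hS m c hc).1 s hs⟩) (by simp)
      (fun _ _ _ _ _ _ e => congrArg Subtype.val e) (fun s _ hs => ⟨s.1, Finsupp.mem_support_iff.2
        (fun e => hs (by rw [e, zero_smul])), hs, rfl⟩) fun _ _ _ => rfl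
  rw [k1 c hc]
  simp only [fun t => k1 _ (he t), Finset.smul_sum, smul_smul]
  rw [Finset.sum_comm]
  simp only [← Finset.sum_smul]
  exact ⟨Fintype.linearIndependent_iffₛ.1 (hI k K v h m) _ _, fun h => by simp only [h]⟩

lemma cert {τ σ : Type} [Fintype τ] [Fintype σ] (c : τ → Fin 10 → ℕ) (d : σ → Fin 10 → ℕ)
    (a : Fin 3 → τ → k) (b : Fin 3 → σ → k) :
    ∑ i, (∑ t, a i t • mon v (c t)) • (∑ s, b i s • mon v (d s)) =
      ∑ t : Fin 3 × τ × σ, (a t.1 t.2.1 * b t.1 t.2.2) • mon v (c t.2.1 + d t.2.2) := by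
  simp only [Fintype.sum_prod_type, smul_eq_mul, Finset.sum_mul_sum, mon_add, smul_mul_smul_comm]

lemma hsop_of {R : Fam k K} (hR : Gr R) {x : Fin 3 → K} {j0 : ℕ} (h1 : ∀ i, x i ∈ R 1)
    (h : ∀ u ∈ R (j0 + 1), ∃ w : Fin 3 → K, (∀ i, w i ∈ R j0) ∧ u = ∑ i, x i • w i) :
    Hsop R x j0 := by
  refine ⟨h1, fun m hm => ?_⟩
  induction m, hm using Int.le_induction with
  | base => exact h
  | succ m hm ih =>
    intro u hu
    refine Submodule.mul_induction_on (hR.gen (m + 1) (by omega) hu) (fun a ha b hb => ?_) ?_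
    · obtain ⟨w, w1, rfl⟩ := ih b hb
      exact ⟨fun i => a * w i, fun i => add_comm 1 m ▸ hR.mul _ _ _ _ ha (w1 i), by
        simp only [Finset.mul_sum, smul_eq_mul, mul_left_comm]⟩
    · rintro _ _ ⟨w, w1, rfl⟩ ⟨w', w2, rfl⟩
      exact ⟨w + w', fun i => add_mem (w1 i) (w2 i), by
        simp only [Pi.add_apply, smul_add, Finset.sum_add_distrib]⟩

end ring

theorem transfer (hS : StrStmt) (hI : IndStmt) (hR : GrStmt) (hE : ExtStmt)
    {L k ι : Type} [CommRing L] [Field k] {l : Filter ι} {F : ι → Type} [∀ i, Field (F i)]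
    {π : L →+* k} (hπ : Function.Surjective π) {φ : ∀ i, L →+* F i}
    (h : ∀ a, π a = 0 → ∀ᶠ i in l, φ i a = 0) {K : Type} [Field K] [Algebra k K]
    {v : Fin 10 → K} (hv : KD k v) {x : Fin 3 → K} {j0 N T : ℕ} (hx : Hsop (RR k v) x j0)
    (hr : Rep (RR k v) x N T) : ∀ᶠ i in l, ∀ (K' : Type) [Field K'] [Algebra (F i) K']
      (v' : Fin 10 → K'), KD (F i) v' → ∃ x', Hsop (RR (F i) v') x' j0 ∧ Rep (RR (F i) v') x' N T := by
  obtain ⟨st, hS⟩ := hS
  obtain ⟨j, j1, hE⟩ := hE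
  obtain ⟨θ, ⟨t1, t2⟩, t3⟩ := hr
  have f1 := @Fintype.ofFinite _ (ray_fin 1 fun _ => True)
  have f2 := @Fintype.ofFinite _ (ray_fin j0 fun _ => True)
  have f3 := ray_fin (j0 + 1) fun _ => True
  have f4 := ray_fin (j0 + 1) Std
  choose a' ha using fun i => mem_RR.1 (hx.1 i)
  choose a a1 using fun i c => hπ (a' i c)
  choose w w1 w2 using fun c : {c // Ray (j0 + 1) c ∧ True} => hx.2 j0 le_rfl _ (mon_mem c.2.1)
  choose b' hb using fun c i => mem_RR.1 (w1 c i)
  choose b b1 using fun c i d => hπ (b' c i d)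
  have r1 : ∀ t : Fin 3 × {c // Ray 1 c ∧ True} × {c // Ray j0 c ∧ True},
      Ray (j0 + 1) (t.2.1.1 + t.2.2.1) := fun t => add_comm (1 : ℤ) j0 ▸ ray_add t.2.1.2.1 t.2.2.2.1
  obtain ⟨Ψ, hΨ⟩ : ∃ Ψ : (Fin 10 → ℕ) → Matrix (Fin N) (Fin N) (MvPolynomial (Fin 3) L),
      ∀ {m c}, Ray m c → (red π T).mapMatrix (Ψ c) = θ m (mon v c) := by
    choose Ψ hΨ using fun c r s => (show Function.Surjective (red π T) from
      Ideal.Quotient.mk_surjective.comp (MvPolynomial.map_surjective π hπ))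
      (θ (deg c) (mon v c) r s)
    exact ⟨fun c => Matrix.of (Ψ c), fun h => deg_eq h ▸ Matrix.ext (hΨ _)⟩
  have e1 := ev_mat h (T := T) (A := Ψ 0) (B := 1) (by
    rw [hΨ (m := 0) (by simp [Ray]), map_one, ← t1]; simp [mon])
  have e2 : ∀ᶠ i in l, ∀ c ∈ Set.Iic (fun _ => 2 * j), ∀ c' ∈ Set.Iic (fun _ => 2 * j),
      (∃ m m', Ray m c ∧ Ray m' c') → (red (φ i) T).mapMatrix (Ψ (c + c')) =
        (red (φ i) T).mapMatrix (Ψ c * Ψ c') := by
    simp only [eventually_all_finite (Set.finite_Iic _), eventually_imp_distrib_left]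
    rintro c - c' - ⟨m, m', h1, h2⟩
    refine ev_mat h ?_
    rw [map_mul, hΨ h1, hΨ h2, hΨ (ray_add h1 h2), mon_add,
      t2 _ _ _ _ (mon_mem h1) (mon_mem h2) le_top]
  have e3 : ∀ᶠ i in l, ∀ q, ∀ c ∈ Set.Iic (fun _ => 2 * j),
      (∃ m, Ray m (ad c (pl q 0) (pl q 1))) →
      (red (φ i) T).mapMatrix (Ψ (ad c (pl q 0) (pl q 1))) = (red (φ i) T).mapMatrix
        (Ψ (ad c (pl q 2) (pl q 3)) + Ψ (ad c (pl q 4) (pl q 5))) := by
    simp only [eventually_all, eventually_all_finite (Set.finite_Iic _),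
      eventually_imp_distrib_left]
    rintro q c - ⟨m, h1⟩
    refine ev_mat h ?_
    rw [map_add, hΨ h1, hΨ (ray_pl h1).1, hΨ (ray_pl h1).2, (hR k K v hv).2 m q c m le_rfl h1,
      map_add]
  have e4 := eventually_all.2 fun r => ev_mat h (T := T) (A := ∑ c, a r c • Ψ c.1)
    (B := Matrix.scalar (Fin N) (MvPolynomial.X r)) (by
      rw [mat_sum, mat_X, ← t3, ← ha, map_sum]
      exact Finset.sum_congr rfl fun c _ => by rw [hΨ c.2.1, a1, map_smul])
  have e5 := eventually_all.2 fun c : {c // Ray (j0 + 1) c ∧ True} => eventually_all.2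
    fun s : {s // Ray (j0 + 1) s ∧ Std s} => ev_eq h (a := (st c.1 s.1 : L))
      (b := ∑ t : Fin 3 × {c // Ray 1 c ∧ True} × {c // Ray j0 c ∧ True},
        a t.1 t.2.1 * b c t.1 t.2.2 * (st (t.2.1.1 + t.2.2.1) s.1 : L)) (by
      simp only [map_sum, map_mul, map_intCast, a1, b1]
      refine (rel hS hI hR hv r1 c.2.1 _).1 ?_ s
      rw [← cert]
      simpa only [ha, hb] using w2 c)
  filter_upwards [e1, e2, e3, e4, e5] with i e1 e2 e3 e4 e5 K' _ _ v' hv'
  obtain ⟨θ', s1, s2⟩ := (hE _ K' v' hv').2 _ (fun c => (red (φ i) T).mapMatrix (Ψ c))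
    (by rw [e1, map_one]) (fun m m' c c' h1 h2 h3 => by
      have := h1.1
      have := h2.1
      rw [e2 c (ray_le h1 (by omega)) c' (ray_le h2 (by omega)) ⟨m, m', h1, h2⟩, map_mul])
    fun q c m h1 h2 => (e3 q c (le_trans (le_self_add.trans le_self_add) (ray_le h2 h1))
      ⟨m, h2⟩).trans (map_add _ _ _)
  refine ⟨fun r => ∑ c, φ i (a r c) • mon v' c.1, hsop_of (hR _ K' v' hv').1
    (fun r => mem_RR.2 ⟨_, rfl⟩) fun u hu => ?_, θ', s1, fun r => ?_⟩
  · induction hu using Submodule.span_induction with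
    | mem u hu =>
      obtain ⟨c, hc, rfl⟩ := hu
      refine ⟨fun r => ∑ d, φ i (b ⟨c, hc, trivial⟩ r d) • mon v' d.1,
        fun r => mem_RR.2 ⟨_, rfl⟩, ?_⟩
      rw [cert]
      refine (rel hS hI hR hv' r1 hc _).2 fun s => ?_
      simpa only [map_sum, map_mul, map_intCast] using e5 ⟨c, hc, trivial⟩ s
    | zero => exact ⟨0, fun _ => zero_mem _, by simp⟩
    | add _ _ _ _ h1 h2 =>
      obtain ⟨w, w1, rfl⟩ := h1
      obtain ⟨w', w2, rfl⟩ := h2
      exact ⟨w + w', fun i => add_mem (w1 i) (w2 i), by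
        simp only [Pi.add_apply, smul_add, Finset.sum_add_distrib]⟩
    | smul c _ _ h1 =>
      obtain ⟨w, w1, rfl⟩ := h1
      exact ⟨c • w, fun i => Submodule.smul_mem _ _ (w1 i), by
        simp only [Pi.smul_apply, Finset.smul_sum, smul_eq_mul, mul_smul_comm]⟩
  · rw [← mat_X (φ i), ← e4 r, mat_sum, map_sum]
    exact Finset.sum_congr rfl fun c _ => by rw [map_smul, s2 1 (by omega) _ c.2.1]

end Ul

open Ul in
theorem ultra (hS : StrStmt) (hI : IndStmt) (_h1 : GenStmt) (hR : GrStmt) (hE : ExtStmt) :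
    UStmt := by
  let ι := {p : ℕ // p.Prime ∧ 101 < p}
  have hf : ∀ b : ℕ, {p : ι | ¬ b < p.1}.Finite := fun b =>
    ((Set.finite_Iic b).preimage Subtype.val_injective.injOn).subset fun p hp => not_lt.1 hp
  have : Infinite ι := Set.infinite_coe_iff.2 (Set.infinite_of_forall_exists_gt fun n => by
    obtain ⟨p, h1, h2⟩ := Nat.exists_infinite_primes (n + 102)
    exact ⟨p, ⟨h2, by omega⟩, by omega⟩)
  have : ∀ p : ι, Fact p.1.Prime := fun p => ⟨p.2.1⟩
  let F : ι → Type := fun p => AlgebraicClosure (ZMod p.1)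
  have := mx_max (hyperfilter ι) F
  let _ := Ideal.Quotient.field (mx (hyperfilter ι) F)
  have h0 : ∀ a, Ideal.Quotient.mk (mx (hyperfilter ι) F) a = 0 →
      ∀ᶠ i in hyperfilter ι, Pi.evalRingHom F i a = 0 := fun a => Ideal.Quotient.eq_zero_iff_mem.1
  refine ⟨_ ⧸ mx (hyperfilter ι) F, inferInstance,
    root F (Ideal.Quotient.mk _) Ideal.Quotient.mk_surjective, fun h => ?_, ?_⟩
  · obtain ⟨p, hp⟩ := (h0 101 (by rwa [map_ofNat])).exists
    rw [map_ofNat, ← Nat.cast_ofNat, CharP.cast_eq_zero_iff (F p) p.1] at hp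
    exact absurd (Nat.le_of_dvd (by norm_num) hp) p.2.2.not_ge
  intro K _ _ v hv x j0 N T hx hr b
  obtain ⟨p, h1, h2⟩ := ((transfer hS hI hR hE Ideal.Quotient.mk_surjective h0 hv hx hr).and
    (hyperfilter_le_cofinite (eventually_cofinite.2 (hf b)))).exists
  exact ⟨p.1, p.2.1, h2, F p, inferInstance, inferInstance, inferInstance, h1⟩

end Vale.Agent.P190
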