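import Vale.Agent.P190.Str
import Vale.Agent.P190.Geo
import Vale.Agent.P190.Pd
import Vale.Agent.P190.Comp
import Vale.Agent.P190.Scale
import Vale.Agent.P190.Inst
import Vale.Agent.P190.Ultra
import Vale.Agent.P190.Lat

namespace Vale.Agent.P190

open Module

lemma hp_RR (hC : CntStmt) (hI : IndStmt) {k K : Type} [Field k] [Field K] [Algebra k K]
    {v : Fin 10 → K} (h : KD k v) : rk (RR k v) = 5 * 101 ^ 3 ∧
      dg (RR k v) = -(5 * 101 ^ 3 * (99 / 2)) ∧
      cs (RR k v) = 5 * 101 ^ 3 * (99 / 2) ^ 2 / 2 - 101 ^ 3 * (101 ^ 2 - 10) / 24 ∧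
      ∃ t, IsHP (hf (RR k v)) t := by
  obtain ⟨m0, h0⟩ := hC
  obtain ⟨st, hst⟩ := str
  have e : ∀ m : ℤ, m0 ≤ m → hf (RR k v) m = 5 * 101 ^ 3 * m ^ 2 / 2 +
      -(5 * 101 ^ 3 * (99 / 2)) * m +
      (5 * 101 ^ 3 * (99 / 2) ^ 2 / 2 - 101 ^ 3 * (101 ^ 2 - 10) / 24) := fun m hm => by
    have e1 : RR k v m = Submodule.span k
        (Set.range fun c : {c // Ray m c ∧ Std c} => mon v c.1) := by
      refine le_antisymm (Submodule.span_le.2 ?_) (Submodule.span_mono ?_)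
      · rintro _ ⟨c, hc, rfl⟩
        rw [(hst m c hc).2 K _ ((gr gen1 k K v h).2 m)]
        exact Submodule.sum_mem _ fun s hs => zsmul_mem (Submodule.subset_span
          (Set.mem_range_self (⟨s, (hst m c hc).1 s hs⟩ : {c // Ray m c ∧ Std c}))) _
      · rintro _ ⟨c, rfl⟩
        exact ⟨c.1, c.2.1, rfl⟩
    have : Finite {c // Ray m c ∧ Std c} := ((Sb0.ray_fin m).subset fun c hc => hc.1).to_subtype
    have := Fintype.ofFinite {c // Ray m c ∧ Std c}
    rw [hf_def, e1, dR, finrank_span_eq_card (hI k K v h m), ← Nat.card_eq_fintype_card, h0 m hm]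
    ring
  obtain ⟨a, b, c⟩ := hp_eq e
  exact ⟨a, b, c, (_, _, _), m0, e⟩

lemma Win.mono {k K : Type} [Field k] [Field K] [Algebra k K] {R : Fam k K} {r : ℕ}
    {G : Fam k (Fin r → K)} {a b a' b' : ℝ} (h : Win R G a b) (ha : a ≤ a') (hb : b' ≤ b) :
    Win R G a' b' := fun Y => by
  have t0 : (0 : ℝ) ≤ finrank K Y := Nat.cast_nonneg _
  have t1 : (finrank K Y : ℝ) ≤ r := by
    exact_mod_cast (by simpa using Submodule.finrank_le Y : finrank K Y ≤ r)
  exact ⟨(h Y).1.trans (mul_le_mul_of_nonneg_right ha t0),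
    (mul_le_mul_of_nonneg_right hb (by linarith)).trans (h Y).2⟩

lemma final_num {c δ : ℝ} {p : ℕ} (hp : 2 ≤ p) (hδ : 36 < δ)
    (h : ∀ e : ℕ, ((p : ℝ) ^ e) ^ 2 * δ ≤ (6 * p ^ e + c) ^ 2) : False := by
  obtain ⟨e, he⟩ := pow_unbounded_of_one_lt ((12 * |c| + c ^ 2) / (δ - 36) + 1)
    (show (1 : ℝ) < p by exact_mod_cast hp)
  have h1 := h e
  set q : ℝ := p ^ e
  have h0 : 0 ≤ (12 * |c| + c ^ 2) / (δ - 36) := div_nonneg (by positivity) (by linarith)
  have h2 : 12 * |c| + c ^ 2 < q * (δ - 36) := (div_lt_iff₀ (by linarith)).1 (by linarith)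
  nlinarith [mul_le_mul_of_nonneg_left (le_abs_self c) (by linarith : 0 ≤ q), sq_nonneg c,
    mul_lt_mul_of_pos_left h2 (by linarith : 0 < q)]

theorem main (hC : CntStmt) (hK : KumStmt) (hG : GalStmt) (hI : IndStmt) (hB : B0Stmt)
    (hD : DerStmt) (hA : AutStmt) :
    ∃ (A : Type) (_ : CommRing A) (_ : IsLocalRing A), IsDomain A ∧ IsNoetherianRing A ∧
      IsAdicComplete (IsLocalRing.maximalIdeal A) A ∧
      ∀ (M : Type) [AddCommGroup M] [Module A M], Module.Finite A M → ∀ rs : List A,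
        (∀ a ∈ rs, a ∈ IsLocalRing.maximalIdeal A) → RingTheory.Sequence.IsRegular M rs →
        (rs.length : WithBot ℕ∞) ≠ ringKrullDim A := by
  have hR := gr gen1
  have hE := ext str gen1 hR hI
  obtain ⟨k, _, ac, ch, hU⟩ := ultra str hI gen1 hR hE
  obtain ⟨j, hj, hE⟩ := hE
  obtain ⟨K, _, _, v, hv⟩ := hK k ac ch
  obtain ⟨a1, -, -, a4⟩ := hp_RR hC hI hv
  obtain ⟨x, j0, hx⟩ := hsop k K _ inferInstance (hR k K v hv).1 a4
  obtain ⟨A, _, _, b1, b2, b3, hM⟩ := comp k K _ x j0 inferInstance (hR k K v hv).1 hx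
    (hx.ind (hR k K v hv).1 (by rw [a1]; norm_num))
  refine ⟨A, _, _, b1, b2, b3, fun M _ _ hfin rs h1 h2 h3 => ?_⟩
  obtain ⟨N, hN, hρ⟩ := hM M hfin rs h1 h2 h3
  obtain ⟨T, hT⟩ := lat N j0 j hN (by omega)
  obtain ⟨p, pp, hp, k', _, cp, ac', hU⟩ := hU K v hv x j0 N T hx (hρ T) (205 * N + 101)
  have ch' : (101 : k') ≠ 0 := fun e => by
    have := Nat.le_of_dvd (by norm_num) ((CharP.cast_eq_zero_iff k' p 101).1 (by exact_mod_cast e))
    omega
  obtain ⟨K', _, _, v', hv'⟩ := hK k' ac' ch'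
  obtain ⟨x', hx', hρ'⟩ := hU K' v' hv'
  obtain ⟨c1, c2, c3, -⟩ := hp_RR hC hI hv'
  have gR := (hR k' K' v' hv').1
  have hd : 1 ≤ rk (RR k' v') := by rw [c1]; norm_num
  have hd0 : 0 < rk (RR k' v') := by linarith
  obtain ⟨r, E, hr, gE, rE, lE, wE⟩ := hT k' K' _ x' gR hx' hd (hE k' K' v' hv').1 hρ'
  obtain ⟨ch0, hder⟩ := hD k' K' v' p hv' pp cp
  obtain ⟨cov, sym⟩ := geo hR hG hB hA gen1 k' K' v' p hv' ch0
  obtain ⟨c, hc⟩ := bog pd k' K' _ x' j0 inferInstance gR hx' hd0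
  set R := RR k' v'
  have q1 := (rk_eq gR hx'.1 (hx'.fg gR) gE.1 gE.2.1).2
  rw [gE.2.2, finrank_top, finrank_fin_fun, rE] at q1
  have hr' : (1 : ℝ) ≤ r := by exact_mod_cast hr
  have hN' : (1 : ℝ) ≤ N := by exact_mod_cast hN
  have hp' : 205 * (N : ℝ) + 101 < p := by exact_mod_cast hp
  have hΔ : r * (rk R * (202 : ℕ) + 3) ≤ (p - 1) * rk R := by push_cast; nlinarith
  have it : ∀ e : ℕ, ∃ G : Fam k' (Fin r → K'), Good R x' G ∧ rk G = N ∧
      fd R G = p ^ e * fd R E ∧ ga R G = (p ^ e) ^ 2 * ga R E ∧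
      Win R G (p ^ e * (fd R E / r + 3 * rk R) - rk R) (p ^ e * (fd R E / r - 3 * rk R) + rk R) := by
    intro e
    induction e with
    | zero => exact ⟨E, gE, rE, by simp, by simp, wE.mono (by simp; linarith) (by simp; linarith)⟩
    | succ e ih =>
      obtain ⟨G, g1, g2, g3, g4, g5⟩ := ih
      obtain ⟨s1, s2, s3⟩ := s1 flat k' K' R x' j0 p ac' pp cp gR hx' hd0 cov sym r G g1.1 g1.2.1
      obtain ⟨i1, i2⟩ := inst flat (P190.s1 flat) k' K' R x' j0 p 202 ac' pp cp gR hx' hd0 cov sym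
        hder r G _ _ g1 g5
      exact ⟨_, i1, s1.trans g2, by rw [s2, g3]; ring, by rw [s3, g4]; ring,
        i2.mono (by linear_combination hΔ) (by linear_combination hΔ)⟩
  have hcen : cen R = 99 / 2 := by rw [cen, c1, c2]; norm_num
  have d0 : 84 * (N : ℝ) ≤ ga R E - fd R E ^ 2 / (2 * N) := by
    have h4 := lE (cen R - fd R E / N)
    have h5 : HP E (cen R - fd R E / N) = HP E (cen R) - fd R E ^ 2 / (2 * N) := by
      simp only [HP, fd, rE]; field_simp; ring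
    have h6 : HP R (cen R) = -(101 ^ 3 * (101 ^ 2 - 10) / 24) := by
      rw [HP, hcen, c1, c2, c3]; norm_num
    rw [ga, rE, h6, c1]
    linarith
  refine final_num (c := c - 2) (δ := 84) pp.two_le (by norm_num) fun e => ?_
  obtain ⟨G, g1, g2, g3, g4, g5⟩ := it e
  have h7 := hc r G _ _ hr g1 g5
  rw [g2, g3, g4, show ((p : ℝ) ^ e * (fd R E / r + 3 * rk R) - rk R -
    (p ^ e * (fd R E / r - 3 * rk R) + rk R)) / rk R + c = 6 * p ^ e + (c - 2) by field_simp; ring,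
    show ((p : ℝ) ^ e) ^ 2 * ga R E - (p ^ e * fd R E) ^ 2 / (2 * N) =
      (p ^ e) ^ 2 * (ga R E - fd R E ^ 2 / (2 * N)) by ring] at h7
  have h8 := mul_le_mul_of_nonneg_left d0 (sq_nonneg ((p : ℝ) ^ e))
  exact le_of_mul_le_mul_left (a := (N : ℝ)) (by linarith) (by linarith)

/-- from the non-existence of regular sequences of length `dim` to `depth < dim` -/
theorem upgrade.{u} {A : Type} [CommRing A] [IsLocalRing A]
    (h : ∀ (M : Type) [AddCommGroup M] [Module A M], Module.Finite A M → ∀ rs : List A,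
      (∀ a ∈ rs, a ∈ IsLocalRing.maximalIdeal A) → RingTheory.Sequence.IsRegular M rs →
      (rs.length : WithBot ℕ∞) ≠ ringKrullDim A)
    (M : Type u) [AddCommGroup M] [Module A M] [Module.Finite A M] [Nontrivial M] (rs : List A)
    (h1 : ∀ a ∈ rs, a ∈ IsLocalRing.maximalIdeal A) (h2 : RingTheory.Sequence.IsWeaklyRegular M rs) :
    (rs.length : WithBot ℕ∞) < ringKrullDim A := by
  by_contra hc
  push Not at hc
  obtain ⟨n, f, hf⟩ := Module.Finite.exists_fin' A M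
  let e := f.quotKerEquivOfSurjective hf
  have : Nontrivial ((Fin n → A) ⧸ LinearMap.ker f) := e.toEquiv.nontrivial
  obtain ⟨d, hd⟩ : ∃ d : ℕ, (d : WithBot ℕ∞) = ringKrullDim A := by
    have h0 := ringKrullDim_nonneg_of_nontrivial (R := A)
    induction hA : ringKrullDim A using WithBot.recBotCoe with
    | bot => simp [hA] at h0
    | coe a =>
      induction a using ENat.recTopCoe with
      | top => rw [hA] at hc; exact absurd (WithBot.coe_le_coe.1 hc) (by simp)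
      | coe a => exact ⟨a, rfl⟩
  have hl : d ≤ rs.length := by rw [← hd] at hc; exact_mod_cast hc
  rw [← e.isWeaklyRegular_congr, ← List.take_append_drop d rs,
    RingTheory.Sequence.isWeaklyRegular_append_iff] at h2
  have h3 := fun a ha => h1 a (List.mem_of_mem_take (i := d) ha)
  exact h _ inferInstance _ h3
    (RingTheory.Sequence.IsRegular.of_isWeaklyRegular_of_mem_maximalIdeal _ h3 h2.1)
    (by rw [List.length_take_of_le hl, hd])

end Vale.Agent.P190
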