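import Mathlib

/-! P190 (small CM modules): shared definitions and module statements. Proofs: notes/P190.md -/

namespace Vale.Agent.P190

open Module

/-- A graded module, dehomogenised: one `k`-subspace per degree. -/
abbrev Fam (k V : Type) [Field k] [AddCommGroup V] [Module k V] := ℤ → Submodule k V

section gen
variable {k C V ι : Type} [Field k] [CommRing C] [Algebra k C] [AddCommGroup V] [Module k V]
  [Module C V]

def St (x : ι → C) (G : Fam k V) : Prop := ∀ i m v, v ∈ G m → x i • v ∈ G (m + 1)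

structure FG [Fintype ι] (x : ι → C) (G : Fam k V) : Prop where
  st : St x G
  fin : ∀ m, FiniteDimensional k (G m)
  low : ∃ m0, ∀ m < m0, G m = ⊥
  gen : ∃ m1, ∀ m ≥ m1, ∀ v ∈ G (m + 1), ∃ w : ι → V, (∀ i, w i ∈ G m) ∧ v = ∑ i, x i • w i

/-- Hilbert function. -/
noncomputable def hf (G : Fam k V) (m : ℤ) : ℝ := finrank k (G m)

def IsHP (h : ℤ → ℝ) (t : ℝ × ℝ × ℝ) : Prop :=
  ∃ m0 : ℤ, ∀ m ≥ m0, h m = t.1 * m ^ 2 / 2 + t.2.1 * m + t.2.2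

noncomputable def hp (G : Fam k V) : ℝ × ℝ × ℝ := Classical.epsilon (IsHP (hf G))
noncomputable def rk (G : Fam k V) : ℝ := (hp G).1
noncomputable def dg (G : Fam k V) : ℝ := (hp G).2.1
noncomputable def cs (G : Fam k V) : ℝ := (hp G).2.2
/-- Hilbert polynomial. -/
noncomputable def HP (G : Fam k V) (y : ℝ) : ℝ := rk G * y ^ 2 / 2 + dg G * y + cs G

/-- The polynomial ring in `x 0, x 1, x 2`, degree by degree. -/
noncomputable def Ax (k : Type) [Field k] [Algebra k C] (x : Fin 3 → C) : Fam k C := fun j =>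
  if j < 0 then ⊥ else (MvPolynomial.homogeneousSubmodule (Fin 3) k j.toNat).map
    (MvPolynomial.aeval x).toLinearMap

def Ind (k : Type) [Field k] [Algebra k C] (x : Fin 3 → C) : Prop :=
  ∀ (n : ℕ) (f : MvPolynomial (Fin 3) k), f.IsHomogeneous n → MvPolynomial.aeval x f = 0 → f = 0

end gen

section ring
variable {k K V : Type} [Field k] [Field K] [Algebra k K] [AddCommGroup V] [Module k V]
  [Module K V]

structure Gr (R : Fam k K) : Prop where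
  zero : R 0 = Submodule.span k {1}
  neg : ∀ m < 0, R m = ⊥
  mul : ∀ i j a b, a ∈ R i → b ∈ R j → a * b ∈ R (i + j)
  fin : ∀ m, FiniteDimensional k (R m)
  gen : ∀ m ≥ 0, R (m + 1) ≤ R 1 * R m
  frac : ∀ (f : K) (e : ℤ), ∃ i a b, a ∈ R (i + e) ∧ b ∈ R i ∧ b ≠ 0 ∧ f * b = a

def Hsop (R : Fam k K) (x : Fin 3 → K) (j0 : ℕ) : Prop :=
  (∀ i, x i ∈ R 1) ∧ ∀ m : ℤ, j0 ≤ m → ∀ v ∈ R (m + 1),
    ∃ w : Fin 3 → K, (∀ i, w i ∈ R m) ∧ v = ∑ i, x i • w i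

def RSt (R : Fam k K) (G : Fam k V) : Prop := ∀ j m a v, a ∈ R j → v ∈ G m → a • v ∈ G (j + m)

/-- `K`-span of a family. -/
def spK (K : Type) [Field K] [Module K V] (G : Fam k V) : Submodule K V :=
  Submodule.span K {v | ∃ m, v ∈ G m}

variable [IsScalarTower k K V]

def cap (G : Fam k V) (Y : Submodule K V) : Fam k V := fun m => G m ⊓ Y.restrictScalars k

/-- `{a ∈ R m | a v ∈ N (m + b)}`. -/
def col (R : Fam k K) (N : Fam k V) (v : V) (b : ℤ) : Fam k K := fun m =>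
  R m ⊓ (N (m + b)).comap ((LinearMap.toSpanSingleton K V v).restrictScalars k)

/-- `N + R v` with `v` in degree `b`. -/
def adj (R : Fam k K) (N : Fam k V) (v : V) (b : ℤ) : Fam k V := fun m =>
  N m ⊔ (R (m - b)).map ((LinearMap.toSpanSingleton K V v).restrictScalars k)

/-- Frobenius bracket power with respect to a `p`-semilinear map `Φ`. -/
def fr (R : Fam k K) (p : ℕ) (Φ : V → V) (G : Fam k V) : Fam k V := fun m =>
  Submodule.span k {u | ∃ j a w, a ∈ R (m - p * j) ∧ w ∈ G j ∧ u = a • Φ w}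

abbrev frv {r : ℕ} (R : Fam k K) (p : ℕ) (G : Fam k (Fin r → K)) : Fam k (Fin r → K) :=
  fr R p (fun w l => w l ^ p) G

abbrev frI (R : Fam k K) (p : ℕ) (G : Fam k K) : Fam k K := fr R p (fun w => w ^ p) G

noncomputable def cen (R : Fam k K) : ℝ := - dg R / rk R
noncomputable def fd (R : Fam k K) (U : Fam k V) : ℝ := dg U + rk U * cen R
noncomputable def ga (R : Fam k K) (U : Fam k V) : ℝ := HP U (cen R) - rk U / rk R * HP R (cen R)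

def Good {r : ℕ} (R : Fam k K) (x : Fin 3 → K) (G : Fam k (Fin r → K)) : Prop :=
  FG x G ∧ RSt R G ∧ spK K G = ⊤

def Win {r : ℕ} (R : Fam k K) (G : Fam k (Fin r → K)) (a b : ℝ) : Prop :=
  ∀ Y : Submodule K (Fin r → K), fd R (cap G Y) ≤ a * finrank K Y ∧
    b * (r - finrank K Y) ≤ fd R G - fd R (cap G Y)

structure PrimeF (R P : Fam k K) : Prop where
  le : ∀ m, P m ≤ R m
  st : RSt R P
  one : (1 : K) ∉ P 0
  pr : ∀ i j a b, a ∈ R i → b ∈ R j → a * b ∈ P (i + j) → a ∈ P i ∨ b ∈ P j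

def Curve (R P : Fam k K) : Prop :=
  PrimeF R P ∧ (∃ m, P m ≠ ⊥) ∧ ¬ ∃ c : ℝ, ∀ m, hf R m ≤ hf P m + c

def Chart (R : Fam k K) (p : ℕ) (ν : K) : Prop :=
  ν ∈ R 4 ∧ ν ≠ 0 ∧ ∃ (τ : K) (B : Subalgebra k K) (ε : Fin p × Fin p → K), τ ≠ 0 ∧
    (∀ m : ℤ, ∀ a ∈ R m, a / τ ^ m ∈ B) ∧
    (∀ β ∈ B, ∀ m : ℤ, ∃ j : ℕ, ν ^ j * τ ^ m * β ∈ R (4 * j + m)) ∧ τ ^ 4 / ν ∈ B ∧
    (∀ i, ε i ∈ B) ∧
    (∀ β ∈ B, ∃ b : Fin p × Fin p → K, (∀ i, b i ∈ B) ∧ β = ∑ i, ε i * b i ^ p) ∧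
    ∀ b : Fin p × Fin p → K, ∑ i, ε i * b i ^ p = 0 → b = 0

def Cover (R : Fam k K) (p : ℕ) : Prop :=
  ∃ S : Finset K, (∀ ν ∈ S, Chart R p ν) ∧ ∀ P, PrimeF R P → (∀ ν ∈ S, ν ∈ P 4) → R 1 ≤ P 1

/-- An automorphism of the graded ring. -/
def Aut (R : Fam k K) (σ : K ≃ₐ[k] K) (u : K) : Prop :=
  u ≠ 0 ∧ ∀ (m : ℤ) (a : K), a ∈ R m ↔ σ a / u ^ m ∈ R m

def Conj (R Q P : Fam k K) : Prop :=
  ∃ σ u, Aut R σ u ∧ ∀ (m : ℤ), ∀ a ∈ Q m, σ a / u ^ m ∈ P m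

def Sym (R : Fam k K) : Prop :=
  ∃ w ∈ R 2, w ≠ 0 ∧ (∀ P Q, Curve R P → Curve R Q → w ∈ P 2 → w ∈ Q 2 → Conj R Q P) ∧
    ∀ P, Curve R P → w ∉ P 2 → ∃ (j : ℤ) (f : K), f ∈ P j ∧ f ≠ 0 ∧
      ∀ Q, Curve R Q → f ∈ Q j → w ∉ Q 2 → Conj R Q P

def Der (R : Fam k K) (p : ℕ) (δ : ℕ) : Prop :=
  ∃ D : Fin 2 → Derivation k K K, (∀ i m, ∀ a ∈ R m, D i a ∈ R (m + δ)) ∧
    ∀ f, (∀ i, D i f = 0) → ∃ g, f = g ^ p

/-- Multiplicative family of linear maps, in degrees at most `J`. -/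
def MF {B : Type} [Ring B] [Algebra k B] (R : Fam k K) (θ : ℤ → K →ₗ[k] B) (J : WithTop ℤ) :
    Prop :=
  θ 0 1 = 1 ∧ ∀ (i j : ℤ) a b, a ∈ R i → b ∈ R j → ((i + j : ℤ) : WithTop ℤ) ≤ J →
    θ (i + j) (a * b) = θ i a * θ j b

def Ext (R : Fam k K) (j : ℕ) : Prop :=
  ∀ (B : Type) [Ring B] [Algebra k B] (θ : ℤ → K →ₗ[k] B), MF R θ ((j : ℤ) : WithTop ℤ) →
    ∃ θ' : ℤ → K →ₗ[k] B, MF R θ' ⊤ ∧ ∀ m : ℤ, m ≤ j → ∀ a ∈ R m, θ' m a = θ m a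

end ring

/-- Truncated polynomial ring. -/
abbrev Tr (k : Type) [CommRing k] (T : ℕ) : Type :=
  MvPolynomial (Fin 3) k ⧸
    (Ideal.span (Set.range (MvPolynomial.X : Fin 3 → MvPolynomial (Fin 3) k))) ^ T

def Rep {k K : Type} [Field k] [Field K] [Algebra k K] (R : Fam k K) (x : Fin 3 → K) (N T : ℕ) :
    Prop :=
  ∃ θ : ℤ → K →ₗ[k] Matrix (Fin N) (Fin N) (Tr k T), MF R θ ⊤ ∧
    ∀ i, θ 1 (x i) = Matrix.scalar (Fin N) (Ideal.Quotient.mk _ (MvPolynomial.X i))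

/-! The concrete ring. Edges of `K₅`: 0:12 1:13 2:14 3:15 4:23 5:24 6:25 7:34 8:35 9:45. -/

def Ray (m : ℤ) (c : Fin 10 → ℕ) : Prop :=
  ((c 0 + c 1 + c 2 + c 3 : ℕ) : ℤ) = 2 * m ∧ ((c 0 + c 4 + c 5 + c 6 : ℕ) : ℤ) = 2 * m ∧
  ((c 1 + c 4 + c 7 + c 8 : ℕ) : ℤ) = 2 * m ∧ ((c 2 + c 5 + c 7 + c 9 : ℕ) : ℤ) = 2 * m ∧
  ((c 3 + c 6 + c 8 + c 9 : ℕ) : ℤ) = 2 * m

def pl : Fin 5 → Fin 6 → Fin 10 :=
  ![![1, 5, 0, 7, 2, 4], ![1, 6, 0, 8, 3, 4], ![2, 6, 0, 9, 3, 5], ![2, 8, 1, 9, 3, 7],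
    ![5, 8, 4, 9, 6, 7]]

def Std (c : Fin 10 → ℕ) : Prop := ∀ q, ¬ (101 ≤ c (pl q 0) ∧ 101 ≤ c (pl q 1))

def ad (c : Fin 10 → ℕ) (e f : Fin 10) : Fin 10 → ℕ := c + Pi.single e 101 + Pi.single f 101

def PlC {M : Type} [AddCommGroup M] (J : ℤ) (ψ : (Fin 10 → ℕ) → M) : Prop :=
  ∀ q c m, m ≤ J → Ray m (ad c (pl q 0) (pl q 1)) →
    ψ (ad c (pl q 0) (pl q 1)) = ψ (ad c (pl q 2) (pl q 3)) + ψ (ad c (pl q 4) (pl q 5))

def mon {K : Type} [Field K] (v : Fin 10 → K) (c : Fin 10 → ℕ) : K := ∏ e, v e ^ c e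

def RR (k : Type) {K : Type} [Field k] [Field K] [Algebra k K] (v : Fin 10 → K) : Fam k K :=
  fun m => Submodule.span k {f | ∃ c, Ray m c ∧ f = mon v c}

structure KD (k : Type) {K : Type} [Field k] [Field K] [Algebra k K] (v : Fin 10 → K) : Prop where
  ac : IsAlgClosed k
  ch : (101 : k) ≠ 0
  g0 : v 0 = 1
  g3 : v 3 = 1
  g6 : v 6 = 1
  g8 : v 8 = 1
  g9 : v 9 = 1
  r4 : v 4 ^ 101 = v 1 ^ 101 - 1
  r5 : v 5 ^ 101 = v 2 ^ 101 - 1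
  r7 : v 7 ^ 101 = v 2 ^ 101 - v 1 ^ 101
  ai : AlgebraicIndependent k ![v 1 ^ 101, v 2 ^ 101]
  top : IntermediateField.adjoin k (Set.range v) = ⊤

/-- the five non-gauge edges -/
def ng : Fin 5 → Fin 10 := ![1, 2, 4, 5, 7]

/-- exponent of the base chart monomial (all edges but 13 and 24) -/
def c0 : Fin 10 → ℕ := ![3, 0, 3, 2, 3, 0, 2, 3, 2, 2]

def en : Fin 10 → Fin 5 × Fin 5 :=
  ![(0, 1), (0, 2), (0, 3), (0, 4), (1, 2), (1, 3), (1, 4), (2, 3), (2, 4), (3, 4)]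

/-- disjoint edges -/
def dj (e f : Fin 10) : Prop :=
  (en e).1 ≠ (en f).1 ∧ (en e).1 ≠ (en f).2 ∧ (en e).2 ≠ (en f).1 ∧ (en e).2 ≠ (en f).2

noncomputable def K0 (k : Type) {K : Type} [Field k] [Field K] [Algebra k K] (v : Fin 10 → K) :
    IntermediateField k K := IntermediateField.adjoin k {v 1 ^ 101, v 2 ^ 101}

noncomputable def B0 (k : Type) {K : Type} [Field k] [Field K] [Algebra k K] (v : Fin 10 → K) :
    Subalgebra k K := Algebra.adjoin k {v 1, v 5, v 2, v 4, v 7, (v 2)⁻¹, (v 4)⁻¹, (v 7)⁻¹}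

/-! ## Module statements -/

/-- A (counting) -/
def CntStmt : Prop := ∃ m0 : ℤ, ∀ m ≥ m0, (Nat.card {c // Ray m c ∧ Std c} : ℝ) =
  5 * 101 ^ 3 * (m - 99 / 2) ^ 2 / 2 - 101 ^ 3 * (101 ^ 2 - 10) / 24

/-- B1 (straightening) -/
def StrStmt : Prop := ∃ st : (Fin 10 → ℕ) → ((Fin 10 → ℕ) →₀ ℤ), ∀ m c, Ray m c →
  (∀ s ∈ (st c).support, Ray m s ∧ Std s) ∧
  ∀ (M : Type) [AddCommGroup M] (ψ : (Fin 10 → ℕ) → M), PlC m ψ → ψ c = (st c).sum fun s z => z • ψ s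

/-- B2 (generation in degree one) -/
def GenStmt : Prop := ∀ m ≥ 0, ∀ c, Ray (m + 1) c → ∃ c1 c2, Ray 1 c1 ∧ Ray m c2 ∧ c = c1 + c2

/-- B3 -/
def GrStmt : Prop := ∀ (k K : Type) [Field k] [Field K] [Algebra k K] (v : Fin 10 → K), KD k v →
  Gr (RR k v) ∧ ∀ J, PlC J (mon v)

/-- C4 (independence of standard monomials) -/
def IndStmt : Prop := ∀ (k K : Type) [Field k] [Field K] [Algebra k K] (v : Fin 10 → K), KD k v →
  ∀ m, LinearIndependent k fun c : {c // Ray m c ∧ Std c} => mon v c.1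

/-- B4 (relations in bounded degree) -/
def ExtStmt : Prop := ∃ j : ℕ, 2 ≤ j ∧
  ∀ (k K : Type) [Field k] [Field K] [Algebra k K] (v : Fin 10 → K),
  KD k v → Ext (RR k v) j ∧ ∀ (B : Type) [Ring B] [Algebra k B] (ψ : (Fin 10 → ℕ) → B), ψ 0 = 1 →
    (∀ (i i' : ℤ) c c', Ray i c → Ray i' c' → i + i' ≤ j → ψ (c + c') = ψ c * ψ c') → PlC j ψ →
    ∃ θ : ℤ → K →ₗ[k] B, MF (RR k v) θ ⊤ ∧ ∀ m : ℤ, m ≤ j → ∀ c, Ray m c → θ m (mon v c) = ψ c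

/-- C1 -/
def KumStmt : Prop := ∀ (k : Type) [Field k], IsAlgClosed k → (101 : k) ≠ 0 →
  ∃ (K : Type) (_ : Field K) (_ : Algebra k K) (v : Fin 10 → K), KD k v

/-- C2, C3 -/
def GalStmt : Prop := ∀ (k K : Type) [Field k] [Field K] [Algebra k K] (v : Fin 10 → K), KD k v →
  IsGalois (K0 k v) K ∧ FiniteDimensional (K0 k v) K ∧
    LinearIndependent (K0 k v) fun a : Fin 5 → Fin 101 => ∏ i, v (ng i) ^ (a i : ℕ)

/-- D1 -/
def B0Stmt : Prop := ∀ (k K : Type) [Field k] [Field K] [Algebra k K] (v : Fin 10 → K), KD k v →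
  (∀ e, v e ≠ 0) ∧ mon v c0 ∈ RR k v 4 ∧ (∀ m, ∀ a ∈ RR k v m, a ∈ B0 k v) ∧
    (∀ β ∈ B0 k v, ∀ m : ℤ, ∃ j : ℕ, mon v c0 ^ j * β ∈ RR k v (4 * j + m)) ∧
    (mon v c0)⁻¹ ∈ B0 k v

/-- D2 -/
def DerStmt : Prop := ∀ (k K : Type) [Field k] [Field K] [Algebra k K] (v : Fin 10 → K) (p : ℕ),
  KD k v → p.Prime → CharP k p → Chart (RR k v) p (mon v c0) ∧ Der (RR k v) p 202

/-- E (symmetries) -/
def AutStmt : Prop := ∀ (k K : Type) [Field k] [Field K] [Algebra k K] (v : Fin 10 → K), KD k v →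
  ∀ e f, dj e f → ∃ (π : Equiv.Perm (Fin 10)) (σ : K ≃ₐ[k] K) (u : K), π 1 = e ∧ π 5 = f ∧
    u ≠ 0 ∧ (∀ m c, Ray m c ↔ Ray m (c ∘ π)) ∧
    ∀ m c, Ray m c → ∃ s : k, s ≠ 0 ∧ σ (mon v c) = s • (u ^ m * mon v (c ∘ π))

/-- F -/
def GeoStmt : Prop := ∀ (k K : Type) [Field k] [Field K] [Algebra k K] (v : Fin 10 → K) (p : ℕ),
  KD k v → Chart (RR k v) p (mon v c0) → Cover (RR k v) p ∧ Sym (RR k v)

/-- Sa (flatness of Frobenius) -/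
def FlatStmt : Prop := ∀ (k K : Type) [Field k] [Field K] [Algebra k K] (R : Fam k K)
  (x : Fin 3 → K) (j0 p : ℕ), IsAlgClosed k → p.Prime → CharP k p → Gr R → Hsop R x j0 →
  0 < rk R → Cover R p →
  (∀ (r : ℕ) (G : Fam k (Fin r → K)), FG x G → RSt R G → FG x (frv R p G) ∧ RSt R (frv R p G)) ∧
  (∀ P : Fam k K, (∀ m, P m ≤ R m) → RSt R P → (∀ m, frI R p P m ≤ R m) ∧ RSt R (frI R p P)) ∧
  (∀ (r : ℕ) (N : Fam k (Fin r → K)) (v : Fin r → K) (b : ℤ), RSt R N → ∃ m0, ∀ m ≥ m0,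
    col R (frv R p N) (fun l => v l ^ p) (p * b) m = frI R p (col R N v b) m) ∧
  (∀ (r : ℕ) (G : Fam k (Fin r → K)) (Y : Submodule K (Fin r → K)), FG x G → RSt R G →
    ∃ m0, ∀ m ≥ m0, cap (frv R p G) (Submodule.span K ((fun (w : Fin r → K) l => w l ^ p) '' Y)) m =
      frv R p (cap G Y) m) ∧
  (∀ (P : Fam k K) (c : ℝ), PrimeF R P → (∃ m0, ∀ m ≥ m0, hf R m - hf P m = c) →
    ∃ m0, ∀ m ≥ m0, hf R m - hf (frI R p P) m = p ^ 2 * c)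

/-- Sb (scaling of the Hilbert polynomial under Frobenius) -/
def S1Stmt : Prop := ∀ (k K : Type) [Field k] [Field K] [Algebra k K] (R : Fam k K)
  (x : Fin 3 → K) (j0 p : ℕ), IsAlgClosed k → p.Prime → CharP k p → Gr R → Hsop R x j0 →
  0 < rk R → Cover R p → Sym R →
  ∀ (r : ℕ) (G : Fam k (Fin r → K)), FG x G → RSt R G →
    rk (frv R p G) = rk G ∧ fd R (frv R p G) = p * fd R G ∧ ga R (frv R p G) = p ^ 2 * ga R G

/-- H (instability of Frobenius pull-backs) -/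
def HStmt : Prop := ∀ (k K : Type) [Field k] [Field K] [Algebra k K] (R : Fam k K)
  (x : Fin 3 → K) (j0 p δ : ℕ), IsAlgClosed k → p.Prime → CharP k p → Gr R → Hsop R x j0 →
  0 < rk R → Cover R p → Sym R → Der R p δ →
  ∀ (r : ℕ) (G : Fam k (Fin r → K)) (a b : ℝ), Good R x G → Win R G a b →
    Good R x (frv R p G) ∧
    Win R (frv R p G) (p * a + r * (rk R * δ + 3)) (p * b - r * (rk R * δ + 3))

def Dep2 {k K V : Type} [Field k] [Field K] [AddCommGroup V] [Module k V] [Module K V]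
    (s t : K) (G : Fam k V) : Prop :=
  ∀ m a b, a ∈ G m → b ∈ G m → s • a = t • b → ∃ w ∈ G (m - 1), a = t • w

/-- P (`χ ≤ h⁰` when the dual vanishes) -/
def PdStmt : Prop := ∀ (k K V : Type) [Field k] [Field K] [Algebra k K] [AddCommGroup V]
  [Module k V] [Module K V] [IsScalarTower k K V] (x : Fin 3 → K) (G : Fam k V) (m : ℤ),
  Ind k x → FG x G → Dep2 (x 0) (x 1) G →
  (∀ φ : ℤ → V →ₗ[k] K, (∀ j, ∀ v ∈ G j, φ j v ∈ Ax k x (j - m - 3)) →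
    (∀ j i, ∀ v ∈ G j, φ (j + 1) (x i • v) = x i * φ j v) → ∀ j, ∀ v ∈ G j, φ j v = 0) →
  HP G m ≤ hf G m

/-- L (weak Bogomolov inequality) -/
def LStmt : Prop := ∀ (k K : Type) [Field k] [Field K] [Algebra k K] (R : Fam k K)
  (x : Fin 3 → K) (j0 : ℕ), Infinite k → Gr R → Hsop R x j0 → 0 < rk R →
  ∃ c : ℝ, ∀ (r : ℕ) (G : Fam k (Fin r → K)) (a b : ℝ), 1 ≤ r → Good R x G → Win R G a b →
    ga R G - fd R G ^ 2 / (2 * rk G) ≤ rk G * ((a - b) / rk R + c) ^ 2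

/-- M (lattices) -/
def MStmt : Prop := ∀ N j0 j : ℕ, 1 ≤ N → 1 ≤ j → ∃ T : ℕ, ∀ (k K : Type) [Field k] [Field K]
  [Algebra k K] (R : Fam k K) (x : Fin 3 → K), Gr R → Hsop R x j0 → 1 ≤ rk R → Ext R j →
  Rep R x N T → ∃ (r : ℕ) (E : Fam k (Fin r → K)), 1 ≤ r ∧ Good R x E ∧ rk E = N ∧
    (∀ y : ℝ, -(N : ℝ) / 8 ≤ HP E y) ∧ Win R E (fd R E / r + 2 * rk R) (fd R E / r - 2 * rk R)

/-- N1 (homogeneous parameters) -/
def HsopStmt : Prop := ∀ (k K : Type) [Field k] [Field K] [Algebra k K] (R : Fam k K),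
  Infinite k → Gr R → (∃ t, IsHP (hf R) t) → ∃ x j0, Hsop R x j0

/-- N2 (the complete local ring) -/
def CompStmt : Prop := ∀ (k K : Type) [Field k] [Field K] [Algebra k K] (R : Fam k K)
  (x : Fin 3 → K) (j0 : ℕ), Infinite k → Gr R → Hsop R x j0 → Ind k x →
  ∃ (A : Type) (_ : CommRing A) (_ : IsLocalRing A), IsDomain A ∧ IsNoetherianRing A ∧
    IsAdicComplete (IsLocalRing.maximalIdeal A) A ∧
    ∀ (M : Type) [AddCommGroup M] [Module A M], Module.Finite A M → ∀ rs : List A,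
      (∀ a ∈ rs, a ∈ IsLocalRing.maximalIdeal A) → RingTheory.Sequence.IsRegular M rs →
      (rs.length : WithBot ℕ∞) = ringKrullDim A → ∃ N, 1 ≤ N ∧ ∀ T, Rep R x N T

/-- U (transfer to large characteristic) -/
def UStmt : Prop := ∃ (k : Type) (_ : Field k), IsAlgClosed k ∧ (101 : k) ≠ 0 ∧
  ∀ (K : Type) [Field K] [Algebra k K] (v : Fin 10 → K), KD k v →
  ∀ (x : Fin 3 → K) (j0 N T : ℕ), Hsop (RR k v) x j0 → Rep (RR k v) x N T → ∀ b : ℕ,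
    ∃ p : ℕ, p.Prime ∧ b < p ∧ ∃ (k' : Type) (_ : Field k'), CharP k' p ∧ IsAlgClosed k' ∧
      ∀ (K' : Type) [Field K'] [Algebra k' K'] (v' : Fin 10 → K'), KD k' v' →
        ∃ x', Hsop (RR k' v') x' j0 ∧ Rep (RR k' v') x' N T

end Vale.Agent.P190
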