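import Vale.Agent.P190.Spec

/-! Module B: straightening, generation in degree one, the graded ring, bounded relations. -/

namespace Vale.Agent.P190

namespace Sb0

lemma ray_add {i j : ℤ} {c c' : Fin 10 → ℕ} (h : Ray i c) (h' : Ray j c') : Ray (i + j) (c + c') := by
  simp only [Ray, Pi.add_apply] at *; omega

lemma ray_uniq {i j : ℤ} {c : Fin 10 → ℕ} (h : Ray i c) (h' : Ray j c) : i = j := by
  simp only [Ray] at *; omega

lemma ray_zero : Ray 0 0 := by simp [Ray]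

lemma ray_nonneg {m : ℤ} {c : Fin 10 → ℕ} (h : Ray m c) : 0 ≤ m := by
  simp only [Ray] at h; omega

lemma ray_le {m : ℤ} {c : Fin 10 → ℕ} (h : Ray m c) (e : Fin 10) : c e ≤ (2 * m).toNat := by
  simp only [Ray] at h
  fin_cases e <;> simp only [Fin.reduceFinMk] <;> omega

lemma ray_fin (m : ℤ) : {c | Ray m c}.Finite :=
  (Set.finite_Iic fun _ => (2 * m).toNat).subset fun _ h => ray_le h

lemma ray_smul {m : ℤ} {c : Fin 10 → ℕ} (h : Ray m c) (n : ℕ) : Ray (n * m) (n • c) := by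
  induction n with
  | zero => simpa using ray_zero
  | succ n ih => simpa [add_mul, add_smul] using ray_add ih h

/-- total weight of the diagonals -/
def wt (c : Fin 10 → ℕ) : ℕ := c 1 + c 2 + c 5 + c 6 + c 8

lemma ad_pl (q : Fin 5) (c : Fin 10 → ℕ) :
    (∀ m, Ray m (ad c (pl q 0) (pl q 1)) →
      Ray m (ad c (pl q 2) (pl q 3)) ∧ Ray m (ad c (pl q 4) (pl q 5))) ∧
    wt (ad c (pl q 2) (pl q 3)) < wt (ad c (pl q 0) (pl q 1)) ∧
    wt (ad c (pl q 4) (pl q 5)) < wt (ad c (pl q 0) (pl q 1)) := by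
  refine ⟨fun m => ?_, ?_⟩ <;> fin_cases q <;> simp [Ray, wt, ad, pl] <;> omega

lemma ex_ad {c : Fin 10 → ℕ} (h : ¬ Std c) : ∃ q c', c = ad c' (pl q 0) (pl q 1) := by
  simp only [Std, not_forall, not_not] at h
  obtain ⟨q, h1, h2⟩ := h
  have ne : pl q 0 ≠ pl q 1 := by clear h1 h2; revert q; decide
  refine ⟨q, c - Pi.single (pl q 0) 101 - Pi.single (pl q 1) 101, funext fun e => ?_⟩
  simp only [ad, Pi.add_apply, Pi.sub_apply, Pi.single_apply]
  split_ifs with a b b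
  · exact absurd (a.symm.trans b) ne
  · subst a; omega
  · subst b; omega
  · omega

lemma mk {m : ℤ} {c : Fin 10 → ℕ} (h : Ray (m + 1) c) (b0 b1 b2 b3 b4 b5 b6 b7 b8 b9 : ℕ)
    (hb : (b0 + b1 + b2 + b3 = 2 ∧ b0 + b4 + b5 + b6 = 2 ∧ b1 + b4 + b7 + b8 = 2 ∧
      b2 + b5 + b7 + b9 = 2 ∧ b3 + b6 + b8 + b9 = 2) ∧ b0 ≤ c 0 ∧ b1 ≤ c 1 ∧ b2 ≤ c 2 ∧ b3 ≤ c 3 ∧
      b4 ≤ c 4 ∧ b5 ≤ c 5 ∧ b6 ≤ c 6 ∧ b7 ≤ c 7 ∧ b8 ≤ c 8 ∧ b9 ≤ c 9) :
    ∃ c1 c2, Ray 1 c1 ∧ Ray m c2 ∧ c = c1 + c2 := by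
  refine ⟨![b0, b1, b2, b3, b4, b5, b6, b7, b8, b9], c - ![b0, b1, b2, b3, b4, b5, b6, b7, b8, b9],
    by simp [Ray]; omega, by simp [Ray] at h ⊢; omega, (add_tsub_cancel_of_le fun e => ?_).symm⟩
  fin_cases e <;> simp <;> omega

end Sb0

open Sb0

theorem str : StrStmt := by
  have key : ∀ (n : ℕ) (c : Fin 10 → ℕ), wt c = n → ∃ t : (Fin 10 → ℕ) →₀ ℤ, ∀ m, Ray m c →
      (∀ s ∈ t.support, Ray m s ∧ Std s) ∧ ∀ (M : Type) [AddCommGroup M] (ψ : (Fin 10 → ℕ) → M),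
        PlC m ψ → ψ c = t.sum fun s z => z • ψ s := by
    intro n
    induction n using Nat.strong_induction_on with
    | _ n ih =>
      rintro c rfl
      by_cases h : Std c
      · refine ⟨Finsupp.single c 1, fun m hm => ⟨fun s hs => ?_, fun M _ ψ _ => by simp⟩⟩
        obtain rfl := Finset.mem_singleton.1 (Finsupp.support_single_subset hs)
        exact ⟨hm, h⟩
      obtain ⟨q, c, rfl⟩ := ex_ad h
      obtain ⟨a1, a2, a3⟩ := ad_pl q c
      obtain ⟨t1, h1⟩ := ih _ a2 _ rfl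
      obtain ⟨t2, h2⟩ := ih _ a3 _ rfl
      refine ⟨t1 + t2, fun m hm => ⟨fun s hs => ?_, fun M _ ψ hψ => ?_⟩⟩
      · exact (Finset.mem_union.1 (Finsupp.support_add hs)).elim ((h1 m (a1 m hm).1).1 s)
          ((h2 m (a1 m hm).2).1 s)
      · rw [Finsupp.sum_add_index' (by simp) (by simp [add_smul]), ← (h1 m (a1 m hm).1).2 M ψ hψ,
          ← (h2 m (a1 m hm).2).2 M ψ hψ, hψ q c m le_rfl hm]
  choose st hst using fun c => key _ c rfl
  exact ⟨st, fun m c h => hst c m h⟩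

theorem gen1 : GenStmt := by
  intro m m0 c h
  obtain rfl | m1 := m0.eq_or_lt
  · exact ⟨c, 0, by simpa using h, ray_zero, by simp⟩
  have ⟨h0, h1, h2, h3, h4⟩ := h
  rcases (c 0).eq_zero_or_pos with _ | _
  · rcases (c 1).eq_zero_or_pos with _ | _
    · rcases (c 2).eq_zero_or_pos with _ | _
      · exact mk h 0 0 0 2 1 1 0 1 0 0 (by omega)
      rcases (c 6).eq_zero_or_pos with _ | _
      · rcases (c 8).eq_zero_or_pos with _ | _
        · exact mk h 0 0 1 1 2 0 0 0 0 1 (by omega)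
        exact mk h 0 0 1 1 1 1 0 0 1 0 (by omega)
      rcases (c 7).eq_zero_or_pos with _ | _
      · exact mk h 0 0 2 0 1 0 1 0 1 0 (by omega)
      exact mk h 0 0 1 1 1 0 1 1 0 0 (by omega)
    rcases (c 5).eq_zero_or_pos with _ | _
    · rcases (c 7).eq_zero_or_pos with _ | _
      · exact mk h 0 1 1 0 1 0 1 0 0 1 (by omega)
      exact mk h 0 1 1 0 0 0 2 1 0 0 (by omega)
    rcases (c 3).eq_zero_or_pos with _ | _
    · rcases (c 8).eq_zero_or_pos with _ | _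
      · exact mk h 0 2 0 0 0 1 1 0 0 1 (by omega)
      exact mk h 0 1 1 0 0 1 1 0 1 0 (by omega)
    rcases (c 7).eq_zero_or_pos with _ | _
    · rcases (c 4).eq_zero_or_pos with _ | _
      · exact mk h 0 1 0 1 0 2 0 0 1 0 (by omega)
      rcases (c 9).eq_zero_or_pos with _ | _
      · exact mk h 0 0 1 1 1 1 0 0 1 0 (by omega)
      exact mk h 0 1 0 1 1 1 0 0 0 1 (by omega)
    rcases (c 6).eq_zero_or_pos with _ | _
    · exact mk h 0 0 0 2 1 1 0 1 0 0 (by omega)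
    exact mk h 0 1 0 1 0 1 1 1 0 0 (by omega)
  rcases (c 7).eq_zero_or_pos with _ | _
  · rcases (c 8).eq_zero_or_pos with _ | _
    · exact mk h 1 1 0 0 1 0 0 0 0 2 (by omega)
    rcases (c 2).eq_zero_or_pos with _ | _
    · exact mk h 1 1 0 0 0 1 0 0 1 1 (by omega)
    rcases (c 4).eq_zero_or_pos with _ | _
    · exact mk h 1 0 1 0 0 1 0 0 2 0 (by omega)
    rcases (c 9).eq_zero_or_pos with _ | _
    · exact mk h 1 0 1 0 0 1 0 0 2 0 (by omega)
    exact mk h 1 0 1 0 1 0 0 0 1 1 (by omega)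
  rcases (c 3).eq_zero_or_pos with _ | _
  · rcases (c 6).eq_zero_or_pos with _ | _
    · exact mk h 2 0 0 0 0 0 0 1 1 1 (by omega)
    rcases (c 1).eq_zero_or_pos with _ | _
    · exact mk h 1 0 1 0 0 0 1 1 1 0 (by omega)
    rcases (c 9).eq_zero_or_pos with _ | _
    · exact mk h 0 1 1 0 0 0 2 1 0 0 (by omega)
    exact mk h 1 1 0 0 0 0 1 1 0 1 (by omega)
  rcases (c 4).eq_zero_or_pos with _ | _
  · rcases (c 5).eq_zero_or_pos with _ | _
    · exact mk h 1 0 0 1 0 0 1 2 0 0 (by omega)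
    rcases (c 8).eq_zero_or_pos with _ | _
    · exact mk h 0 1 0 1 0 1 1 1 0 0 (by omega)
    exact mk h 1 0 0 1 0 1 0 1 1 0 (by omega)
  rcases (c 9).eq_zero_or_pos with _ | _
  · rcases (c 2).eq_zero_or_pos with _ | _
    · exact mk h 0 0 0 2 1 1 0 1 0 0 (by omega)
    rcases (c 6).eq_zero_or_pos with _ | _
    · exact mk h 0 0 0 2 1 1 0 1 0 0 (by omega)
    exact mk h 0 0 1 1 1 0 1 1 0 0 (by omega)
  exact mk h 1 0 0 1 1 0 0 1 0 1 (by omega)

namespace Sb0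

variable {k K : Type} [Field k] [Field K] [Algebra k K] {v : Fin 10 → K}

lemma mon_add (c c' : Fin 10 → ℕ) : mon v (c + c') = mon v c * mon v c' := by
  simp [mon, pow_add, Finset.prod_mul_distrib]

lemma mon_zero : mon v 0 = 1 := by simp [mon]

lemma mon_smul (c : Fin 10 → ℕ) (n : ℕ) : mon v (n • c) = mon v c ^ n := by
  simp [mon, ← Finset.prod_pow, ← pow_mul, mul_comm]

lemma mon_ad (c : Fin 10 → ℕ) (e f : Fin 10) :
    mon v (ad c e f) = mon v c * v e ^ 101 * v f ^ 101 := by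
  have : ∀ e, mon v (Pi.single e 101) = v e ^ 101 := fun e => by
    rw [mon, Finset.prod_eq_single e (fun b _ hb => by simp [hb]) (by simp)]; simp
  rw [ad, mon_add, mon_add, this, this]

lemma mon_mem {m : ℤ} {c : Fin 10 → ℕ} (h : Ray m c) : mon v c ∈ RR k v m :=
  Submodule.subset_span ⟨c, h, rfl⟩

lemma v_ne (h : KD k v) (e : Fin 10) : v e ≠ 0 := by
  have a : ∀ p : MvPolynomial (Fin 2) k, MvPolynomial.eval ![0, 1] p ≠ 0 ∨
      MvPolynomial.eval ![1, 0] p ≠ 0 → MvPolynomial.aeval ![v 1 ^ 101, v 2 ^ 101] p ≠ 0 :=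
    fun p hp e => by simp [h.ai.eq_zero_of_aeval_eq_zero p e] at hp
  have a1 := a (.X 0) (by simp)
  have a2 := a (.X 1) (by simp)
  have a4 := a (.X 0 - 1) (by simp)
  have a5 := a (.X 1 - 1) (by simp)
  have a7 := a (.X 1 - .X 0) (by simp)
  simp only [map_sub, map_one, MvPolynomial.aeval_X, Matrix.cons_val_zero, Matrix.cons_val_one,
    ← h.r4, ← h.r5, ← h.r7] at a1 a2 a4 a5 a7
  fin_cases e <;> simp only [Fin.reduceFinMk]
  exacts [h.g0 ▸ one_ne_zero, ne_zero_pow (by simp) a1, ne_zero_pow (by simp) a2,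
    h.g3 ▸ one_ne_zero, ne_zero_pow (by simp) a4, ne_zero_pow (by simp) a5, h.g6 ▸ one_ne_zero,
    ne_zero_pow (by simp) a7, h.g8 ▸ one_ne_zero, h.g9 ▸ one_ne_zero]

lemma mon_ne (h : KD k v) (c : Fin 10 → ℕ) : mon v c ≠ 0 :=
  Finset.prod_ne_zero_iff.2 fun e _ => pow_ne_zero _ (v_ne h e)

lemma mul_mem {i j : ℤ} {a b : K} (ha : a ∈ RR k v i) (hb : b ∈ RR k v j) :
    a * b ∈ RR k v (i + j) := by
  have := Submodule.mul_mem_mul ha hb
  rw [RR, RR, Submodule.span_mul_span] at this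
  refine Submodule.span_mono ?_ this
  rintro _ ⟨_, ⟨c, h, rfl⟩, _, ⟨c', h', rfl⟩, rfl⟩
  exact ⟨c + c', ray_add h h', (mon_add c c').symm⟩

lemma plc (h : KD k v) (J : ℤ) : PlC J (mon v) := by
  intro q c m _ _
  simp only [mon_ad]
  fin_cases q <;> simp [pl, h.g0, h.g3, h.g6, h.g8, h.g9, h.r4, h.r5, h.r7] <;> ring

lemma frac0 (h : KD k v) (f : K) :
    ∃ i a b, a ∈ RR k v i ∧ b ∈ RR k v i ∧ b ≠ 0 ∧ f * b = a := by
  have one : (1 : K) ∈ RR k v 0 := mon_zero (v := v) ▸ mon_mem ray_zero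
  have hf : f ∈ IntermediateField.adjoin k (Set.range v) := h.top ▸ IntermediateField.mem_top
  induction hf using IntermediateField.adjoin_induction with
  | mem x hx =>
    obtain ⟨e, rfl⟩ := hx
    have w : Ray 2 1 := by simp [Ray]
    have key : ∀ c, Ray 2 c → v e * mon v 1 = mon v c →
        ∃ i a b, a ∈ RR k v i ∧ b ∈ RR k v i ∧ b ≠ 0 ∧ v e * b = a := fun c h1 h2 =>
      ⟨2, _, _, mon_mem h1, mon_mem w, mon_ne h 1, h2⟩
    refine key (![1, ![0, 2, 1, 1, 1, 1, 2, 1, 0, 1], ![0, 1, 2, 1, 1, 1, 2, 1, 1, 0], 1,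
      ![0, 1, 1, 2, 2, 1, 1, 1, 0, 1], ![0, 1, 1, 2, 1, 2, 1, 1, 1, 0], 1,
      ![0, 1, 1, 2, 1, 1, 2, 2, 0, 0], 1, 1] e) ?_ ?_
    · fin_cases e <;> simp [Ray]
    · fin_cases e <;> simp [mon, Fin.prod_univ_succ, h.g0, h.g3, h.g6, h.g8, h.g9] <;> ring
  | algebraMap x =>
    exact ⟨0, _, 1, by simpa [Algebra.smul_def] using (RR k v 0).smul_mem x one, one, one_ne_zero,
      mul_one _⟩
  | add x y _ _ hx hy =>
    obtain ⟨i, a, b, h1, h2, h3, h4⟩ := hx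
    obtain ⟨j, a', b', h5, h6, h7, h8⟩ := hy
    exact ⟨i + j, _, _, add_mem (mul_mem h1 h6) (mul_mem h2 h5), mul_mem h2 h6, mul_ne_zero h3 h7,
      by rw [← h4, ← h8]; ring⟩
  | inv x _ hx =>
    obtain ⟨i, a, b, h1, h2, h3, h4⟩ := hx
    obtain rfl | x0 := eq_or_ne x 0
    · exact ⟨i, 0, b, zero_mem _, h2, h3, by simp⟩
    · exact ⟨i, b, a, h2, h1, h4 ▸ mul_ne_zero x0 h3, by rw [← h4, inv_mul_cancel_left₀ x0]⟩
  | mul x y _ _ hx hy =>
    obtain ⟨i, a, b, h1, h2, h3, h4⟩ := hx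
    obtain ⟨j, a', b', h5, h6, h7, h8⟩ := hy
    exact ⟨i + j, _, _, mul_mem h1 h5, mul_mem h2 h6, mul_ne_zero h3 h7, by rw [← h4, ← h8]; ring⟩

lemma shift (h : KD k v) (e : ℤ) : ∃ i a, a ∈ RR k v (i + e) ∧ a ∈ RR k v i ∧ a ≠ 0 := by
  have e1 : mon v ![4, 1, 1, 0, 1, 1, 0, 1, 3, 3] = mon v 1 := by
    simp [mon, Fin.prod_univ_succ, h.g0, h.g3, h.g6, h.g8, h.g9]
  have a2 := fun n => mon_mem (k := k) (v := v) (ray_smul (m := 2) (c := 1) (by simp [Ray]) n)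
  have a3 := fun n => mon_mem (k := k) (v := v)
    (ray_smul (m := 3) (c := ![4, 1, 1, 0, 1, 1, 0, 1, 3, 3]) (by simp [Ray]) n)
  simp only [mon_smul, e1] at a2 a3
  obtain ⟨n, rfl | rfl⟩ := e.eq_nat_or_neg
  · exact ⟨_, _, (show (n : ℤ) * 3 = n * 2 + n by ring) ▸ a3 n, a2 n, pow_ne_zero _ (mon_ne h 1)⟩
  · exact ⟨_, _, (show (n : ℤ) * 2 = n * 3 + -n by ring) ▸ a2 n, a3 n, pow_ne_zero _ (mon_ne h 1)⟩

end Sb0

theorem gr (hG : GenStmt) : GrStmt := by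
  intro k K _ _ _ v h
  refine ⟨⟨?_, fun m hm => ?_, fun i j a b => mul_mem, fun m => ?_, fun m hm => ?_, fun f e => ?_⟩,
    plc h⟩
  · refine congrArg (Submodule.span k) (Set.ext fun f =>
      ⟨?_, fun hf => ⟨0, ray_zero, hf.trans mon_zero.symm⟩⟩)
    rintro ⟨c, hc, rfl⟩
    rw [show c = 0 from funext fun e => by simpa using ray_le hc e]
    exact mon_zero
  · exact Submodule.span_eq_bot.2 fun _ ⟨c, hc, _⟩ => absurd (ray_nonneg hc) hm.not_ge
  · exact FiniteDimensional.span_of_finite k (((ray_fin m).image (mon v)).subset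
      fun _ ⟨c, hc, e⟩ => ⟨c, hc, e.symm⟩)
  · refine Submodule.span_le.2 ?_
    rintro _ ⟨c, hc, rfl⟩
    obtain ⟨c1, c2, h1, h2, rfl⟩ := hG m hm c hc
    exact mon_add (v := v) c1 c2 ▸ Submodule.mul_mem_mul (mon_mem h1) (mon_mem h2)
  · obtain ⟨i, a, b, h1, h2, h3, h4⟩ := frac0 h f
    obtain ⟨j, w, h5, h6, h7⟩ := shift h e
    exact ⟨i + j, a * w, b * w, add_assoc i j e ▸ mul_mem h1 h5, mul_mem h2 h6, mul_ne_zero h3 h7,
      by rw [← h4, mul_assoc]⟩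

namespace Sb0

abbrev Y : Type := {c // Ray 1 c}

def sm (l : List Y) : Fin 10 → ℕ := (l.map Subtype.val).sum

noncomputable def MM (l : List Y) : MvPolynomial Y ℤ := (l.map MvPolynomial.X).prod

lemma ray_sm (l : List Y) : Ray l.length (sm l) := by
  induction l with
  | nil => exact ray_zero
  | cons y l ih => simpa [sm, add_comm] using ray_add y.2 ih

lemma lift (hG : GenStmt) {m : ℤ} {c : Fin 10 → ℕ} (h : Ray m c) : ∃ l, sm l = c := by
  obtain ⟨n, rfl⟩ := Int.eq_ofNat_of_zero_le (ray_nonneg h)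
  induction n generalizing c with
  | zero => exact ⟨[], (funext fun e => by simpa using ray_le h e : c = 0).symm⟩
  | succ n ih =>
    obtain ⟨c1, c2, h1, h2, rfl⟩ := hG n (by positivity) c (by simpa using h)
    obtain ⟨l, rfl⟩ := ih h2
    exact ⟨⟨c1, h1⟩ :: l, by simp [sm]⟩

/-- relations of degree at most `n` -/
def Rel (n : ℕ) : Set (MvPolynomial Y ℤ) :=
  {p | ∃ l l', l.length ≤ n ∧ ((sm l = sm l' ∧ p = MM l - MM l') ∨ ∃ l'' q c,
    sm l = ad c (pl q 0) (pl q 1) ∧ sm l' = ad c (pl q 2) (pl q 3) ∧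
    sm l'' = ad c (pl q 4) (pl q 5) ∧ p = MM l - (MM l' + MM l''))}

open scoped IsMulCommutative in
lemma ext0 (hG : GenStmt) : ∃ j : ℕ, 2 ≤ j ∧ ∀ (B : Type) [Ring B] (ψ : (Fin 10 → ℕ) → B), ψ 0 = 1 →
    (∀ (i i' : ℤ) c c', Ray i c → Ray i' c' → i + i' ≤ j → ψ (c + c') = ψ c * ψ c') → PlC j ψ →
    ∃ χ : (Fin 10 → ℕ) → B, χ 0 = 1 ∧
      (∀ (i i' : ℤ) c c', Ray i c → Ray i' c' → χ (c + c') = χ c * χ c') ∧ (∀ J, PlC J χ) ∧
      ∀ m : ℤ, m ≤ j → ∀ c, Ray m c → χ c = ψ c := by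
  have : Finite Y := (ray_fin 1).to_subtype
  obtain ⟨j, hj⟩ := monotone_stabilizes_iff_noetherian.2
    (inferInstance : IsNoetherian (MvPolynomial Y ℤ) (MvPolynomial Y ℤ))
    ⟨fun n => Ideal.span (Rel n), fun a b h => Ideal.span_mono fun _ ⟨l, l', h1, h2⟩ =>
      ⟨l, l', h1.trans h, h2⟩⟩
  refine ⟨j + 2, by omega, fun B _ ψ h0 hm hp => ?_⟩
  have := Subring.isMulCommutative_closure (s := Set.range fun y : Y => ψ y) (by
    rintro _ ⟨y, rfl⟩ _ ⟨z, rfl⟩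
    rw [← hm 1 1 _ _ y.2 z.2 (by omega), ← hm 1 1 _ _ z.2 y.2 (by omega), add_comm])
  obtain ⟨ev, hev⟩ : ∃ ev : MvPolynomial Y ℤ →+* B, ∀ y, ev (.X y) = ψ y :=
    ⟨(Subring.closure (Set.range fun y : Y => ψ y)).subtype.comp (MvPolynomial.eval₂Hom
      (Int.castRingHom _) fun y => ⟨ψ y, Subring.subset_closure ⟨y, rfl⟩⟩), fun y => by simp⟩
  have e1 : ∀ l : List Y, l.length ≤ j + 2 → ev (MM l) = ψ (sm l) := fun l hl => by
    induction l with
    | nil => simpa [MM, sm] using h0.symm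
    | cons y l ih =>
      rw [List.length_cons] at hl
      have := hm _ _ _ _ y.2 (ray_sm l) (by omega)
      rw [← ih (by omega), ← hev] at this
      simpa [MM, sm] using this.symm
  have len : ∀ {l l' : List Y}, Ray l.length (sm l') → l'.length = l.length := fun h =>
    Int.natCast_inj.1 (ray_uniq (ray_sm _) h)
  have e2 : Ideal.span (Rel j) ≤ RingHom.ker ev := Ideal.span_le.2 (by
    rintro _ ⟨l, l', h1, ⟨h2, rfl⟩ | ⟨l'', q, c, h2, h3, h4, rfl⟩⟩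
    · have := len (h2 ▸ ray_sm l)
      simp [RingHom.mem_ker, e1 l (by omega), e1 l' (by omega), h2]
    · have r := h2 ▸ ray_sm l
      have a := len (h3 ▸ ((ad_pl q c).1 _ r).1)
      have b := len (h4 ▸ ((ad_pl q c).1 _ r).2)
      simp [RingHom.mem_ker, e1 l (by omega), e1 l' (by omega), e1 l'' (by omega), h2, h3, h4,
        hp q c _ (by omega) r])
  have e3 : ∀ n, ∀ p ∈ Rel n, ev p = 0 := fun n p ⟨l, l', h1, h2⟩ => e2 (by
    have := hj (max j n) (le_max_left _ _)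
    exact this.ge (Ideal.subset_span ⟨l, l', h1.trans (le_max_right _ _), h2⟩))
  obtain ⟨χ, hχ⟩ : ∃ χ : (Fin 10 → ℕ) → B, ∀ l, χ (sm l) = ev (MM l) := by
    classical
    refine ⟨fun c => if h : ∃ l, sm l = c then ev (MM h.choose) else 0, fun l => ?_⟩
    have h : ∃ l', sm l' = sm l := ⟨l, rfl⟩
    beta_reduce
    rw [dif_pos h, ← sub_eq_zero, ← map_sub]
    exact e3 _ _ ⟨_, l, le_rfl, .inl ⟨h.choose_spec, rfl⟩⟩
  refine ⟨χ, by simpa [sm, MM] using hχ [], fun i i' c c' h h' => ?_, fun J q c m _ h => ?_,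
    fun m hm c h => ?_⟩
  · obtain ⟨l, rfl⟩ := lift hG h
    obtain ⟨l', rfl⟩ := lift hG h'
    rw [hχ, hχ, ← map_mul]
    simpa [sm, MM] using hχ (l ++ l')
  · obtain ⟨l, h1⟩ := lift hG h
    obtain ⟨l', h2⟩ := lift hG ((ad_pl q c).1 _ h).1
    obtain ⟨l'', h3⟩ := lift hG ((ad_pl q c).1 _ h).2
    have := e3 _ _ ⟨l, l', le_rfl, .inr ⟨l'', q, c, h1, h2, h3, rfl⟩⟩
    rwa [map_sub, map_add, sub_eq_zero, ← hχ, ← hχ, ← hχ, h1, h2, h3] at this
  · obtain ⟨l, rfl⟩ := lift hG h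
    have := ray_uniq h (ray_sm l)
    rw [hχ, e1 l (by omega)]

end Sb0

theorem ext (hS : StrStmt) (hG : GenStmt) (hR : GrStmt) (hI : IndStmt) : ExtStmt := by
  obtain ⟨j, hj2, hj⟩ := ext0 hG
  obtain ⟨st, hst⟩ := hS
  refine ⟨j, hj2, fun k K _ _ _ v h => ?_⟩
  have main : ∀ (B : Type) [Ring B] [Algebra k B] (ψ : (Fin 10 → ℕ) → B), ψ 0 = 1 →
      (∀ (i i' : ℤ) c c', Ray i c → Ray i' c' → i + i' ≤ j → ψ (c + c') = ψ c * ψ c') → PlC j ψ →
      ∃ θ : ℤ → K →ₗ[k] B, MF (RR k v) θ ⊤ ∧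
        ∀ m : ℤ, m ≤ j → ∀ c, Ray m c → θ m (mon v c) = ψ c := by
    intro B _ _ ψ h0 hm hp
    obtain ⟨χ, x0, x1, x2, x3⟩ := hj B ψ h0 hm hp
    choose θ hθ using fun m => LinearMap.exists_extend
      (Finsupp.linearCombination k (fun s : {c // Ray m c ∧ Std c} => χ s.1) ∘ₗ (hI k K v h m).repr)
    have t1 : ∀ m s, Ray m s ∧ Std s → θ m (mon v s) = χ s := fun m s hs => by
      have := congr($(hθ m) ⟨mon v s, Submodule.subset_span ⟨⟨s, hs⟩, rfl⟩⟩)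
      rw [LinearMap.comp_apply, LinearMap.comp_apply,
        (hI k K v h m).repr_eq_single ⟨s, hs⟩ _ rfl] at this
      simpa using this
    have t2 : ∀ m c, Ray m c → θ m (mon v c) = χ c := fun m c hc => by
      rw [(hst m c hc).2 K _ ((hR k K v h).2 m), (hst m c hc).2 B _ (x2 m), map_finsuppSum]
      exact Finsupp.sum_congr fun s hs => by rw [map_zsmul, t1 m s ((hst m c hc).1 s hs)]
    refine ⟨θ, ⟨by rw [← x0, ← t2 0 0 ray_zero, mon_zero], fun i i' a b ha hb _ => ?_⟩,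
      fun m hm c hc => (t2 m c hc).trans (x3 m hm c hc)⟩
    induction ha, hb using Submodule.span_induction₂ with
    | mem_mem a b ha hb =>
      obtain ⟨c, hc, rfl⟩ := ha
      obtain ⟨c', hc', rfl⟩ := hb
      rw [← mon_add, t2 _ _ (ray_add hc hc'), t2 _ _ hc, t2 _ _ hc', x1 _ _ _ _ hc hc']
    | zero_left => simp
    | zero_right => simp
    | add_left => simp [add_mul, *]
    | add_right => simp [mul_add, *]
    | smul_left => simp [*]
    | smul_right => simp [*]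
  refine ⟨fun B _ _ θ hθ => ?_, main⟩
  have dg : ∀ {m c}, Ray m c → ((c 0 + c 1 + c 2 + c 3 : ℕ) : ℤ) / 2 = m := fun h => by
    rw [h.1]; omega
  obtain ⟨θ', a1, a2⟩ := main B (fun c => θ (((c 0 + c 1 + c 2 + c 3 : ℕ) : ℤ) / 2) (mon v c))
    (by rw [dg ray_zero, mon_zero, hθ.1]) (fun i i' c c' hc hc' hi => by
      rw [dg hc, dg hc', dg (ray_add hc hc'), mon_add,
        hθ.2 _ _ _ _ (mon_mem hc) (mon_mem hc') (WithTop.coe_le_coe.2 hi)])
    (fun q c m hm hc => by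
      beta_reduce
      rw [dg hc, dg ((ad_pl q c).1 _ hc).1, dg ((ad_pl q c).1 _ hc).2,
        (hR k K v h).2 j q c m hm hc, map_add])
  refine ⟨θ', a1, fun m hm a ha => LinearMap.eqOn_span' ?_ ha⟩
  rintro _ ⟨c, hc, rfl⟩
  rw [a2 m hm c hc, dg hc]

end Vale.Agent.P190
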